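import Vale.Agent.P097.Base

open Set NormedSpace Complex

namespace Vale.Agent.P097

namespace AnAux

theorem summ {a : ℝ} (ha : 0 < a) : Summable fun n : ℤ => Real.exp (-(a * |(n:ℝ)|)) := by
  have h : Summable fun n : ℕ => Real.exp (-(a * n)) := by
    have := summable_geometric_of_lt_one (Real.exp_pos (-a)).le
      (Real.exp_lt_one_iff.2 (by linarith))
    refine this.congr fun n => ?_
    rw [← Real.exp_nat_mul]
    congr 1
    ring
  exact Summable.of_nat_of_neg (by simpa using h) (by simpa using h)

end AnAux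

theorem anE (hfs : S_fs) : S_an := by
  intro β hc hp M σ hσ hb
  have hpi := Real.pi_pos
  have hM : 0 ≤ M := by
    have := (norm_nonneg _).trans (hb 0)
    simpa using this
  have hU : IsOpen {z : ℂ | |z.im| < σ / (4 * Real.pi)} :=
    isOpen_lt (by fun_prop) continuous_const
  have hd : DifferentiableOn ℂ
      (fun z : ℂ => ∑' n : ℤ, fr β n * Complex.exp (2 * Real.pi * I * (n * z)))
      {z : ℂ | |z.im| < σ / (4 * Real.pi)} := by
    refine differentiableOn_tsum_of_summable_norm ((AnAux.summ (half_pos hσ)).mul_left M)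
      (fun n => by fun_prop) hU fun n z hz => ?_
    have h1 : (2 * Real.pi * I * (n * z) : ℂ).re = -(2 * Real.pi * (n * z.im)) := by simp
    have h2 : |z.im| * (4 * Real.pi) < σ := (lt_div_iff₀ (by positivity)).1 hz
    have h3 : -(n * z.im) ≤ |(n:ℝ)| * |z.im| := by rw [← abs_mul]; exact neg_le_abs _
    rw [norm_mul, Complex.norm_exp, h1]
    refine (mul_le_mul_of_nonneg_right (hb n) (Real.exp_pos _).le).trans ?_
    rw [mul_assoc, ← Real.exp_add]
    refine mul_le_mul_of_nonneg_left (Real.exp_le_exp.2 ?_) hM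
    have h4 := mul_le_mul_of_nonneg_left h3 (show 0 ≤ 2 * Real.pi by positivity)
    have h5 := mul_le_mul_of_nonneg_left h2.le (abs_nonneg (n:ℝ))
    linarith
  have hs : Summable fun n => ‖fc (fun t => (β t : ℂ)) n‖ :=
    Summable.of_nonneg_of_le (fun _ => norm_nonneg _) hb ((AnAux.summ hσ).mul_left M)
  have he : β = fun t : ℝ =>
      (∑' n : ℤ, fr β n * Complex.exp (2 * Real.pi * I * (n * (t : ℂ)))).re := by
    funext t
    have h1 := ((hfs (fun t => (β t : ℂ)) (continuous_ofReal.comp hc)
      fun x => by simp only [hp x]).2 hs t).tsum_eq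
    simp only [ee, ofReal_mul, ofReal_intCast] at h1
    simp only [fr, h1, ofReal_re]
  intro t _
  have h1 := hd.analyticOnNhd hU (t : ℂ) (by simp; positivity)
  have h2 := (reCLM.analyticAt _).comp
    ((h1.restrictScalars (𝕜 := ℝ)).comp_of_eq (ofRealCLM.analyticAt t) rfl)
  rw [he]
  exact h2

end Vale.Agent.P097
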