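import Vale.Agent.P097.Base

open Set NormedSpace Complex

namespace Vale.Agent.P097

namespace ApAux

theorem gap_le (hgap : S_gap) {q : ℕ} (hq : 1 ≤ q) {u : ℝ → ℝ} (hp : Function.Periodic u 1)
    (ha : ∀ t, |u (t + 1 / q) - 2 * u t + u (t - 1 / q)| ≤ 1 / (2 * (q:ℝ) ^ 2)) (t : ℝ) :
    |gap q u t| ≤ 2 / q := by
  have hq0 : (0:ℝ) < q := by exact_mod_cast hq
  have h := (hgap q hq).1 (fun k => t + k / q + u (t + k / q)) ⟨fun k => ?_, fun k => ?_⟩ 0
  · simp only [zero_add, Int.cast_one, Int.cast_zero, zero_div, add_zero] at h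
    have h1 : 0 < 1 / (2 * (q:ℝ)) := by positivity
    have h2 : 3 / (2 * (q:ℝ)) ≤ 2 / q := by rw [div_le_div_iff₀ (by positivity) hq0]; linarith
    have h3 : 0 < 2 / (q:ℝ) := by positivity
    rw [abs_le, gap]
    constructor <;> linarith [h.1, h.2]
  · have e : t + ((k + q : ℤ) : ℝ) / q = t + k / q + 1 := by push_cast; field_simp; ring
    simp only [e, hp _]
    ring
  · have h := ha (t + k / q)
    have e1 : t + ((k + 1 : ℤ) : ℝ) / q = t + k / q + 1 / q := by push_cast; ring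
    have e2 : t + ((k - 1 : ℤ) : ℝ) / q = t + k / q - 1 / q := by push_cast; ring
    simp only [e1, e2]
    refine le_trans (le_of_eq ?_) h
    congr 1
    ring

theorem dv {K E q : ℝ} (hE : 0 ≤ E) (hq : 1 ≤ q) {m : ℕ} (hm : 35 ≤ m) :
    K * E / q ^ m ≤ |K| * E / q ^ 35 := by
  have := le_abs_self K
  have := pow_le_pow_right₀ hq hm
  calc _ ≤ |K| * E / q ^ m := by gcongr
    _ ≤ _ := by gcongr

end ApAux

theorem apE (hwo : S_wo) (hap1 : S_ap1) (hap2 : S_ap2) (hrl2 : S_rl2) (hrl3 : S_rl3)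
    (htail : S_tail) (hgap : S_gap) : S_ap := by
  intro β hβ hRM M
  obtain ⟨Cw, q1, hwo⟩ := hwo M
  obtain ⟨Ct, htail⟩ := htail M
  obtain ⟨C1, q2, hap1⟩ := hap1 β hβ hRM M Cw
  obtain ⟨C2, hap2⟩ := hap2 M Cw
  obtain ⟨C3, d3, hd3, hrl2⟩ := hrl2 Ct
  obtain ⟨C4, d4, hd4, hrl3⟩ := hrl3 (Ct + 1)
  obtain ⟨q3, hq3⟩ := exists_nat_ge (2 / d3 + 2 / d4 + |Ct|)
  set K := |C1| + |Cw| + |C3 * Ct ^ 2| + |C2| + |C4 * Ct| with hK
  refine ⟨K * (4 * Real.pi ^ 2 / 3), q1 + q2 + q3 + 3, fun q hq τ hτ _ hc => ?_⟩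
  have hq3' : 3 ≤ q := by omega
  have hqr : (3:ℝ) ≤ q := by exact_mod_cast hq3'
  have hq0 : (0:ℝ) < q := by linarith
  have hq1 : (1:ℝ) ≤ q := by linarith
  have hq4 : 2 / d3 + 2 / d4 + |Ct| ≤ q := hq3.trans (by exact_mod_cast (by omega : q3 ≤ q))
  have p3 : 0 < 2 / d3 := by positivity
  have p4 : 0 < 2 / d4 := by positivity
  have p5 := abs_nonneg Ct
  obtain ⟨u, lam, hu⟩ := hwo q τ _ (by omega) hτ hc
  have hb := hβ.1.continuous
  have ht := htail β hb hβ.2 q τ hq3' hτ hc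
  have hg := ApAux.gap_le hgap (by omega) hu.per hu.a
  have hg3 : ∀ t, |gap q u t| ≤ d3 := fun t => (hg t).trans
    ((div_le_comm₀ hq0 hd3).2 (by linarith))
  have hg4 : ∀ t, |gap q u t| ≤ d4 := fun t => (hg t).trans
    ((div_le_comm₀ hq0 hd4).2 (by linarith))
  set c := fr β with hcd
  set bl := low c (NN q) with hbl
  set η := Ct * Real.exp (-(τ * q / 2)) / (q:ℝ) ^ 29 with hη
  have hE := Real.exp_pos (-(τ * q))
  have hη1 : η ≤ 1 := by
    rw [hη, div_le_one (by positivity)]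
    have h1 : Real.exp (-(τ * q / 2)) ≤ 1 := Real.exp_le_one_iff.2 (by
      have : 0 ≤ τ * q := by positivity
      linarith)
    calc _ ≤ |Ct| * 1 := by gcongr; exact le_abs_self _
      _ ≤ q := by linarith
      _ ≤ _ := le_self_pow₀ hq1 (by norm_num)
  have hη2 : C3 * η ^ 2 = C3 * Ct ^ 2 * Real.exp (-(τ * q)) / (q:ℝ) ^ 58 := by
    rw [hη, div_pow, mul_pow, ← Real.exp_nat_mul, ← pow_mul]
    push_cast
    ring_nf
  have hlc : Continuous bl := low_cont _ _
  have hX : Continuous fun t => t + u t := continuous_id.add hu.cont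
  have hD : Continuous (gap q u) := by have := hu.cont; unfold gap; fun_prop
  obtain ⟨-, hl2, hl3, hl4⟩ := hrl3 bl hlc fun x => (ht x).1.trans (by linarith)
  obtain ⟨cl, cr⟩ := hl4 _ _ hX hD hg4
  have cb := ((hrl3 β hb fun x => by
    have h1 := abs_add_le (β x - bl x) (bl x)
    rw [sub_add_cancel] at h1
    linarith [(ht x).1, (ht x).2.1]).2.2.2 _ _ hX hD hg4).1
  set s := (Finset.Icc (-(q:ℤ) ^ 2) (q ^ 2)).filter (fun n => (NN q : ℤ) < |n|) with hs
  set g₀ : ℝ → ℂ := fun x => ((β x - bl x : ℝ) : ℂ) - ∑ n ∈ s, c n * ee (n * x) with hg₀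
  have cg : Continuous g₀ := by rw [hg₀]; fun_prop
  have ce : ∀ n : ℤ, Continuous fun x : ℝ => ee (n * x) := fun n => by fun_prop
  set κ : ℂ := 3 / (4 * Real.pi ^ 2) / (q:ℂ) ^ 3 with hκ
  set r : ℤ → ℂ := fun n => fc (fun t => lr bl (t + u t) (gap q u t) (fun x => ee (n * x))) q
    - (if n = q then κ else 0) with hr
  set er : ℝ → ℂ := fun t => ((ll β (t + u t) (gap q u t) - ll bl (t + u t) (gap q u t) : ℝ) : ℂ)
    - lr bl (t + u t) (gap q u t) (fun x => ((β x - bl x : ℝ) : ℂ)) with her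
  have b1 := (hap1 q τ (by omega) hτ hc u lam hu).trans (ApAux.dv hE.le hq1 (by norm_num))
  have b2 := hu.c'.trans (ApAux.dv hE.le hq1 (by norm_num))
  have b3 : ‖fc er q‖ ≤ _ := (fc_le (fun t => by
    have h1 := hrl2 bl (fun x => β x - bl x) hlc (hb.sub hlc) (fun x => (ht x).1) η hη1
      (fun x => (ht x).2.1) (t + u t) _ (hg3 t)
    simp only [add_sub_cancel] at h1
    exact h1.trans_eq hη2) q).trans (ApAux.dv hE.le hq1 (by norm_num))
  have b4 := (hap2 q τ c r hq3' hτ hc hu.d).trans (ApAux.dv hE.le hq1 (by norm_num))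
  have b5 : ‖fc (fun t => lr bl (t + u t) (gap q u t) g₀) q‖ ≤ _ := (fc_le (fun t =>
    (hl2 g₀ cg _ (fun x => (ht x).2.2) (t + u t) _ (hg4 t)).trans_eq
      (show _ = C4 * Ct * Real.exp (-(τ * q)) / (q:ℝ) ^ 58 by ring)) q).trans
    (ApAux.dv hE.le hq1 (by norm_num))
  have hqs : (q:ℤ) ∈ s := by
    rw [hs, Finset.mem_filter, Finset.mem_Icc, abs_of_nonneg (Int.natCast_nonneg q)]
    refine ⟨⟨?_, ?_⟩, by unfold NN; omega⟩ <;> nlinarith
  have e1 : fc er q = fr (fun t => ll β (t + u t) (gap q u t)) q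
      - fr (fun t => ll bl (t + u t) (gap q u t)) q
      - (c q * κ + ∑ n ∈ s, c n * r n + fc (fun t => lr bl (t + u t) (gap q u t) g₀) q) := by
    have e2 : ∀ t, lr bl (t + u t) (gap q u t) (fun x => ((β x - bl x : ℝ) : ℂ))
        = ∑ n ∈ s, c n * lr bl (t + u t) (gap q u t) (fun x => ee (n * x))
          + lr bl (t + u t) (gap q u t) g₀ := fun t => by
      rw [← hl3 s c _ g₀ ce cg]
      congr 1
      funext x
      rw [hg₀]
      ring
    have c1 : ∀ n : ℤ, Continuous fun t => c n * lr bl (t + u t) (gap q u t) (fun x => ee (n * x)) :=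
      fun n => continuous_const.mul (cr _ (ce n))
    have c2 := continuous_finsetSum s fun n _ => c1 n
    have c3 := cr _ cg
    simp only [her, e2]
    simp only [Complex.ofReal_sub]
    rw [fc_sub, fc_sub, fc_add c2 c3, fc_sum s fun n _ => c1 n]
    rotate_left
    iterate 4 fun_prop
    simp only [fc_mul, hr, mul_sub, Finset.sum_sub_distrib, mul_ite, mul_zero,
      Finset.sum_ite_eq', if_pos hqs, fr]
    ring
  have e3 : c q * κ = fr (fun t => ll β (t + u t) (gap q u t)) q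
      - fr (fun t => ll bl (t + u t) (gap q u t)) q - fc er q - ∑ n ∈ s, c n * r n
      - fc (fun t => lr bl (t + u t) (gap q u t) g₀) q := by rw [e1]; ring
  have b6 : ‖c q * κ‖ ≤ K * Real.exp (-(τ * q)) / (q:ℝ) ^ 35 := by
    rw [e3]
    refine (norm_sub_le_of_le (norm_sub_le_of_le (norm_sub_le_of_le (norm_sub_le_of_le b1 b2) b3)
      b4) b5).trans_eq ?_
    rw [hK]
    ring
  have e4 : ‖κ‖ = 3 / (4 * Real.pi ^ 2) / (q:ℝ) ^ 3 := by
    simp [hκ]
  have hπ := Real.pi_pos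
  rw [norm_mul, e4, ← le_div_iff₀ (by positivity)] at b6
  refine b6.trans_eq ?_
  field_simp

end Vale.Agent.P097
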