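import Vale.Agent.P097.Base

open Set NormedSpace Complex

namespace Vale.Agent.P097

namespace Ap1Aux

/-- The configuration through `t`. -/
noncomputable def X (q : ℕ) (u : ℝ → ℝ) (t : ℝ) (k : ℤ) : ℝ := t + k / q + u (t + k / q)

variable {q : ℕ} {u β : ℝ → ℝ}

theorem up (t : ℝ) (k : ℤ) : t + ((k + 1 : ℤ) : ℝ) / q = t + k / q + 1 / q := by
  push_cast; ring

theorem dn (t : ℝ) (k : ℤ) : t + ((k - 1 : ℤ) : ℝ) / q = t + k / q - 1 / q := by
  push_cast; ring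

theorem g1 (t : ℝ) (k : ℤ) : X q u t (k + 1) - X q u t k = gap q u (t + k / q) := by
  rw [X, X, gap, up]; ring

theorem g2 (t : ℝ) (k : ℤ) : X q u t k - X q u t (k - 1) = gap q u (t + k / q - 1 / q) := by
  rw [X, X, gap, dn, sub_add_cancel]; ring

theorem reg (hq : 1 ≤ q) (hp : Function.Periodic u 1)
    (ha : ∀ t, |u (t + 1 / q) - 2 * u t + u (t - 1 / q)| ≤ 1 / (2 * (q:ℝ) ^ 2)) (t : ℝ) :
    Reg q (X q u t) := by
  have q0 : (q:ℝ) ≠ 0 := by positivity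
  refine ⟨fun k => ?_, fun k => ?_⟩
  · have e : t + ((k + q : ℤ) : ℝ) / q = t + k / q + 1 := by
      push_cast; rw [add_div, div_self q0, add_assoc]
    rw [X, X, e, hp]; ring
  · have e : X q u t (k + 1) - 2 * X q u t k + X q u t (k - 1) =
        u (t + k / q + 1 / q) - 2 * u (t + k / q) + u (t + k / q - 1 / q) := by
      rw [X, X, X, up, dn]; ring
    rw [e]; exact ha _

theorem gle (hgap : S_gap) (hq : 1 ≤ q) (hr : ∀ t, Reg q (X q u t)) (t : ℝ) :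
    |gap q u t| ≤ 3 / (2 * (q:ℝ)) := by
  have h := (hgap q hq).1 _ (hr t) 0
  rw [g1, Int.cast_zero, zero_div, add_zero] at h
  have : (0:ℝ) < 1 / (2 * (q:ℝ)) := by positivity
  rw [abs_of_pos (this.trans_le h.1)]
  exact h.2

theorem coef (hfs : S_fs) (hq : 1 ≤ q) {l : ℝ → ℝ} (hl : Continuous l)
    (hp : Function.Periodic l 1) {m A : ℝ}
    (h : ∀ t, |∑ k ∈ Finset.range q, l (t + k / q) - m| ≤ A) : ‖fr l q‖ ≤ A := by
  have q0 : (q:ℝ) ≠ 0 := by positivity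
  have c1 : Continuous fun t => (l t : ℂ) := continuous_ofReal.comp hl
  have h1 := fc_le (f := fun t => ∑ k ∈ Finset.range q, (l (t + k / q) : ℂ) - m * 1) (A := A)
    (fun t => by
      rw [mul_one, ← ofReal_sum, ← ofReal_sub, norm_real, Real.norm_eq_abs]; exact h t) q
  have h2 : ∀ k ∈ Finset.range q, fc (fun t => (l (t + k / q) : ℂ)) q = fr l q := fun k _ => by
    have e : ((q : ℤ) : ℝ) * (k / q) = ((k : ℤ) : ℝ) := by
      push_cast; field_simp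
    have := (hfs _ c1 fun t => by rw [hp]).1 q (k / q)
    rw [e, ee_int, one_mul] at this
    exact this
  rw [fc_sub (by fun_prop) continuous_const, fc_sum _ fun k _ => by fun_prop, fc_mul, fc_one,
    if_neg (by omega), mul_zero, sub_zero, Finset.sum_congr rfl h2, Finset.sum_const,
    Finset.card_range, nsmul_eq_mul, norm_mul, norm_natCast] at h1
  refine le_trans ?_ h1
  exact le_mul_of_one_le_left (norm_nonneg _) (by exact_mod_cast hq)

theorem eta {C E Q : ℝ} (hC : 0 ≤ C) (hE : E ≤ 1) (h1 : 1 ≤ Q) (h2 : C ≤ Q) :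
    C * E / Q ^ 29 ≤ 1 := by
  rw [div_le_one (by positivity)]
  exact (mul_le_of_le_one_right hC hE).trans (h2.trans (le_self_pow₀ h1 (by norm_num)))

theorem eps {C D Ct E Q : ℝ} (hC : 0 ≤ Ct) (h0 : 0 ≤ E) (hE : E ≤ 1) (h1 : 1 ≤ Q) :
    D * (Ct * E / Q ^ 29) + C * E ^ 2 / Q ^ 36 ≤ (|D| * Ct + |C|) * E / Q ^ 29 := by
  have a1 : D * (Ct * E / Q ^ 29) ≤ |D| * (Ct * E / Q ^ 29) :=
    mul_le_mul_of_nonneg_right (le_abs_self D) (by positivity)
  have a2 : C * E ^ 2 / Q ^ 36 ≤ |C| * E / Q ^ 29 := by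
    have b1 : E ^ 2 ≤ E := by nlinarith
    have b2 : Q ^ 29 ≤ Q ^ 36 := pow_le_pow_right₀ h1 (by norm_num)
    have b3 := le_abs_self C
    gcongr
  calc _ ≤ |D| * (Ct * E / Q ^ 29) + |C| * E / Q ^ 29 := add_le_add a1 a2
    _ = _ := by ring

theorem fin {C K E Q : ℝ} (h1 : 1 ≤ Q) :
    C * Q ^ 5 * (K * E / Q ^ 29) ^ 2 ≤ |C| * K ^ 2 * E ^ 2 / Q ^ 36 := by
  have b2 : Q ^ 36 ≤ Q ^ 53 := pow_le_pow_right₀ h1 (by norm_num)
  have b3 := le_abs_self C
  calc _ = C * K ^ 2 * E ^ 2 / Q ^ 53 := by field_simp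
    _ ≤ _ := by gcongr

theorem big {d : ℝ} (hd : 0 < d) (hq : 1 ≤ q) (h : 3 / (2 * d) ≤ q) : 3 / (2 * (q:ℝ)) ≤ d := by
  rw [div_le_iff₀ (by positivity)] at h ⊢
  linarith

end Ap1Aux

open Ap1Aux in
theorem ap1E (htail : S_tail) (hrl3 : S_rl3) (hfs : S_fs) (hgap : S_gap) : S_ap1 := by
  intro β hβ hRM M C
  obtain ⟨Cm, q1, hm⟩ := hRM
  obtain ⟨Ct, ht⟩ := htail M
  obtain ⟨Cr, d1, hd1, h3⟩ := hrl3 Ct
  have cβ := hβ.1.continuous
  obtain ⟨Mb, hMb⟩ := bdd_of_per cβ hβ.2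
  obtain ⟨_, d2, hd2, h4⟩ := hrl3 Mb
  obtain ⟨q2, hq2⟩ := exists_nat_ge (max Ct (max (3 / (2 * d1)) (3 / (2 * d2))))
  refine ⟨|Cm| * (|Cr| * Ct + |C|) ^ 2, max 3 (max q1 q2), fun q τ hq hτ hc u lam hw => ?_⟩
  simp only [max_le_iff] at hq hq2
  have hq1 : 1 ≤ q := by omega
  have Q1 : (1:ℝ) ≤ q := by exact_mod_cast hq1
  have Q2 : (q2:ℝ) ≤ q := by exact_mod_cast hq.2.2
  have ht' := ht β cβ hβ.2 q τ hq.1 hτ hc
  have C0 : 0 ≤ Ct := (abs_nonneg _).trans (ht' 0).1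
  have hr := reg hq1 hw.per hw.a
  have hg := gle hgap hq1 hr
  have G1 := fun t => (hg t).trans (big hd1 hq1 (hq2.2.1.trans Q2))
  have G2 := fun t => (hg t).trans (big hd2 hq1 (hq2.2.2.trans Q2))
  have E1 : Real.exp (-(τ * q / 2)) ≤ 1 := Real.exp_le_one_iff.2 (neg_nonpos.2 (by positivity))
  have E2 : Real.exp (-(τ * q)) = Real.exp (-(τ * q / 2)) ^ 2 := by
    rw [← Real.exp_nat_mul]; congr 1; push_cast; ring
  have cl := low_cont (fr β) (NN q)
  have hE : ∀ t, |Ee β (t + u t) (gap q u t) (gap q u (t - 1 / q)) - lam| ≤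
      (|Cr| * Ct + |C|) * Real.exp (-(τ * q / 2)) / (q:ℝ) ^ 29 := fun t => by
    have a1 := (h3 _ cl fun x => (ht' x).1).1 (fun x => β x - low (fr β) (NN q) x) (cβ.sub cl) _
      (eta C0 E1 Q1 (hq2.1.trans Q2)) (fun x => (ht' x).2.1) (t + u t) _ _ (G1 t) (G1 (t - 1 / q))
    simp only [add_sub_cancel] at a1
    have a2 := hw.b t
    rw [E2] at a2
    exact ((abs_sub_le _ _ _).trans (add_le_add a1 a2)).trans (eps C0 (Real.exp_pos _).le E1 Q1)
  obtain ⟨m, hm⟩ := hm q hq.2.1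
  have cu := hw.cont
  have c1 : Continuous fun t => ll β (t + u t) (gap q u t) :=
    ((h4 β cβ hMb).2.2.2 (fun t => t + u t) (gap q u) (by fun_prop)
      (by unfold gap; fun_prop) G2).1
  have p1 : Function.Periodic (fun t => ll β (t + u t) (gap q u t)) 1 := fun t => by
    have e : gap q u (t + 1) = gap q u t := by
      rw [gap, gap, add_right_comm t 1, hw.per, hw.per]
    simp only [e, hw.per t, add_right_comm t 1, ll_per hβ.2]
  rw [E2]
  refine (coef hfs hq1 c1 p1 (m := m) fun t => ?_).trans (fin Q1)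
  have a := hm _ (hr t) lam _ fun k => by
    rw [EE, g1, g2]
    exact hE (t + k / q)
  simp only [AA, g1] at a
  simpa only [X, Int.cast_natCast] using a

end Vale.Agent.P097
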