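import Vale.Agent.P097.Base

open Set NormedSpace Complex

namespace Vale.Agent.P097

namespace Ap2Aux

theorem sm : Summable fun m : ℤ => ((1 + |(m:ℝ)|) ^ 2)⁻¹ := by
  have h : Summable fun n : ℕ => ((1 + (n:ℝ)) ^ 2)⁻¹ := by
    have := (summable_nat_add_iff 1).2 (Real.summable_nat_pow_inv.2 one_lt_two)
    simpa [add_comm] using this
  exact Summable.of_nat_of_neg (by simpa using h) (by simpa using h)

theorem term {M C τ q a b x y : ℝ} (q0 : 0 < q) (hτ : 0 ≤ τ) (hM : 0 ≤ M) (ha : q ≤ 2 * a)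
    (hb : q ≤ min a q + b) (b0 : 0 ≤ b) (y0 : 0 ≤ y)
    (hx : x ≤ M * Real.exp (-(τ * min a q)) / a ^ 31)
    (hy : y ≤ C * a / q ^ 5 / (Real.exp (τ * b) * (1 + b) ^ 2)) :
    x * y ≤ M * |C| * 2 ^ 30 * Real.exp (-(τ * q)) / q ^ 35 * ((1 + b) ^ 2)⁻¹ := by
  have a0 : 0 < a := by linarith
  have h1 : y ≤ |C| * a / q ^ 5 / (Real.exp (τ * b) * (1 + b) ^ 2) :=
    hy.trans (by gcongr; exact le_abs_self C)
  have h2 : Real.exp (-(τ * min a q)) / Real.exp (τ * b) ≤ Real.exp (-(τ * q)) := by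
    rw [← Real.exp_sub, Real.exp_le_exp]
    nlinarith [mul_le_mul_of_nonneg_left hb hτ]
  have h3 : (a ^ 30)⁻¹ ≤ 2 ^ 30 / q ^ 30 := by
    rw [← div_pow, ← inv_pow]
    refine pow_le_pow_left₀ (by positivity) ?_ _
    rw [inv_eq_one_div, div_le_div_iff₀ a0 q0]
    linarith
  refine (mul_le_mul hx h1 y0 (by positivity)).trans ?_
  calc _ = M * |C| * (a ^ 30)⁻¹ * (Real.exp (-(τ * min a q)) / Real.exp (τ * b)) / q ^ 5 *
        ((1 + b) ^ 2)⁻¹ := by field_simp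
    _ ≤ M * |C| * (2 ^ 30 / q ^ 30) * Real.exp (-(τ * q)) / q ^ 5 * ((1 + b) ^ 2)⁻¹ := by
        gcongr
    _ = _ := by field_simp

end Ap2Aux

theorem ap2E : S_ap2 := by
  intro M C
  refine ⟨M * |C| * 2 ^ 30 * ∑' m : ℤ, ((1 + |(m:ℝ)|) ^ 2)⁻¹, fun q τ c r hq hτ hc hr => ?_⟩
  have hM : 0 ≤ M := (norm_nonneg _).trans hc.2.1
  have q0 : (0:ℝ) < q := by exact_mod_cast (by omega : 0 < q)
  have s := (Equiv.subLeft (q:ℤ)).summable_iff.2 Ap2Aux.sm
  refine (norm_sum_le _ _).trans ?_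
  refine (Finset.sum_le_sum (g := fun n => M * |C| * 2 ^ 30 * Real.exp (-(τ * q)) / (q:ℝ) ^ 35 *
    ((1 + |(((q:ℤ) - n : ℤ):ℝ)|) ^ 2)⁻¹) fun n hn => ?_).trans ?_
  · rw [Finset.mem_filter, Finset.mem_Icc] at hn
    have n1 : (q:ℤ) ≤ 2 * |n| := by
      have := hn.2
      unfold NN at this
      omega
    have n0 : n ≠ 0 := by
      rintro rfl
      simp only [abs_zero] at n1
      omega
    rw [norm_mul]
    refine Ap2Aux.term q0 hτ hM (a := |(n:ℝ)|) (by exact_mod_cast n1) ?_ (abs_nonneg _)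
      (norm_nonneg _) (hc.2.2 n n0) (hr n hn.2 (abs_le.2 hn.1))
    push_cast
    rcases min_cases |(n:ℝ)| q with h | h <;> rw [h.1]
    · linarith [le_abs_self (n:ℝ), le_abs_self ((q:ℝ) - n)]
    · linarith [abs_nonneg ((q:ℝ) - n)]
  · rw [← Finset.mul_sum, ← (Equiv.subLeft (q:ℤ)).tsum_eq]
    refine (mul_le_mul_of_nonneg_left (s.sum_le_tsum _ fun _ _ => by
      rw [Function.comp_apply]; positivity) (by positivity)).trans_eq ?_
    simp only [Function.comp_apply]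
    ring

end Vale.Agent.P097
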