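import Vale.Agent.P097.BStm

open Set Complex MeasureTheory

namespace Vale.Agent.P097

namespace BAreaAux

theorem norm_der {V : ℝ → ℂ} {V' : ℂ} {τ : ℝ} (h : HasDerivAt V V' τ) (h0 : V τ ≠ 0) :
    HasDerivAt (fun σ => ‖V σ‖) (((starRingEnd ℂ) (V τ) * V').re / ‖V τ‖) τ := by
  have h1 := h.norm_sq.sqrt (pow_ne_zero 2 (norm_ne_zero_iff.2 h0))
  simp only [Real.sqrt_sq (norm_nonneg _)] at h1
  refine h1.congr_deriv ?_
  rw [Complex.inner, mul_comm V', mul_div_mul_left _ _ two_ne_zero]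

theorem cos_eq {c T : ℂ} (hc : c ≠ 0) (hT : ‖T‖ = 1) :
    Real.cos (arg (c * (starRingEnd ℂ) T)) = ((starRingEnd ℂ) c * T).re / ‖c‖ := by
  have h1 : ‖c * (starRingEnd ℂ) T‖ = ‖c‖ := by rw [norm_mul, Complex.norm_conj, hT, mul_one]
  have h2 : c * (starRingEnd ℂ) T ≠ 0 := by
    rw [← norm_ne_zero_iff, h1]
    exact norm_ne_zero_iff.2 hc
  rw [Complex.cos_arg h2, h1]
  simp only [mul_re, conj_re, conj_im]
  ring

theorem isOpen_Sp (d : ℝ) : IsOpen (Sp d) :=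
  (isOpen_lt continuous_fst continuous_snd).inter
    (isOpen_lt continuous_snd (continuous_fst.add continuous_const))

theorem cd {γ : ℝ → ℂ} {L d : ℝ} (hT : Table γ L) (hL : LC γ L d) {x : ℝ × ℝ} (hx : x ∈ Sp d) :
    ContDiffAt ℝ 2 (fun x : ℝ × ℝ => ‖γ x.2 - γ x.1‖) x := by
  have h2 : ContDiff ℝ 2 γ := contDiff_infty.1 hT.smooth 2
  have h3 : ContDiff ℝ 2 fun x : ℝ × ℝ => γ x.2 - γ x.1 :=
    (h2.comp contDiff_snd).sub (h2.comp contDiff_fst)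
  exact h3.contDiffAt.norm ℝ (sub_ne_zero.2 (hL.ne x hx))

theorem hd {γ : ℝ → ℂ} {L : ℝ} (hT : Table γ L) (s : ℝ) : HasDerivAt γ (deriv γ s) s :=
  (hT.smooth.differentiable (by simp) s).hasDerivAt

theorem d1 {γ : ℝ → ℂ} {L d : ℝ} (hT : Table γ L) (hL : LC γ L d) {x : ℝ × ℝ} (hx : x ∈ Sp d) :
    -fderiv ℝ (fun x : ℝ × ℝ => ‖γ x.2 - γ x.1‖) x (1, 0) = Real.cos (aO γ x) := by
  have h0 : γ x.2 - γ x.1 ≠ 0 := sub_ne_zero.2 (hL.ne x hx)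
  have h1 := ((cd hT hL hx).differentiableAt (by simp)).hasFDerivAt
  have h2 : HasDerivAt (fun s : ℝ => (s, x.2)) ((1, 0) : ℝ × ℝ) x.1 :=
    (hasDerivAt_id x.1).prodMk (hasDerivAt_const x.1 x.2)
  have h3 := HasFDerivAt.comp_hasDerivAt x.1 (f := fun s : ℝ => (s, x.2)) h1 h2
  have h4 := norm_der (V := fun s => γ x.2 - γ s) ((hd hT x.1).const_sub (γ x.2)) h0
  rw [h3.unique h4, aO, zO, cos_eq h0 (hT.unit _), mul_neg, neg_re, neg_div, neg_neg]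

theorem d2 {γ : ℝ → ℂ} {L d : ℝ} (hT : Table γ L) (hL : LC γ L d) {x : ℝ × ℝ} (hx : x ∈ Sp d) :
    fderiv ℝ (fun x : ℝ × ℝ => ‖γ x.2 - γ x.1‖) x (0, 1) = Real.cos (aI γ x) := by
  have h0 : γ x.2 - γ x.1 ≠ 0 := sub_ne_zero.2 (hL.ne x hx)
  have h1 := ((cd hT hL hx).differentiableAt (by simp)).hasFDerivAt
  have h2 : HasDerivAt (fun s : ℝ => (x.1, s)) ((0, 1) : ℝ × ℝ) x.2 :=
    (hasDerivAt_const x.2 x.1).prodMk (hasDerivAt_id x.2)
  have h3 := HasFDerivAt.comp_hasDerivAt x.2 (f := fun s : ℝ => (x.1, s)) h1 h2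
  have h4 := norm_der (V := fun s => γ s - γ x.1) ((hd hT x.2).sub_const (γ x.1)) h0
  rw [h3.unique h4, aI, Real.cos_neg, zI, cos_eq h0 (hT.unit _)]

end BAreaAux

open BAreaAux in
theorem areaE (harea0 : S_area0) : S_area := by
  intro γ L d E hT hL hE hm
  have hp := Real.pi_pos
  have mO : ∀ x ∈ Sp d, aO γ x ∈ Icc 0 Real.pi := fun x hx =>
    ⟨(hL.o x hx).1.le, by linarith [(hL.o x hx).2]⟩
  have mI : ∀ x ∈ Sp d, aI γ x ∈ Icc 0 Real.pi := fun x hx =>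
    ⟨(hL.i x hx).1.le, by linarith [(hL.i x hx).2]⟩
  have key := harea0 (fun x : ℝ × ℝ => ‖γ x.2 - γ x.1‖) (Sp d) E (isOpen_Sp d)
    (fun x hx => (cd hT hL hx).contDiffWithinAt) hE hm ?_ ?_
  · rw [image_congr fun x hx => congrArg (Prod.mk x.1) (d1 hT hL (hE hx)),
      image_congr fun x hx => congrArg (Prod.mk x.2) (d2 hT hL (hE hx))] at key
    exact key
  · rintro ⟨s, t⟩ hx ⟨s', t'⟩ hy hxy
    obtain ⟨e1, e2⟩ := Prod.mk.inj hxy
    rw [d1 hT hL (hE hx), d1 hT hL (hE hy)] at e2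
    have e3 := Real.injOn_cos (mO _ (hE hx)) (mO _ (hE hy)) e2
    obtain rfl : s = s' := e1
    rcases lt_trichotomy t t' with h | h | h
    · exact absurd e3 (hL.mo s t t' (hE hx).1 h (hE hy).2).ne
    · rw [h]
    · exact absurd e3 (hL.mo s t' t (hE hy).1 h (hE hx).2).ne'
  · rintro ⟨s, t⟩ hx ⟨s', t'⟩ hy hxy
    obtain ⟨e1, e2⟩ := Prod.mk.inj hxy
    rw [d2 hT hL (hE hx), d2 hT hL (hE hy)] at e2
    have e3 := Real.injOn_cos (mI _ (hE hx)) (mI _ (hE hy)) e2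
    obtain rfl : t = t' := e1
    rcases lt_trichotomy s s' with h | h | h
    · exact absurd e3 (hL.mi s s' t h (hE hy).1 (hE hx).2).ne'
    · rw [h]
    · exact absurd e3 (hL.mi s' s t h (hE hx).1 (hE hy).2).ne

end Vale.Agent.P097
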