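import Vale.Agent.P097.BStm

open Set Complex MeasureTheory

namespace Vale.Agent.P097

namespace BArea0Aux

theorem det_two (A : ℝ × ℝ →L[ℝ] ℝ × ℝ) :
    A.det = (A (1, 0)).1 * (A (0, 1)).2 - (A (0, 1)).1 * (A (1, 0)).2 := by
  rw [ContinuousLinearMap.det, ← LinearMap.det_toMatrix (Module.Basis.finTwoProd ℝ),
    Matrix.det_fin_two]
  simp [LinearMap.toMatrix_apply]

theorem dd {h : ℝ × ℝ → ℝ} {x : ℝ × ℝ} (hx : ContDiffAt ℝ 2 h x) (v : ℝ × ℝ) :
    HasFDerivAt (fun y => fderiv ℝ h y v) ((fderiv ℝ (fderiv ℝ h) x).flip v) x := by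
  have h1 : HasFDerivAt (fderiv ℝ h) (fderiv ℝ (fderiv ℝ h) x) x :=
    ((hx.fderiv_right (m := 1) le_rfl).differentiableAt one_ne_zero).hasFDerivAt
  have h2 := h1.clm_apply (hasFDerivAt_const v x)
  simpa using h2

end BArea0Aux

open BArea0Aux in
theorem area0E : S_area0 := by
  intro h V E hV hh hE mE i1 i2
  have hx : ∀ x ∈ E, ContDiffAt ℝ 2 h x := fun x hx => hh.contDiffAt (hV.mem_nhds (hE hx))
  have d1 : ∀ x ∈ E, HasFDerivWithinAt (fun x : ℝ × ℝ => (x.1, -fderiv ℝ h x (1, 0)))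
      ((ContinuousLinearMap.fst ℝ ℝ ℝ).prod (-(fderiv ℝ (fderiv ℝ h) x).flip (1, 0))) E x :=
    fun x hxE => (hasFDerivAt_fst.prodMk (dd (hx x hxE) (1, 0)).neg).hasFDerivWithinAt
  have d2 : ∀ x ∈ E, HasFDerivWithinAt (fun x : ℝ × ℝ => (x.2, fderiv ℝ h x (0, 1)))
      ((ContinuousLinearMap.snd ℝ ℝ ℝ).prod ((fderiv ℝ (fderiv ℝ h) x).flip (0, 1))) E x :=
    fun x hxE => (hasFDerivAt_snd.prodMk (dd (hx x hxE) (0, 1))).hasFDerivWithinAt
  rw [← lintegral_abs_det_fderiv_eq_addHaar_image volume mE d1 i1,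
    ← lintegral_abs_det_fderiv_eq_addHaar_image volume mE d2 i2]
  refine setLIntegral_congr_fun mE fun x hxE => ?_
  have hs := (hx x hxE).isSymmSndFDerivAt (by simp) (0, 1) (1, 0)
  simp only [det_two]
  simp [hs]

end Vale.Agent.P097
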