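import Vale.Agent.P097.BStm

open Set Complex MeasureTheory

namespace Vale.Agent.P097

namespace BBinvAux

open Filter Topology

theorem sp_open (d : ℝ) : IsOpen (Sp d) :=
  (isOpen_lt continuous_fst continuous_snd).inter
    (isOpen_lt continuous_snd (continuous_fst.add continuous_const))

theorem eta {γ : ℝ → ℂ} {L d : ℝ} (hL : 0 < L) (h : LC γ L d) :
    ∃ η : ℝ, 0 < η ∧ ∀ s, η ≤ aO γ (s, s + d / 2) := by
  have hd := h.dpos
  have mem : ∀ s : ℝ, (s, s + d / 2) ∈ Sp d := fun s => ⟨by simp only; linarith, by simp only; linarith⟩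
  have hc : Continuous fun s : ℝ => aO γ (s, s + d / 2) :=
    h.co.comp_continuous (by fun_prop) mem
  have hp : Function.Periodic (fun s : ℝ => aO γ (s, s + d / 2)) L := fun s => by
    have := (h.per s (s + d / 2)).1
    rw [add_right_comm] at this
    exact this
  obtain ⟨s0, _, hs0⟩ := (isCompact_Icc (a := 0) (b := L)).exists_isMinOn
    (nonempty_Icc.2 hL.le) hc.continuousOn
  refine ⟨aO γ (s0, s0 + d / 2), (h.o _ (mem s0)).1, fun s => ?_⟩
  obtain ⟨y, hy, e⟩ := hp.exists_mem_Ico₀ hL s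
  have e' : aO γ (s, s + d / 2) = aO γ (y, y + d / 2) := e
  rw [e']
  exact hs0 (Ico_subset_Icc_self hy)

theorem ex {γ : ℝ → ℂ} {L d η : ℝ} (h : LC γ L d) (hη : ∀ s, η ≤ aO γ (s, s + d / 2))
    (s δ : ℝ) (h0 : 0 < δ) (h1 : δ < η) : ∃ t, (s, t) ∈ Sp d ∧ aO γ (s, t) = δ := by
  have hd := h.dpos
  obtain ⟨K, hK⟩ := h.small
  obtain ⟨e, he0, he1, he2⟩ : ∃ e : ℝ, 0 < e ∧ e ≤ d / 2 ∧ K * e ≤ δ := by
    have hK1 : 0 < |K| + 1 := by positivity
    refine ⟨min (d / 2) (δ / (|K| + 1)), lt_min (by linarith) (div_pos h0 hK1), min_le_left _ _, ?_⟩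
    have h2 : min (d / 2) (δ / (|K| + 1)) * (|K| + 1) ≤ δ :=
      (le_div_iff₀ hK1).1 (min_le_right _ _)
    have h3 : 0 < min (d / 2) (δ / (|K| + 1)) := lt_min (by linarith) (div_pos h0 hK1)
    have h4 := le_abs_self K
    nlinarith
  have mem : ∀ t ∈ Icc (s + e) (s + d / 2), (s, t) ∈ Sp d := fun t ht =>
    ⟨by simp only; linarith [ht.1], by simp only; linarith [ht.2]⟩
  have hc : ContinuousOn (fun t : ℝ => aO γ (s, t)) (Icc (s + e) (s + d / 2)) :=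
    h.co.comp (by fun_prop) mem
  have hle : s + e ≤ s + d / 2 := by linarith
  have h5 := hK _ (mem _ (left_mem_Icc.2 hle))
  simp only [add_sub_cancel_left] at h5
  obtain ⟨t, ht, e'⟩ := intermediate_value_Icc hle hc
    (show δ ∈ Icc (aO γ (s, s + e)) (aO γ (s, s + d / 2)) from
      ⟨h5.trans he2, h1.le.trans (hη s)⟩)
  exact ⟨t, mem t ht, e'⟩

theorem lt_of {γ : ℝ → ℂ} {L d : ℝ} (h : LC γ L d) {s t t' : ℝ} (h1 : (s, t) ∈ Sp d)
    (h2 : (s, t') ∈ Sp d) (h3 : aO γ (s, t) < aO γ (s, t')) : t < t' := by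
  rcases lt_trichotomy t t' with h4 | h4 | h4
  · exact h4
  · rw [h4] at h3
    exact absurd h3 (lt_irrefl _)
  · exact absurd (h.mo s t' t h2.1 h4 h1.2) (not_lt.2 h3.le)

theorem near {γ : ℝ → ℂ} {L d : ℝ} (h : LC γ L d) {x : ℝ × ℝ} {t : ℝ} (h1 : (x.1, t) ∈ Sp d) :
    ContinuousAt (fun y : ℝ × ℝ => aO γ (y.1, t)) x ∧ ∀ᶠ y : ℝ × ℝ in 𝓝 x, (y.1, t) ∈ Sp d := by
  have hc : ContinuousAt (fun y : ℝ × ℝ => (y.1, t)) x := by fun_prop
  have hn := (sp_open d).mem_nhds h1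
  exact ⟨ContinuousAt.comp (f := fun y : ℝ × ℝ => (y.1, t)) (h.co.continuousAt hn) hc,
    hc.eventually hn⟩

end BBinvAux

open BBinvAux Filter Topology

theorem binvE : S_binv := by
  intro γ L d hL h
  obtain ⟨η, hη0, hη⟩ := eta hL h
  have key : ∀ x : ℝ × ℝ, ∃ t, 0 < x.2 → x.2 < η → (x.1, t) ∈ Sp d ∧ aO γ (x.1, t) = x.2 := by
    intro x
    by_cases hx : 0 < x.2 ∧ x.2 < η
    · obtain ⟨t, ht⟩ := ex h hη x.1 x.2 hx.1 hx.2
      exact ⟨t, fun _ _ => ht⟩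
    · exact ⟨0, fun a b => absurd ⟨a, b⟩ hx⟩
  choose B hB using key
  refine ⟨η, B, hη0, fun x hx => ?_, fun s δ a b => hB (s, δ) a b⟩
  obtain ⟨m1, m2⟩ := hB x hx.2.1 hx.2.2
  refine tendsto_order.2 ⟨fun a ha => ?_, fun a ha => ?_⟩
  · obtain ⟨t, ht1, ht2⟩ := exists_between (max_lt ha m1.1)
    have t1 : a < t := (le_max_left _ _).trans_lt ht1
    have t2 : x.1 < t := (le_max_right _ _).trans_lt ht1
    have m3 : (x.1, t) ∈ Sp d := ⟨t2, ht2.trans m1.2⟩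
    have lt := h.mo x.1 t (B x) t2 ht2 m1.2
    rw [m2] at lt
    obtain ⟨c1, c2⟩ := near h m3
    have c3 := c1.eventually_lt continuous_snd.continuousAt lt
    filter_upwards [mem_nhdsWithin_of_mem_nhds c2, mem_nhdsWithin_of_mem_nhds c3,
      self_mem_nhdsWithin] with y y1 y2 hy
    obtain ⟨n1, n2⟩ := hB y hy.2.1 hy.2.2
    exact t1.trans (lt_of h y1 n1 (by rw [n2]; exact y2))
  · obtain ⟨t, ht1, ht2⟩ := exists_between (lt_min ha m1.2)
    have t1 : t < a := ht2.trans_le (min_le_left _ _)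
    have t2 : t < x.1 + d := ht2.trans_le (min_le_right _ _)
    have m3 : (x.1, t) ∈ Sp d := ⟨lt_trans m1.1 ht1, t2⟩
    have lt := h.mo x.1 (B x) t m1.1 ht1 t2
    rw [m2] at lt
    obtain ⟨c1, c2⟩ := near h m3
    have c3 := continuous_snd.continuousAt.eventually_lt c1 lt
    filter_upwards [mem_nhdsWithin_of_mem_nhds c2, mem_nhdsWithin_of_mem_nhds c3,
      self_mem_nhdsWithin] with y y1 y2 hy
    obtain ⟨n1, n2⟩ := hB y hy.2.1 hy.2.2
    exact (lt_of h n1 y1 (by rw [n2]; exact y2)).trans t1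

end Vale.Agent.P097
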