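import Vale.Agent.P097.BStm

open Set Complex MeasureTheory

namespace Vale.Agent.P097

namespace BBirkAux

theorem surj {g : ℝ → ℝ} (hg : Continuous g) (h1 : ∀ x, g (x + 1) = g x + 1) :
    Function.Surjective g := by
  have hm : ∀ m : ℤ, g m = g 0 + m := by
    intro m
    induction m using Int.induction_on with
    | zero => simp
    | succ i ih =>
      push_cast at ih ⊢
      rw [h1, ih]
      ring
    | pred i ih =>
      have := h1 (-(i : ℝ) - 1)
      rw [sub_add_cancel] at this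
      push_cast at ih ⊢
      linarith
  intro y
  have a1 := Int.floor_le (y - g 0)
  have a2 := Int.lt_floor_add_one (y - g 0)
  obtain ⟨x, _, hx⟩ := intermediate_value_Icc (a := (⌊y - g 0⌋ : ℝ)) (b := (⌊y - g 0⌋ : ℝ) + 1)
    (by linarith) hg.continuousOn
    (show y ∈ Icc (g ⌊y - g 0⌋) (g (⌊y - g 0⌋ + 1)) from
      ⟨by rw [hm]; linarith, by rw [h1, hm]; linarith⟩)
  exact ⟨x, hx⟩

variable {t₁ t₂ : ℝ} {a b f : ℝ × ℝ → ℝ} {Θ : ℝ × ℝ × ℝ → ℝ}

theorem per (h : TH t₁ t₂ a b Θ) {x y t : ℝ} (hxy : x < y) (ht : t ∈ Ioo t₁ t₂) (m : ℤ) :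
    Θ (x + m, y + m, t) = Θ (x, y, t) := by
  induction m using Int.induction_on with
  | zero => simp
  | succ i ih =>
    have := h.per (x + i, y + i, t) ⟨by simpa using hxy, ht⟩
    push_cast at ih ⊢
    rw [← ih, ← this, add_assoc, add_assoc]
  | pred i ih =>
    have := h.per (x + (-(i : ℝ) - 1), y + (-(i : ℝ) - 1), t) ⟨by simpa using hxy, ht⟩
    push_cast at ih ⊢
    rw [← ih, ← this]
    simp only [add_assoc, sub_add_cancel]

theorem maps (h : CF t₁ t₂ f) : MapsTo (TP f) (PS t₁ t₂) (PS t₁ t₂) :=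
  fun _ hp => ⟨h.mono _ hp.2 hp.1, hp.2⟩

theorem contTP (h : CF t₁ t₂ f) : ContinuousOn (TP f) (PS t₁ t₂) := by
  refine ContinuousOn.prodMk ?_ (ContinuousOn.prodMk ?_ (by fun_prop))
  · exact h.cf.comp (f := fun p : ℝ × ℝ × ℝ => (p.1, p.2.2)) (by fun_prop)
      fun p hp => ⟨mem_univ _, hp.2⟩
  · exact h.cf.comp (f := fun p : ℝ × ℝ × ℝ => (p.2.1, p.2.2)) (by fun_prop)
      fun p hp => ⟨mem_univ _, hp.2⟩

theorem openPS : IsOpen (PS t₁ t₂) :=
  (isOpen_lt continuous_fst (continuous_fst.comp continuous_snd)).inter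
    (isOpen_Ioo.preimage (continuous_snd.comp continuous_snd))

end BBirkAux

open BBirkAux in
theorem birkE (hlift : S_lift) (hstep : S_step) (hpair : S_pair) : S_birk := by
  intro L t₁ t₂ a b f hF hR
  obtain ⟨Θ, hT⟩ := hlift L t₁ t₂ a b f hF
  have st := hstep L t₁ t₂ a b f Θ hF hT
  have hc := hF.c
  have key : ∀ p ∈ PS t₁ t₂, ∀ k : ℤ, Θ p ≠ Real.pi / 2 + k * Real.pi := by
    rintro ⟨x, y, t⟩ hp k he
    have ht : t ∈ Ioo t₁ t₂ := hp.2
    have cg : Continuous fun z => f (z, t) :=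
      hc.cf.comp_continuous (by fun_prop) fun z => ⟨mem_univ _, ht⟩
    obtain ⟨x0, hx0⟩ := surj cg (fun z => hc.pf z t ht) x
    obtain ⟨y0, hy0⟩ := surj cg (fun z => hc.pf z t ht) y
    have hq : (x0, y0, t) ∈ PS t₁ t₂ := ⟨(hc.mono t ht).lt_iff_lt.1 (by
      simp only at hx0 hy0
      simp only [hx0, hy0]
      exact hp.1), ht⟩
    have e : TP f (x0, y0, t) = (x, y, t) := Prod.ext hx0 (Prod.ext hy0 rfl)
    have s := fun p hp => st p hp k
    generalize Real.pi / 2 + k * Real.pi = c at he s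
    have q1 : c < Θ (x0, y0, t) := by
      by_contra hn
      have := s _ hq (not_lt.1 hn)
      rw [e, he] at this
      exact lt_irrefl _ this
    have q2 : Θ (TP f (TP f (x0, y0, t))) < c := by
      rw [e]
      exact s _ hp he.le
    have c2 : ContinuousOn (fun p => Θ (TP f (TP f p))) (PS t₁ t₂) :=
      hT.cont.comp ((contTP hc).comp (contTP hc) (maps hc)) ((maps hc).comp (maps hc))
    have o1 := hT.cont.isOpen_inter_preimage openPS (isOpen_Ioi (a := c))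
    have o2 := c2.isOpen_inter_preimage openPS (isOpen_Iio (a := c))
    obtain ⟨ε, hε, hb⟩ := Metric.isOpen_iff.1 (o1.inter o2) (x0, y0, t) ⟨⟨hq, q1⟩, hq, q2⟩
    obtain ⟨τ, hτ, φ, hφ, φ', hφ', n, hn, m, r1, r2⟩ := hpair t₁ t₂ f hc hR (x0 - ε) (x0 + ε)
      (y0 - ε) (y0 + ε) (max t₁ (t - ε)) (min t₂ (t + ε)) (by linarith) (by linarith)
      (le_max_left _ _) ((max_lt ht.1 (by linarith)).trans (lt_min ht.2 (by linarith)))
      (min_le_left _ _)
    have box : ∀ u ∈ Ioo (x0 - ε) (x0 + ε), ∀ v ∈ Ioo (y0 - ε) (y0 + ε), (u, v, τ) ∈ PS t₁ t₂ ∧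
        c < Θ (u, v, τ) ∧ Θ (TP f (TP f (u, v, τ))) < c := by
      intro u hu v hv
      have hτ' : τ ∈ Ioo (t - ε) (t + ε) :=
        ⟨(le_max_right _ _).trans_lt hτ.1, hτ.2.trans_le (min_le_right _ _)⟩
      rw [← Real.ball_eq_Ioo] at hu hv hτ'
      have : (u, v, τ) ∈ Metric.ball (x0, y0, t) ε := by
        rw [← ball_prod_same, ← ball_prod_same]
        exact ⟨hu, hv, hτ'⟩
      exact ⟨(hb this).1.1, (hb this).1.2, (hb this).2.2⟩
    obtain ⟨b1, _, b3⟩ := box φ hφ φ' hφ'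
    obtain ⟨d1, d2, _⟩ := box _ r1 _ r2
    have it : ∀ j : ℕ, 2 ≤ j → ((fun x => f (x, τ))^[j] φ, (fun x => f (x, τ))^[j] φ', τ) ∈
        PS t₁ t₂ ∧ Θ ((fun x => f (x, τ))^[j] φ, (fun x => f (x, τ))^[j] φ', τ) < c := by
      intro j hj
      induction j, hj using Nat.le_induction with
      | base => exact ⟨maps hc (maps hc b1), b3⟩
      | succ j _ ih =>
        rw [Function.iterate_succ_apply', Function.iterate_succ_apply']
        exact ⟨maps hc ih.1, s _ ih.1 ih.2.le⟩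
    have pm := per hT d1.1 d1.2 m
    simp only [sub_add_cancel] at pm
    have := (it n hn).2
    rw [pm] at this
    exact lt_asymm this d2
  intro t ht φ φ' hlt
  have hp : (φ, φ', t) ∈ PS t₁ t₂ := ⟨hlt, ht⟩
  have c1 : ContinuousOn (fun y => Θ (φ, y, t)) (Ioi φ) :=
    hT.cont.comp (f := fun y : ℝ => (φ, y, t)) (by fun_prop) fun y hy => ⟨hy, ht⟩
  have n1 := hT.nrm φ t ht
  have m1 : φ + 1 ∈ Ioi φ := lt_add_one φ
  have pp := Real.pi_pos
  have u1 : Θ (φ, φ', t) < Real.pi / 2 := by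
    by_contra hn
    obtain ⟨y, hy, e⟩ := isPreconnected_Ioi.intermediate_value m1 hlt c1
      (show Real.pi / 2 ∈ Icc (Θ (φ, φ + 1, t)) (Θ (φ, φ', t)) from
        ⟨by linarith, not_lt.1 hn⟩)
    exact key (φ, y, t) ⟨hy, ht⟩ 0 (by simpa using e)
  have u2 : -(Real.pi / 2) < Θ (φ, φ', t) := by
    by_contra hn
    obtain ⟨y, hy, e⟩ := isPreconnected_Ioi.intermediate_value hlt m1 c1
      (show -(Real.pi / 2) ∈ Icc (Θ (φ, φ', t)) (Θ (φ, φ + 1, t)) from
        ⟨not_lt.1 hn, by linarith⟩)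
    refine key (φ, y, t) ⟨hy, ht⟩ (-1) ?_
    simp only at e
    push_cast
    linarith
  have h1 := congrArg Complex.re (hT.pol _ hp)
  rw [Complex.re_ofReal_mul, Complex.exp_ofReal_mul_I_re] at h1
  have h2 : (vv a b (φ, φ', t)).re = a (φ', t) - a (φ, t) := by simp [vv]
  have h3 := mul_pos (norm_pos_iff.2 (hT.ne _ hp)) (Real.cos_pos_of_mem_Ioo ⟨u2, u1⟩)
  change a (φ, t) < a (φ', t)
  linarith

end Vale.Agent.P097
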