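import Vale.Agent.P097.BStm

open Set Complex MeasureTheory

namespace Vale.Agent.P097

namespace BDenseAux

theorem cont {t₁ t₂ : ℝ} {f : ℝ × ℝ → ℝ} (h : CF t₁ t₂ f) (φ : ℝ) :
    ∀ k : ℕ, ContinuousOn (fun t => (fun x => f (x, t))^[k] φ) (Ioo t₁ t₂)
  | 0 => continuousOn_const
  | k + 1 => by
    refine (h.cf.comp ((cont h φ k).prodMk continuousOn_id)
      fun t ht => ⟨mem_univ _, ht⟩).congr fun t _ => ?_
    exact Function.iterate_succ_apply' _ _ _

end BDenseAux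

theorem denseE : S_dense := by
  intro t₁ t₂ f h hr
  refine ⟨fun k φ => BDenseAux.cont h φ k, fun q u v u' v' c d hq huv huv' hc hcd hd => ?_⟩
  obtain ⟨t, ht, φ, hφ, n, hn, m, hm⟩ := hr q u v c d hq huv hc hcd hd
  have h1 : ContinuousAt (fun t => (fun x => f (x, t))^[q * n] φ - m) t :=
    ((BDenseAux.cont h φ (q * n)).continuousAt
      (Ioo_mem_nhds (hc.trans_lt ht.1) (ht.2.trans_le hd))).sub continuousAt_const
  obtain ⟨c', d', h2, h3⟩ := mem_nhds_iff_exists_Ioo_subset.1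
    (Filter.inter_mem (h1.preimage_mem_nhds (isOpen_Ioo.mem_nhds hm)) (isOpen_Ioo.mem_nhds ht))
  obtain ⟨s, hs, hs'⟩ := hr q u' v' (max c c') (min d d') hq huv' (hc.trans (le_max_left _ _))
    ((max_lt ht.1 h2.1).trans (lt_min ht.2 h2.2)) ((min_le_left _ _).trans hd)
  have h4 := h3 ⟨(le_max_right _ _).trans_lt hs.1, hs.2.trans_le (min_le_right _ _)⟩
  exact ⟨s, h4.2, ⟨φ, hφ, n, hn, m, h4.1⟩, hs'⟩

end Vale.Agent.P097
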