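import Vale.Agent.P097.BStm

open Set Complex MeasureTheory

namespace Vale.Agent.P097

namespace BEndAux

variable {γ : ℝ → ℂ} {L η : ℝ} {e : OpenPartialHomeomorph (ℝ × ℝ) (ℝ × ℝ)}

theorem src (h : Fol γ L η e) (φ : ℝ) {t : ℝ} (ht : t ∈ Ioo (0:ℝ) 1) : (φ, t) ∈ e.source := by
  rw [h.src]; exact ⟨mem_univ _, ht⟩

theorem tau (h : Fol γ L η e) {y : ℝ × ℝ} (hy : y ∈ e.target) : (e.symm y).2 ∈ Ioo (0:ℝ) 1 := by
  have := e.map_target hy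
  rw [h.src] at this
  exact this.2

theorem mu (h : Fol γ L η e) {a b : ℝ} (ha : 0 < a) (hab : a ≤ b) (hb : b < 1) :
    ∃ μ : ℝ, 0 < μ ∧ ∀ φ : ℝ, ∀ t ∈ Icc a b, μ ≤ (e (φ, t)).2 := by
  have hI : ∀ t ∈ Icc a b, t ∈ Ioo (0:ℝ) 1 := fun t ht => ⟨ha.trans_le ht.1, ht.2.trans_lt hb⟩
  have hK : Icc (0:ℝ) 1 ×ˢ Icc a b ⊆ e.source := fun x hx => src h x.1 (hI _ hx.2)
  obtain ⟨x, hx, hm⟩ := (isCompact_Icc.prod isCompact_Icc).exists_isMinOn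
    (f := fun x => (e x).2) ((nonempty_Icc.2 zero_le_one).prod (nonempty_Icc.2 hab))
    (e.continuousOn.mono hK).snd
  refine ⟨(e x).2, (h.sup (e.map_source (hK hx))).2.1, fun φ t ht => ?_⟩
  have hp : Function.Periodic (fun φ : ℝ => (e (φ, t)).2) 1 := fun φ => by
    simp only [h.per φ t (hI t ht)]
  obtain ⟨y, hy, he⟩ := hp.exists_mem_Ico₀ one_pos φ
  exact (hm (a := (y, t)) ⟨Ico_subset_Icc_self hy, ht⟩).trans he.ge

theorem shift (h : Fol γ L η e) {s δ : ℝ} (hy : (s, δ) ∈ e.target) :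
    (e.symm (s + L, δ)).2 = (e.symm (s, δ)).2 := by
  have h1 := h.per (e.symm (s, δ)).1 _ (tau h hy)
  rw [Prod.mk.eta, e.right_inv hy] at h1
  rw [← h1, e.left_inv (src h _ (tau h hy))]

theorem ext (hL : 0 < L) (h : Fol γ L η e) {δ : ℝ} (hδ : δ ∈ Ioo 0 η) : ∃ s₁ s₂ : ℝ, ∀ s : ℝ,
    (e.symm (s₁, δ)).2 ≤ (e.symm (s, δ)).2 ∧ (e.symm (s, δ)).2 ≤ (e.symm (s₂, δ)).2 := by
  have hT : ∀ s : ℝ, (s, δ) ∈ e.target := fun s => h.sub ⟨mem_univ _, hδ⟩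
  have hc : ContinuousOn (fun s : ℝ => (e.symm (s, δ)).2) (Icc 0 L) :=
    (e.continuousOn_symm.comp (continuous_id.prodMk continuous_const).continuousOn
      fun s _ => hT s).snd
  have hp : Function.Periodic (fun s : ℝ => (e.symm (s, δ)).2) L := fun s => shift h (hT s)
  obtain ⟨s₁, -, h1⟩ := isCompact_Icc.exists_isMinOn (nonempty_Icc.2 hL.le) hc
  obtain ⟨s₂, -, h2⟩ := isCompact_Icc.exists_isMaxOn (nonempty_Icc.2 hL.le) hc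
  refine ⟨s₁, s₂, fun s => ?_⟩
  obtain ⟨y, hy, he⟩ := hp.exists_mem_Ico₀ hL s
  exact ⟨(h1 (Ico_subset_Icc_self hy)).trans he.ge, he.le.trans (h2 (Ico_subset_Icc_self hy))⟩

theorem below (h : Fol γ L η e) {t₁ t₂ c η' : ℝ} (h1 : 0 ≤ t₁) (h2 : t₂ ≤ 1) (hc : 0 < c)
    (hη : 0 < η') (hne : ∀ φ : ℝ, ∀ t ∈ Ioo t₁ t₂, (e (φ, t)).2 ≠ c)
    (hcov : ∀ s δ : ℝ, 0 < δ → δ < η' → ∃ φ : ℝ, ∃ t ∈ Ioo t₁ t₂, e (φ, t) = (s, δ)) :
    ∀ φ : ℝ, ∀ t ∈ Ioo t₁ t₂, (e (φ, t)).2 < c := by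
  intro φ t ht
  by_contra hge
  have hm : 0 < min η' c := lt_min hη hc
  obtain ⟨φ', t', ht', he⟩ := hcov 0 (min η' c / 2) (by linarith)
    (by linarith [min_le_left η' c])
  have hs : (univ : Set ℝ) ×ˢ Ioo t₁ t₂ ⊆ e.source := fun x hx =>
    src h x.1 ⟨h1.trans_lt hx.2.1, hx.2.2.trans_le h2⟩
  obtain ⟨x, hx, hx'⟩ := (isPreconnected_univ.prod isPreconnected_Ioo).intermediate_value
    (f := fun x => (e x).2) (a := (φ', t')) (b := (φ, t)) ⟨mem_univ _, ht'⟩ ⟨mem_univ _, ht⟩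
    (e.continuousOn.mono hs).snd (show c ∈ Icc _ _ from
      ⟨by simp only [he]; linarith [min_le_right η' c], not_lt.1 hge⟩)
  exact hne x.1 x.2 hx.2 hx'

theorem side (h : Fol γ L η e) : ∃ η₀ : ℝ, 0 < η₀ ∧ η₀ ≤ η ∧
    ((∀ y ∈ (univ : Set ℝ) ×ˢ Ioo 0 η₀, (e.symm y).2 < 1 / 2) ∨
      ∀ y ∈ (univ : Set ℝ) ×ˢ Ioo 0 η₀, 1 / 2 < (e.symm y).2) := by
  obtain ⟨μ, hμ, hm⟩ := mu h (a := 1 / 2) (b := 1 / 2) (by norm_num) le_rfl (by norm_num)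
  refine ⟨min η μ, lt_min h.pos hμ, min_le_left _ _, ?_⟩
  have hs : (univ : Set ℝ) ×ˢ Ioo 0 (min η μ) ⊆ e.target := fun y hy =>
    h.sub ⟨mem_univ _, hy.2.1, hy.2.2.trans_le (min_le_left _ _)⟩
  have hne : ∀ y ∈ (univ : Set ℝ) ×ˢ Ioo 0 (min η μ), (e.symm y).2 ≠ 1 / 2 := by
    intro y hy he
    have := hm (e.symm y).1 (e.symm y).2 ⟨he.ge, he.le⟩
    rw [Prod.mk.eta, e.right_inv (hs hy)] at this
    exact (hy.2.2.trans_le (min_le_right _ _)).not_ge this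
  by_contra hn
  simp only [not_or, not_forall, not_lt, exists_prop] at hn
  obtain ⟨⟨y, hy, h1⟩, z, hz, h2⟩ := hn
  obtain ⟨x, hx, hx'⟩ := (isPreconnected_univ.prod isPreconnected_Ioo).intermediate_value
    (f := fun y => (e.symm y).2) hz hy (e.continuousOn_symm.mono hs).snd
    (show 1 / 2 ∈ Icc _ _ from ⟨h2, h1⟩)
  exact hne x hx hx'

end BEndAux

theorem endE : S_end := by
  intro γ L η e hL h η₁ hη₁
  obtain ⟨η₀, h0, h0', hside⟩ := BEndAux.side h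
  have hm : 0 < min η₁ η₀ := lt_min hη₁ h0
  obtain ⟨c, hc0, hc1, hc2⟩ : ∃ c : ℝ, 0 < c ∧ c < η₁ ∧ c < η₀ :=
    ⟨min η₁ η₀ / 2, by linarith, by linarith [min_le_left η₁ η₀], by linarith [min_le_right η₁ η₀]⟩
  have hT : ∀ s δ : ℝ, 0 < δ → δ < η₀ → (s, δ) ∈ e.target := fun s δ a b =>
    h.sub ⟨mem_univ _, a, b.trans_le h0'⟩
  obtain ⟨s₁, s₂, hs⟩ := BEndAux.ext hL h (δ := c) ⟨hc0, hc2.trans_le h0'⟩
  have hv : ∀ φ : ℝ, ∀ t ∈ Ioo (0:ℝ) 1, (e (φ, t)).2 = c →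
      (e.symm (s₁, c)).2 ≤ t ∧ t ≤ (e.symm (s₂, c)).2 := by
    intro φ t ht he
    have := hs (e (φ, t)).1
    rwa [show ((e (φ, t)).1, c) = e (φ, t) by rw [← he], e.left_inv (BEndAux.src h φ ht)] at this
  rcases hside with hl | hl
  · have a1 := BEndAux.tau h (hT s₁ c hc0 hc2)
    have a2 := hl (s₁, c) ⟨mem_univ _, hc0, hc2⟩
    obtain ⟨μ, hμ, hm⟩ := BEndAux.mu h a1.1 a2.le (by norm_num)
    have hcov : ∀ s δ : ℝ, 0 < δ → δ < min η₀ μ →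
        ∃ φ : ℝ, ∃ t ∈ Ioo 0 (e.symm (s₁, c)).2, e (φ, t) = (s, δ) := by
      intro s δ b1 b2
      have b3 := b2.trans_le (min_le_left _ _)
      have b4 := e.right_inv (hT s δ b1 b3)
      refine ⟨(e.symm (s, δ)).1, (e.symm (s, δ)).2,
        ⟨(BEndAux.tau h (hT s δ b1 b3)).1, not_le.1 fun b5 => ?_⟩, b4⟩
      have := hm (e.symm (s, δ)).1 _ ⟨b5, (hl (s, δ) ⟨mem_univ _, b1, b3⟩).le⟩
      rw [Prod.mk.eta, b4] at this
      exact (b2.trans_le (min_le_right _ _)).not_ge this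
    refine ⟨0, _, le_rfl, a1.1, a1.2.le, fun φ t ht => (BEndAux.below h le_rfl a1.2.le hc0
      (lt_min h0 hμ) (fun φ t ht he => ?_) hcov φ t ht).trans hc1, _, lt_min h0 hμ, hcov⟩
    exact ht.2.not_ge (hv φ t ⟨ht.1, ht.2.trans a1.2⟩ he).1
  · have a1 := BEndAux.tau h (hT s₂ c hc0 hc2)
    have a2 := hl (s₂, c) ⟨mem_univ _, hc0, hc2⟩
    obtain ⟨μ, hμ, hm⟩ := BEndAux.mu h (by norm_num) a2.le a1.2
    have hcov : ∀ s δ : ℝ, 0 < δ → δ < min η₀ μ →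
        ∃ φ : ℝ, ∃ t ∈ Ioo (e.symm (s₂, c)).2 1, e (φ, t) = (s, δ) := by
      intro s δ b1 b2
      have b3 := b2.trans_le (min_le_left _ _)
      have b4 := e.right_inv (hT s δ b1 b3)
      refine ⟨(e.symm (s, δ)).1, (e.symm (s, δ)).2,
        ⟨not_le.1 fun b5 => ?_, (BEndAux.tau h (hT s δ b1 b3)).2⟩, b4⟩
      have := hm (e.symm (s, δ)).1 _ ⟨(hl (s, δ) ⟨mem_univ _, b1, b3⟩).le, b5⟩
      rw [Prod.mk.eta, b4] at this
      exact (b2.trans_le (min_le_right _ _)).not_ge this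
    refine ⟨_, 1, a1.1.le, a1.2, le_rfl, fun φ t ht => (BEndAux.below h a1.1.le le_rfl hc0
      (lt_min h0 hμ) (fun φ t ht he => ?_) hcov φ t ht).trans hc1, _, lt_min h0 hμ, hcov⟩
    exact ht.1.not_ge (hv φ t ⟨a1.1.trans ht.1, ht.2⟩ he).2

end Vale.Agent.P097
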