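import Vale.Agent.P097.BStm

open Set Complex MeasureTheory

namespace Vale.Agent.P097

namespace BFddAux

variable {γ : ℝ → ℂ} {L d s s' t t' : ℝ}

theorem uO (h : LC γ L d) (a : (s, t) ∈ Sp d) (b : (s, t') ∈ Sp d)
    (c : aO γ (s, t) ≤ aO γ (s, t')) : t ≤ t' :=
  not_lt.1 fun k => (h.mo s t' t b.1 k a.2).not_ge c

theorem uI (h : LC γ L d) (a : (s, t) ∈ Sp d) (b : (s', t) ∈ Sp d)
    (c : aI γ (s, t) ≤ aI γ (s', t)) : s' ≤ s :=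
  not_lt.1 fun k => (h.mi s s' t k b.1 a.2).not_ge c

end BFddAux

open BFddAux in
theorem fddE : S_fdd := by
  intro γ L η d t₁ t₂ e b f hL hf hc hk
  have m : ∀ t ∈ Ioo t₁ t₂, t ∈ Ioo (0 : ℝ) 1 := fun t ht =>
    ⟨hk.t0.trans_lt ht.1, ht.2.trans_le hk.t1⟩
  have ie : ∀ φ φ', ∀ t ∈ Ioo t₁ t₂, e (φ, t) = e (φ', t) → φ = φ' := fun φ φ' t ht h =>
    congrArg Prod.fst (e.injOn (hf.src ▸ ⟨trivial, m t ht⟩) (hf.src ▸ ⟨trivial, m t ht⟩) h)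
  have pb : ∀ φ : ℝ, ∀ t ∈ Ioo t₁ t₂, b (φ + 1, t) = b (φ, t) + L := fun φ t ht => by
    obtain ⟨a1, a2, -⟩ := hk.h φ t ht
    obtain ⟨b1, b2, -⟩ := hk.h (φ + 1) t ht
    rw [hf.per φ t (m t ht)] at b1 b2
    have c1 : ((e (φ, t)).1 + L, b (φ, t) + L) ∈ Sp d :=
      ⟨add_lt_add_left a1.1 L, (add_lt_add_left a1.2 L).trans_eq (add_right_comm _ _ _)⟩
    have c2 := b2.trans ((hc.per _ _).1.trans a2).symm
    exact le_antisymm (uO hc b1 c1 c2.le) (uO hc c1 b1 c2.ge)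
  have pf : ∀ φ : ℝ, ∀ t ∈ Ioo t₁ t₂, f (φ + 1, t) = f (φ, t) + 1 := fun φ t ht =>
    ie _ _ t ht (by rw [(hk.h (φ + 1) t ht).2.2, hf.per _ t (m t ht), hf.per _ t (m t ht),
      (hk.h φ t ht).2.2, pb φ t ht, (hc.per _ _).2])
  have inj : ∀ φ φ' : ℝ, ∀ t ∈ Ioo t₁ t₂, (e (φ, t)).1 = (e (φ', t)).1 → b (φ, t) = b (φ', t) →
      φ = φ' := fun φ φ' t ht h1 h2 =>
    ie _ _ t ht (Prod.ext h1 (by rw [← (hk.h φ t ht).2.1, ← (hk.h φ' t ht).2.1, h1, h2]))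
  refine ⟨hL, hk.lt, ⟨hk.cf, pf, fun t ht => ?_⟩, continuous_fst.comp_continuousOn
    (e.continuousOn.mono fun x hx => hf.src ▸ ⟨trivial, m _ hx.2⟩), hk.cb,
    fun φ t ht => congrArg Prod.fst (hf.per φ t (m t ht)), pb,
    fun φ t ht => congrArg Prod.fst (hk.h φ t ht).2.2, inj, fun φ φ' t ht h1 h2 => ?_⟩
  · have c : Continuous fun φ => f (φ, t) :=
      hk.cf.comp_continuous (by fun_prop) fun φ => ⟨trivial, ht⟩
    refine (c.strictMono_of_inj fun φ φ' h => ?_).resolve_right fun h => ?_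
    · obtain ⟨a1, -, a3⟩ := hk.h φ t ht
      obtain ⟨b1, -, b3⟩ := hk.h φ' t ht
      obtain ⟨c1, c2⟩ := Prod.ext_iff.1 (a3.symm.trans ((congrArg (fun x => e (x, t)) h).trans b3))
      dsimp only at c1 c2
      rw [← c1] at b1 c2
      exact inj _ _ t ht (le_antisymm (uI hc b1 a1 c2.ge) (uI hc a1 b1 c2.le)) c1
    · have := h (lt_add_one 0)
      simp only [pf 0 t ht] at this
      linarith
  · obtain ⟨a1, -, a3⟩ := hk.h φ t ht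
    obtain ⟨b1, -, b3⟩ := hk.h φ' t ht
    obtain ⟨c1, c2, -⟩ := hk.h (f (φ, t)) t ht
    obtain ⟨d1, d2, -⟩ := hk.h (f (φ', t)) t ht
    rw [a3] at c1 c2
    rw [b3, ← h1] at d1 d2
    rw [← h1] at b1
    exact not_le.1 fun k => (hc.mi _ _ _ h2 b1.1 a1.2).not_ge (c2.symm.trans_le (by
      rcases k.eq_or_lt with k | k
      · exact (k ▸ d2).le
      · exact (hc.mo _ _ _ c1.1 k d1.2).le.trans d2.le))

end Vale.Agent.P097
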