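import Vale.Agent.P097.BStm

open Set Complex MeasureTheory

namespace Vale.Agent.P097

theorem frecE (hrec : S_rec) (harea : S_area) : S_frec := by
  intro γ L η d t₁ t₂ e b f hT hF hC hK hf
  have hS : univ ×ˢ Ioo t₁ t₂ ⊆ e.source := by
    rw [hF.src]
    exact prod_mono Subset.rfl (Ioo_subset_Ioo hK.t0 hK.t1)
  have hA : ∀ x ∈ univ ×ˢ Ioo t₁ t₂, (e x).2 ∈ Ioo 0 Real.pi := fun x hx =>
    (hF.sup (e.map_source (hS hx))).2
  have ce : ContinuousOn e (univ ×ˢ Ioo t₁ t₂) := e.continuousOn.mono hS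
  have ie : InjOn e (univ ×ˢ Ioo t₁ t₂) := e.injOn.mono hS
  refine hrec L 1 t₁ t₂ f (fun x => ((e x).1, Real.cos (e x).2)) hT.pos hf
    (ce.fst.prodMk (Real.continuous_cos.comp_continuousOn ce.snd)) ?_ ?_ ?_ ?_
  · intro x hx y hy h
    have h1 : (e x).1 = (e y).1 := (Prod.mk.inj h).1
    have h2 : Real.cos (e x).2 = Real.cos (e y).2 := (Prod.mk.inj h).2
    exact ie hx hy (Prod.ext h1 (Real.injOn_cos (Ioo_subset_Icc_self (hA x hx))
      (Ioo_subset_Icc_self (hA y hy)) h2))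
  · intro φ t ht
    refine ⟨?_, Real.abs_cos_le_one _⟩
    simp only [hF.per φ t ⟨hK.t0.trans_lt ht.1, ht.2.trans_le hK.t1⟩]
  · intro u v c d' huv hc hcd hd
    have hO : Ioo u v ×ˢ Ioo c d' ⊆ univ ×ˢ Ioo t₁ t₂ :=
      prod_mono (subset_univ _) (Ioo_subset_Ioo hc hd)
    have ho : IsOpen (e '' (Ioo u v ×ˢ Ioo c d')) :=
      e.isOpen_image_of_subset_source (isOpen_Ioo.prod isOpen_Ioo) (hO.trans hS)
    have hc2 : Continuous fun y : ℝ × ℝ => (y.1, Real.arccos y.2) :=
      continuous_fst.prodMk (Real.continuous_arccos.comp continuous_snd)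
    refine lt_of_lt_of_le ((ho.preimage hc2).measure_pos volume ?_) (measure_mono ?_)
    · obtain ⟨x, hx⟩ : (Ioo u v ×ˢ Ioo c d').Nonempty :=
        (nonempty_Ioo.2 huv).prod (nonempty_Ioo.2 hcd)
      refine ⟨((e x).1, Real.cos (e x).2), x, hx, ?_⟩
      have h1 := hA x (hO hx)
      simp only [Real.arccos_cos h1.1.le h1.2.le]
    · rintro y ⟨x, hx, h⟩
      have h1 := hA x (hO hx)
      rw [h] at h1
      refine ⟨x, hx, ?_⟩
      simp only [h, Real.cos_arccos (Real.arccos_lt_pi.1 h1.2).le (Real.arccos_pos.1 h1.1).le]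
  · intro E hE hm
    have cP : ContinuousOn (fun x => ((e x).1, b x)) (univ ×ˢ Ioo t₁ t₂) := ce.fst.prodMk hK.cb
    have iP : InjOn (fun x => ((e x).1, b x)) (univ ×ˢ Ioo t₁ t₂) := by
      intro x hx y hy h
      have h1 := (hK.h x.1 x.2 hx.2).2.1
      have h2 := (hK.h y.1 y.2 hy.2).2.1
      have h3 : ((e x).1, b x) = ((e y).1, b y) := h
      refine ie hx hy (Prod.ext (Prod.mk.inj h3).1 ?_)
      rw [← h1, ← h2]
      exact congrArg (aO γ) h3
    have h1 := harea γ L d ((fun x => ((e x).1, b x)) '' E) hT hC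
      (by
        rintro _ ⟨x, hx, rfl⟩
        exact (hK.h x.1 x.2 (hE hx).2).1)
      (hm.image_of_continuousOn_injOn (cP.mono hE) (iP.mono hE))
    rw [image_image, image_image] at h1
    rw [image_image]
    have e1 : (fun x => ((e x).1, Real.cos (e x).2)) '' E =
        (fun x => ((e x).1, Real.cos (aO γ ((e x).1, b x)))) '' E :=
      image_congr fun x hx => by rw [(hK.h x.1 x.2 (hE hx).2).2.1]
    have e2 : (fun x => ((e (f x, x.2)).1, Real.cos (e (f x, x.2)).2)) '' E =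
        (fun x => (b x, Real.cos (aI γ ((e x).1, b x)))) '' E :=
      image_congr fun x hx => by rw [(hK.h x.1 x.2 (hE hx).2).2.2]
    rw [e1, e2]
    exact h1.symm

end Vale.Agent.P097
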