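import Vale.Agent.P097.BStm

open Set Complex MeasureTheory

namespace Vale.Agent.P097

namespace BGr0Aux

theorem surj {a : ℝ → ℝ} {L : ℝ} (hL : 0 < L) (hc : Continuous a) (hp : ∀ φ, a (φ + 1) = a φ + L) :
    Function.Surjective a := by
  have h1 : ∀ (n : ℕ) (φ : ℝ), a (φ + n) = a φ + n * L := by
    intro n φ
    induction n with
    | zero => simp
    | succ n ih => rw [Nat.cast_succ, ← add_assoc, hp, ih]; ring
  intro s
  obtain ⟨n, hn⟩ := exists_nat_ge (|s - a 0| / L)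
  rw [div_le_iff₀ hL] at hn
  have e1 := h1 n 0
  have e2 := h1 n (-n)
  rw [neg_add_cancel] at e2
  have := abs_le.1 hn
  exact intermediate_value_univ (-(n:ℝ)) (0 + n) hc ⟨by linarith [this.1], by linarith [this.2]⟩

end BGr0Aux

theorem gr0E : S_gr0 := by
  intro γ L η e hL hf t ht hm
  have hs : ∀ φ : ℝ, (φ, t) ∈ e.source := fun φ => by rw [hf.src]; exact ⟨mem_univ _, ht⟩
  have hce : Continuous fun φ : ℝ => e (φ, t) :=
    e.continuousOn.comp_continuous (continuous_id.prodMk continuous_const) hs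
  have hp : ∀ φ : ℝ, (e (φ + 1, t)).1 = (e (φ, t)).1 + L := fun φ => by rw [hf.per φ t ht]
  have hsur := BGr0Aux.surj hL hce.fst hp
  let a := hm.orderIsoOfSurjective _ hsur
  have ha : ∀ φ : ℝ, a.symm (e (φ, t)).1 = φ := fun φ => a.symm_apply_apply φ
  have key : ∀ φ : ℝ, (e (a.symm (e (φ, t)).1, t)).2 = (e (φ, t)).2 := fun φ => by rw [ha]
  refine ⟨fun s => (e (a.symm s, t)).2, ⟨hce.snd.comp a.symm.continuous, fun s => ?_,
    fun s => (hf.sup (e.map_source (hs _))).2, fun s s' δ' h0 h1 hst => ?_⟩, key⟩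
  · obtain ⟨φ, rfl⟩ := hsur s
    show (e (a.symm ((e (φ, t)).1 + L), t)).2 = (e (a.symm (e (φ, t)).1, t)).2
    rw [← hp, key, key, hf.per φ t ht]
  · obtain ⟨φ, rfl⟩ := hsur s
    have hst' : Step γ L (e (φ, t)).1 (e (φ, t)).2 s' δ' := by rw [← key φ]; exact hst
    obtain ⟨φ', h'⟩ := hf.inv φ t ht s' δ' h0 h1 hst'
    have := key φ'
    rw [h'] at this
    exact this.symm

end Vale.Agent.P097
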