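import Vale.Agent.P097.BStm

open Set Complex MeasureTheory

namespace Vale.Agent.P097

namespace BIrrAux

theorem ord (G : CircleDeg1Lift) (x : ℝ) (k k' : ℕ) (j j' : ℤ)
    (h : k * G.translationNumber - j < k' * G.translationNumber - j') :
    G^[k] x - j < G^[k'] x - j' := by
  rcases le_total k k' with hk | hk
  · obtain ⟨d, rfl⟩ := Nat.exists_eq_add_of_le' hk
    have h1 := (G ^ d).lt_map_of_int_lt_translationNumber (n := j' - j) (by
      rw [CircleDeg1Lift.translationNumber_pow]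
      push_cast at h ⊢
      linarith) (G^[k] x)
    rw [CircleDeg1Lift.coe_pow] at h1
    rw [Function.iterate_add_apply]
    push_cast at h1
    linarith
  · obtain ⟨d, rfl⟩ := Nat.exists_eq_add_of_le' hk
    have h1 := (G ^ d).map_lt_of_translationNumber_lt_int (n := j - j') (by
      rw [CircleDeg1Lift.translationNumber_pow]
      push_cast at h ⊢
      linarith) (G^[k'] x)
    rw [CircleDeg1Lift.coe_pow] at h1
    rw [Function.iterate_add_apply]
    push_cast at h1
    linarith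

theorem ne0 {ω : ℝ} (h : Irrational ω) {n : ℕ} (hn : 1 ≤ n) (m : ℤ) : n * ω - m ≠ 0 := fun e =>
  (h.natCast_mul (m := n) (by omega)).ne_int m (sub_eq_zero.1 e)

theorem one (G : CircleDeg1Lift) (h : Irrational G.translationNumber) {u v : ℝ}
    (hr : Ret G 1 u v) : ∃ x ∈ Ioo u v, ∃ D : ℝ, 0 < D ∧ ∀ (n : ℕ) (m : ℤ),
      0 < n * G.translationNumber - m → n * G.translationNumber - m < D →
        G^[n] x - m ∈ Ioo u v := by
  obtain ⟨φ, hφ, N, hN, M, hM⟩ := hr
  rw [one_mul] at hM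
  rcases lt_or_gt_of_ne (ne0 h hN M) with h0 | h0
  · refine ⟨_, hM, M - N * G.translationNumber, by linarith, fun n m h1 h2 => ?_⟩
    have e : G^[n] (G^[N] φ - M) - m = G^[n + N] φ - (m + M : ℤ) := by
      rw [Function.iterate_add_apply, ← CircleDeg1Lift.coe_pow G n, CircleDeg1Lift.map_sub_int]
      push_cast
      ring
    have a1 := ord G φ N (n + N) M (m + M) (by push_cast; linarith)
    have a2 := ord G φ (n + N) 0 (m + M) 0 (by push_cast; linarith)
    rw [e]
    simp only [Function.iterate_zero, id, Int.cast_zero, sub_zero] at a2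
    exact ⟨hM.1.trans a1, a2.trans hφ.2⟩
  · refine ⟨φ, hφ, _, h0, fun n m h1 h2 => ?_⟩
    have a1 := ord G φ 0 n 0 m (by push_cast; linarith)
    simp only [Function.iterate_zero, id, Int.cast_zero, sub_zero] at a1
    exact ⟨hφ.1.trans a1, (ord G φ n N m M h2).trans hM.2⟩

theorem small1 {ω : ℝ} (h : Irrational ω) {e : ℝ} (he : 0 < e) :
    ∃ (n : ℕ) (m : ℤ), 1 ≤ n ∧ 0 < n * ω - m ∧ n * ω - m < e := by
  obtain ⟨N, hN⟩ := exists_nat_one_div_lt he
  obtain ⟨j, k, hk, -, hj⟩ := Real.exists_int_int_abs_mul_sub_le ω (n := N + 1) N.succ_pos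
  obtain ⟨k, rfl⟩ := Int.eq_ofNat_of_zero_le hk.le
  have k1 : 1 ≤ k := by exact_mod_cast hk
  have N0 : (0:ℝ) ≤ N := N.cast_nonneg
  have b1 : 1 / (((N + 1 : ℕ) : ℝ) + 1) ≤ 1 / ((N:ℝ) + 1) :=
    one_div_le_one_div_of_le (by linarith) (by push_cast; linarith)
  have b2 : 1 / ((N:ℝ) + 1) ≤ 1 := (div_le_one (by linarith)).2 (by linarith)
  rw [Int.cast_natCast, abs_le] at hj
  rcases lt_or_gt_of_ne (ne0 h k1 j) with h0 | h0
  · have t0 : 0 < j - k * ω := by linarith
    have r1 : 1 ≤ ⌊1 / (j - k * ω)⌋₊ :=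
      Nat.le_floor (by rw [Nat.cast_one, le_div_iff₀ t0]; linarith)
    have r2 := (le_div_iff₀ t0).1 (Nat.floor_le (a := 1 / (j - k * ω)) (by positivity))
    have r3 := (div_lt_iff₀ t0).1 (Nat.lt_floor_add_one (1 / (j - k * ω)))
    generalize ⌊1 / (j - k * ω)⌋₊ = r at r1 r2 r3
    have n1 : 1 ≤ r * k := Nat.mul_pos r1 k1
    refine ⟨r * k, r * j - 1, n1, lt_of_le_of_ne ?_ (ne0 h n1 _).symm, ?_⟩ <;> push_cast <;>
      linarith
  · exact ⟨k, j, k1, h0, by linarith⟩

end BIrrAux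

open BIrrAux in
theorem irrE : S_irr := by
  intro G u v u' v' h h1 h2
  obtain ⟨x, hx, D, hD, a⟩ := one G h h1
  obtain ⟨x', hx', D', hD', a'⟩ := one G h h2
  obtain ⟨n, m, n1, b1, b2⟩ := small1 h (half_pos (lt_min hD hD'))
  have c1 := min_le_left D D'
  have c2 := min_le_right D D'
  refine ⟨x, hx, x', hx', 2 * n, by omega, 2 * m, a _ _ ?_ ?_, a' _ _ ?_ ?_⟩ <;> push_cast <;>
    linarith

end Vale.Agent.P097
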