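import Vale.Agent.P097.BStm

open Set Complex MeasureTheory

namespace Vale.Agent.P097

namespace BLcAux

theorem arg_up {z : ℂ} (h1 : 0 < z.re) (h2 : 0 < z.im) : 0 < arg z ∧ arg z < Real.pi / 2 := by
  have h3 := (abs_lt.1 (abs_arg_lt_pi_div_two_iff.2 (Or.inl h1))).2
  refine ⟨lt_of_le_of_ne (arg_nonneg_iff.2 h2.le) fun h => ?_, h3⟩
  have := (arg_eq_zero_iff.1 h.symm).2
  linarith

theorem arg_down {z : ℂ} (h1 : 0 < z.re) (h2 : z.im < 0) :
    0 < -arg z ∧ -arg z < Real.pi / 2 := by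
  have h3 := (abs_lt.1 (abs_arg_lt_pi_div_two_iff.2 (Or.inl h1))).1
  exact ⟨neg_pos.2 (arg_neg_iff.2 h2), by linarith⟩

theorem polar (w T : ℂ) (hT : ‖T‖ = 1) :
    w = (‖w‖ : ℂ) * Complex.exp (I * (arg (w * (starRingEnd ℂ) T) : ℝ)) * T := by
  have h1 : ‖w * (starRingEnd ℂ) T‖ = ‖w‖ := by rw [norm_mul, Complex.norm_conj, hT, mul_one]
  have h2 := norm_mul_exp_arg_mul_I (w * (starRingEnd ℂ) T)
  rw [h1, mul_comm _ I] at h2
  rw [h2, mul_assoc, mul_comm _ T, Complex.mul_conj', hT]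
  simp

theorem deriv_per {γ : ℝ → ℂ} {L : ℝ} (h : Function.Periodic γ L) (s : ℝ) :
    deriv γ (s + L) = deriv γ s := by
  have e : (fun x => γ (x + L)) = γ := funext h
  rw [← deriv_comp_add_const, e]

end BLcAux

open BLcAux in
theorem lcE (hlcm : S_lcm) : S_lc := by
  intro γ L d K hT hZ
  obtain ⟨m1, m2⟩ := hlcm γ L d K hT hZ
  have hc : Continuous γ := hT.smooth.continuous
  have hd : Continuous (deriv γ) := hT.smooth.continuous_deriv (by simp)
  have cO : Continuous (zO γ) := by unfold zO; fun_prop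
  have cI : Continuous (zI γ) := by unfold zI; fun_prop
  have rO : ∀ x ∈ Sp d, 0 < (zO γ x).re := fun x hx =>
    lt_of_lt_of_le (by have := hx.1; linarith) (hZ.h x hx).1
  have hne : ∀ x ∈ Sp d, γ x.2 ≠ γ x.1 := by
    intro x hx e
    have := rO x hx
    rw [zO, e, sub_self, zero_mul] at this
    simp at this
  refine ⟨hZ.dpos, hne, fun x hx => arg_up (rO x hx) (hZ.h x hx).2.1,
    fun x hx => arg_down (hZ.h x hx).2.2.2.1 (hZ.h x hx).2.2.2.2, fun x hx => ?_, ?_, ?_, m1, m2,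
    ⟨2 * K, fun x hx => ?_⟩, fun s t => ?_⟩
  · refine ⟨hx.1, hx.2.trans_le (by have := hZ.dle; linarith), ‖γ x.2 - γ x.1‖,
      norm_pos_iff.2 (sub_ne_zero.2 (hne x hx)), polar _ _ (hT.unit _), ?_⟩
    have e : -(I * (aI γ x : ℝ)) = I * (arg (zI γ x) : ℝ) := by
      rw [aI]; push_cast; ring
    rw [e]
    exact polar _ _ (hT.unit _)
  · intro x hx
    exact ((continuousAt_arg (Or.inl (rO x hx))).comp cO.continuousAt).continuousWithinAt
  · intro x hx
    exact ((continuousAt_arg (Or.inl (hZ.h x hx).2.2.2.1)).comp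
      cI.continuousAt).neg.continuousWithinAt
  · obtain ⟨a1, a2⟩ := arg_up (rO x hx) (hZ.h x hx).2.1
    have h1 := Real.le_tan a1.le a2
    rw [Complex.tan_arg] at h1
    refine h1.trans ?_
    obtain ⟨b1, b2, b3, -⟩ := hZ.h x hx
    have hp : 0 < x.2 - x.1 := sub_pos.2 hx.1
    have hK : 0 ≤ K := by
      by_contra hK
      have : K * (x.2 - x.1) ^ 2 < 0 := mul_neg_of_neg_of_pos (not_le.1 hK) (by positivity)
      linarith
    rw [div_le_iff₀ (rO x hx)]
    have : 2 * K * (x.2 - x.1) * ((x.2 - x.1) / 2) ≤ 2 * K * (x.2 - x.1) * (zO γ x).re := by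
      gcongr
    nlinarith
  · simp only [aO, aI, zO, zI, hT.per s, hT.per t, deriv_per hT.per, and_self]

end Vale.Agent.P097
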