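import Vale.Agent.P097.BStm

open Set Complex MeasureTheory

namespace Vale.Agent.P097

namespace BLcmAux

theorem mono_arg {z z' : ℝ → ℂ} {a b : ℝ} (hd : ∀ t, HasDerivAt z (z' t) t)
    (hre : ∀ t ∈ Ioo a b, 0 < (z t).re) (him : ∀ t ∈ Ioo a b, 0 < (z' t / z t).im) :
    StrictMonoOn (fun t => arg (z t)) (Ioo a b) := by
  have key : ∀ t ∈ Ioo a b, HasDerivAt (fun t => arg (z t)) ((z' t / z t).im) t := by
    intro t ht
    have h1 : HasDerivAt (fun t => Complex.log (z t)) (z' t / z t) t :=
      (hd t).clog_real (Or.inl (hre t ht))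
    have h2 := Complex.imCLM.hasFDerivAt.comp_hasDerivAt t h1
    have h3 : (fun t => arg (z t)) = (Complex.imCLM ∘ fun t => Complex.log (z t)) := by
      funext u
      simp [Complex.log_im]
    rw [h3]
    exact h2
  refine strictMonoOn_of_deriv_pos (convex_Ioo a b)
    (fun t ht => (key t ht).continuousAt.continuousWithinAt) ?_
  intro t ht
  rw [interior_Ioo] at ht
  rw [(key t ht).deriv]
  exact him t ht

theorem im_pos {a c u : ℂ} (hu : u ≠ 0) (h : (c * (starRingEnd ℂ) a).im < 0) :
    0 < (a * u / (c * u)).im := by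
  have hc : c ≠ 0 := by
    rintro rfl
    simp at h
  rw [mul_div_mul_right _ _ hu, Complex.div_im, ← sub_div]
  refine div_pos ?_ (Complex.normSq_pos.2 hc)
  simp only [mul_im, conj_im, conj_re] at h
  linarith

end BLcmAux

open BLcmAux in
theorem lcmE : S_lcm := by
  intro γ L d K hT hZ
  have hdiff : Differentiable ℝ γ := hT.smooth.differentiable (by simp)
  have hne : ∀ s, (starRingEnd ℂ) (deriv γ s) ≠ 0 := by
    intro s h
    have h1 := hT.unit s
    rw [(map_eq_zero _).1 h] at h1
    simp at h1
  constructor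
  · intro s t t' h1 h2 h3
    have hm : StrictMonoOn (fun t => arg ((γ t - γ s) * (starRingEnd ℂ) (deriv γ s)))
        (Ioo s (s + d)) := by
      refine mono_arg (z' := fun t => deriv γ t * (starRingEnd ℂ) (deriv γ s))
        (fun t => (((hdiff t).hasDerivAt).sub_const _).mul_const _) ?_ ?_
      · intro t ht
        have := (hZ.h (s, t) ⟨ht.1, ht.2⟩).1
        have h0 := ht.1
        simp only [zO] at this
        linarith
      · intro t ht
        exact im_pos (hne s) (hZ.h (s, t) ⟨ht.1, ht.2⟩).2.2.2.2
    exact hm ⟨h1, by linarith⟩ ⟨by linarith, h3⟩ h2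
  · intro s s' t h1 h2 h3
    have hm : StrictMonoOn (fun s => arg ((γ t - γ s) * (starRingEnd ℂ) (deriv γ t)))
        (Ioo (t - d) t) := by
      refine mono_arg (z' := fun s => -deriv γ s * (starRingEnd ℂ) (deriv γ t))
        (fun s => (((hdiff s).hasDerivAt).const_sub _).mul_const _) ?_ ?_
      · intro s hs
        exact (hZ.h (s, t) ⟨hs.2, by have := hs.1; simp only; linarith⟩).2.2.2.1
      · intro s hs
        refine im_pos (hne t) ?_
        have := (hZ.h (s, t) ⟨hs.2, by have := hs.1; simp only; linarith⟩).2.1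
        simp only [zO] at this
        rw [map_neg, mul_neg, neg_im]
        linarith
    have := hm ⟨by linarith, by linarith⟩ ⟨by linarith, h2⟩ h1
    simp only [aI, zI]
    simp only at this
    linarith

end Vale.Agent.P097
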