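import Vale.Agent.P097.BStm

open Set Complex MeasureTheory

namespace Vale.Agent.P097

namespace BLiftAux

theorem conv (t₁ t₂ : ℝ) : Convex ℝ (PS t₁ t₂) := by
  intro p hp q hq α β ha hb hab
  obtain ⟨h1, h2, h3⟩ := hp
  obtain ⟨k1, k2, k3⟩ := hq
  refine ⟨?_, (convex_Ioo t₁ t₂) ⟨h2, h3⟩ ⟨k2, k3⟩ ha hb hab⟩
  simp only [Prod.fst_add, Prod.smul_fst, Prod.snd_add, Prod.smul_snd, smul_eq_mul]
  rcases ha.eq_or_lt with h | h
  · subst h
    have : β = 1 := by linarith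
    subst this
    linarith
  · nlinarith [mul_le_mul_of_nonneg_left k1.le hb, mul_lt_mul_of_pos_left h1 h]

theorem opn (t₁ t₂ : ℝ) : IsOpen (PS t₁ t₂) :=
  (isOpen_lt continuous_fst continuous_snd.fst).inter
    (isOpen_Ioo.preimage continuous_snd.snd)

theorem arg_int {r x y : ℝ} (hr : 0 < r) {s : ℝ} (hs : 0 < s)
    (h : (r : ℂ) * Complex.exp (x * I) = s * Complex.exp (y * I)) :
    ∃ k : ℤ, x - y = k * (2 * Real.pi) := by
  have h1 := congrArg norm h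
  simp only [norm_mul, norm_exp_ofReal_mul_I, mul_one, norm_real, Real.norm_eq_abs,
    abs_of_pos hr, abs_of_pos hs] at h1
  subst h1
  have h2 := mul_left_cancel₀ (ofReal_ne_zero.2 hr.ne') h
  obtain ⟨k, hk⟩ := Complex.exp_eq_exp_iff_exists_int.1 h2
  refine ⟨k, ?_⟩
  have := congrArg Complex.im hk
  simp at this
  linarith

theorem diag (L : ℝ) : ((L : ℂ) + L * I) = ((L * √2 : ℝ) : ℂ) *
    Complex.exp ((Real.pi / 4 : ℝ) * I) := by
  rw [Complex.exp_mul_I, ← ofReal_cos, ← ofReal_sin, Real.cos_pi_div_four, Real.sin_pi_div_four]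
  have h : √2 * √2 = (2 : ℝ) := Real.mul_self_sqrt (by norm_num)
  have e : L * √2 * (√2 / 2) = L := by
    rw [mul_assoc, ← mul_div_assoc, h]; ring
  rw [mul_add, ← mul_assoc, ← ofReal_mul, e]

end BLiftAux

open BLiftAux in
theorem liftE : S_lift := by
  intro L t₁ t₂ a b f h
  have hm : (t₁ + t₂) / 2 ∈ Ioo t₁ t₂ := ⟨by linarith [h.lt], by linarith [h.lt]⟩
  have hne : (PS t₁ t₂).Nonempty := ⟨(0, 1, (t₁ + t₂) / 2), by norm_num, hm⟩
  have hsc : IsSimplyConnected (PS t₁ t₂) := by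
    have := (conv t₁ t₂).contractibleSpace hne
    exact SimplyConnectedSpace.ofContractible _
  have hz : ∀ p ∈ PS t₁ t₂, vv a b p ≠ 0 := fun p hp h0 => by
    have h1 := congrArg Complex.re h0
    have h2 := congrArg Complex.im h0
    simp [vv] at h1 h2
    exact hp.1.ne (h.inj _ _ _ hp.2 (by linarith) (by linarith))
  have c1 : ∀ g : ℝ × ℝ → ℝ, ContinuousOn g (univ ×ˢ Ioo t₁ t₂) →
      ContinuousOn (fun p : ℝ × ℝ × ℝ => ((g (p.2.1, p.2.2) - g (p.1, p.2.2) : ℝ) : ℂ))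
        (PS t₁ t₂) := fun g hg =>
    continuous_ofReal.comp_continuousOn
      ((hg.comp (by fun_prop) fun p hp => ⟨trivial, hp.2⟩).sub
        (hg.comp (by fun_prop) fun p hp => ⟨trivial, hp.2⟩))
  have hc : ContinuousOn (vv a b) (PS t₁ t₂) :=
    (c1 a h.ca).add ((c1 b h.cb).mul continuousOn_const)
  obtain ⟨l, hl, hl'⟩ := Complex.exists_continuousOn_eqOn_exp_comp hsc (opn t₁ t₂) hc
    fun ⟨p, hp, h0⟩ => hz p hp h0
  have hth : ContinuousOn (fun p => (l p).im) (PS t₁ t₂) := continuous_im.comp_continuousOn hl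
  have pol : ∀ p ∈ PS t₁ t₂, vv a b p = ‖vv a b p‖ * Complex.exp ((l p).im * I) := fun p hp => by
    have e : Complex.exp (l p) = vv a b p := hl' hp
    rw [← e, norm_exp, ofReal_exp, ← Complex.exp_add, re_add_im]
  have npos : ∀ p ∈ PS t₁ t₂, 0 < ‖vv a b p‖ := fun p hp => norm_pos_iff.2 (hz p hp)
  have mem : ∀ φ : ℝ, ∀ t ∈ Ioo t₁ t₂, (φ, φ + 1, t) ∈ PS t₁ t₂ := fun φ t ht =>
    ⟨by simp, ht⟩
  have d1 : ∀ x ∈ (univ ×ˢ Ioo t₁ t₂ : Set (ℝ × ℝ)), ∃ k : ℤ,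
      (l (x.1, x.1 + 1, x.2)).im - Real.pi / 4 = k * (2 * Real.pi) := fun x hx => by
    refine arg_int (npos _ (mem x.1 x.2 hx.2)) (s := L * √2) (mul_pos h.pos (by positivity)) ?_
    rw [← pol _ (mem x.1 x.2 hx.2), ← diag]
    simp [vv, h.pa _ _ hx.2, h.pb _ _ hx.2]
  obtain ⟨k, hk⟩ := d1 (0, (t₁ + t₂) / 2) ⟨trivial, hm⟩
  have d2 : ∀ φ : ℝ, ∀ t ∈ Ioo t₁ t₂,
      (l (φ, φ + 1, t)).im - Real.pi / 4 = k * (2 * Real.pi) := fun φ t ht => by
    rw [← hk]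
    exact const_of_int (s := univ ×ˢ Ioo t₁ t₂)
      (g := fun x : ℝ × ℝ => (l (x.1, x.1 + 1, x.2)).im - Real.pi / 4)
      (isPreconnected_univ.prod isPreconnected_Ioo)
      ((hth.comp (by fun_prop) fun x hx => mem x.1 x.2 hx.2).sub continuousOn_const) d1
      (x := (φ, t)) (y := (0, (t₁ + t₂) / 2)) ⟨trivial, ht⟩ ⟨trivial, hm⟩
  have mem2 : ∀ p ∈ PS t₁ t₂, (p.1 + 1, p.2.1 + 1, p.2.2) ∈ PS t₁ t₂ := fun p hp =>
    ⟨by simpa using hp.1, hp.2⟩
  refine ⟨fun p => (l p).im - k * (2 * Real.pi), hth.sub continuousOn_const, hz,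
    fun p hp => ?_, fun φ t ht => by linarith [d2 φ t ht], fun p hp => ?_⟩
  · have e : (((l p).im - k * (2 * Real.pi) : ℝ) : ℂ) * I =
        (l p).im * I - k * (2 * Real.pi * I) := by push_cast; ring
    rw [e, Complex.exp_sub, Complex.exp_int_mul_two_pi_mul_I, div_one]
    exact pol p hp
  · have d3 : ∀ q ∈ PS t₁ t₂, ∃ j : ℤ,
        (l (q.1 + 1, q.2.1 + 1, q.2.2)).im - (l q).im = j * (2 * Real.pi) := fun q hq => by
      refine arg_int (npos _ (mem2 q hq)) (npos q hq) ?_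
      rw [← pol _ (mem2 q hq), ← pol q hq]
      simp [vv, h.pa _ _ hq.2, h.pb _ _ hq.2]
    have d4 := const_of_int (g := fun q : ℝ × ℝ × ℝ =>
      (l (q.1 + 1, q.2.1 + 1, q.2.2)).im - (l q).im) (conv t₁ t₂).isPreconnected
      ((hth.comp (by fun_prop) mem2).sub hth) d3 hp (mem 0 _ hm)
    have d5 := d2 (0 + 1) _ hm
    have d6 := d2 0 _ hm
    simp only at d4 ⊢
    linarith

end Vale.Agent.P097
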