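import Vale.Agent.P097.BStm

open Set Complex MeasureTheory

namespace Vale.Agent.P097

theorem lkE (hbinv : S_binv) (hend : S_end) : S_lk := by
  intro γ L η d e hL hf hc
  obtain ⟨η₁, B, h1, hB, hB'⟩ := hbinv γ L d hL hc
  obtain ⟨t₁, t₂, a0, a1, a2, a3, a4⟩ := hend γ L η e hL hf η₁ h1
  have hI : ∀ t ∈ Ioo t₁ t₂, t ∈ Ioo (0:ℝ) 1 := fun t ht => ⟨a0.trans_lt ht.1, ht.2.trans_le a2⟩
  have hs : ∀ φ : ℝ, ∀ t ∈ Ioo t₁ t₂, (φ, t) ∈ e.source := fun φ t ht => by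
    rw [hf.src]; exact ⟨mem_univ _, hI t ht⟩
  have hp : ∀ φ : ℝ, ∀ t ∈ Ioo t₁ t₂, 0 < (e (φ, t)).2 := fun φ t ht =>
    (hf.sup (e.map_source (hs φ t ht))).2.1
  have hb : ∀ φ : ℝ, ∀ t ∈ Ioo t₁ t₂, ((e (φ, t)).1, B (e (φ, t))) ∈ Sp d ∧
      aO γ ((e (φ, t)).1, B (e (φ, t))) = (e (φ, t)).2 := fun φ t ht =>
    hB' _ _ (hp φ t ht) (a3 φ t ht)
  have hk : ∀ φ : ℝ, ∀ t ∈ Ioo t₁ t₂, ∃ φ' : ℝ,
      e (φ', t) = (B (e (φ, t)), aI γ ((e (φ, t)).1, B (e (φ, t)))) := fun φ t ht => by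
    obtain ⟨b1, b2⟩ := hb φ t ht
    have b3 := hc.step _ b1
    rw [b2] at b3
    have b4 := hc.i _ b1
    exact hf.inv φ t (hI t ht) _ _ b4.1 (by linarith [b4.2, Real.pi_pos]) b3
  have ce : ContinuousOn e (univ ×ˢ Ioo t₁ t₂) :=
    e.continuousOn.mono fun x hx => hs x.1 x.2 hx.2
  have cb : ContinuousOn (fun x => B (e x)) (univ ×ˢ Ioo t₁ t₂) :=
    hB.comp ce fun x hx => ⟨mem_univ _, hp x.1 x.2 hx.2, a3 x.1 x.2 hx.2⟩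
  have ci : ContinuousOn (fun x => aI γ ((e x).1, B (e x))) (univ ×ˢ Ioo t₁ t₂) :=
    hc.ci.comp (ce.fst.prodMk cb) fun x hx => (hb x.1 x.2 hx.2).1
  refine ⟨t₁, t₂, fun x => B (e x), fun x => (e.symm (B (e x), aI γ ((e x).1, B (e x)))).1,
    ⟨a0, a1, a2, cb, ?_, fun φ t ht => ⟨(hb φ t ht).1, (hb φ t ht).2, ?_⟩⟩, a4⟩
  · refine (e.continuousOn_symm.comp (cb.prodMk ci) fun x hx => ?_).fst
    obtain ⟨φ', h⟩ := hk x.1 x.2 hx.2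
    have := e.map_source (hs φ' x.2 hx.2)
    rw [h] at this
    exact this
  · obtain ⟨φ', h⟩ := hk φ t ht
    have h2 := e.left_inv (hs φ' t ht)
    rw [h] at h2
    show e ((e.symm (B (e (φ, t)), aI γ ((e (φ, t)).1, B (e (φ, t))))).1, t) = _
    rw [h2]
    exact h

end Vale.Agent.P097
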