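import Vale.Agent.P097.Base

open Set NormedSpace Complex

namespace Vale.Agent.P097

namespace Geo1Aux

theorem per_deriv {f : ℝ → ℂ} {L : ℝ} (h : Function.Periodic f L) :
    Function.Periodic (deriv f) L := fun x => by
  rw [← deriv_comp_add_const, show (fun y => f (y + L)) = f from funext h]

theorem repar {al : ℝ → ℝ} {L : ℝ} (hL : 0 < L) (hs : ContDiff ℝ (⊤ : ℕ∞) al)
    (hp : ∀ x, 0 < al x) (hper : Function.Periodic al L) :
    ∃ (C : ℝ) (s : ℝ ≃ₜ ℝ), 0 < C ∧ ContDiff ℝ (⊤ : ℕ∞) s ∧ (∀ ξ, s (ξ + 1) = s ξ + L) ∧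
      ∀ ξ, HasDerivAt s (C / al (s ξ)) ξ := by
  have hc := hs.continuous
  obtain ⟨C, hC⟩ : ∃ C, C = ∫ x in (0 : ℝ)..L, al x := ⟨_, rfl⟩
  have hC0 : 0 < C := hC ▸
    intervalIntegral.intervalIntegral_pos_of_pos (hc.intervalIntegrable _ _) hp hL
  obtain ⟨sg, hsg⟩ : ∃ sg : ℝ → ℝ, sg = fun x => (∫ y in (0 : ℝ)..x, al y) / C := ⟨_, rfl⟩
  have hd : ∀ x, HasDerivAt sg (al x / C) x := fun x =>
    hsg ▸ (hc.integral_hasStrictDerivAt 0 x).hasDerivAt.div_const C
  have hd0 : ∀ x, 0 < al x / C := fun x => div_pos (hp x) hC0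
  have hsm : ContDiff ℝ (⊤ : ℕ∞) sg := contDiff_infty_iff_deriv.2
    ⟨fun x => (hd x).differentiableAt, by
      rw [show deriv sg = fun x => al x / C from funext fun x => (hd x).deriv]
      exact hs.div_const C⟩
  have h1 : ∀ x, sg (x + L) = sg x + 1 := fun x => by
    simp only [hsg]
    rw [hper.intervalIntegral_add_eq_add 0 x fun _ _ => hc.intervalIntegrable _ _, zero_add, ← hC,
      add_div, div_self hC0.ne']
  have h2 : Function.Periodic (fun x => sg x - x / L) L := fun x => by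
    simp only [h1, add_div, div_self hL.ne']
    ring
  have h3 : ∀ n : ℤ, sg (n * L) = n := fun n => by
    have := h2.int_mul n 0
    simp only [zero_add, zero_div, sub_zero, mul_div_cancel_right₀ _ hL.ne'] at this
    have h0 : sg 0 = 0 := by simp [hsg]
    linarith
  have hm : StrictMono sg := strictMono_of_hasDerivAt_pos hd hd0
  have hsurj : Function.Surjective sg := hsm.continuous.surjective
    (hm.monotone.tendsto_atTop_atTop fun b => ⟨(⌈b⌉ : ℤ) * L, by rw [h3]; exact Int.le_ceil b⟩)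
    (hm.monotone.tendsto_atBot_atBot fun b => ⟨(⌊b⌋ : ℤ) * L, by rw [h3]; exact Int.floor_le b⟩)
  let e : ℝ ≃ₜ ℝ := (hm.orderIsoOfSurjective sg hsurj).toHomeomorph
  have he : ∀ x, e x = sg x := fun _ => rfl
  refine ⟨C, e.symm, hC0, e.contDiff_symm_deriv (fun x => (hd0 x).ne') hd hsm, fun ξ => ?_,
    fun ξ => ?_⟩
  · apply e.injective
    rw [e.apply_symm_apply, he, h1, ← he, e.apply_symm_apply]
  · have := HasDerivAt.of_local_left_inverse e.symm.continuous.continuousAt (hd (e.symm ξ))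
      (hd0 _).ne' (Filter.Eventually.of_forall fun y => e.apply_symm_apply y)
    rwa [inv_div] at this

theorem frenet {u : ℝ → ℂ} (hu : Differentiable ℝ u) (h1 : ∀ s, ‖u s‖ = 1) (s : ℝ) :
    deriv u s = I * (((starRingEnd ℂ) (u s) * deriv u s).im : ℝ) * u s := by
  have e1 : ∀ s, star (u s) * u s = 1 := fun s => by
    have := Complex.conj_mul' (u s)
    rw [h1] at this
    simpa using this
  have d1 := ((hu s).hasDerivAt.star).mul (hu s).hasDerivAt
  have d2 : HasDerivAt (fun s => star (u s) * u s) 0 s := by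
    rw [show (fun s => star (u s) * u s) = fun _ => 1 from funext e1]
    exact hasDerivAt_const _ _
  have e2 := congrArg Complex.re (d1.unique d2)
  have e3 : star (u s) * deriv u s = I * (((starRingEnd ℂ) (u s) * deriv u s).im : ℝ) := by
    apply Complex.ext
    · simp at e2 ⊢
      linarith
    · simp
  rw [← e3]
  linear_combination (-deriv u s) * e1 s

end Geo1Aux

open Geo1Aux in
theorem geo1E : S_geo1 := by
  intro γ L h
  have hu : ContDiff ℝ (⊤ : ℕ∞) (deriv γ) := (contDiff_infty_iff_deriv.1 h.smooth).2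
  have hu' := contDiff_infty_iff_deriv.1 hu
  obtain ⟨ka, hka⟩ : ∃ ka : ℝ → ℝ,
    ka = fun s => ((starRingEnd ℂ) (deriv γ s) * deriv (deriv γ) s).im := ⟨_, rfl⟩
  have k0 : ∀ s, 0 < ka s := fun s => hka ▸ h.curv s
  have ks : ContDiff ℝ (⊤ : ℕ∞) ka := hka ▸
    Complex.imCLM.contDiff.comp ((Complex.conjCLE.contDiff.comp hu).mul hu'.2)
  have kp : Function.Periodic ka L := fun x => by
    simp only [hka, per_deriv h.per x, per_deriv (per_deriv h.per) x]
  have fr : ∀ s, deriv (deriv γ) s = I * (ka s : ℝ) * deriv γ s := fun s =>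
    hka ▸ frenet hu'.1 h.unit s
  have ls : ContDiff ℝ (⊤ : ℕ∞) fun s => Real.log (ka s) := ks.log fun s => (k0 s).ne'
  obtain ⟨C, s, hC, hs, hp, hd⟩ := repar (al := fun x => Real.exp (2 / 3 * Real.log (ka x))) h.pos
    (contDiff_const.mul ls).exp (fun _ => Real.exp_pos _) fun x => by simp only [kp x]
  obtain ⟨β, hβ⟩ : ∃ β : ℝ → ℝ, β = fun ξ => Real.log C + 1 / 3 * Real.log (ka (s ξ)) := ⟨_, rfl⟩
  have hb : ContDiff ℝ (⊤ : ℕ∞) β := hβ ▸ contDiff_const.add (contDiff_const.mul (ls.comp hs))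
  have e1 : ∀ ξ, C / Real.exp (2 / 3 * Real.log (ka (s ξ))) = C ^ 3 * Real.exp (-2 * β ξ) :=
    fun ξ => by
      rw [div_eq_iff (Real.exp_pos _).ne', mul_assoc, ← Real.exp_add, hβ,
        show -2 * (Real.log C + 1 / 3 * Real.log (ka (s ξ))) + 2 / 3 * Real.log (ka (s ξ)) =
          -(Real.log C + Real.log C) by ring, Real.exp_neg, Real.exp_add, Real.exp_log hC]
      field_simp
  have e2 : ∀ ξ, C / Real.exp (2 / 3 * Real.log (ka (s ξ))) * ka (s ξ) = Real.exp (β ξ) :=
    fun ξ => by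
      rw [div_mul_eq_mul_div, div_eq_iff (Real.exp_pos _).ne', ← Real.exp_add, hβ,
        show Real.log C + 1 / 3 * Real.log (ka (s ξ)) + 2 / 3 * Real.log (ka (s ξ)) =
          Real.log C + Real.log (ka (s ξ)) by ring, Real.exp_add, Real.exp_log hC,
        Real.exp_log (k0 _)]
  refine ⟨β, C ^ 3, s, ⟨hb, fun ξ => by simp only [hβ, hp, kp _]⟩, by positivity, hp,
    fun ξ => e1 ξ ▸ hd ξ, fun ξ => ?_⟩
  have hψ : ∀ x, HasDerivAt (fun x => ∫ z in (0 : ℝ)..x, Real.exp (β z)) (Real.exp (β x)) x :=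
    fun x => (hb.continuous.rexp.integral_hasStrictDerivAt 0 x).hasDerivAt
  have hF : ∀ x, HasDerivAt (fun x => deriv γ (s x) *
      Complex.exp (-(I * ((∫ z in (0 : ℝ)..x, Real.exp (β z) : ℝ) : ℂ)))) 0 x := fun x => by
    have d1 := (hu'.1 (s x)).hasDerivAt.scomp x (hd x)
    have d2 := ((hψ x).ofReal_comp.const_mul I).neg.cexp
    refine (d1.mul d2).congr_deriv ?_
    rw [fr, ← e2 x]
    simp only [Function.comp_apply, real_smul, Pi.neg_apply, ofReal_mul]
    ring
  have hc := is_const_of_deriv_eq_zero (fun x => (hF x).differentiableAt)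
    (fun x => (hF x).deriv) ξ 0
  simp only [intervalIntegral.integral_same, ofReal_zero, mul_zero, neg_zero, Complex.exp_zero,
    mul_one] at hc
  rw [← hc, TT, mul_assoc, ← Complex.exp_add, neg_add_cancel, Complex.exp_zero, mul_one]

end Vale.Agent.P097
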