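import Vale.Agent.P097.BStm
import Vale.Agent.P097.Geo1

open Set Complex MeasureTheory

namespace Vale.Agent.P097

namespace BLzAux

theorem ftc {γ : ℝ → ℂ} (h : ContDiff ℝ 1 γ) (c : ℂ) (l : ℂ →L[ℝ] ℝ) (s t : ℝ) :
    l ((γ t - γ s) * c) = ∫ u in s..t, l (deriv γ u * c) := by
  have hd : ∀ u, HasDerivAt (fun u => l (γ u * c)) (l (deriv γ u * c)) u := fun u =>
    l.hasFDerivAt.comp_hasDerivAt u ((h.differentiable one_ne_zero u).hasDerivAt.mul_const c)
  rw [intervalIntegral.integral_eq_sub_of_hasDerivAt (fun u _ => hd u)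
    ((l.continuous.comp ((h.continuous_deriv le_rfl).mul continuous_const)).intervalIntegrable _ _),
    sub_mul, map_sub]

end BLzAux

theorem lzE : S_lz := by
  intro γ L h
  have s1 := contDiff_infty_iff_deriv.1 h.smooth
  have s2 := contDiff_infty_iff_deriv.1 s1.2
  have c1 : ContDiff ℝ 1 γ := h.smooth.of_le (by exact_mod_cast le_top)
  obtain ⟨K0, hK⟩ := ((Geo1Aux.per_deriv (Geo1Aux.per_deriv h.per)).isBounded_of_continuous
    h.pos.ne' s2.2.continuous).exists_norm_le
  have hK' : ∀ u, ‖deriv (deriv γ) u‖ ≤ K0 := fun u => hK _ ⟨u, rfl⟩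
  have K00 : 0 ≤ K0 := (norm_nonneg _).trans (hK' 0)
  have one : ∀ s, deriv γ s * (starRingEnd ℂ) (deriv γ s) = 1 := fun s => by
    rw [Complex.mul_conj', h.unit]; simp
  have lip : ∀ s u, ‖deriv γ u * (starRingEnd ℂ) (deriv γ s) - 1‖ ≤ K0 * |u - s| := fun s u => by
    rw [← one s, ← sub_mul, norm_mul, Complex.norm_conj, h.unit, mul_one]
    exact convex_univ.norm_image_sub_le_of_norm_deriv_le (fun x _ => s2.1 x) (fun x _ => hK' x)
      (mem_univ s) (mem_univ u)
  obtain ⟨d, hd⟩ : ∃ d, d = min L (1 / (2 * K0 + 2)) := ⟨_, rfl⟩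
  have d0 : 0 < d := hd ▸ lt_min h.pos (by positivity)
  have dK : K0 * d ≤ 1 / 2 := by
    have : d ≤ 1 / (2 * K0 + 2) := hd ▸ min_le_right _ _
    rw [le_div_iff₀ (by positivity)] at this
    nlinarith
  have hre : ∀ s u, |u - s| ≤ d → 1 / 2 ≤ (deriv γ u * (starRingEnd ℂ) (deriv γ s)).re :=
    fun s u hu => by
      have a1 := (Complex.abs_re_le_norm _).trans (lip s u)
      have a2 := mul_le_mul_of_nonneg_left hu K00
      rw [sub_re, one_re] at a1
      linarith [(abs_le.1 a1).1]
  have him : ∀ s u, (deriv γ u * (starRingEnd ℂ) (deriv γ s)).im ≤ K0 * |u - s| := fun s u => by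
    have a1 := (Complex.abs_im_le_norm _).trans (lip s u)
    rw [sub_im, one_im, sub_zero] at a1
    exact (abs_le.1 a1).2
  have hpos : ∀ s u, s < u → u < s + d → 0 < (deriv γ u * (starRingEnd ℂ) (deriv γ s)).im :=
    fun s u h1 h2 => by
      have hD : ∀ x, HasDerivAt (fun x => (deriv γ x * (starRingEnd ℂ) (deriv γ s)).im)
          ((deriv (deriv γ) x * (starRingEnd ℂ) (deriv γ s)).im) x := fun x =>
        imCLM.hasFDerivAt.comp_hasDerivAt x ((s2.1 x).hasDerivAt.mul_const _)
      have hm : StrictMonoOn (fun x => (deriv γ x * (starRingEnd ℂ) (deriv γ s)).im)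
          (Icc s (s + d)) := by
        refine strictMonoOn_of_deriv_pos (convex_Icc _ _)
          (fun x _ => (hD x).continuousAt.continuousWithinAt) fun x hx => ?_
        rw [interior_Icc] at hx
        rw [(hD x).deriv, Geo1Aux.frenet s2.1 h.unit x]
        have a1 := hre s x (abs_le.2 ⟨by linarith [hx.1], by linarith [hx.2]⟩)
        have a2 := h.curv x
        generalize ((starRingEnd ℂ) (deriv γ x) * deriv (deriv γ) x).im = k at a2 ⊢
        rw [mul_assoc]
        generalize deriv γ x * (starRingEnd ℂ) (deriv γ s) = w at a1 ⊢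
        have : (I * (k : ℂ) * w).im = k * w.re := by simp
        rw [this]
        positivity
      have := hm ⟨le_rfl, by linarith⟩ ⟨h1.le, h2.le⟩ h1
      simp only [one s, one_im] at this
      exact this
  have ii : ∀ (c : ℂ) (l : ℂ →L[ℝ] ℝ) (s t : ℝ),
      IntervalIntegrable (fun u => l (deriv γ u * c)) volume s t := fun c l s t =>
    (l.continuous.comp (s2.1.continuous.mul continuous_const)).intervalIntegrable _ _
  refine ⟨d, K0, d0, hd ▸ min_le_left _ _, ?_⟩
  rintro ⟨s, t⟩ ⟨h1, h2⟩
  simp only at h1 h2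
  refine ⟨?_, ?_, ?_, ?_, ?_⟩
  · refine le_trans ?_ (BLzAux.ftc c1 _ reCLM s t).ge
    have := intervalIntegral.integral_mono_on h1.le (intervalIntegrable_const (c := (1 / 2 : ℝ)))
      (ii _ reCLM s t) fun u hu => hre s u (abs_le.2 ⟨by linarith [hu.1], by linarith [hu.2]⟩)
    rw [intervalIntegral.integral_const, smul_eq_mul] at this
    simp only
    linarith
  · refine lt_of_lt_of_eq ?_ (BLzAux.ftc c1 _ imCLM s t).symm
    exact intervalIntegral.intervalIntegral_pos_of_pos_on (ii _ imCLM s t)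
      (fun u hu => hpos s u hu.1 (by linarith [hu.2])) h1
  · refine (BLzAux.ftc c1 _ imCLM s t).le.trans ?_
    have := intervalIntegral.integral_mono_on h1.le (ii _ imCLM s t)
      (intervalIntegrable_const (c := K0 * (t - s))) fun u hu => (him s u).trans
        (mul_le_mul_of_nonneg_left (abs_le.2 ⟨by linarith [hu.1], by linarith [hu.2]⟩) K00)
    rw [intervalIntegral.integral_const, smul_eq_mul] at this
    refine this.trans_eq ?_
    simp only
    ring
  · refine lt_of_lt_of_eq ?_ (BLzAux.ftc c1 _ reCLM s t).symm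
    exact intervalIntegral.intervalIntegral_pos_of_pos_on (ii _ reCLM s t)
      (fun u hu => lt_of_lt_of_le (by norm_num)
        (hre t u (abs_le.2 ⟨by linarith [hu.1], by linarith [hu.2]⟩))) h1
  · have e := BLzAux.ftc c1 ((starRingEnd ℂ) (deriv γ t)) (-imCLM) s t
    have := intervalIntegral.intervalIntegral_pos_of_pos_on
      (ii ((starRingEnd ℂ) (deriv γ t)) (-imCLM) s t) (fun u hu => by
        have a1 := hpos u t hu.2 (by linarith [hu.1])
        simp only [ContinuousLinearMap.neg_apply, imCLM_apply, mul_im, conj_re, conj_im] at a1 ⊢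
        linarith) h1
    rw [← e] at this
    exact neg_pos.1 this

end Vale.Agent.P097
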