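import Vale.Agent.P097.BStm

open Set Complex MeasureTheory

namespace Vale.Agent.P097

namespace BPairAux

theorem exG {t₁ t₂ : ℝ} {f : ℝ × ℝ → ℝ} (h : CF t₁ t₂ f) :
    ∃ G : ℝ → CircleDeg1Lift, ∀ t ∈ Ioo t₁ t₂,
      (⇑(G t) = fun x => f (x, t)) ∧ Continuous (G t) := by
  have key : ∀ t : ℝ, ∃ G : CircleDeg1Lift, t ∈ Ioo t₁ t₂ → (⇑G = fun x => f (x, t)) := by
    intro t
    by_cases ht : t ∈ Ioo t₁ t₂
    · exact ⟨⟨⟨fun x => f (x, t), (h.mono t ht).monotone⟩, fun x => h.pf x t ht⟩, fun _ => rfl⟩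
    · exact ⟨1, fun h' => absurd h' ht⟩
  choose G hG using key
  refine ⟨G, fun t ht => ⟨hG t ht, ?_⟩⟩
  rw [hG t ht]
  exact h.cf.comp_continuous (by fun_prop) (fun x => ⟨mem_univ _, ht⟩)

theorem lt_of (G : CircleDeg1Lift) (r : ℚ) (h : G.translationNumber < r) (x : ℝ) :
    G^[r.den] x < x + r.num := by
  rw [← CircleDeg1Lift.coe_pow]
  apply CircleDeg1Lift.map_lt_of_translationNumber_lt_int
  rw [CircleDeg1Lift.translationNumber_pow]
  have hq : (0:ℝ) < r.den := by exact_mod_cast r.pos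
  rw [Rat.cast_def, lt_div_iff₀ hq] at h
  linarith

theorem gt_of (G : CircleDeg1Lift) (r : ℚ) (h : (r:ℝ) < G.translationNumber) (x : ℝ) :
    x + r.num < G^[r.den] x := by
  rw [← CircleDeg1Lift.coe_pow]
  apply CircleDeg1Lift.lt_map_of_int_lt_translationNumber
  rw [CircleDeg1Lift.translationNumber_pow]
  have hq : (0:ℝ) < r.den := by exact_mod_cast r.pos
  rw [Rat.cast_def, div_lt_iff₀ hq] at h
  linarith

end BPairAux

open BPairAux in
theorem pairE (hdense : S_dense) (hirr : S_irr) (hrat : S_rat) : S_pair := by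
  intro t₁ t₂ f hc hr u v u' v' c d huv huv' hc1 hcd hd2
  obtain ⟨G, hG⟩ := exG hc
  obtain ⟨hcont, hden⟩ := hdense t₁ t₂ f hc hr
  have hsub : Ioo c d ⊆ Ioo t₁ t₂ := Ioo_subset_Ioo hc1 hd2
  by_contra hno
  have caseA : ∀ (r : ℚ) (c' d' : ℝ), c ≤ c' → c' < d' → d' ≤ d →
      ¬ ∀ t ∈ Ioo c' d', (G t).translationNumber = r := by
    intro r c' d' h1 h2 h3 hρ
    have hq := r.pos
    obtain ⟨t, ht, r1, r2⟩ := hden (2 * r.den) u v u' v' c' d' (by omega) huv huv'
      (hc1.trans h1) h2 (h3.trans hd2)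
    have ht' : t ∈ Ioo c d := Ioo_subset_Ioo h1 h3 ht
    obtain ⟨e, hcG⟩ := hG t (hsub ht')
    have hq' : (r.den : ℝ) ≠ 0 := by exact_mod_cast hq.ne'
    have h4 : (G t).translationNumber = ((2 * r.num : ℤ) : ℝ) / ((2 * r.den : ℕ) : ℝ) := by
      rw [hρ t ht, Rat.cast_def]
      push_cast
      field_simp
    obtain ⟨x, hx⟩ := ((G t).translationNumber_eq_rat_iff hcG (by omega)).1 h4
    rw [CircleDeg1Lift.coe_pow] at hx
    rw [← e] at r1 r2
    obtain ⟨φ, hφ, h5⟩ := hrat (G t) (2 * r.den) (2 * r.num) x u v hx r1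
    obtain ⟨φ', hφ', h6⟩ := hrat (G t) (2 * r.den) (2 * r.num) x u' v' hx r2
    refine hno ⟨t, ht', ?_⟩
    rw [← e]
    exact ⟨φ, hφ, φ', hφ', 2 * r.den, by omega, 2 * r.num, h5, h6⟩
  have caseB : ∀ s ∈ Ioo c d, ∀ t ∈ Ioo c d,
      ¬ (G s).translationNumber < (G t).translationNumber := by
    intro s hs t ht hlt
    obtain ⟨r, hr1, hr2⟩ := exists_rat_btwn hlt
    have cov : Ioo c d ⊆ closure {y | y ∈ Ioo c d ∧ (G y).translationNumber < r} ∪
        closure {y | y ∈ Ioo c d ∧ (r:ℝ) < (G y).translationNumber} := by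
      intro x hx
      by_contra hn
      rw [mem_union, not_or] at hn
      have h1 : (closure {y | y ∈ Ioo c d ∧ (G y).translationNumber < r})ᶜ ∩
          (closure {y | y ∈ Ioo c d ∧ (r:ℝ) < (G y).translationNumber})ᶜ ∩ Ioo c d ∈ nhds x :=
        ((isClosed_closure.isOpen_compl.inter isClosed_closure.isOpen_compl).inter
          isOpen_Ioo).mem_nhds ⟨⟨hn.1, hn.2⟩, hx⟩
      obtain ⟨c', d', h2, h3⟩ := mem_nhds_iff_exists_Ioo_subset.1 h1
      have h4 : c' < d' := h2.1.trans h2.2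
      have h5 := (Ioo_subset_Ioo_iff h4).1 (h3.trans inter_subset_right)
      refine caseA r c' d' h5.1 h4 h5.2 fun y hy => ?_
      obtain ⟨⟨a1, a2⟩, a3⟩ := h3 hy
      exact le_antisymm (not_lt.1 fun h => a2 (subset_closure ⟨a3, h⟩))
        (not_lt.1 fun h => a1 (subset_closure ⟨a3, h⟩))
    obtain ⟨x, hx, hA, hB⟩ := isPreconnected_closed_iff.1 isPreconnected_Ioo _ _
      isClosed_closure isClosed_closure cov ⟨s, hs, subset_closure ⟨hs, hr1⟩⟩
      ⟨t, ht, subset_closure ⟨ht, hr2⟩⟩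
    have heq : ∀ y : ℝ, (fun z => f (z, x))^[r.den] y = y + r.num := by
      intro y
      have hw := hcont r.den y x (hsub hx)
      refine le_antisymm ?_ ?_
      · refine ContinuousWithinAt.closure_le (f := fun t => (fun x => f (x, t))^[r.den] y)
          (g := fun _ => y + (r.num : ℝ)) hA
          (hw.mono fun z hz => hsub hz.1) continuousWithinAt_const fun z hz => ?_
        have := lt_of (G z) r hz.2 y
        rw [(hG z (hsub hz.1)).1] at this
        exact this.le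
      · refine ContinuousWithinAt.closure_le (f := fun _ => y + (r.num : ℝ))
          (g := fun t => (fun x => f (x, t))^[r.den] y) hB
          continuousWithinAt_const (hw.mono fun z hz => hsub hz.1) fun z hz => ?_
        have := gt_of (G z) r hz.2 y
        rw [(hG z (hsub hz.1)).1] at this
        exact this.le
    have heq2 : ∀ y : ℝ, (fun z => f (z, x))^[2 * r.den] y - ((2 * r.num : ℤ) : ℝ) = y := by
      intro y
      rw [two_mul, Function.iterate_add_apply, heq, heq]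
      push_cast
      ring
    have hq := r.pos
    have m1 : (u + v) / 2 ∈ Ioo u v := ⟨by linarith, by linarith⟩
    have m2 : (u' + v') / 2 ∈ Ioo u' v' := ⟨by linarith, by linarith⟩
    refine hno ⟨x, hx, _, m1, _, m2, 2 * r.den, by omega, 2 * r.num, ?_, ?_⟩
    · rw [heq2]; exact m1
    · rw [heq2]; exact m2
  obtain ⟨t, ht, r1, r2⟩ := hden 1 u v u' v' c d le_rfl huv huv' hc1 hcd hd2
  obtain ⟨e, -⟩ := hG t (hsub ht)
  have hi : Irrational (G t).translationNumber := by
    rintro ⟨r, hr⟩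
    refine caseA r c d le_rfl hcd le_rfl fun s hs => ?_
    rw [hr]
    exact le_antisymm (not_lt.1 (caseB t ht s hs)) (not_lt.1 (caseB s hs t ht))
  rw [← e] at r1 r2
  refine hno ⟨t, ht, ?_⟩
  rw [← e]
  exact hirr (G t) u v u' v' hi r1 r2

end Vale.Agent.P097
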