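import Vale.Agent.P097.BStm

open Set Complex MeasureTheory

namespace Vale.Agent.P097

namespace BRatAux

theorem core {F : ℝ → ℝ} (hm : Monotone F) {c u v φ : ℝ} (hf : ∀ k : ℤ, F (c + k) = c + k)
    (h1 : φ ∈ Ioo u v) (n : ℕ) (m : ℤ) (h2 : F^[n + 1] φ - m ∈ Ioo u v) :
    ∃ φ ∈ Ioo u v, F φ ∈ Ioo u v := by
  have a1 := Int.floor_le (φ - c)
  have a2 := Int.lt_floor_add_one (φ - c)
  have b1 := hm.iterate (n + 1) (show c + (⌊φ - c⌋ : ℤ) ≤ φ by linarith)
  have b2 := hm.iterate (n + 1) (show φ ≤ c + ((⌊φ - c⌋ + 1 : ℤ) : ℝ) by push_cast; linarith)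
  rw [Function.iterate_fixed (hf _)] at b1 b2
  obtain ⟨c1, c2⟩ := h1
  obtain ⟨c3, c4⟩ := h2
  rcases lt_trichotomy m 0 with h | rfl | h
  · have : (m : ℝ) + 1 ≤ 0 := by exact_mod_cast h
    have k : c + ((⌊φ - c⌋ + 1 : ℤ) : ℝ) ∈ Ioo u v := by
      push_cast at b2 ⊢
      constructor <;> linarith
    exact ⟨_, k, by rwa [hf]⟩
  · rw [Int.cast_zero, sub_zero] at c3 c4
    refine ⟨φ, ⟨c1, c2⟩, ?_⟩
    rcases le_total φ (F φ) with h | h
    · exact ⟨c1.trans_le h, lt_of_le_of_lt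
        (hm.monotone_iterate_of_le_map h (show 1 ≤ n + 1 by omega)) c4⟩
    · exact ⟨c3.trans_le (hm.antitone_iterate_of_map_le h (show 1 ≤ n + 1 by omega)),
        h.trans_lt c2⟩
  · have : (0 : ℝ) + 1 ≤ m := by exact_mod_cast h
    have k : c + ((⌊φ - c⌋ + 1 : ℤ) : ℝ) - 1 ∈ Ioo u v → c + (⌊φ - c⌋ : ℤ) ∈ Ioo u v := by
      push_cast
      rw [← add_assoc, add_sub_cancel_right]
      exact id
    have k' := k ⟨by linarith, by push_cast; linarith⟩
    exact ⟨_, k', by rwa [hf]⟩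

end BRatAux

theorem ratE : S_rat := by
  rintro G q p c u v hc ⟨φ, h1, n, hn, m, h2⟩
  have ha : ∀ (x : ℝ) (k : ℤ), G^[q] (x + k) = G^[q] x + k := fun x k => by
    rw [← CircleDeg1Lift.coe_pow, CircleDeg1Lift.map_add_int]
  have hi : ∀ n : ℕ, G^[q * n] φ = (fun x => G^[q] x - p)^[n] φ + ((n * p : ℤ) : ℝ) := fun n => by
    induction n with
    | zero => simp
    | succ n ih =>
      rw [Nat.mul_succ, add_comm, Function.iterate_add_apply, ih, ha,
        Function.iterate_succ_apply']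
      push_cast
      ring
  obtain ⟨n, rfl⟩ := Nat.exists_eq_add_of_le' hn
  refine BRatAux.core (F := fun x => G^[q] x - p) (c := c)
    (fun x y h => sub_le_sub_right (G.monotone.iterate q h) _)
    (fun k => by rw [ha, hc]; ring) h1 n (m - (n + 1 : ℕ) * p) ?_
  rw [hi] at h2
  rwa [Int.cast_sub, ← sub_add, sub_add_eq_add_sub]

end Vale.Agent.P097
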