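import Vale.Agent.P097.BStm

open Set Complex MeasureTheory

namespace Vale.Agent.P097

namespace BRecAux

theorem shiftZ {L : ℝ} {Z : ℝ → ℝ × ℝ} (h : ∀ φ, Z (φ + 1) = ((Z φ).1 + L, (Z φ).2)) (m : ℤ)
    (φ : ℝ) : Z (φ + m) = ((Z φ).1 + m * L, (Z φ).2) := by
  induction m using Int.induction_on with
  | zero => simp
  | succ i ih =>
    have e : φ + ((i + 1 : ℤ) : ℝ) = (φ + ((i : ℤ) : ℝ)) + 1 := by push_cast; ring
    rw [e, h, ih]
    refine Prod.ext ?_ rfl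
    simp only
    push_cast
    ring
  | pred i ih =>
    have e : φ + ((-(i : ℤ) : ℤ) : ℝ) = (φ + ((-(i : ℤ) - 1 : ℤ) : ℝ)) + 1 := by push_cast; ring
    rw [e, h] at ih
    have h1 := congrArg Prod.fst ih
    have h2 := congrArg Prod.snd ih
    simp only at h1 h2
    refine Prod.ext ?_ h2
    simp only
    push_cast at h1 ⊢
    linarith

theorem shiftg {g : ℝ → ℝ} (h : ∀ φ, g (φ + 1) = g φ + 1) (m : ℤ) (φ : ℝ) :
    g (φ + m) = g φ + m := by
  have := shiftZ (L := 1) (Z := fun φ => (g φ, 0)) (fun φ => by simp [h]) m φ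
  simpa using congrArg Prod.fst this

theorem shiftit {g : ℝ → ℝ} (h : ∀ φ, g (φ + 1) = g φ + 1) (m : ℤ) (k : ℕ) (φ : ℝ) :
    g^[k] (φ + m) = g^[k] φ + m := by
  induction k with
  | zero => simp
  | succ k ih => rw [Function.iterate_succ_apply', Function.iterate_succ_apply', ih, shiftg h]

/-- The skew map. -/
def FF (f : ℝ × ℝ → ℝ) : ℝ × ℝ → ℝ × ℝ := fun x => (f x, x.2)

theorem FF_iter (f : ℝ × ℝ → ℝ) (k : ℕ) (φ t : ℝ) :
    (FF f)^[k] (φ, t) = ((fun x => f (x, t))^[k] φ, t) := by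
  induction k with
  | zero => simp
  | succ k ih =>
    rw [Function.iterate_succ_apply', Function.iterate_succ_apply', ih]
    rfl

theorem FF_cont {t₁ t₂ : ℝ} {f : ℝ × ℝ → ℝ} (hf : CF t₁ t₂ f) :
    ContinuousOn (FF f) (univ ×ˢ Ioo t₁ t₂) :=
  hf.cf.prodMk continuous_snd.continuousOn

theorem FF_inj {t₁ t₂ : ℝ} {f : ℝ × ℝ → ℝ} (hf : CF t₁ t₂ f) :
    InjOn (FF f) (univ ×ˢ Ioo t₁ t₂) := by
  rintro ⟨a, s⟩ ha ⟨b, t⟩ _ hab
  have h2 : s = t := congrArg Prod.snd hab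
  subst h2
  have h1 : f (a, s) = f (b, s) := congrArg Prod.fst hab
  have : a = b := (hf.mono s ha.2).injective h1
  rw [this]

theorem E_good {t₁ t₂ : ℝ} {f : ℝ × ℝ → ℝ} (hf : CF t₁ t₂ f) {O : Set (ℝ × ℝ)}
    (hO : O ⊆ univ ×ˢ Ioo t₁ t₂) (hm : MeasurableSet O) (k : ℕ) :
    (FF f)^[k] '' O ⊆ univ ×ˢ Ioo t₁ t₂ ∧ MeasurableSet ((FF f)^[k] '' O) := by
  induction k with
  | zero => simpa using ⟨hO, hm⟩
  | succ k ih =>
    rw [Function.iterate_succ', image_comp]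
    refine ⟨?_, ih.2.image_of_continuousOn_injOn ((FF_cont hf).mono ih.1) ((FF_inj hf).mono ih.1)⟩
    rintro _ ⟨x, hx, rfl⟩
    exact ⟨mem_univ _, (ih.1 hx).2⟩

end BRecAux

open BRecAux in
theorem recE (hrec0 : S_rec0) : S_rec := by
  intro L Y t₁ t₂ f Z hL hf hZc hZi hZp hpos hvol q u v c d hq huv hc hcd hd
  set v' : ℝ := min v (u + 1) with hv'
  have huv' : u < v' := lt_min huv (by linarith)
  have hsub : Ioo u v' ⊆ Ioo u v := Ioo_subset_Ioo_right (min_le_left _ _)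
  have hv1 : v' ≤ u + 1 := min_le_right _ _
  set O : Set (ℝ × ℝ) := Ioo u v' ×ˢ Ioo c d with hO
  have hcd' : Ioo c d ⊆ Ioo t₁ t₂ := Ioo_subset_Ioo hc hd
  have hOU : O ⊆ univ ×ˢ Ioo t₁ t₂ := prod_mono (subset_univ _) hcd'
  have hOm : MeasurableSet O := measurableSet_Ioo.prod measurableSet_Ioo
  have hE := E_good hf hOU hOm
  have hV : ∀ k : ℕ, volume (Z '' ((FF f)^[k] '' O)) = volume (Z '' O) := by
    intro k
    induction k with
    | zero => simp
    | succ k ih =>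
      rw [Function.iterate_succ', image_comp, ← ih]
      exact hvol _ (hE k).1 (hE k).2
  obtain ⟨n, n', m, x, hne, hx, hx'⟩ := hrec0 L Y (fun n => Z '' ((FF f)^[q * n] '' O)) hL
    (fun n => (hE _).2.image_of_continuousOn_injOn (hZc.mono (hE _).1) (hZi.mono (hE _).1))
    (by
      rintro n _ ⟨⟨φ, t⟩, hx, rfl⟩
      exact (hZp φ t ((hE _).1 hx).2).2)
    (by rw [hV]; exact hpos u v' c d huv' hc hcd hd)
    (fun n => by rw [hV, hV])
  obtain ⟨_, ⟨⟨y, t⟩, hy, rfl⟩, rfl⟩ := hx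
  obtain ⟨_, ⟨⟨y', t'⟩, hy', rfl⟩, he⟩ := hx'
  have ht : t ∈ Ioo t₁ t₂ := hcd' hy.2
  have ht' : t' ∈ Ioo t₁ t₂ := hcd' hy'.2
  rw [FF_iter, FF_iter] at he
  have hs := shiftZ (L := L) (Z := fun φ => Z (φ, t)) (fun φ => (hZp φ t ht).1) m
    ((fun x => f (x, t))^[q * n] y)
  rw [← hs] at he
  have he2 := hZi (show _ ∈ univ ×ˢ Ioo t₁ t₂ from ⟨mem_univ _, ht'⟩)
    (show _ ∈ univ ×ˢ Ioo t₁ t₂ from ⟨mem_univ _, ht⟩) he
  have htt : t' = t := congrArg Prod.snd he2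
  subst htt
  have h1 : (fun x => f (x, t'))^[q * n'] y' = (fun x => f (x, t'))^[q * n] y + m :=
    congrArg Prod.fst he2
  have hp : ∀ φ, (fun x => f (x, t')) (φ + 1) = (fun x => f (x, t')) φ + 1 :=
    fun φ => hf.pf φ t' ht
  have hinj : ∀ k : ℕ, Function.Injective (fun x => f (x, t'))^[k] :=
    fun k => ((hf.mono t' ht).iterate k).injective
  refine ⟨t', hy.2, ?_⟩
  rcases lt_trichotomy n n' with hlt | heq | hgt
  · obtain ⟨j, rfl⟩ := Nat.exists_eq_add_of_lt hlt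
    have e : q * (n + j + 1) = q * n + q * (j + 1) := by ring
    rw [e, Function.iterate_add_apply, ← shiftit hp] at h1
    have h2 := hinj _ h1
    refine ⟨y', hsub hy'.1, j + 1, by omega, m, ?_⟩
    rw [h2, add_sub_cancel_right]
    exact hsub hy.1
  · subst heq
    have hm : m ≠ 0 := hne.resolve_left (fun h => h rfl)
    rw [← shiftit hp] at h1
    have h2 := hinj _ h1
    have a1 := hy.1.1
    have a2 := hy.1.2
    have a3 := hy'.1.1
    have a4 := hy'.1.2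
    simp only at a1 a2 a3 a4
    have b1 : (m : ℝ) < 1 := by linarith
    have b2 : (-1 : ℝ) < m := by linarith
    have b1' : m < 1 := by exact_mod_cast b1
    have b2' : -1 < m := by exact_mod_cast b2
    omega
  · obtain ⟨j, rfl⟩ := Nat.exists_eq_add_of_lt hgt
    have e : q * (n' + j + 1) = q * n' + q * (j + 1) := by ring
    rw [e, Function.iterate_add_apply, ← shiftit hp] at h1
    have h2 := hinj _ h1
    refine ⟨y, hsub hy.1, j + 1, by omega, -m, ?_⟩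
    have e2 : (fun x => f (x, t'))^[q * (j + 1)] y - ((-m : ℤ) : ℝ) = y' := by
      rw [h2]; push_cast; ring
    rw [e2]
    exact hsub hy'.1

end Vale.Agent.P097
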