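import Vale.Agent.P097.BStm

open Set Complex MeasureTheory

namespace Vale.Agent.P097

theorem rec0E : S_rec0 := by
  intro L Y A hL hA hY h0 hv
  by_contra hc
  set D : ℤ → Set (ℝ × ℝ) := fun m => Ico ((m:ℝ) * L) ((m + 1) * L) ×ˢ univ with hD
  set B : ℕ × ℤ → Set (ℝ × ℝ) :=
    fun i => (fun x => x + ((i.2:ℝ) * L, (0:ℝ))) ⁻¹' (A i.1 ∩ D i.2) with hB
  have mB : ∀ i, MeasurableSet (B i) := fun i =>
    (measurable_add_const _) ((hA i.1).inter (measurableSet_Ico.prod MeasurableSet.univ))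
  have dB : Pairwise (Function.onFun Disjoint B) := by
    rintro ⟨n, m⟩ ⟨n', m'⟩ hne
    refine Set.disjoint_left.2 fun x hx hx' => hc ⟨n, n', m' - m, _, ?_, hx.1, ?_⟩
    · by_contra h
      rw [not_or, not_not, not_not] at h
      exact hne (Prod.ext h.1 (by have := h.2; simp only; omega))
    · have e : (((x + ((m:ℝ) * L, (0:ℝ))).1 + ((m' - m : ℤ) : ℝ) * L, (x + ((m:ℝ) * L, (0:ℝ))).2) :
          ℝ × ℝ) = x + ((m':ℝ) * L, (0:ℝ)) := by
        refine Prod.ext ?_ rfl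
        simp only [Prod.fst_add]
        push_cast
        ring
      rw [e]
      exact hx'.1
  have sB : (⋃ i, B i) ⊆ Ico 0 L ×ˢ Icc (-Y) Y := by
    refine iUnion_subset fun i x hx => ⟨?_, ?_⟩
    · have h1 : (i.2:ℝ) * L ≤ x.1 + i.2 * L := hx.2.1.1
      have h2 : x.1 + i.2 * L < (i.2 + 1) * L := hx.2.1.2
      exact ⟨by linarith, by linarith⟩
    · have := hY _ _ hx.1
      simpa [abs_le] using this
  have l1 : ∀ n, volume (A 0) ≤ ∑' m : ℤ, volume (B (n, m)) := by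
    intro n
    have hs : A n ⊆ ⋃ m : ℤ, A n ∩ D m := by
      intro x hx
      refine mem_iUnion.2 ⟨⌊x.1 / L⌋, hx, ⟨?_, ?_⟩, mem_univ _⟩
      · exact (le_div_iff₀ hL).1 (Int.floor_le _)
      · exact (div_lt_iff₀ hL).1 (Int.lt_floor_add_one _)
    rw [← hv n]
    refine (measure_mono hs).trans ((measure_iUnion_le _).trans (le_of_eq ?_))
    exact tsum_congr fun m => (measure_preimage_add_right volume _ _).symm
  have l2 : volume (⋃ i, B i) = ⊤ := by
    rw [measure_iUnion dB mB, ENNReal.tsum_prod', eq_top_iff,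
      ← ENNReal.tsum_const_eq_top_of_ne_zero (α := ℕ) h0.ne']
    exact ENNReal.tsum_le_tsum l1
  have l3 : volume (Ico (0:ℝ) L ×ˢ Icc (-Y) Y) < ⊤ := by
    rw [Measure.volume_eq_prod, Measure.prod_prod]
    exact ENNReal.mul_lt_top measure_Ico_lt_top measure_Icc_lt_top
  exact ((measure_mono sB).trans_lt l3).ne l2

end Vale.Agent.P097
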