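import Vale.Agent.P097.BStm

open Set Complex MeasureTheory

namespace Vale.Agent.P097

namespace BStepAux

theorem fin_step {n₁ n₂ x y B W : ℝ} {k : ℤ} (h1 : 0 < n₁) (h2 : 0 ≤ n₂)
    (e1 : B = n₁ * Real.sin x) (e2 : B = n₂ * Real.cos y) (hx : x ≤ Real.pi / 2 + k * Real.pi)
    (hy : y = x - Real.pi / 2 + W) (hW : W < Real.pi) : y < Real.pi / 2 + k * Real.pi := by
  by_contra hc
  have hc := not_lt.1 hc
  have hp := Real.pi_pos
  have c1 : 0 < Real.cos (x - Real.pi / 2 - k * Real.pi) :=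
    Real.cos_pos_of_mem_Ioo ⟨by linarith, by linarith⟩
  have c2 : Real.cos (y - k * Real.pi) ≤ 0 :=
    Real.cos_nonpos_of_pi_div_two_le_of_le (by linarith) (by linarith)
  rw [Real.cos_sub_int_mul_pi, Real.cos_sub_pi_div_two] at c1
  rw [Real.cos_sub_int_mul_pi] at c2
  have d1 : 0 < (-1 : ℝ) ^ k * B := by
    rw [e1, mul_left_comm]; exact mul_pos h1 c1
  have d2 : (-1 : ℝ) ^ k * B ≤ 0 := by
    rw [e2, mul_left_comm]; exact mul_nonpos_of_nonneg_of_nonpos h2 c2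
  linarith

theorem slit {A B C : ℝ} (h0 : ((A : ℂ) + B * I) ≠ 0) (h1 : B = 0 → 0 < A → C < 0)
    (h2 : B = 0 → A < 0 → 0 < C) : ((B : ℂ) + C * I) / (-I * (A + B * I)) ∈ slitPlane := by
  by_contra hc
  have hu : -I * ((A : ℂ) + B * I) ≠ 0 := mul_ne_zero (neg_ne_zero.2 I_ne_zero) h0
  obtain ⟨w, hw⟩ : ∃ w, w = ((B : ℂ) + C * I) / (-I * (A + B * I)) := ⟨_, rfl⟩
  rw [← hw, mem_slitPlane_iff, not_or, not_lt, not_not] at hc
  have e : (B : ℂ) + C * I = w * (-I * (A + B * I)) := by rw [hw, div_mul_cancel₀ _ hu]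
  have e1 := congrArg Complex.re e
  have e2 := congrArg Complex.im e
  simp [hc.2] at e1 e2
  have hB : B = 0 := by
    have : B * (1 - w.re) = 0 := by linarith
    rcases mul_eq_zero.1 this with h | h
    · exact h
    · linarith [hc.1]
  rcases lt_trichotomy A 0 with h | h | h
  · have := h2 hB h
    nlinarith [hc.1]
  · exact h0 (by simp [h, hB])
  · have := h1 hB h
    nlinarith [hc.1]

theorem arg_int {v v' : ℂ} {x y : ℝ} (h0 : v ≠ 0) (h0' : v' ≠ 0)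
    (h : v = ‖v‖ * Complex.exp (x * I)) (h' : v' = ‖v'‖ * Complex.exp (y * I)) :
    ∃ k : ℤ, y - (x - Real.pi / 2) - arg (v' / (-I * v)) = k * (2 * Real.pi) := by
  have hu : -I * v ≠ 0 := mul_ne_zero (neg_ne_zero.2 I_ne_zero) h0
  obtain ⟨w, hw⟩ : ∃ w, w = v' / (-I * v) := ⟨_, rfl⟩
  rw [← hw]
  have e : v' = w * (-I * v) := by rw [hw, div_mul_cancel₀ _ hu]
  have en : ‖v'‖ = ‖w‖ * ‖v‖ := by rw [e]; simp
  have hn : ((‖v'‖ : ℝ) : ℂ) ≠ 0 := by simpa using h0'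
  have e3 : Complex.exp (y * I) = Complex.exp (((x - Real.pi / 2 + arg w : ℝ) : ℂ) * I) := by
    refine mul_left_cancel₀ hn ?_
    rw [← h']
    have e4 : (((x - Real.pi / 2 + arg w : ℝ) : ℂ) * I) =
        arg w * I + (-(Real.pi / 2 * I) + x * I) := by push_cast; ring
    rw [e4, Complex.exp_add, Complex.exp_add, Complex.exp_neg, Complex.exp_pi_div_two_mul_I,
      Complex.inv_I, en]
    calc v' = (‖w‖ * Complex.exp (arg w * I)) * (-I * (‖v‖ * Complex.exp (x * I))) := by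
          rw [norm_mul_exp_arg_mul_I, ← h]; exact e
      _ = _ := by push_cast; ring
  obtain ⟨k, hk⟩ := Complex.exp_eq_exp_iff_exists_int.1 e3
  refine ⟨k, ?_⟩
  have := congrArg Complex.im hk
  simp at this
  linarith

variable {L t₁ t₂ : ℝ} {a b f : ℝ × ℝ → ℝ}

theorem cvx (t₁ t₂ : ℝ) : Convex ℝ (PS t₁ t₂) := by
  intro x hx y hy s r hs hr hsr
  refine ⟨?_, convex_Ioo t₁ t₂ hx.2 hy.2 hs hr hsr⟩
  have h1 := hx.1
  have h2 := hy.1
  have := convex_Ioi (0 : ℝ) (sub_pos.2 h1) (sub_pos.2 h2) hs hr hsr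
  simp only [mem_Ioi, smul_eq_mul] at this
  simp only [Prod.fst_add, Prod.snd_add, Prod.smul_fst, Prod.smul_snd, smul_eq_mul]
  linarith

theorem c1 {g : ℝ × ℝ → ℝ} (hg : ContinuousOn g (univ ×ˢ Ioo t₁ t₂)) :
    ContinuousOn (fun p : ℝ × ℝ × ℝ => g (p.1, p.2.2)) (PS t₁ t₂) :=
  hg.comp (by fun_prop) fun _ hp => ⟨mem_univ _, hp.2⟩

theorem c2 {g : ℝ × ℝ → ℝ} (hg : ContinuousOn g (univ ×ˢ Ioo t₁ t₂)) :
    ContinuousOn (fun p : ℝ × ℝ × ℝ => g (p.2.1, p.2.2)) (PS t₁ t₂) :=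
  hg.comp (by fun_prop) fun _ hp => ⟨mem_univ _, hp.2⟩

theorem cvv (h : FD L t₁ t₂ a b f) : ContinuousOn (vv a b) (PS t₁ t₂) :=
  (continuous_ofReal.comp_continuousOn ((c2 h.ca).sub (c1 h.ca))).add
    ((continuous_ofReal.comp_continuousOn ((c2 h.cb).sub (c1 h.cb))).mul continuousOn_const)

theorem mTP (h : FD L t₁ t₂ a b f) : MapsTo (TP f) (PS t₁ t₂) (PS t₁ t₂) :=
  fun _ hp => ⟨h.c.mono _ hp.2 hp.1, hp.2⟩

theorem cTP (h : FD L t₁ t₂ a b f) : ContinuousOn (TP f) (PS t₁ t₂) :=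
  (c1 h.c.cf).prodMk ((c2 h.c.cf).prodMk (by fun_prop))

theorem vTP (h : FD L t₁ t₂ a b f) {p : ℝ × ℝ × ℝ} (hp : p ∈ PS t₁ t₂) :
    vv a b (TP f p) = ((b (p.2.1, p.2.2) - b (p.1, p.2.2) : ℝ) : ℂ) +
      ((b (f (p.2.1, p.2.2), p.2.2) - b (f (p.1, p.2.2), p.2.2) : ℝ) : ℂ) * I := by
  simp only [vv, TP, h.af _ _ hp.2]

theorem sl (h : FD L t₁ t₂ a b f) {p : ℝ × ℝ × ℝ} (hp : p ∈ PS t₁ t₂) (h0 : vv a b p ≠ 0) :
    vv a b (TP f p) / (-I * vv a b p) ∈ slitPlane := by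
  rw [vTP h hp]
  refine slit h0 (fun e l => ?_) fun e l => ?_
  · exact sub_neg.2 (h.tw _ _ _ hp.2 (by linarith) (by linarith))
  · exact sub_pos.2 (h.tw _ _ _ hp.2 (by linarith) (by linarith))

end BStepAux

open BStepAux in
theorem stepE : S_step := by
  intro L t₁ t₂ a b f Θ h hT p hp k hk
  have hs := fun q (hq : q ∈ PS t₁ t₂) => sl h hq (hT.ne q hq)
  have cw : ContinuousOn (fun q => vv a b (TP f q) / (-I * vv a b q)) (PS t₁ t₂) :=
    ((cvv h).comp (cTP h) (mTP h)).div (continuousOn_const.mul (cvv h)) fun q hq =>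
      mul_ne_zero (neg_ne_zero.2 I_ne_zero) (hT.ne q hq)
  have cW : ContinuousOn (fun q => arg (vv a b (TP f q) / (-I * vv a b q))) (PS t₁ t₂) :=
    fun q hq => ContinuousAt.comp_continuousWithinAt (g := arg)
      (f := fun q => vv a b (TP f q) / (-I * vv a b q)) (continuousAt_arg (hs q hq)) (cw q hq)
  have hp0 : ((0 : ℝ), (0 : ℝ) + 1, p.2.2) ∈ PS t₁ t₂ := ⟨by simp, hp.2⟩
  have key := const_of_int (cvx t₁ t₂).isPreconnected
    (g := fun q => Θ (TP f q) - (Θ q - Real.pi / 2) - arg (vv a b (TP f q) / (-I * vv a b q)))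
    (((hT.cont.comp (cTP h) (mTP h)).sub (hT.cont.sub continuousOn_const)).sub cW)
    (fun q hq => arg_int (hT.ne q hq) (hT.ne _ (mTP h hq)) (hT.pol q hq) (hT.pol _ (mTP h hq)))
    hp hp0
  have v0 : ∀ φ : ℝ, vv a b (φ, φ + 1, p.2.2) = L + L * I := fun φ => by
    simp only [vv, h.pa φ _ hp.2, h.pb φ _ hp.2, add_sub_cancel_left]
  have t0 : TP f ((0 : ℝ), (0 : ℝ) + 1, p.2.2) = (f (0, p.2.2), f (0, p.2.2) + 1, p.2.2) := by
    simp only [TP, h.c.pf 0 _ hp.2]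
  have hL : (L : ℂ) + L * I ≠ 0 := v0 0 ▸ hT.ne _ hp0
  have w0 : ((L : ℂ) + L * I) / (-I * (L + L * I)) = I := by
    rw [div_eq_iff (mul_ne_zero (neg_ne_zero.2 I_ne_zero) hL), ← mul_assoc]; simp
  simp only [t0, v0, w0, hT.nrm _ _ hp.2, arg_I] at key
  have e1 := congrArg Complex.im (hT.pol p hp)
  have e2 := congrArg Complex.re (hT.pol _ (mTP h hp))
  rw [im_ofReal_mul, exp_ofReal_mul_I_im] at e1
  rw [re_ofReal_mul, exp_ofReal_mul_I_re] at e2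
  refine fin_step (norm_pos_iff.2 (hT.ne p hp)) (norm_nonneg (vv a b (TP f p))) e1 ?_ hk
    (W := arg (vv a b (TP f p) / (-I * vv a b p))) (by linarith)
    (lt_of_le_of_ne (arg_le_pi _) (slitPlane_arg_ne_pi (hs p hp)))
  rw [← e2, vTP h hp]
  simp [vv]

end Vale.Agent.P097
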