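import Vale.Agent.P097.KMain
import Vale.Agent.P097.BLz
import Vale.Agent.P097.BLcm
import Vale.Agent.P097.BLc
import Vale.Agent.P097.BBinv
import Vale.Agent.P097.BArea0
import Vale.Agent.P097.BArea
import Vale.Agent.P097.BRec0
import Vale.Agent.P097.BRec
import Vale.Agent.P097.BDense
import Vale.Agent.P097.BIrr
import Vale.Agent.P097.BRat
import Vale.Agent.P097.BPair
import Vale.Agent.P097.BLift
import Vale.Agent.P097.BStep
import Vale.Agent.P097.BBirk
import Vale.Agent.P097.BEnd
import Vale.Agent.P097.BLk
import Vale.Agent.P097.BFdd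
import Vale.Agent.P097.BFrec
import Vale.Agent.P097.BGr0

namespace Vale.Agent.P097

theorem p_lz : S_lz := lzE

theorem p_lcm : S_lcm := lcmE

theorem p_lc : S_lc := lcE p_lcm

theorem p_binv : S_binv := binvE

theorem p_area0 : S_area0 := area0E

theorem p_area : S_area := areaE p_area0

theorem p_rec0 : S_rec0 := rec0E

theorem p_rec : S_rec := recE p_rec0

theorem p_dense : S_dense := denseE

theorem p_irr : S_irr := irrE

theorem p_rat : S_rat := ratE

theorem p_pair : S_pair := pairE p_dense p_irr p_rat

theorem p_lift : S_lift := liftE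

theorem p_step : S_step := stepE

theorem p_birk : S_birk := birkE p_lift p_step p_pair

theorem p_end : S_end := endE

theorem p_lk : S_lk := lkE p_binv p_end

theorem p_fdd : S_fdd := fddE

theorem p_frec : S_frec := frecE p_rec p_area

theorem p_gr0 : S_gr0 := gr0E

theorem mainB (γ : ℝ → ℂ) (L η : ℝ) (e : OpenPartialHomeomorph (ℝ × ℝ) (ℝ × ℝ))
    (h : Table γ L) (hf : Fol γ L η e) : Graphs γ L :=
  finalB p_lz p_lc p_lk p_fdd p_frec p_birk p_gr0 γ L η e h hf

end Vale.Agent.P097
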