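import Vale.Agent.P097.Base

/-! P097, part B: Birkhoff's graph theorem for invariant foliations. Definitions and statements. -/

open Set Complex MeasureTheory

namespace Vale.Agent.P097

/-- A neighbourhood of the grazing end is foliated by invariant rotational curves. -/
structure Fol (γ : ℝ → ℂ) (L η : ℝ) (e : OpenPartialHomeomorph (ℝ × ℝ) (ℝ × ℝ)) : Prop where
  pos : 0 < η
  src : e.source = univ ×ˢ Ioo 0 1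
  sub : univ ×ˢ Ioo 0 η ⊆ e.target
  sup : e.target ⊆ univ ×ˢ Ioo 0 Real.pi
  per : ∀ φ : ℝ, ∀ t ∈ Ioo (0:ℝ) 1, e (φ + 1, t) = ((e (φ, t)).1 + L, (e (φ, t)).2)
  inv : ∀ φ : ℝ, ∀ t ∈ Ioo (0:ℝ) 1, ∀ s' δ' : ℝ, 0 < δ' → δ' < Real.pi →
    Step γ L (e (φ, t)).1 (e (φ, t)).2 s' δ' → ∃ φ' : ℝ, e (φ', t) = (s', δ')

noncomputable def zO (γ : ℝ → ℂ) (x : ℝ × ℝ) : ℂ := (γ x.2 - γ x.1) * (starRingEnd ℂ) (deriv γ x.1)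

noncomputable def zI (γ : ℝ → ℂ) (x : ℝ × ℝ) : ℂ := (γ x.2 - γ x.1) * (starRingEnd ℂ) (deriv γ x.2)

/-- Outgoing angle of a chord. -/
noncomputable def aO (γ : ℝ → ℂ) (x : ℝ × ℝ) : ℝ := arg (zO γ x)

/-- Angle after the reflection at the end of a chord. -/
noncomputable def aI (γ : ℝ → ℂ) (x : ℝ × ℝ) : ℝ := -arg (zI γ x)

def Sp (d : ℝ) : Set (ℝ × ℝ) := {x | x.1 < x.2 ∧ x.2 < x.1 + d}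

structure LZ (γ : ℝ → ℂ) (L d K : ℝ) : Prop where
  dpos : 0 < d
  dle : d ≤ L
  h : ∀ x ∈ Sp d, (x.2 - x.1) / 2 ≤ (zO γ x).re ∧ 0 < (zO γ x).im ∧
    (zO γ x).im ≤ K * (x.2 - x.1) ^ 2 ∧ 0 < (zI γ x).re ∧ (zI γ x).im < 0

/-- Short chords. -/
structure LC (γ : ℝ → ℂ) (L d : ℝ) : Prop where
  dpos : 0 < d
  ne : ∀ x ∈ Sp d, γ x.2 ≠ γ x.1
  o : ∀ x ∈ Sp d, 0 < aO γ x ∧ aO γ x < Real.pi / 2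
  i : ∀ x ∈ Sp d, 0 < aI γ x ∧ aI γ x < Real.pi / 2
  step : ∀ x ∈ Sp d, Step γ L x.1 (aO γ x) x.2 (aI γ x)
  co : ContinuousOn (aO γ) (Sp d)
  ci : ContinuousOn (aI γ) (Sp d)
  mo : ∀ s t t' : ℝ, s < t → t < t' → t' < s + d → aO γ (s, t) < aO γ (s, t')
  mi : ∀ s s' t : ℝ, s < s' → s' < t → t < s + d → aI γ (s', t) < aI γ (s, t)
  small : ∃ K : ℝ, ∀ x ∈ Sp d, aO γ x ≤ K * (x.2 - x.1)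
  per : ∀ s t : ℝ, aO γ (s + L, t + L) = aO γ (s, t) ∧ aI γ (s + L, t + L) = aI γ (s, t)

/-- A continuous family of lifts of circle homeomorphisms. -/
structure CF (t₁ t₂ : ℝ) (f : ℝ × ℝ → ℝ) : Prop where
  cf : ContinuousOn f (univ ×ˢ Ioo t₁ t₂)
  pf : ∀ φ : ℝ, ∀ t ∈ Ioo t₁ t₂, f (φ + 1, t) = f (φ, t) + 1
  mono : ∀ t ∈ Ioo t₁ t₂, StrictMono fun φ => f (φ, t)

/-- Invariant curves of a twist map in configuration coordinates. -/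
structure FD (L t₁ t₂ : ℝ) (a b f : ℝ × ℝ → ℝ) : Prop where
  pos : 0 < L
  lt : t₁ < t₂
  c : CF t₁ t₂ f
  ca : ContinuousOn a (univ ×ˢ Ioo t₁ t₂)
  cb : ContinuousOn b (univ ×ˢ Ioo t₁ t₂)
  pa : ∀ φ : ℝ, ∀ t ∈ Ioo t₁ t₂, a (φ + 1, t) = a (φ, t) + L
  pb : ∀ φ : ℝ, ∀ t ∈ Ioo t₁ t₂, b (φ + 1, t) = b (φ, t) + L
  af : ∀ φ : ℝ, ∀ t ∈ Ioo t₁ t₂, a (f (φ, t), t) = b (φ, t)
  inj : ∀ φ φ' : ℝ, ∀ t ∈ Ioo t₁ t₂, a (φ, t) = a (φ', t) → b (φ, t) = b (φ', t) → φ = φ'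
  tw : ∀ φ φ' : ℝ, ∀ t ∈ Ioo t₁ t₂, b (φ, t) = b (φ', t) → a (φ, t) < a (φ', t) →
    b (f (φ', t), t) < b (f (φ, t), t)

/-- The interval returns to itself under an iterate of `g ^ q`. -/
def Ret (g : ℝ → ℝ) (q : ℕ) (u v : ℝ) : Prop :=
  ∃ φ ∈ Ioo u v, ∃ n : ℕ, 1 ≤ n ∧ ∃ m : ℤ, g^[q * n] φ - m ∈ Ioo u v

/-- Simultaneous return of two intervals. -/
def Ret2 (g : ℝ → ℝ) (u v u' v' : ℝ) : Prop :=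
  ∃ φ ∈ Ioo u v, ∃ φ' ∈ Ioo u' v', ∃ n : ℕ, 2 ≤ n ∧ ∃ m : ℤ,
    g^[n] φ - m ∈ Ioo u v ∧ g^[n] φ' - m ∈ Ioo u' v'

def RecF (t₁ t₂ : ℝ) (f : ℝ × ℝ → ℝ) : Prop :=
  ∀ (q : ℕ) (u v c d : ℝ), 1 ≤ q → u < v → t₁ ≤ c → c < d → d ≤ t₂ →
    ∃ t ∈ Ioo c d, Ret (fun x => f (x, t)) q u v

def PS (t₁ t₂ : ℝ) : Set (ℝ × ℝ × ℝ) := {p | p.1 < p.2.1 ∧ p.2.2 ∈ Ioo t₁ t₂}

noncomputable def vv (a b : ℝ × ℝ → ℝ) (p : ℝ × ℝ × ℝ) : ℂ :=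
  ((a (p.2.1, p.2.2) - a (p.1, p.2.2) : ℝ) : ℂ) + ((b (p.2.1, p.2.2) - b (p.1, p.2.2) : ℝ) : ℂ) * I

def TP (f : ℝ × ℝ → ℝ) (p : ℝ × ℝ × ℝ) : ℝ × ℝ × ℝ := (f (p.1, p.2.2), f (p.2.1, p.2.2), p.2.2)

/-- Continuous argument of the difference vector of two points of one leaf. -/
structure TH (t₁ t₂ : ℝ) (a b : ℝ × ℝ → ℝ) (Θ : ℝ × ℝ × ℝ → ℝ) : Prop where
  cont : ContinuousOn Θ (PS t₁ t₂)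
  ne : ∀ p ∈ PS t₁ t₂, vv a b p ≠ 0
  pol : ∀ p ∈ PS t₁ t₂, vv a b p = ‖vv a b p‖ * Complex.exp (Θ p * I)
  nrm : ∀ φ : ℝ, ∀ t ∈ Ioo t₁ t₂, Θ (φ, φ + 1, t) = Real.pi / 4
  per : ∀ p ∈ PS t₁ t₂, Θ (p.1 + 1, p.2.1 + 1, p.2.2) = Θ p

/-- The billiard map in the coordinates of the foliation. -/
structure LK (γ : ℝ → ℂ) (d t₁ t₂ : ℝ) (e : ℝ × ℝ → ℝ × ℝ) (b f : ℝ × ℝ → ℝ) : Prop where
  t0 : 0 ≤ t₁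
  lt : t₁ < t₂
  t1 : t₂ ≤ 1
  cb : ContinuousOn b (univ ×ˢ Ioo t₁ t₂)
  cf : ContinuousOn f (univ ×ˢ Ioo t₁ t₂)
  h : ∀ φ : ℝ, ∀ t ∈ Ioo t₁ t₂, ((e (φ, t)).1, b (φ, t)) ∈ Sp d ∧
    aO γ ((e (φ, t)).1, b (φ, t)) = (e (φ, t)).2 ∧
    e (f (φ, t), t) = (b (φ, t), aI γ ((e (φ, t)).1, b (φ, t)))

/-- A continuous function with values in `2 π ℤ` on a connected set is constant. -/
theorem const_of_int {X : Type} [TopologicalSpace X] {s : Set X} {g : X → ℝ}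
    (hs : IsPreconnected s) (hg : ContinuousOn g s) (h : ∀ x ∈ s, ∃ k : ℤ, g x = k * (2 * Real.pi))
    {x y : X} (hx : x ∈ s) (hy : y ∈ s) : g x = g y := by
  have key : ∀ x ∈ s, ∀ y ∈ s, ¬ g x < g y := by
    intro x hx y hy hlt
    obtain ⟨k, hk⟩ := h x hx
    obtain ⟨l, hl⟩ := h y hy
    have hp := Real.pi_pos
    have hkl : k < l := by
      rw [hk, hl] at hlt
      exact_mod_cast lt_of_mul_lt_mul_right hlt (by positivity)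
    have h1 : (k:ℝ) + 1 ≤ l := by exact_mod_cast hkl
    obtain ⟨z, hz, hz'⟩ := hs.intermediate_value hx hy hg (a := x) (b := y)
      (show g x + Real.pi ∈ Icc (g x) (g y) from ⟨by linarith, by rw [hk, hl]; nlinarith⟩)
    obtain ⟨j, hj⟩ := h z hz
    rw [hk, hj] at hz'
    have h2 : ((2 * j : ℤ) : ℝ) = ((2 * k + 1 : ℤ) : ℝ) := by
      push_cast
      exact mul_right_cancel₀ hp.ne' (by linarith)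
    have h3 : 2 * j = 2 * k + 1 := by exact_mod_cast h2
    omega
  exact le_antisymm (not_lt.1 (key y hy x hx)) (not_lt.1 (key x hx y hy))

def S_lz : Prop := ∀ (γ : ℝ → ℂ) (L : ℝ), Table γ L → ∃ d K : ℝ, LZ γ L d K

def S_lcm : Prop := ∀ (γ : ℝ → ℂ) (L d K : ℝ), Table γ L → LZ γ L d K →
  (∀ s t t' : ℝ, s < t → t < t' → t' < s + d → aO γ (s, t) < aO γ (s, t')) ∧
  ∀ s s' t : ℝ, s < s' → s' < t → t < s + d → aI γ (s', t) < aI γ (s, t)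

def S_lc : Prop := ∀ (γ : ℝ → ℂ) (L d K : ℝ), Table γ L → LZ γ L d K → LC γ L d

def S_binv : Prop := ∀ (γ : ℝ → ℂ) (L d : ℝ), 0 < L → LC γ L d → ∃ (η : ℝ) (B : ℝ × ℝ → ℝ), 0 < η ∧
  ContinuousOn B (univ ×ˢ Ioo 0 η) ∧
  ∀ s δ : ℝ, 0 < δ → δ < η → (s, B (s, δ)) ∈ Sp d ∧ aO γ (s, B (s, δ)) = δ

def S_area0 : Prop := ∀ (h : ℝ × ℝ → ℝ) (V E : Set (ℝ × ℝ)), IsOpen V → ContDiffOn ℝ 2 h V →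
  E ⊆ V → MeasurableSet E → InjOn (fun x => (x.1, -fderiv ℝ h x (1, 0))) E →
  InjOn (fun x => (x.2, fderiv ℝ h x (0, 1))) E →
  volume ((fun x => (x.1, -fderiv ℝ h x (1, 0))) '' E) =
    volume ((fun x => (x.2, fderiv ℝ h x (0, 1))) '' E)

def S_area : Prop := ∀ (γ : ℝ → ℂ) (L d : ℝ) (E : Set (ℝ × ℝ)), Table γ L → LC γ L d →
  E ⊆ Sp d → MeasurableSet E → volume ((fun x => (x.1, Real.cos (aO γ x))) '' E) =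
    volume ((fun x => (x.2, Real.cos (aI γ x))) '' E)

def S_rec0 : Prop := ∀ (L Y : ℝ) (A : ℕ → Set (ℝ × ℝ)), 0 < L → (∀ n, MeasurableSet (A n)) →
  (∀ n, ∀ x ∈ A n, |x.2| ≤ Y) → 0 < volume (A 0) → (∀ n, volume (A n) = volume (A 0)) →
  ∃ (n n' : ℕ) (m : ℤ) (x : ℝ × ℝ), (n ≠ n' ∨ m ≠ 0) ∧ x ∈ A n ∧ (x.1 + m * L, x.2) ∈ A n'

def S_rec : Prop := ∀ (L Y t₁ t₂ : ℝ) (f : ℝ × ℝ → ℝ) (Z : ℝ × ℝ → ℝ × ℝ), 0 < L → CF t₁ t₂ f →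
  ContinuousOn Z (univ ×ˢ Ioo t₁ t₂) → InjOn Z (univ ×ˢ Ioo t₁ t₂) →
  (∀ φ : ℝ, ∀ t ∈ Ioo t₁ t₂, Z (φ + 1, t) = ((Z (φ, t)).1 + L, (Z (φ, t)).2) ∧ |(Z (φ, t)).2| ≤ Y) →
  (∀ u v c d : ℝ, u < v → t₁ ≤ c → c < d → d ≤ t₂ → 0 < volume (Z '' (Ioo u v ×ˢ Ioo c d))) →
  (∀ E ⊆ univ ×ˢ Ioo t₁ t₂, MeasurableSet E →
    volume (Z '' ((fun x => (f x, x.2)) '' E)) = volume (Z '' E)) → RecF t₁ t₂ f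

def S_dense : Prop := ∀ (t₁ t₂ : ℝ) (f : ℝ × ℝ → ℝ), CF t₁ t₂ f → RecF t₁ t₂ f →
  (∀ (k : ℕ) (φ : ℝ), ContinuousOn (fun t => (fun x => f (x, t))^[k] φ) (Ioo t₁ t₂)) ∧
  ∀ (q : ℕ) (u v u' v' c d : ℝ), 1 ≤ q → u < v → u' < v' → t₁ ≤ c → c < d → d ≤ t₂ →
    ∃ t ∈ Ioo c d, Ret (fun x => f (x, t)) q u v ∧ Ret (fun x => f (x, t)) q u' v'

def S_irr : Prop := ∀ (G : CircleDeg1Lift) (u v u' v' : ℝ), Irrational G.translationNumber →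
  Ret G 1 u v → Ret G 1 u' v' → Ret2 G u v u' v'

def S_rat : Prop := ∀ (G : CircleDeg1Lift) (q : ℕ) (p : ℤ) (c u v : ℝ), G^[q] c = c + p →
  Ret G q u v → ∃ φ ∈ Ioo u v, G^[q] φ - p ∈ Ioo u v

def S_pair : Prop := ∀ (t₁ t₂ : ℝ) (f : ℝ × ℝ → ℝ), CF t₁ t₂ f → RecF t₁ t₂ f →
  ∀ u v u' v' c d : ℝ, u < v → u' < v' → t₁ ≤ c → c < d → d ≤ t₂ →
    ∃ t ∈ Ioo c d, Ret2 (fun x => f (x, t)) u v u' v'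

def S_lift : Prop := ∀ (L t₁ t₂ : ℝ) (a b f : ℝ × ℝ → ℝ), FD L t₁ t₂ a b f → ∃ Θ, TH t₁ t₂ a b Θ

def S_step : Prop := ∀ (L t₁ t₂ : ℝ) (a b f : ℝ × ℝ → ℝ) (Θ : ℝ × ℝ × ℝ → ℝ), FD L t₁ t₂ a b f →
  TH t₁ t₂ a b Θ → ∀ p ∈ PS t₁ t₂, ∀ k : ℤ, Θ p ≤ Real.pi / 2 + k * Real.pi →
    Θ (TP f p) < Real.pi / 2 + k * Real.pi

def S_birk : Prop := ∀ (L t₁ t₂ : ℝ) (a b f : ℝ × ℝ → ℝ), FD L t₁ t₂ a b f → RecF t₁ t₂ f →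
  ∀ t ∈ Ioo t₁ t₂, StrictMono fun φ => a (φ, t)

def S_end : Prop := ∀ (γ : ℝ → ℂ) (L η : ℝ) (e : OpenPartialHomeomorph (ℝ × ℝ) (ℝ × ℝ)), 0 < L →
  Fol γ L η e → ∀ η₁ : ℝ, 0 < η₁ → ∃ t₁ t₂ : ℝ, 0 ≤ t₁ ∧ t₁ < t₂ ∧ t₂ ≤ 1 ∧
    (∀ φ : ℝ, ∀ t ∈ Ioo t₁ t₂, (e (φ, t)).2 < η₁) ∧
    ∃ η' : ℝ, 0 < η' ∧ ∀ s δ : ℝ, 0 < δ → δ < η' → ∃ φ : ℝ, ∃ t ∈ Ioo t₁ t₂, e (φ, t) = (s, δ)

def S_lk : Prop := ∀ (γ : ℝ → ℂ) (L η d : ℝ) (e : OpenPartialHomeomorph (ℝ × ℝ) (ℝ × ℝ)), 0 < L →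
  Fol γ L η e → LC γ L d → ∃ (t₁ t₂ : ℝ) (b f : ℝ × ℝ → ℝ), LK γ d t₁ t₂ e b f ∧
    ∃ η' : ℝ, 0 < η' ∧ ∀ s δ : ℝ, 0 < δ → δ < η' → ∃ φ : ℝ, ∃ t ∈ Ioo t₁ t₂, e (φ, t) = (s, δ)

def S_fdd : Prop := ∀ (γ : ℝ → ℂ) (L η d t₁ t₂ : ℝ) (e : OpenPartialHomeomorph (ℝ × ℝ) (ℝ × ℝ))
  (b f : ℝ × ℝ → ℝ), 0 < L → Fol γ L η e → LC γ L d → LK γ d t₁ t₂ e b f →
  FD L t₁ t₂ (fun x => (e x).1) b f

def S_frec : Prop := ∀ (γ : ℝ → ℂ) (L η d t₁ t₂ : ℝ) (e : OpenPartialHomeomorph (ℝ × ℝ) (ℝ × ℝ))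
  (b f : ℝ × ℝ → ℝ), Table γ L → Fol γ L η e → LC γ L d → LK γ d t₁ t₂ e b f → CF t₁ t₂ f →
  RecF t₁ t₂ f

def S_gr0 : Prop := ∀ (γ : ℝ → ℂ) (L η : ℝ) (e : OpenPartialHomeomorph (ℝ × ℝ) (ℝ × ℝ)), 0 < L →
  Fol γ L η e → ∀ t ∈ Ioo (0:ℝ) 1, (StrictMono fun φ => (e (φ, t)).1) →
  ∃ g : ℝ → ℝ, InvGraph γ L g ∧ ∀ φ : ℝ, g (e (φ, t)).1 = (e (φ, t)).2

theorem finalB (lz : S_lz) (lc : S_lc) (lk : S_lk) (fdd : S_fdd) (frec : S_frec) (birk : S_birk)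
    (gr0 : S_gr0) (γ : ℝ → ℂ) (L η : ℝ) (e : OpenPartialHomeomorph (ℝ × ℝ) (ℝ × ℝ))
    (h : Table γ L) (hf : Fol γ L η e) : Graphs γ L := by
  obtain ⟨d, K, h1⟩ := lz γ L h
  have h2 := lc γ L d K h h1
  obtain ⟨t₁, t₂, b, f, h3, η', h4, h5⟩ := lk γ L η d e h.pos hf h2
  have h6 := fdd γ L η d t₁ t₂ e b f h.pos hf h2 h3
  refine ⟨η', h4, fun s δ a1 a2 => ?_⟩
  obtain ⟨φ, t, ht, he⟩ := h5 s δ a1 a2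
  obtain ⟨g, g1, g2⟩ := gr0 γ L η e h.pos hf t ⟨h3.t0.trans_lt ht.1, ht.2.trans_le h3.t1⟩
    (birk L t₁ t₂ _ b f h6 (frec γ L η d t₁ t₂ e b f h hf h2 h3 h6.c) t ht)
  exact ⟨g, g1, by simpa [he] using g2 φ⟩

end Vale.Agent.P097
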