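import Vale.Agent.P097.Stm

/-! P097: basic facts on the definitions. -/

open Set NormedSpace Complex

namespace Vale.Agent.P097

section Alg

variable {B : Type} [NormedCommRing B] [NormedAlgebra ℂ B] [CompleteSpace B]

theorem ex_add (x y : B) : exp (x + y) = exp x * exp y := by
  let : NormedAlgebra ℚ B := NormedAlgebra.restrictScalars ℚ ℂ B
  exact exp_add

theorem ex_neg (x : B) : exp x * exp (-x) = 1 := by
  rw [← ex_add, add_neg_cancel, NormedSpace.exp_zero]

@[fun_prop]
theorem ex_cont : Continuous (exp : B → B) := by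
  let : NormedAlgebra ℚ B := NormedAlgebra.restrictScalars ℚ ℂ B
  exact exp_continuous

omit [CompleteSpace B] in
theorem ex_smul_one (c : ℂ) : exp (c • (1 : B)) = Complex.exp c • (1 : B) := by
  rw [← Algebra.algebraMap_eq_smul_one, ← Algebra.algebraMap_eq_smul_one, Complex.exp_eq_exp_ℂ,
    algebraMap_exp_comm]

/-- Taylor remainder of the exponential. -/
theorem ex_rem [NormOneClass B] (m : ℕ) (x : B) :
    ‖exp x - ∑ k ∈ Finset.range m, ((k.factorial : ℂ)⁻¹) • x ^ k‖ ≤ ‖x‖ ^ m * Real.exp ‖x‖ := by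
  have h1 := (expSeries_hasSum_exp (𝕂 := ℂ) x)
  simp only [expSeries_apply_eq] at h1
  have h2 := (hasSum_nat_add_iff' m).2 h1
  have h3 : HasSum (fun k : ℕ => ‖x‖ ^ m * (‖x‖ ^ k / k.factorial)) (‖x‖ ^ m * Real.exp ‖x‖) := by
    rw [Real.exp_eq_exp_ℝ]
    exact (expSeries_div_hasSum_exp ‖x‖).mul_left _
  refine h2.norm_le_of_bounded h3 fun k => ?_
  rw [norm_smul, norm_inv, Complex.norm_natCast]
  have h4 : (k.factorial : ℝ) ≤ (k + m).factorial := by
    exact_mod_cast Nat.factorial_le (Nat.le_add_right k m)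
  have h5 : (0:ℝ) < k.factorial := by exact_mod_cast k.factorial_pos
  calc ((k + m).factorial : ℝ)⁻¹ * ‖x ^ (k + m)‖ ≤ (k.factorial : ℝ)⁻¹ * ‖x‖ ^ (k + m) := by
        gcongr
        exact norm_pow_le _ _
    _ = _ := by rw [pow_add]; ring

theorem ex_le [NormOneClass B] (x : B) : ‖exp x‖ ≤ Real.exp ‖x‖ := by simpa using ex_rem 0 x

theorem ex_rem1 [NormOneClass B] (x : B) : ‖exp x - 1‖ ≤ ‖x‖ * Real.exp ‖x‖ := by
  simpa using ex_rem 1 x

theorem ex_rem2 [NormOneClass B] (x : B) : ‖exp x - (1 + x)‖ ≤ ‖x‖ ^ 2 * Real.exp ‖x‖ := by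
  simpa [Finset.sum_range_succ] using ex_rem 2 x

theorem ex_rem3 [NormOneClass B] (x : B) :
    ‖exp x - (1 + x + (1 / 2 : ℂ) • x ^ 2)‖ ≤ ‖x‖ ^ 3 * Real.exp ‖x‖ := by
  simpa [Finset.sum_range_succ] using ex_rem 3 x

theorem ex_rem4 [NormOneClass B] (x : B) :
    ‖exp x - (1 + x + (1 / 2 : ℂ) • x ^ 2 + (1 / 6 : ℂ) • x ^ 3)‖ ≤ ‖x‖ ^ 4 * Real.exp ‖x‖ := by
  simpa [Finset.sum_range_succ, Nat.factorial] using ex_rem 4 x

section Cont

variable {X : Type} [TopologicalSpace X] {b h : X → ℝ → B} {d Ri : X → B}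

theorem kk_cont2 (hb : Continuous fun z : X × ℝ => b z.1 z.2) :
    Continuous fun z : X × ℝ => kk (b z.1) z.2 :=
  intervalIntegral.continuous_parametric_primitive_of_continuous
    (f := fun x z => exp (b x z)) (ex_cont.comp hb)

theorem JJ_cont2 (hb : Continuous fun z : X × ℝ => b z.1 z.2)
    (hh : Continuous fun z : X × ℝ => h z.1 z.2) :
    Continuous fun z : X × ℝ => JJ (b z.1) (h z.1) z.2 :=
  intervalIntegral.continuous_parametric_primitive_of_continuous
    (f := fun x z => exp (b x z) * h x z) ((ex_cont.comp hb).mul hh)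

theorem em_cont2 (hb : Continuous fun z : X × ℝ => b z.1 z.2) :
    Continuous fun z : X × ℝ => em (b z.1) z.2 := ex_cont.comp (hb.const_smul _)

theorem ph_cont2 (j : ℂ) (hb : Continuous fun z : X × ℝ => b z.1 z.2) (hd : Continuous d) :
    Continuous fun z : X × ℝ => ph j (b z.1) (d z.1) z.2 :=
  ex_cont.comp (((hd.comp continuous_fst).mul (kk_cont2 hb)).const_smul _)

theorem GG_cont (j : ℂ) (hb : Continuous fun z : X × ℝ => b z.1 z.2) (hd : Continuous d) :
    Continuous fun x => GG j (b x) (d x) :=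
  intervalIntegral.continuous_parametric_intervalIntegral_of_continuous'
    (f := fun x y => em (b x) y * ph j (b x) (d x) y) ((em_cont2 hb).mul (ph_cont2 j hb hd)) _ _

theorem cs_cont2 (hb : Continuous fun z : X × ℝ => b z.1 z.2) (hd : Continuous d)
    (hR : Continuous Ri) : Continuous fun z : X × ℝ => cs (b z.1) (d z.1) (Ri z.1) z.2 :=
  ((hR.comp continuous_fst).mul
    (((ph_cont2 _ hb hd).mul ((GG_cont _ hb hd).comp continuous_fst)).add
    ((ph_cont2 _ hb hd).mul ((GG_cont _ hb hd).comp continuous_fst)))).const_smul _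

theorem sn_cont2 (hb : Continuous fun z : X × ℝ => b z.1 z.2) (hd : Continuous d)
    (hR : Continuous Ri) : Continuous fun z : X × ℝ => sn (b z.1) (d z.1) (Ri z.1) z.2 :=
  ((hR.comp continuous_fst).mul
    (((ph_cont2 _ hb hd).mul ((GG_cont _ hb hd).comp continuous_fst)).sub
    ((ph_cont2 _ hb hd).mul ((GG_cont _ hb hd).comp continuous_fst)))).const_smul _

theorem lin_cont (hb : Continuous fun z : X × ℝ => b z.1 z.2) (hd : Continuous d)
    (hR : Continuous Ri) (hh : Continuous fun z : X × ℝ => h z.1 z.2) :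
    Continuous fun x => lin (b x) (d x) (Ri x) (h x) :=
  hd.mul (intervalIntegral.continuous_parametric_intervalIntegral_of_continuous'
    (f := fun x y => em (b x) y * ((-2 : ℂ) • (h x y * (cs (b x) (d x) (Ri x) y - 1))
      - d x * JJ (b x) (h x) y * sn (b x) (d x) (Ri x) y))
    ((em_cont2 hb).mul (((hh.mul ((cs_cont2 hb hd hR).sub continuous_const)).const_smul _).sub
      (((hd.comp continuous_fst).mul (JJ_cont2 hb hh)).mul (sn_cont2 hb hd hR)))) _ _)

theorem EA_cont {b0 p n : X → B} {bp bn : X → ℝ → B} (h0 : Continuous b0)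
    (hbp : Continuous fun z : X × ℝ => bp z.1 z.2) (hp : Continuous p)
    (hbn : Continuous fun z : X × ℝ => bn z.1 z.2) (hn : Continuous n) :
    Continuous fun x => EA (b0 x) (bp x) (p x) (bn x) (n x) :=
  ((ex_cont.comp (h0.const_smul _)).mul (((GG_cont _ hbp hp).mul (GG_cont _ hbn hn.neg)).sub
    ((GG_cont _ hbp hp).mul (GG_cont _ hbn hn.neg)))).const_smul _

end Cont

section Cont1

variable {b h : ℝ → B}

theorem unit_cont {Y : Type} [TopologicalSpace Y] {f : Unit → ℝ → Y}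
    (hf : Continuous fun z : Unit × ℝ => f z.1 z.2) : Continuous (f ()) :=
  hf.comp (Continuous.prodMk_right ())

theorem kk_cont (hb : Continuous b) : Continuous (kk b) :=
  unit_cont (f := fun _ => kk b) (kk_cont2 (b := fun _ => b) (hb.comp continuous_snd))

theorem JJ_cont (hb : Continuous b) (hh : Continuous h) : Continuous (JJ b h) :=
  unit_cont (f := fun _ => JJ b h) (JJ_cont2 (b := fun _ => b) (h := fun _ => h)
    (hb.comp continuous_snd) (hh.comp continuous_snd))

theorem em_cont (hb : Continuous b) : Continuous (em b) := ex_cont.comp (hb.const_smul _)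

theorem ph_cont (j : ℂ) (hb : Continuous b) (d : B) : Continuous (ph j b d) :=
  ex_cont.comp ((continuous_const.mul (kk_cont hb)).const_smul _)

theorem cs_cont (hb : Continuous b) (d Ri : B) : Continuous (cs b d Ri) :=
  (continuous_const.mul (((ph_cont _ hb d).mul continuous_const).add
    ((ph_cont _ hb d).mul continuous_const))).const_smul _

theorem sn_cont (hb : Continuous b) (d Ri : B) : Continuous (sn b d Ri) :=
  (continuous_const.mul (((ph_cont _ hb d).mul continuous_const).sub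
    ((ph_cont _ hb d).mul continuous_const))).const_smul _

theorem int_mul (x : B) (hh : Continuous h) (a c : ℝ) :
    ∫ y in a..c, x * h y = x * ∫ y in a..c, h y :=
  (ContinuousLinearMap.mul ℂ B x).intervalIntegral_comp_comm (hh.intervalIntegrable _ _)

end Cont1

section Nat

variable {B' : Type} [NormedCommRing B'] [NormedAlgebra ℂ B'] [CompleteSpace B']
  (φ : B →ₐ[ℂ] B') (hφ : Continuous φ) {b h : ℝ → B}
include hφ

omit [CompleteSpace B'] in
theorem map_ex (x : B) : φ (exp x) = exp (φ x) := by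
  let : NormedAlgebra ℚ B := NormedAlgebra.restrictScalars ℚ ℂ B
  let : NormedAlgebra ℚ B' := NormedAlgebra.restrictScalars ℚ ℂ B'
  exact map_exp φ hφ x

theorem map_int (hh : Continuous h) (a c : ℝ) : φ (∫ y in a..c, h y) = ∫ y in a..c, φ (h y) :=
  ((⟨φ.toLinearMap, hφ⟩ : B →L[ℂ] B').intervalIntegral_comp_comm
    (hh.intervalIntegrable _ _)).symm

theorem map_kk (hb : Continuous b) (y : ℝ) : φ (kk b y) = kk (fun y => φ (b y)) y := by
  simp only [kk, map_int φ hφ (h := fun z => exp (b z)) (ex_cont.comp hb), map_ex φ hφ]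

omit [CompleteSpace B'] in
theorem map_em (y : ℝ) : φ (em b y) = em (fun y => φ (b y)) y := by
  simp only [em, map_ex φ hφ, map_smul]

theorem map_ph (hb : Continuous b) (j : ℂ) (d : B) (y : ℝ) :
    φ (ph j b d y) = ph j (fun y => φ (b y)) (φ d) y := by
  simp only [ph, map_ex φ hφ, map_smul, map_mul, map_kk φ hφ hb]

theorem map_GG (hb : Continuous b) (j : ℂ) (d : B) :
    φ (GG j b d) = GG j (fun y => φ (b y)) (φ d) := by
  simp only [GG, map_int φ hφ (h := fun y => em b y * ph j b d y) ((em_cont hb).mul (ph_cont j hb d)),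
    map_mul, map_em φ hφ, map_ph φ hφ hb]

theorem map_EA {bp bn : ℝ → B} (hp : Continuous bp) (hn : Continuous bn) (b0 p n : B) :
    φ (EA b0 bp p bn n) = EA (φ b0) (fun y => φ (bp y)) (φ p) (fun y => φ (bn y)) (φ n) := by
  simp only [EA, map_smul, map_mul, map_sub, map_neg, map_ex φ hφ, map_GG φ hφ hp, map_GG φ hφ hn]

theorem map_LA (hb : Continuous b) (d R : B) :
    φ (LA b d R) = LA (fun y => φ (b y)) (φ d) (φ R) := by
  simp only [LA, map_mul, map_sub, map_int φ hφ (em_cont hb), map_em φ hφ]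

theorem map_lin (hb : Continuous b) (hh : Continuous h) (d Ri : B) :
    φ (lin b d Ri h) = lin (fun y => φ (b y)) (φ d) (φ Ri) (fun y => φ (h y)) := by
  have e : ∀ y, φ (JJ b h y) = JJ (fun y => φ (b y)) (fun y => φ (h y)) y := fun y => by
    simp only [JJ, map_int φ hφ (h := fun z => exp (b z) * h z) ((ex_cont.comp hb).mul hh),
      map_mul, map_ex φ hφ]
  unfold lin
  rw [map_mul, map_int φ hφ (h := fun y => em b y * ((-2 : ℂ) • (h y * (cs b d Ri y - 1))
      - d * JJ b h y * sn b d Ri y)) ((em_cont hb).mul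
    (((hh.mul ((cs_cont hb d Ri).sub continuous_const)).const_smul _).sub
      ((continuous_const.mul (JJ_cont hb hh)).mul (sn_cont hb d Ri))))]
  simp only [cs, sn, map_mul, map_sub, map_add, map_smul, map_one, e, map_em φ hφ, map_ph φ hφ hb,
    map_GG φ hφ hb]

end Nat

omit [CompleteSpace B] in
theorem PH.mono {M M' ω : ℝ} {b0 b1 b2 d : B} {b : ℝ → B} (h : PH M ω b0 b1 b2 d b) (hM : M ≤ M')
    (hω : 0 ≤ ω) : PH M' ω b0 b1 b2 d b :=
  ⟨h.cont, h.h0.trans hM, h.h1.trans hM, h.h2.trans hM,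
    h.hd.trans (mul_le_mul_of_nonneg_right hM hω),
    fun y hy => (h.hb y hy).trans (mul_le_mul_of_nonneg_right hM (pow_nonneg hω 3))⟩

end Alg

theorem Wn.ev_cont' {ρ : ℝ} (w : Wn ρ) (t : ℝ) : Continuous (w.ev t) :=
  AddMonoidHomClass.continuous_of_bound (w.ev t) 1 fun x => by rw [one_mul]; exact w.ev_le t x

theorem wt_pos (ρ : ℝ) (n : ℤ) : 0 < wt ρ n := by unfold wt; positivity

/-! ### Real chords -/

section Re

variable {β : ℝ → ℝ}

theorem pth_cont2 {X : Type} [TopologicalSpace X] (hβ : Continuous β) {ξ d : X → ℝ}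
    (hξ : Continuous ξ) (hd : Continuous d) :
    Continuous fun z : X × ℝ => pth β (ξ z.1) (d z.1) z.2 := by
  unfold pth; fun_prop

theorem pth_cont (hβ : Continuous β) (ξ d : ℝ) : Continuous (pth β ξ d) := by
  unfold pth; fun_prop

theorem kk_pth (β : ℝ → ℝ) (ξ d y : ℝ) :
    kk (pth β ξ d) y = ((∫ z in (0:ℝ)..y, Real.exp (β (ξ + z * d)) : ℝ) : ℂ) := by
  rw [← intervalIntegral.integral_ofReal]
  simp only [kk, pth, ← Complex.exp_eq_exp_ℂ, Complex.ofReal_exp]

theorem em_pth (β : ℝ → ℝ) (ξ d y : ℝ) :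
    em (pth β ξ d) y = (Real.exp (-2 * β (ξ + y * d)) : ℂ) := by
  simp [em, pth, ← Complex.exp_eq_exp_ℂ]

theorem ph_pth (j : ℂ) (β : ℝ → ℝ) (ξ d y : ℝ) : ph j (pth β ξ d) d y =
    Complex.exp (j * ((d * ∫ z in (0:ℝ)..y, Real.exp (β (ξ + z * d)) : ℝ) : ℂ)) := by
  rw [ph, kk_pth, ← Complex.exp_eq_exp_ℂ, smul_eq_mul, Complex.ofReal_mul]

theorem ph_conj (β : ℝ → ℝ) (ξ d y : ℝ) :
    ph (-I) (pth β ξ d) d y = (starRingEnd ℂ) (ph I (pth β ξ d) d y) := by
  rw [ph_pth, ph_pth, ← Complex.exp_conj, map_mul, conj_I, conj_ofReal]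

theorem GG_conj (β : ℝ → ℝ) (ξ d : ℝ) :
    GG (-I) (pth β ξ d) d = (starRingEnd ℂ) (Gr β ξ d) := by
  unfold Gr GG
  rw [intervalIntegral.integral_of_le zero_le_one, intervalIntegral.integral_of_le zero_le_one,
    ← integral_conj]
  simp only [map_mul, ph_conj, em_pth, conj_ofReal]

theorem EA_real (β : ℝ → ℝ) (ξ p n : ℝ) :
    EA (β ξ : ℂ) (pth β ξ p) p (pth β ξ (-n)) n = Ee β ξ p n := by
  unfold EA Ee
  rw [← Complex.ofReal_neg, GG_conj, GG_conj, ← map_mul]
  change (-I) * (NormedSpace.exp ((3:ℂ) * β ξ) * (Gr β ξ p * Gr β ξ (-n) - _)) = _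
  rw [Complex.sub_conj, ← Complex.exp_eq_exp_ℂ]
  push_cast
  linear_combination (-2 * Complex.exp (3 * β ξ) * (Gr β ξ p * Gr β ξ (-n)).im) * I_mul_I

theorem LA_real (β : ℝ → ℝ) (ξ d : ℝ) :
    LA (pth β ξ d) d (‖Gr β ξ d‖ : ℝ) = ll β ξ d := by
  unfold LA ll
  simp only [em_pth, intervalIntegral.integral_ofReal]
  push_cast
  rfl

theorem Gr_cont {X : Type} [TopologicalSpace X] (hβ : Continuous β) {ξ d : X → ℝ}
    (hξ : Continuous ξ) (hd : Continuous d) : Continuous fun x => Gr β (ξ x) (d x) :=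
  GG_cont I (b := fun x => pth β (ξ x) (d x)) (pth_cont2 hβ hξ hd) (continuous_ofReal.comp hd)

theorem Ee_cont {X : Type} [TopologicalSpace X] (hβ : Continuous β) {ξ p n : X → ℝ}
    (hξ : Continuous ξ) (hp : Continuous p) (hn : Continuous n) :
    Continuous fun x => Ee β (ξ x) (p x) (n x) :=
  (continuous_const.mul (Real.continuous_exp.comp (continuous_const.mul (hβ.comp hξ)))).mul
    (continuous_im.comp ((Gr_cont hβ hξ hp).mul (Gr_cont hβ hξ hn.neg)))

theorem pth_per (h : Function.Periodic β 1) (ξ d : ℝ) : pth β (ξ + 1) d = pth β ξ d := by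
  funext y
  rw [pth, pth, add_right_comm, h]

theorem Gr_per (h : Function.Periodic β 1) (ξ d : ℝ) : Gr β (ξ + 1) d = Gr β ξ d := by
  rw [Gr, Gr, pth_per h]

theorem Ee_per (h : Function.Periodic β 1) (ξ p n : ℝ) : Ee β (ξ + 1) p n = Ee β ξ p n := by
  rw [Ee, Ee, Gr_per h, Gr_per h, h]

theorem ll_per (h : Function.Periodic β 1) (ξ d : ℝ) : ll β (ξ + 1) d = ll β ξ d := by
  simp only [ll, Gr_per h, add_right_comm ξ 1, h _]

theorem bdd_of_per (hβ : Continuous β) (h : Function.Periodic β 1) : ∃ M, ∀ x, |β x| ≤ M := by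
  obtain ⟨M, hM⟩ := (h.isBounded_of_continuous one_ne_zero hβ).exists_norm_le
  exact ⟨M, fun x => hM _ ⟨x, rfl⟩⟩

end Re

/-! ### Fourier coefficients -/

theorem ee_add (x y : ℝ) : ee (x + y) = ee x * ee y := by
  rw [ee, ee, ee, ← Complex.exp_add]; push_cast; ring_nf

theorem ee_zero : ee 0 = 1 := by simp [ee]

theorem norm_ee (x : ℝ) : ‖ee x‖ = 1 := by
  rw [ee, Complex.norm_exp]; simp

theorem ee_conj (x : ℝ) : (starRingEnd ℂ) (ee x) = ee (-x) := by
  rw [ee, ee, ← Complex.exp_conj]; simp [map_ofNat]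

theorem ee_int (n : ℤ) : ee n = 1 := by
  rw [ee, ← Complex.exp_int_mul_two_pi_mul_I n]; push_cast; ring_nf

@[fun_prop]
theorem ee_cont : Continuous ee := by unfold ee; fun_prop

theorem fc_le {f : ℝ → ℂ} {A : ℝ} (h : ∀ t, ‖f t‖ ≤ A) (n : ℤ) : ‖fc f n‖ ≤ A := by
  have := intervalIntegral.norm_integral_le_of_norm_le_const (a := 0) (b := 1) (C := A)
    (f := fun t => f t * ee (-(n * t))) fun t _ => by rw [norm_mul, norm_ee, mul_one]; exact h t
  simpa [fc] using this

theorem fc_add {f g : ℝ → ℂ} (hf : Continuous f) (hg : Continuous g) (n : ℤ) :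
    fc (fun t => f t + g t) n = fc f n + fc g n := by
  simp only [fc, add_mul]
  exact intervalIntegral.integral_add (Continuous.intervalIntegrable (by fun_prop) _ _)
    (Continuous.intervalIntegrable (by fun_prop) _ _)

theorem fc_sub {f g : ℝ → ℂ} (hf : Continuous f) (hg : Continuous g) (n : ℤ) :
    fc (fun t => f t - g t) n = fc f n - fc g n := by
  simp only [fc, sub_mul]
  exact intervalIntegral.integral_sub (Continuous.intervalIntegrable (by fun_prop) _ _)
    (Continuous.intervalIntegrable (by fun_prop) _ _)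

theorem fc_mul (c : ℂ) (f : ℝ → ℂ) (n : ℤ) : fc (fun t => c * f t) n = c * fc f n := by
  simp only [fc, mul_assoc, intervalIntegral.integral_const_mul]

theorem fc_sum {ι : Type} (s : Finset ι) {f : ι → ℝ → ℂ} (hf : ∀ i ∈ s, Continuous (f i))
    (n : ℤ) : fc (fun t => ∑ i ∈ s, f i t) n = ∑ i ∈ s, fc (f i) n := by
  simp only [fc, Finset.sum_mul]
  exact intervalIntegral.integral_finsetSum fun i hi =>
    Continuous.intervalIntegrable (by have := hf i hi; fun_prop) _ _

theorem fc_shift (f : ℝ → ℂ) (m n : ℤ) : fc (fun t => ee (m * t) * f t) n = fc f (n - m) := by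
  unfold fc
  congr 1
  funext t
  beta_reduce
  rw [mul_comm (ee _), mul_assoc, ← ee_add]
  push_cast
  ring_nf

theorem fc_one (n : ℤ) : fc (fun _ => 1) n = if n = 0 then 1 else 0 := by
  split_ifs with h
  · simp [fc, h, ee_zero]
  · have hc : (2 * Real.pi * I * (-n) : ℂ) ≠ 0 := by simp [h, Real.pi_ne_zero]
    have e : ∀ t : ℝ, (1:ℂ) * ee (-(n * t)) = Complex.exp (2 * Real.pi * I * (-n) * t) :=
      fun t => by rw [one_mul, ee]; push_cast; ring_nf
    have e1 := ee_int (-n)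
    simp only [fc, e, integral_exp_mul_complex hc]
    rw [ee] at e1
    push_cast at e1 ⊢
    rw [mul_one, e1]
    simp

theorem fc_ee (m n : ℤ) : fc (fun t => ee (m * t)) n = if n = m then 1 else 0 := by
  simpa [fc_one, sub_eq_zero] using fc_shift (fun _ => 1) m n

theorem fc_conj (f : ℝ → ℂ) (n : ℤ) :
    fc (fun t => (starRingEnd ℂ) (f t)) (-n) = (starRingEnd ℂ) (fc f n) := by
  unfold fc
  rw [intervalIntegral.integral_of_le zero_le_one, intervalIntegral.integral_of_le zero_le_one,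
    ← integral_conj]
  simp [ee_conj]

theorem low_eq {c : ℤ → ℂ} (hc : ∀ n, c (-n) = (starRingEnd ℂ) (c n)) (N : ℕ) (t : ℝ) :
    (low c N t : ℂ) = ∑ n ∈ Finset.Icc (-(N:ℤ)) N, c n * ee (n * t) := by
  refine Complex.conj_eq_iff_re.1 ?_
  rw [map_sum]
  refine Finset.sum_bij' (fun n _ => -n) (fun n _ => -n) ?_ ?_ ?_ ?_ ?_ <;>
    simp +contextual [hc, ee_conj, neg_le]

theorem low_cont (c : ℤ → ℂ) (N : ℕ) : Continuous (low c N) := by unfold low; fun_prop

end Vale.Agent.P097
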