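import Vale.Agent.P097.Base

open Set NormedSpace Complex

namespace Vale.Agent.P097

namespace ChordAux

theorem subst {E : Type} [NormedAddCommGroup E] [NormedSpace ℝ E] {f : ℝ → E} (hf : Continuous f)
    (ξ d y : ℝ) : ∫ z in (0:ℝ)..(ξ + y * d), f z =
      (∫ z in (0:ℝ)..ξ, f z) + d • ∫ z in (0:ℝ)..y, f (ξ + z * d) := by
  have h := intervalIntegral.smul_integral_comp_add_mul f (a := 0) (b := y) d ξ
  simp only [mul_comm d, zero_mul, add_zero] at h
  rw [h, intervalIntegral.integral_add_adjacent_intervals (hf.intervalIntegrable _ _)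
    (hf.intervalIntegrable _ _)]

theorem TT_cont {β : ℝ → ℝ} (hβ : Continuous β) : Continuous (TT β) := by
  have h : Continuous fun ξ => ∫ z in (0:ℝ)..ξ, Real.exp (β z) :=
    intervalIntegral.continuous_primitive
      (fun _ _ => (Real.continuous_exp.comp hβ).intervalIntegrable _ _) 0
  exact Complex.continuous_exp.comp (continuous_const.mul (continuous_ofReal.comp h))

theorem TT_add {β : ℝ → ℝ} (hβ : Continuous β) (ξ d y : ℝ) :
    TT β (ξ + y * d) = ph I (pth β ξ d) d y * TT β ξ := by
  have h := subst (f := fun z => Real.exp (β z)) (Real.continuous_exp.comp hβ) ξ d y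
  rw [ph_pth, TT, TT, h, ← Complex.exp_add, smul_eq_mul, ofReal_add]
  congr 1
  ring

end ChordAux

theorem chordE : S_chord := by
  intro β hβ
  have hf : Continuous fun z => (Real.exp (-2 * β z) : ℂ) * TT β z :=
    (continuous_ofReal.comp (Real.continuous_exp.comp (continuous_const.mul hβ))).mul
      (ChordAux.TT_cont hβ)
  refine ⟨fun ξ => ?_, fun ξ => (hf.integral_hasStrictDerivAt 0 ξ).hasDerivAt, fun ξ d => ?_⟩
  · rw [TT, mul_comm, Complex.norm_exp_ofReal_mul_I]
  · have h := ChordAux.subst hf ξ d 1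
    rw [one_mul] at h
    rw [Gam, Gam, h, add_sub_cancel_left, Gr, GG, mul_assoc, ← intervalIntegral.integral_mul_const,
      real_smul]
    simp only [ChordAux.TT_add hβ, em_pth, mul_assoc]

end Vale.Agent.P097
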