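import Vale.Agent.P097.Base

open Set NormedSpace Complex

namespace Vale.Agent.P097

namespace CmpAux

variable {B : Type} [NormedCommRing B] [NormedAlgebra ℂ B] [CompleteSpace B] [NormOneClass B]

theorem norm_k (n : ℤ) : ‖(2 * Real.pi * I * n : ℂ)‖ = 2 * Real.pi * |(n:ℝ)| := by
  simp [abs_of_pos Real.pi_pos]

omit [NormedAlgebra ℂ B] [CompleteSpace B] [NormOneClass B] in
theorem sum_le {s : Finset ℤ} {a f : ℤ → B} {M K : ℝ} (hK : 0 ≤ K)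
    (hM : ∑ n ∈ s, (1 + |(n:ℝ)|) ^ 3 * ‖a n‖ ≤ M)
    (hf : ∀ n ∈ s, ‖f n‖ ≤ K * ((1 + |(n:ℝ)|) ^ 3 * ‖a n‖)) : ‖∑ n ∈ s, f n‖ ≤ K * |M| := by
  refine (norm_sum_le _ _).trans ((Finset.sum_le_sum hf).trans ?_)
  rw [← Finset.mul_sum]
  exact mul_le_mul_of_nonneg_left (hM.trans (le_abs_self _)) hK

theorem ex_u {n : ℤ} {ω : ℝ} {u : B} (hn : |(n:ℝ)| * ω ≤ 1) (hu : ‖u‖ ≤ ω) :
    ‖NormedSpace.exp ((2 * Real.pi * I * n : ℂ) • u)‖ ≤ Real.exp (2 * Real.pi) := by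
  refine (ex_le _).trans (Real.exp_le_exp.2 ?_)
  rw [norm_smul, norm_k, mul_assoc]
  have h1 : |(n:ℝ)| * ‖u‖ ≤ 1 := (mul_le_mul_of_nonneg_left hu (abs_nonneg _)).trans hn
  exact mul_le_of_le_one_right (by positivity) h1

theorem term {n : ℤ} {ω : ℝ} {u a : B} {c : ℂ} (hn : |(n:ℝ)| * ω ≤ 1) (hu : ‖u‖ ≤ ω)
    (hc : ‖c‖ ≤ (4 * Real.pi * (1 + |(n:ℝ)|)) ^ 3) :
    ‖(c • a) * NormedSpace.exp ((2 * Real.pi * I * n : ℂ) • u)‖ ≤
      (4 * Real.pi) ^ 3 * Real.exp (6 * Real.pi) * ((1 + |(n:ℝ)|) ^ 3 * ‖a‖) := by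
  have h1 : Real.exp (2 * Real.pi) ≤ Real.exp (6 * Real.pi) :=
    Real.exp_le_exp.2 (by linarith [Real.pi_pos])
  refine (norm_mul_le _ _).trans ?_
  rw [norm_smul]
  calc ‖c‖ * ‖a‖ * ‖NormedSpace.exp ((2 * Real.pi * I * n : ℂ) • u)‖
      ≤ (4 * Real.pi * (1 + |(n:ℝ)|)) ^ 3 * ‖a‖ * Real.exp (6 * Real.pi) := by
        gcongr
        exact (ex_u hn hu).trans h1
    _ = _ := by ring

theorem cube (t : ℝ) (ht : 0 ≤ t) : 1 ≤ (4 * Real.pi * (1 + t)) ^ 3 ∧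
    2 * Real.pi * t ≤ (4 * Real.pi * (1 + t)) ^ 3 ∧
    (2 * Real.pi * t) ^ 2 / 2 ≤ (4 * Real.pi * (1 + t)) ^ 3 := by
  have hp := Real.pi_gt_three
  have h0 : 0 ≤ Real.pi * t := by positivity
  have h1 : 1 ≤ 4 * Real.pi * (1 + t) := by nlinarith
  have h2 : 2 * Real.pi * t ≤ 4 * Real.pi * (1 + t) := by nlinarith
  have h3 : (2 * Real.pi * t) ^ 2 ≤ (4 * Real.pi * (1 + t)) ^ 2 := by gcongr
  have h4 : (4 * Real.pi * (1 + t)) ^ 2 ≤ (4 * Real.pi * (1 + t)) ^ 3 :=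
    pow_le_pow_right₀ h1 (by norm_num)
  refine ⟨one_le_pow₀ h1, h2.trans (le_self_pow₀ h1 (by norm_num)), ?_⟩
  have h5 : 0 ≤ (2 * Real.pi * t) ^ 2 := sq_nonneg _
  linarith

theorem rem {n : ℤ} {ω y : ℝ} {u d a : B} (hω : 0 < ω) (hn : |(n:ℝ)| * ω ≤ 1) (hu : ‖u‖ ≤ ω)
    (hd : ‖d‖ ≤ 2 * ω) (hy : y ∈ Icc (0:ℝ) 1) :
    ‖a * NormedSpace.exp ((2 * Real.pi * I * n : ℂ) • (u + (y:ℂ) • d)) -
      (a * NormedSpace.exp ((2 * Real.pi * I * n : ℂ) • u) +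
        (y:ℂ) • ((((2 * Real.pi * I * n : ℂ) • a) *
          NormedSpace.exp ((2 * Real.pi * I * n : ℂ) • u)) * d) +
        ((y:ℂ) ^ 2) • (((((2 * Real.pi * I * n : ℂ) ^ 2 / 2) • a) *
          NormedSpace.exp ((2 * Real.pi * I * n : ℂ) • u)) * d ^ 2))‖ ≤
      (4 * Real.pi) ^ 3 * Real.exp (6 * Real.pi) * ω ^ 3 * ((1 + |(n:ℝ)|) ^ 3 * ‖a‖) := by
  have hk := norm_k n
  have hE := ex_u hn hu
  generalize (2 * Real.pi * I * n : ℂ) = k at *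
  have hz : ‖k • ((y:ℂ) • d)‖ ≤ 4 * Real.pi * (|(n:ℝ)| * ω) := by
    rw [norm_smul, norm_smul, hk, Complex.norm_real, Real.norm_eq_abs, abs_of_nonneg hy.1]
    have h1 : y * ‖d‖ ≤ 2 * ω := (mul_le_of_le_one_left (norm_nonneg _) hy.2).trans hd
    calc 2 * Real.pi * |(n:ℝ)| * (y * ‖d‖) ≤ 2 * Real.pi * |(n:ℝ)| * (2 * ω) := by gcongr
      _ = _ := by ring
  have hz' : ‖k • ((y:ℂ) • d)‖ ≤ 4 * Real.pi :=
    hz.trans (mul_le_of_le_one_right (by positivity) hn)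
  have hR := ex_rem3 (k • ((y:ℂ) • d))
  have e : a * NormedSpace.exp (k • (u + (y:ℂ) • d)) - (a * NormedSpace.exp (k • u) +
      (y:ℂ) • (((k • a) * NormedSpace.exp (k • u)) * d) +
      ((y:ℂ) ^ 2) • ((((k ^ 2 / 2) • a) * NormedSpace.exp (k • u)) * d ^ 2)) =
      a * NormedSpace.exp (k • u) * (NormedSpace.exp (k • ((y:ℂ) • d)) -
        (1 + k • ((y:ℂ) • d) + (1 / 2 : ℂ) • (k • ((y:ℂ) • d)) ^ 2)) := by
    rw [smul_add, ex_add]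
    simp only [Algebra.smul_def, div_eq_mul_inv, map_mul, map_pow, map_one]
    ring
  rw [e]
  have h6 : Real.exp (6 * Real.pi) = Real.exp (2 * Real.pi) * Real.exp (4 * Real.pi) := by
    rw [← Real.exp_add]
    ring_nf
  calc _ ≤ ‖a‖ * ‖NormedSpace.exp (k • u)‖ * (‖k • ((y:ℂ) • d)‖ ^ 3 *
        Real.exp ‖k • ((y:ℂ) • d)‖) :=
        (norm_mul_le _ _).trans (mul_le_mul (norm_mul_le _ _) hR (norm_nonneg _) (by positivity))
    _ ≤ ‖a‖ * Real.exp (2 * Real.pi) * ((4 * Real.pi * ((1 + |(n:ℝ)|) * ω)) ^ 3 *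
        Real.exp (4 * Real.pi)) := by
        gcongr
        refine hz.trans ?_
        gcongr
        linarith
    _ = _ := by rw [h6]; ring

end CmpAux

theorem cmpE : S_cmp := by
  intro M
  refine ⟨2 + (4 * Real.pi) ^ 3 * Real.exp (6 * Real.pi) * |M|, ?_⟩
  intro B _ _ _ _ ω s a u d hω hω1 hn hM hu hd
  have hK : 0 ≤ (4 * Real.pi) ^ 3 * Real.exp (6 * Real.pi) := by positivity
  have hKM : 0 ≤ (4 * Real.pi) ^ 3 * Real.exp (6 * Real.pi) * |M| := by positivity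
  refine ⟨?_, ?_, ?_, ?_, ?_, ?_⟩
  · unfold cmp
    fun_prop
  · refine (CmpAux.sum_le hK hM fun n hs => ?_).trans (by linarith)
    have := CmpAux.term (a := a n) (c := 1) (hn n hs) hu
      (by rw [norm_one]; exact (CmpAux.cube _ (abs_nonneg _)).1)
    rwa [one_smul] at this
  · refine (CmpAux.sum_le hK hM fun n hs => ?_).trans (by linarith)
    exact CmpAux.term (hn n hs) hu
      (by rw [CmpAux.norm_k]; exact (CmpAux.cube _ (abs_nonneg _)).2.1)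
  · refine (CmpAux.sum_le hK hM fun n hs => ?_).trans (by linarith)
    exact CmpAux.term (hn n hs) hu (by
      rw [norm_div, norm_pow, CmpAux.norm_k, Complex.norm_ofNat]
      exact (CmpAux.cube _ (abs_nonneg _)).2.2)
  · exact hd.trans (mul_le_mul_of_nonneg_right (by linarith) hω.le)
  · intro y hy
    simp only [cmp, Finset.sum_mul, Finset.smul_sum, ← Finset.sum_add_distrib,
      ← Finset.sum_sub_distrib]
    refine (CmpAux.sum_le (K := (4 * Real.pi) ^ 3 * Real.exp (6 * Real.pi) * ω ^ 3)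
      (by positivity) hM fun n hs => CmpAux.rem hω (hn n hs) hu hd hy).trans ?_
    have h3 : 0 ≤ ω ^ 3 := by positivity
    nlinarith

end Vale.Agent.P097
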