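import Vale.Agent.P097.Base

open Set NormedSpace Complex

namespace Vale.Agent.P097

namespace DerAux

theorem norm_der {V : ℝ → ℂ} {V' : ℂ} {τ : ℝ} (h : HasDerivAt V V' τ) (h0 : V τ ≠ 0) :
    HasDerivAt (fun σ => ‖V σ‖) (((starRingEnd ℂ) (V τ) * V').re / ‖V τ‖) τ := by
  have h1 := h.norm_sq.sqrt (pow_ne_zero 2 (norm_ne_zero_iff.2 h0))
  simp only [Real.sqrt_sq (norm_nonneg _)] at h1
  refine h1.congr_deriv ?_
  rw [Complex.inner, mul_comm V', mul_div_mul_left _ _ two_ne_zero]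

theorem re_conj (d r : ℝ) {G T : ℂ} (hT : ‖T‖ = 1) :
    ((starRingEnd ℂ) (d * G * T) * (r * T)).re = d * r * G.re := by
  have h1 : (starRingEnd ℂ) T * T = 1 := by
    rw [Complex.conj_mul', hT]
    simp
  have h2 : (starRingEnd ℂ) (d * G * T) * (r * T) = ((d * r : ℝ) : ℂ) * (starRingEnd ℂ) G := by
    rw [map_mul, map_mul, conj_ofReal]
    push_cast
    linear_combination (d * r * (starRingEnd ℂ) G) * h1
  rw [h2, re_ofReal_mul, conj_re]

theorem norm_eq {d : ℝ} (hd : 0 < d) (G : ℂ) {T : ℂ} (hT : ‖T‖ = 1) :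
    ‖(d : ℂ) * G * T‖ = d * ‖G‖ := by
  rw [norm_mul, norm_mul, hT, mul_one, norm_real, Real.norm_of_nonneg hd.le]

theorem ll_eq (hchord : S_chord) {β : ℝ → ℝ} (hβ : Continuous β) {x x' : ℝ} (h : x < x') :
    ll β x (x' - x) = ‖Gam β x' - Gam β x‖ -
      ((∫ z in (0 : ℝ)..x', Real.exp (-2 * β z)) - ∫ z in (0 : ℝ)..x, Real.exp (-2 * β z)) := by
  obtain ⟨h1, -, h3⟩ := hchord β hβ
  have hc : Continuous fun z => Real.exp (-2 * β z) := by fun_prop
  have e1 := h3 x (x' - x)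
  rw [add_sub_cancel] at e1
  have e2 := intervalIntegral.mul_integral_comp_add_mul (a := 0) (b := 1)
    (f := fun z => Real.exp (-2 * β z)) (x' - x) x
  rw [mul_zero, add_zero, mul_one, add_sub_cancel] at e2
  rw [e1, norm_eq (sub_pos.2 h) _ (h1 x), intervalIntegral.integral_interval_sub_left
    (hc.intervalIntegrable _ _) (hc.intervalIntegrable _ _), ← e2, ll, mul_sub]
  simp only [mul_comm (x' - x)]

end DerAux

theorem derE (hchord : S_chord) : S_der := by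
  intro β hβ a a' α α' τ ha ha' hlt h0
  obtain ⟨h1, h2, h3⟩ := hchord β hβ
  have hc : Continuous fun z => Real.exp (-2 * β z) := by fun_prop
  have hd : 0 < a' τ - a τ := sub_pos.2 hlt
  have hS : ∀ x, HasDerivAt (fun x => ∫ z in (0 : ℝ)..x, Real.exp (-2 * β z))
      (Real.exp (-2 * β x)) x := fun x => (hc.integral_hasStrictDerivAt 0 x).hasDerivAt
  have hV := ((h2 (a' τ)).scomp τ ha').sub ((h2 (a τ)).scomp τ ha)
  have e1 : Gam β (a' τ) - Gam β (a τ) =
      ((a' τ - a τ : ℝ) : ℂ) * Gr β (a τ) (a' τ - a τ) * TT β (a τ) := by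
    have := h3 (a τ) (a' τ - a τ)
    rwa [add_sub_cancel] at this
  have e2 : Gam β (a' τ) - Gam β (a τ) =
      ((a' τ - a τ : ℝ) : ℂ) * Gr β (a' τ) (-(a' τ - a τ)) * TT β (a' τ) := by
    have := h3 (a' τ) (-(a' τ - a τ))
    rw [← sub_eq_add_neg, sub_sub_cancel, ofReal_neg] at this
    linear_combination -this
  have n1 := (congrArg norm e1).trans (DerAux.norm_eq hd _ (h1 _))
  have n2 := (congrArg norm e2).trans (DerAux.norm_eq hd _ (h1 _))
  have p1 : 0 < ‖Gr β (a τ) (a' τ - a τ)‖ := norm_pos_iff.2 h0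
  have n3 : ‖Gr β (a' τ) (-(a' τ - a τ))‖ = ‖Gr β (a τ) (a' τ - a τ)‖ :=
    mul_left_cancel₀ hd.ne' (n2.symm.trans n1)
  have hne : Gam β (a' τ) - Gam β (a τ) ≠ 0 := by
    rw [← norm_pos_iff, n1]
    exact mul_pos hd p1
  have hN := DerAux.norm_der (V := fun σ => Gam β (a' σ) - Gam β (a σ)) hV hne
  have hD := hN.sub (((hS (a' τ)).comp τ ha').sub ((hS (a τ)).comp τ ha))
  have hev : ∀ᶠ σ in nhds τ, a σ < a' σ := ha.continuousAt.eventually_lt ha'.continuousAt hlt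
  refine (hD.congr_of_eventuallyEq (hev.mono fun σ hσ => DerAux.ll_eq hchord hβ hσ)).congr_deriv ?_
  have r1 := DerAux.re_conj (a' τ - a τ) (α * Real.exp (-2 * β (a τ)))
    (G := Gr β (a τ) (a' τ - a τ)) (h1 (a τ))
  have r2 := DerAux.re_conj (a' τ - a τ) (α' * Real.exp (-2 * β (a' τ)))
    (G := Gr β (a' τ) (-(a' τ - a τ))) (h1 (a' τ))
  rw [← e1] at r1
  rw [← e2] at r2
  rw [mul_sub, sub_re, real_smul, real_smul, ← mul_assoc (α : ℂ), ← mul_assoc (α' : ℂ),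
    ← ofReal_mul, ← ofReal_mul, r1, r2, n1, n3]
  generalize ‖Gr β (a τ) (a' τ - a τ)‖ = R at p1
  generalize a' τ - a τ = d at hd
  field_simp
  ring

end Vale.Agent.P097
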