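import Vale.Agent.P097.Base

open Set NormedSpace Complex

namespace Vale.Agent.P097

namespace EvAux

variable {ρ : ℝ} (w : Wn ρ) (c : ℤ → ℂ) (q : ℕ)

theorem bb_cont : Continuous (w.bb c q) := by
  unfold Wn.bb cmp
  exact continuous_finsetSum _ fun n _ =>
    continuous_const.mul (ex_cont.comp (continuous_const_smul _))

theorem gp_cont : Continuous (w.gp q) := continuous_const.add continuous_id

theorem path_cont {X : Type} [TopologicalSpace X] {u d : X → w.B} (hu : Continuous u)
    (hd : Continuous d) : Continuous fun z : X × ℝ => w.bb c q (u z.1 + (z.2 : ℂ) • d z.1) :=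
  (bb_cont w c q).comp ((hu.comp continuous_fst).add
    ((continuous_ofReal.comp continuous_snd).smul (hd.comp continuous_fst)))

theorem path_cont1 (u d : w.B) : Continuous fun y : ℝ => w.bb c q (u + (y : ℂ) • d) :=
  (bb_cont w c q).comp (continuous_const.add (continuous_ofReal.smul continuous_const))

theorem EW_cont {X : Type} [TopologicalSpace X] {u d e : X → w.B} (hu : Continuous u)
    (hd : Continuous d) (he : Continuous e) : Continuous fun z => w.EW c q (u z) (d z) (e z) := by
  have h0 : Continuous fun z => w.bb c q (u z) := (bb_cont w c q).comp hu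
  have h1 : Continuous fun z => w.gp q (d z) := (gp_cont w q).comp hd
  have h2 : Continuous fun z => w.gp q (e z) := (gp_cont w q).comp he
  have h3 : Continuous fun z => -w.gp q (e z) := h2.neg
  have h4 := path_cont w c q hu h1
  have h5 := path_cont w c q hu h3
  unfold Wn.EW
  exact EA_cont (bp := fun z y => w.bb c q (u z + (y : ℂ) • w.gp q (d z)))
    (bn := fun z y => w.bb c q (u z + (y : ℂ) • -w.gp q (e z))) h0 h4 h1 h5 h2

theorem ev_bb (hc : ∀ n, c (-n) = (starRingEnd ℂ) (c n)) (v : w.B) (t x : ℝ)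
    (h : w.ev t v = x) : w.ev t (w.bb c q v) = low c (NN q) (t + x) := by
  rw [low_eq hc, Wn.bb, cmp, map_sum]
  refine Finset.sum_congr rfl fun n _ => ?_
  rw [map_mul, Wn.cf, map_smul, w.ev_e, map_ex _ (w.ev_cont' t), map_smul, h,
    ← Complex.exp_eq_exp_ℂ, mul_add, ee_add, smul_eq_mul, smul_eq_mul, mul_assoc]
  congr 2
  rw [ee]
  push_cast
  ring_nf

theorem ev_path (hc : ∀ n, c (-n) = (starRingEnd ℂ) (c n)) (u d : w.B) (t x p : ℝ)
    (h : w.ev t u = x) (h' : w.ev t d = p) :
    (fun y : ℝ => w.ev t (w.bb c q (u + (y : ℂ) • d))) = pth (low c (NN q)) (t + x) p := by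
  funext y
  rw [ev_bb w c q hc _ t (x + y * p) (by rw [map_add, map_smul, h, h']; push_cast; rfl), pth,
    add_assoc]

end EvAux

open EvAux in
theorem evE : S_ev := by
  intro ρ w c q hc
  refine ⟨low_cont _ _, ?_, ev_bb w c q hc, fun u Dp Dn t x p n h hp hn => ?_⟩
  · exact EW_cont w c q continuous_fst (continuous_fst.comp continuous_snd)
      (continuous_snd.comp continuous_snd)
  · rw [Wn.EW, map_EA _ (w.ev_cont' t) (path_cont1 w c q _ _) (path_cont1 w c q _ _),
      ev_bb w c q hc u t x h, ev_path w c q hc u _ t x p h hp,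
      ev_path w c q hc u _ t x (-n) h (by rw [map_neg, hn, Complex.ofReal_neg]), hp, hn, EA_real]

end Vale.Agent.P097
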