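import Vale.Agent.P097.Base
import Vale.Agent.P371.Brouwer

open Set NormedSpace Complex

namespace Vale.Agent.P097

namespace ExistAux

variable {q : ℕ}

/-- Extension by zero. -/
def fe (f : Fin q → ℝ) (j : ℕ) : ℝ := if h : j < q then f ⟨j, h⟩ else 0

/-- First sums. -/
def FF (f : Fin q → ℝ) (i : ℕ) : ℝ := ∑ j ∈ Finset.range i, fe f (j + 1)

/-- Centred first sums. -/
noncomputable def DD (f : Fin q → ℝ) (i : ℕ) : ℝ := FF f i - (∑ l ∈ Finset.range q, FF f l) / q

/-- The residue. -/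
def rs (q : ℕ) (k : ℤ) : ℕ := (k % q).toNat

/-- The configuration with prescribed second differences. -/
noncomputable def yy (t : ℝ) (f : Fin q → ℝ) (k : ℤ) : ℝ :=
  t + k / q + ∑ l ∈ Finset.range (rs q k), DD f l

theorem rs_succ (hq : 0 < q) (k : ℤ) :
    rs q (k + 1) = rs q k + 1 ∨ (rs q k + 1 = q ∧ rs q (k + 1) = 0) := by
  have h0 := Int.emod_nonneg k (b := q) (by omega)
  have h1 := Int.emod_lt_of_pos k (b := q) (by omega)
  rw [rs, rs, ← Int.emod_add_emod]
  rcases lt_or_ge (k % q + 1) q with h | h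
  · rw [Int.emod_eq_of_lt (by omega) h]
    omega
  · rw [show k % q + 1 = q by omega, Int.emod_self]
    omega

theorem rs_of {k : ℤ} (h0 : 0 ≤ k) (h1 : k < q) : rs q k = k.toNat := by
  rw [rs, Int.emod_eq_of_lt h0 h1]

theorem yy_zero (t : ℝ) (f : Fin q → ℝ) : yy t f 0 = t := by simp [yy, rs]

theorem yy_per (hq : 0 < q) (t : ℝ) (f : Fin q → ℝ) (k : ℤ) : yy t f (k + q) = yy t f k + 1 := by
  have : (q : ℝ) ≠ 0 := by positivity
  simp only [yy, rs, Int.add_emod_right]
  push_cast
  field_simp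
  ring

theorem yy_succ (hq : 0 < q) (t : ℝ) (f : Fin q → ℝ) (k : ℤ) :
    yy t f (k + 1) - yy t f k = 1 / q + DD f (rs q k) := by
  have hq' : (q : ℝ) ≠ 0 := by positivity
  have e : ∑ l ∈ Finset.range (rs q (k + 1)), DD f l =
      ∑ l ∈ Finset.range (rs q k), DD f l + DD f (rs q k) := by
    rw [← Finset.sum_range_succ]
    rcases rs_succ hq k with h | ⟨h, h'⟩
    · rw [h]
    · rw [h, h']
      simp only [DD, Finset.sum_sub_distrib, Finset.sum_const, Finset.card_range, nsmul_eq_mul]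
      field_simp
      simp
  rw [yy, yy, e]
  push_cast
  ring

theorem yy_d2 (hq : 0 < q) (t : ℝ) (f : Fin q → ℝ) (k : ℤ) :
    yy t f (k + 1) - yy t f k - (yy t f k - yy t f (k - 1)) = FF f (rs q k) - FF f (rs q (k - 1)) := by
  have h := yy_succ hq t f (k - 1)
  rw [sub_add_cancel] at h
  rw [yy_succ hq, h, DD, DD]
  ring

theorem yy_d2' (t : ℝ) (f : Fin q → ℝ) (j : Fin q) (hj : j.val ≠ 0) :
    yy t f ((j : ℕ) + 1) - yy t f (j : ℕ) - (yy t f (j : ℕ) - yy t f ((j : ℕ) - 1)) = f j := by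
  obtain ⟨j, h⟩ := j
  obtain ⟨i, rfl⟩ := Nat.exists_eq_succ_of_ne_zero hj
  rw [yy_d2 (by omega), rs_of (by omega) (by simp only; omega), rs_of (by omega) (by simp only; omega),
    show (((i + 1 : ℕ) : ℤ) - 1).toNat = i by omega, Int.toNat_natCast, FF, FF,
    Finset.sum_range_succ, fe, dif_pos h]
  ring

theorem fe_le {f : Fin q → ℝ} {a : ℝ} (h : ‖f‖ ≤ a) (j : ℕ) : |fe f j| ≤ a := by
  unfold fe
  split_ifs
  · exact (norm_le_pi_norm f _).trans h
  · simpa using (norm_nonneg f).trans h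

theorem yy_reg (hq : 0 < q) (t : ℝ) {f : Fin q → ℝ} (h : ‖f‖ ≤ (1 / q) ^ 3 / 4) :
    Reg q (yy t f) := by
  refine ⟨yy_per hq t f, fun k => ?_⟩
  have hq' : (1 : ℝ) ≤ q := by exact_mod_cast hq
  have e : q * ((1 / q : ℝ) ^ 3 / 4) ≤ 1 / (2 * (q : ℝ) ^ 2) := by
    rw [le_div_iff₀ (by positivity)]
    field_simp
    norm_num
  rw [show yy t f (k + 1) - 2 * yy t f k + yy t f (k - 1) =
    yy t f (k + 1) - yy t f k - (yy t f k - yy t f (k - 1)) by ring, yy_d2 hq]
  refine le_trans ?_ e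
  have h1 := rs_succ hq (k - 1)
  rw [sub_add_cancel] at h1
  rcases h1 with h1 | ⟨h1, h2⟩
  · rw [h1, FF, FF, Finset.sum_range_succ, add_sub_cancel_left]
    exact (fe_le h _).trans (le_mul_of_one_le_left (by positivity) hq')
  · rw [h2, FF, FF, Finset.sum_range_zero, zero_sub, abs_neg]
    refine (Finset.abs_sum_le_sum_abs _ _).trans ((Finset.sum_le_card_nsmul _ _ _
      fun j _ => fe_le h _).trans ?_)
    rw [Finset.card_range, nsmul_eq_mul]
    exact mul_le_mul_of_nonneg_right (by exact_mod_cast (by omega)) (by positivity)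

theorem yy_cont (t : ℝ) (k : ℤ) : Continuous fun f : Fin q → ℝ => yy t f k := by
  have h : ∀ j, Continuous fun f : Fin q → ℝ => fe f j := fun j => by
    unfold fe
    split_ifs
    exacts [continuous_apply _, continuous_const]
  unfold yy DD FF
  fun_prop

end ExistAux

open ExistAux in
theorem existE (hgap : S_gap) : S_exist := by
  intro β C hβ hR ⟨η, η0, hP⟩
  obtain ⟨q₀, h0⟩ := exists_nat_gt (max (8 * C) (2 / η))
  refine ⟨q₀ + 1, fun q hq t => ?_⟩
  have q0 : 0 < q := by omega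
  have q1 : (1 : ℝ) ≤ q := by exact_mod_cast q0
  have q2 : max (8 * C) (2 / η) < q := h0.trans (by exact_mod_cast hq)
  have w0 : (0 : ℝ) < 1 / q := by positivity
  have gap : ∀ x, Reg q x → ∀ k, 0 < x (k + 1) - x k ∧ x (k + 1) - x k ≤ 2 * (1 / q) :=
    fun x hx k => by
      obtain ⟨a, b⟩ := (hgap q q0).1 x hx k
      refine ⟨lt_of_lt_of_le (by positivity) a, b.trans ?_⟩
      rw [div_le_iff₀ (by positivity)]
      field_simp
      norm_num
  obtain ⟨f, hf, e⟩ := P371.brouwer (convex_closedBall (0 : Fin q → ℝ) ((1 / q) ^ 3 / 4))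
    (isCompact_closedBall _ _) ⟨0, Metric.mem_closedBall_self (by positivity)⟩
    (f := fun f j => if j.val = 0 then 0 else f j - EE β (yy t f) (j : ℕ))
    (Continuous.continuousOn (continuous_pi fun j => by
      split_ifs
      · exact continuous_const
      · exact (continuous_apply j).sub (Ee_cont hβ.1.continuous (yy_cont t _)
          ((yy_cont t _).sub (yy_cont t _)) ((yy_cont t _).sub (yy_cont t _)))))
    (fun f hf => by
      rw [mem_closedBall_zero_iff] at hf ⊢
      refine (pi_norm_le_iff_of_nonneg (by positivity)).2 fun j => ?_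
      beta_reduce
      split_ifs with hj
      · rw [norm_zero]; positivity
      have g1 := gap _ (yy_reg q0 t hf) (j : ℕ)
      have g2 := gap _ (yy_reg q0 t hf) ((j : ℕ) - 1)
      rw [sub_add_cancel] at g2
      have k := hR.size (1 / q) (yy t f (j : ℕ)) _ _ w0 ((div_le_one (by positivity)).2 q1)
        ((abs_of_pos g1.1).trans_le g1.2) ((abs_of_pos g2.1).trans_le g2.2)
      rw [yy_d2' t f j hj] at k
      rw [Real.norm_eq_abs, abs_sub_comm]
      refine k.trans ?_
      have a : |f j| ≤ (1 / q) ^ 3 / 4 := (norm_le_pi_norm f j).trans hf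
      have b : C * (1 / q) ≤ 1 / 8 := by
        rw [mul_one_div, div_le_iff₀ (by positivity)]
        linarith [le_max_left (8 * C) (2 / η)]
      have c := mul_le_mul_of_nonneg_left a (mul_nonneg hR.pos w0.le)
      have d := mul_le_mul_of_nonneg_right b (pow_pos w0 3).le
      linarith [pow_pos w0 3])
  have hr := yy_reg q0 t (mem_closedBall_zero_iff.1 hf)
  have z1 : ∀ k : ℤ, 0 < k → k < q → EE β (yy t f) k = 0 := fun k a b => by
    have := congrFun e ⟨k.toNat, by omega⟩
    rw [if_neg (by simp only; omega), Int.toNat_of_nonneg a.le] at this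
    linarith
  have z0 := hP q _ q0 hr.1 (fun k => ⟨(gap _ hr k).1, (gap _ hr k).2.trans_lt (by
    rw [mul_one_div, div_lt_iff₀ (by positivity), ← div_lt_iff₀' η0]
    exact (le_max_right _ _).trans_lt q2)⟩) z1
  have per : Function.Periodic (EE β (yy t f)) (q : ℤ) := fun k => by
    rw [EE, EE, add_right_comm k, add_sub_right_comm k, hr.1, hr.1, hr.1, Ee_per hβ.2,
      add_sub_add_right_eq_sub, add_sub_add_right_eq_sub]
  refine ⟨_, hr, yy_zero t f, fun k => ?_⟩
  have h1 := per.sub_int_mul_eq (x := k) (k / q)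
  rw [Int.cast_id, mul_comm, ← Int.emod_def] at h1
  rw [← h1]
  rcases (Int.emod_nonneg k (b := q) (by omega)).eq_or_lt with h | h
  · rw [← h, z0]
  · exact z1 _ h (Int.emod_lt_of_pos k (by omega))

end Vale.Agent.P097
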