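import Vale.Agent.P097.Ob

open Set NormedSpace Complex

namespace Vale.Agent.P097

namespace ExpAAux

section Alg

variable {B : Type} [NormedCommRing B] [NormedAlgebra ℂ B] [CompleteSpace B]

theorem int_pw (m : ℕ) : ∫ y in (0:ℝ)..1, (y:ℂ) ^ m = 1 / (m + 1 : ℂ) := by
  have h := intervalIntegral.integral_ofReal (μ := MeasureTheory.volume) (a := 0) (b := 1)
    (f := fun y : ℝ => y ^ m)
  rw [integral_pow] at h
  push_cast at h
  rw [h]
  simp

theorem int_q (x0 x1 x2 : B) : ∫ y in (0:ℝ)..1, (x0 + (y:ℂ) ^ 1 • x1 + (y:ℂ) ^ 2 • x2) =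
    x0 + (1 / 2 : ℂ) • x1 + (1 / 3 : ℂ) • x2 := by
  rw [intervalIntegral.integral_add (Continuous.intervalIntegrable (by fun_prop) _ _)
      (Continuous.intervalIntegrable (by fun_prop) _ _),
    intervalIntegral.integral_add (Continuous.intervalIntegrable (by fun_prop) _ _)
      (Continuous.intervalIntegrable (by fun_prop) _ _),
    intervalIntegral.integral_smul_const, intervalIntegral.integral_smul_const, int_pw, int_pw]
  norm_num

theorem kk_sub {b : ℝ → B} (hb : Continuous b) (b0 : B) (y : ℝ) :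
    kk b y - (y:ℂ) • exp b0 = ∫ z in (0:ℝ)..y, exp b0 * (exp (b z - b0) - 1) := by
  have e : ∀ z, exp b0 * (exp (b z - b0) - 1) = exp (b z) - exp b0 := fun z => by
    rw [mul_sub, ← ex_add, add_sub_cancel, mul_one]
  simp only [e]
  rw [intervalIntegral.integral_sub (Continuous.intervalIntegrable (by fun_prop) _ _)
    (Continuous.intervalIntegrable (by fun_prop) _ _), intervalIntegral.integral_const, sub_zero,
    Complex.coe_smul, kk]

theorem em_eq (b : ℝ → B) (b0 : B) (y : ℝ) :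
    exp ((2 : ℂ) • b0) * em b y = exp ((-2 : ℂ) • (b y - b0)) := by
  rw [em, ← ex_add]
  congr 1
  algebra

theorem GG_eq {b : ℝ → B} (hb : Continuous b) (b0 d : B) :
    exp ((2 : ℂ) • b0) * ((1 / 2 : ℂ) • (GG I b d + GG (-I) b d)) = ∫ y in (0:ℝ)..1,
      exp ((-2 : ℂ) • (b y - b0)) * ((1 / 2 : ℂ) • (ph I b d y + ph (-I) b d y)) := by
  have h1 : Continuous fun y => em b y * ph I b d y := (em_cont hb).mul (ph_cont I hb d)
  have h2 : Continuous fun y => em b y * ph (-I) b d y := (em_cont hb).mul (ph_cont (-I) hb d)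
  rw [GG, GG, ← intervalIntegral.integral_add (h1.intervalIntegrable _ _)
    (h2.intervalIntegrable _ _), ← intervalIntegral.integral_smul, ← int_mul _ (by fun_prop)]
  refine intervalIntegral.integral_congr fun y _ => ?_
  simp only [← em_eq]
  algebra

omit [CompleteSpace B] in
theorem sq_I (x : B) : (I • x) ^ 2 = -x ^ 2 := by
  rw [smul_pow, I_sq, neg_smul, one_smul]

end Alg

open Dat

variable {M : ℝ}

theorem ow : Ob Dat.ω 0 fun (D : Dat M) (_ : ℝ) => exp D.b0 := o0.exp0 sm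

theorem okk : Ob Dat.ω 1 fun (D : Dat M) (y : ℝ) => kk D.b y - (y:ℂ) • exp D.b0 :=
  (ow.mul (oc.exp1 sm)).prim.congr fun D y _ => kk_sub D.h.cont D.b0 y

theorem olin : Ob Dat.ω 1 fun (D : Dat M) (y : ℝ) => (y:ℂ) • (D.d * exp D.b0) :=
  (od.mul ow).smul_fn continuous_ofReal

theorem oth2 : Ob Dat.ω 2 fun (D : Dat M) (y : ℝ) =>
    D.d * kk D.b y - (y:ℂ) • (D.d * exp D.b0) :=
  (od.mul okk).congr fun _ _ _ => by algebra

theorem oth : Ob Dat.ω 1 fun (D : Dat M) (y : ℝ) => D.d * kk D.b y :=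
  ((oth2.mono sm (by norm_num)).add olin).congr fun _ _ _ => by ring

/-- the cosine factor -/
theorem ocos : Ob Dat.ω 3 fun (D : Dat M) (y : ℝ) =>
    (1 / 2 : ℂ) • (ph I D.b D.d y + ph (-I) D.b D.d y) -
      (1 + (-1 / 2 : ℂ) • ((y:ℂ) • (D.d * exp D.b0)) ^ 2) :=
  (((((oth.smul I).exp3 sm).add ((oth.smul (-I)).exp3 sm)).smul (1 / 2)).add
    ((oth2.mul (oth.add olin)).smul (-1 / 2))).congr fun D y _ => by
    rw [ph, ph, neg_smul I, neg_sq, sq_I]
    generalize I • (D.d * kk D.b y) = t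
    generalize exp t = a
    generalize exp (-t) = a'
    algebra

theorem olb : Ob Dat.ω 1 fun (D : Dat M) (y : ℝ) => (y:ℂ) • (D.b1 * D.d) :=
  (o1.mul od).smul_fn continuous_ofReal

theorem oc2 : Ob Dat.ω 2 fun (D : Dat M) (y : ℝ) => D.b y - D.b0 - (y:ℂ) • (D.b1 * D.d) :=
  ((orem.mono sm (by norm_num)).add ((o2.mul (od.pow 2)).smul_fn (c := fun y => (y:ℂ) ^ 2)
    (by fun_prop))).congr fun _ _ _ => by ring

/-- the weight factor -/
theorem oem : Ob Dat.ω 3 fun (D : Dat M) (y : ℝ) => exp ((-2 : ℂ) • (D.b y - D.b0)) -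
    (1 + (y:ℂ) ^ 1 • ((-2 : ℂ) • (D.b1 * D.d)) +
      (y:ℂ) ^ 2 • ((2 : ℂ) • ((D.b1 ^ 2 - D.b2) * D.d ^ 2))) :=
  ((((oc.smul (-2)).exp3 sm).add (orem.smul (-2))).add
    ((oc2.mul (oc.add olb)).smul 2)).congr fun D y _ => by
    generalize exp ((-2 : ℂ) • (D.b y - D.b0)) = a
    algebra

theorem oall : Ob Dat.ω 3 fun (D : Dat M) (y : ℝ) =>
    exp ((-2 : ℂ) • (D.b y - D.b0)) * ((1 / 2 : ℂ) • (ph I D.b D.d y + ph (-I) D.b D.d y)) -
    (1 + (y:ℂ) ^ 1 • ((-2 : ℂ) • (D.b1 * D.d)) + (y:ℂ) ^ 2 •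
      ((2 : ℂ) • ((D.b1 ^ 2 - D.b2) * D.d ^ 2) + (-1 / 2 : ℂ) • (D.d * exp D.b0) ^ 2)) :=
  ((oem.add (((oc.smul (-2)).exp0 sm).mul ocos)).add
    (((oc.smul (-2)).exp1 sm).mul ((olin.pow 2).smul (-1 / 2)))).congr fun D y _ => by
    generalize exp ((-2 : ℂ) • (D.b y - D.b0)) = a
    generalize (1 / 2 : ℂ) • (ph I D.b D.d y + ph (-I) D.b D.d y) = a'
    algebra

theorem fin : Ob Dat.ω 3 fun (D : Dat M) (_ : ℝ) =>
    exp ((2 : ℂ) • D.b0) * ((1 / 2 : ℂ) • (GG I D.b D.d + GG (-I) D.b D.d))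
      - (1 - D.b1 * D.d + a2 D.b0 D.b1 D.b2 * D.d ^ 2) :=
  oall.int.congr fun D _ _ => by
    have hb := D.h.cont
    have h1 := ph_cont I hb D.d
    have h2 := ph_cont (-I) hb D.d
    rw [intervalIntegral.integral_sub (Continuous.intervalIntegrable (by fun_prop) _ _)
      (Continuous.intervalIntegrable (by fun_prop) _ _), int_q, GG_eq hb, a2]
    congr 1
    algebra

end ExpAAux

theorem expA : S_expA := by
  intro M
  obtain ⟨C, -, h⟩ := Dat.out (ExpAAux.fin (M := M))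
  exact ⟨C, fun B _ _ _ _ ω b0 b1 b2 d b h0 h1 hp => h (Dat.mk B ω b0 b1 b2 d b h0 h1 hp)⟩

end Vale.Agent.P097
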