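import Vale.Agent.P097.Ob

open Set NormedSpace Complex

namespace Vale.Agent.P097

namespace ExpEAux

section Alg

variable {B : Type} [NormedCommRing B] [NormedAlgebra ℂ B]

/-- The even part. -/
noncomputable def Av (b0 : B) (b : ℝ → B) (d : B) : B :=
  exp ((2 : ℂ) • b0) * ((1 / 2 : ℂ) • (GG I b d + GG (-I) b d))

/-- The odd part. -/
noncomputable def Sv (b0 : B) (b : ℝ → B) (d : B) : B :=
  exp b0 * ((-I / 2) • (GG I b d - GG (-I) b d))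

theorem ea [CompleteSpace B] (b0 p n : B) (bp bn : ℝ → B) : EA b0 bp p bn n =
    (2 : ℂ) • (Sv b0 bp p * Av b0 bn (-n) + Av b0 bp p * Sv b0 bn (-n)) := by
  rw [EA, Sv, Sv, Av, Av, show (3 : ℂ) • b0 = b0 + (2 : ℂ) • b0 by module, ex_add]
  algebra

theorem poly (a c b1 p q A S A' S' : B) : (2 : ℂ) • (S * A' + A * S') - (p + q) =
    (p + q) * (-(b1 * (p + q)) + (2 : ℂ) • (c * (p ^ 2 - p * q + q ^ 2)) + (b1 ^ 2 + a) * (p * q))
    + (2 : ℂ) • (-(c * b1 * (p ^ 3 * q + q ^ 3 * p)) - a * b1 * (p ^ 2 * q ^ 2)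
      + a * c * (p ^ 3 * q ^ 2 + q ^ 3 * p ^ 2)
      + (S - ((1 / 2 : ℂ) • p - (1 / 2 : ℂ) • (b1 * p ^ 2) + c * p ^ 3)) * A'
      + ((1 / 2 : ℂ) • p - (1 / 2 : ℂ) • (b1 * p ^ 2) + c * p ^ 3) * (A' - (1 - b1 * q + a * q ^ 2))
      + (S' - ((1 / 2 : ℂ) • q - (1 / 2 : ℂ) • (b1 * q ^ 2) + c * q ^ 3)) * A
      + ((1 / 2 : ℂ) • q - (1 / 2 : ℂ) • (b1 * q ^ 2) + c * q ^ 3) *
        (A - (1 - b1 * p + a * p ^ 2))) := by
  algebra

end Alg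

/-- Two paths with the same coefficients. -/
structure D2 (M : ℝ) : Type 1 extends Dat M where
  q : B
  b' : ℝ → B
  h' : PH M ω b0 b1 b2 q b'

variable {M : ℝ}

/-- The second path. -/
abbrev D2.snd (D : D2 M) : Dat M := { D.toDat with d := D.q, b := D.b', h := D.h' }

open Dat

theorem oa : Ob Dat.ω 0 fun (D : Dat M) (_ : ℝ) => a2 D.b0 D.b1 D.b2 :=
  (((o1.pow 2).sub o2).smul _).sub (((o0.exp0 sm).pow 2).smul _)

theorem oc' : Ob Dat.ω 0 fun (D : Dat M) (_ : ℝ) => b3 D.b0 D.b1 D.b2 :=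
  (((o1.pow 2).smul _).sub (o2.smul _)).sub (((o0.exp0 sm).pow 2).smul _)

theorem ora (h : S_expA) : Ob Dat.ω 3 fun (D : Dat M) (_ : ℝ) =>
    Av D.b0 D.b D.d - (1 - D.b1 * D.d + a2 D.b0 D.b1 D.b2 * D.d ^ 2) :=
  let ⟨C, k⟩ := h M
  .of_le sm (C := C) fun D _ _ => k D.B _ _ _ _ _ _ D.pos D.le D.h

theorem ors (h : S_expS) : Ob Dat.ω 4 fun (D : Dat M) (_ : ℝ) => Sv D.b0 D.b D.d -
    ((1 / 2 : ℂ) • D.d - (1 / 2 : ℂ) • (D.b1 * D.d ^ 2) + b3 D.b0 D.b1 D.b2 * D.d ^ 3) :=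
  let ⟨C, k⟩ := h M
  .of_le sm (C := C) fun D _ _ => k D.B _ _ _ _ _ _ D.pos D.le D.h

theorem oA (h : S_expA) : Ob Dat.ω 0 fun (D : Dat M) (_ : ℝ) => Av D.b0 D.b D.d :=
  (((ora h).mono sm (by norm_num)).add ((Ob.one.sub ((o1.mul od).mono sm (by norm_num))).add
    ((oa.mul (od.pow 2)).mono sm (by norm_num)))).congr fun _ _ _ => (sub_add_cancel _ _).symm

theorem oS : Ob Dat.ω 1 fun (D : Dat M) (_ : ℝ) =>
    (1 / 2 : ℂ) • D.d - (1 / 2 : ℂ) • (D.b1 * D.d ^ 2) + b3 D.b0 D.b1 D.b2 * D.d ^ 3 :=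
  ((od.smul _).sub (((o1.mul (od.pow 2)).mono sm (by norm_num)).smul _)).add
    ((oc'.mul (od.pow 3)).mono sm (by norm_num))

end ExpEAux

open ExpEAux Dat in
theorem expE (hexpA : S_expA) (hexpS : S_expS) : S_expE := by
  intro M
  have s : Sm fun D : D2 M => D.ω := fun D => ⟨D.pos, D.le⟩
  have p := (od (M := M)).comp D2.toDat
  have q : Ob (fun D : D2 M => D.ω) 1 fun D _ => D.q := (od (M := M)).comp D2.snd
  have b := (o1 (M := M)).comp D2.toDat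
  have a := (oa (M := M)).comp D2.toDat
  have c := (oc' (M := M)).comp D2.toDat
  obtain ⟨C, c0, c1⟩ := ((b.mul (p.add q)).neg.add (((c.mul (((p.pow 2).sub (p.mul q)).add
    (q.pow 2))).mono s (l := 1) (by norm_num)).smul 2)).add
    ((((b.pow 2).add a).mul (p.mul q)).mono s (l := 1) (by norm_num))
  obtain ⟨E, e0, e1⟩ := (((((((c.mul b).mul (((p.pow 3).mul q).add ((q.pow 3).mul p))).neg.sub
    ((a.mul b).mul ((p.pow 2).mul (q.pow 2)))).add (((a.mul c).mul (((p.pow 3).mul (q.pow 2)).add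
    ((q.pow 3).mul (p.pow 2)))).mono s (l := 4) (by norm_num))).add
    (((ors hexpS).comp D2.toDat).mul ((oA hexpA).comp D2.snd))).add
    ((oS.comp D2.toDat).mul ((ora hexpA).comp D2.snd))).add
    (((ors hexpS).comp D2.snd).mul ((oA hexpA).comp D2.toDat))).add
    ((oS.comp D2.snd).mul ((ora hexpA).comp D2.toDat)) |>.smul 2
  refine ⟨C + E, add_nonneg c0 e0, fun B _ _ _ _ ω b0 b1 b2 p n bp bn h0 h1 hp hn => ?_⟩
  let D : D2 M := ⟨⟨B, ω, b0, b1, b2, p, bp, h0, h1, hp⟩, -n, bn, hn⟩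
  have k1 := c1 D 0 ⟨le_rfl, zero_le_one⟩
  have k2 := e1 D 0 ⟨le_rfl, zero_le_one⟩
  rw [ea, sub_eq_add_neg p n, poly (a2 b0 b1 b2) (b3 b0 b1 b2) b1]
  refine (norm_add_le_of_le ((norm_mul_le _ _).trans
    (mul_le_mul_of_nonneg_left k1 (norm_nonneg _))) k2).trans ?_
  change _ * (C * ω ^ 1) + E * ω ^ 4 ≤ _
  have : 0 ≤ C * ω ^ 4 + E * (ω * ‖p + -n‖) := by positivity
  nlinarith

end Vale.Agent.P097
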