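import Vale.Agent.P097.Ob

/-! P097: expansion of the odd part of the chord. -/

open Set NormedSpace Complex

namespace Vale.Agent.P097

namespace ExpSAux

section Alg

variable {B : Type} [NormedCommRing B] [NormedAlgebra ℂ B] [CompleteSpace B]

theorem int_pow (n : ℕ) (A : B) (y : ℝ) :
    ∫ z in (0:ℝ)..y, (z:ℂ) ^ n • A = ((y:ℂ) ^ (n + 1) / (n + 1)) • A := by
  rw [intervalIntegral.integral_smul_const]
  congr 1
  have := intervalIntegral.integral_ofReal (μ := MeasureTheory.volume) (a := 0) (b := y)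
    (f := fun z => z ^ n)
  rw [integral_pow] at this
  push_cast at this
  rw [this]
  simp

theorem int3 (n : ℕ) (A A' A'' : B) (y : ℝ) :
    ∫ z in (0:ℝ)..y, ((z:ℂ) ^ n • A + (z:ℂ) ^ (n + 1) • A' + (z:ℂ) ^ (n + 2) • A'') =
      ((y:ℂ) ^ (n + 1) / (n + 1)) • A + ((y:ℂ) ^ (n + 2) / (n + 2)) • A' +
        ((y:ℂ) ^ (n + 3) / (n + 3)) • A'' := by
  rw [intervalIntegral.integral_add (Continuous.intervalIntegrable (by fun_prop) _ _)
    (Continuous.intervalIntegrable (by fun_prop) _ _),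
    intervalIntegral.integral_add (Continuous.intervalIntegrable (by fun_prop) _ _)
    (Continuous.intervalIntegrable (by fun_prop) _ _), int_pow, int_pow, int_pow]
  push_cast
  ring_nf

omit [CompleteSpace B] in
theorem odd (t p n : B) : (-I / 2) • (p - n) - (t - (1 / 6 : ℂ) • t ^ 3) =
    (-I / 2) • ((p - (1 + I • t + (1 / 2 : ℂ) • (I • t) ^ 2 + (1 / 6 : ℂ) • (I • t) ^ 3)) -
      (n - (1 + (-I) • t + (1 / 2 : ℂ) • ((-I) • t) ^ 2 + (1 / 6 : ℂ) • ((-I) • t) ^ 3))) := by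
  simp only [smul_pow]
  match_scalars <;> ring_nf <;> simp

end Alg

open Dat

variable {M : ℝ}

theorem ou : Ob Dat.ω 1 fun (D : Dat M) (_ : ℝ) => D.b1 * D.d := o1.mul od

theorem ov : Ob Dat.ω 2 fun (D : Dat M) (_ : ℝ) => D.b2 * D.d ^ 2 := o2.mul (od.pow 2)

theorem ow : Ob Dat.ω 0 fun (D : Dat M) (_ : ℝ) => exp D.b0 := o0.exp0 sm

theorem oy (n : ℕ) {k : ℕ} {x : ∀ D : Dat M, ℝ → D.B} (h : Ob Dat.ω k x) :
    Ob Dat.ω k fun D y => (y:ℂ) ^ n • x D y :=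
  h.smul_fn (c := fun y => (y:ℂ) ^ n) (by fun_prop)

theorem oexp (a : ℂ) : Ob Dat.ω 3 fun (D : Dat M) (y : ℝ) => exp (a • (D.b y - D.b0)) -
    ((y:ℂ) ^ 0 • 1 + (y:ℂ) ^ 1 • (a • (D.b1 * D.d)) +
      (y:ℂ) ^ 2 • (a • (D.b2 * D.d ^ 2) + (a ^ 2 / 2) • (D.b1 * D.d) ^ 2)) := by
  have h1 : Ob Dat.ω 2 fun (D : Dat M) (y : ℝ) => D.b y - D.b0 - (y:ℂ) ^ 1 • (D.b1 * D.d) :=
    ((orem.mono sm (by norm_num)).add (oy 2 ov)).congr fun _ _ _ => by algebra
  exact ((((oc.smul a).exp3 sm).add (orem.smul a)).add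
    ((h1.mul (oc.add (oy 1 ou))).smul (a ^ 2 / 2))).congr fun _ _ _ => by algebra

theorem okk : Ob Dat.ω 3 fun (D : Dat M) (y : ℝ) => kk D.b y - exp D.b0 *
    ((y:ℂ) ^ 1 • 1 + (y:ℂ) ^ 2 • ((1 / 2 : ℂ) • (D.b1 * D.d)) +
      (y:ℂ) ^ 3 • ((1 / 3 : ℂ) • (D.b2 * D.d ^ 2) + (1 / 6 : ℂ) • (D.b1 * D.d) ^ 2)) := by
  refine (ow.mul (oexp 1).prim).congr fun D y _ => ?_
  have hc := D.h.cont
  rw [intervalIntegral.integral_sub (Continuous.intervalIntegrable (by fun_prop) _ _)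
    (Continuous.intervalIntegrable (by fun_prop) _ _), int3 0, mul_sub (exp D.b0),
    ← int_mul _ (by fun_prop)]
  congr 1
  · refine intervalIntegral.integral_congr fun z _ => ?_
    rw [← ex_add, one_smul, add_sub_cancel]
  · push_cast
    algebra

theorem osn : Ob Dat.ω 4 fun (D : Dat M) (y : ℝ) =>
    (-I / 2) • (ph I D.b D.d y - ph (-I) D.b D.d y) - exp D.b0 * ((y:ℂ) ^ 1 • D.d +
      (y:ℂ) ^ 2 • ((1 / 2 : ℂ) • (D.b1 * D.d * D.d)) +
      (y:ℂ) ^ 3 • (((1 / 3 : ℂ) • (D.b2 * D.d ^ 2) + (1 / 6 : ℂ) • (D.b1 * D.d) ^ 2) * D.d -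
        (1 / 6 : ℂ) • (exp D.b0 * D.d) ^ 2 * D.d)) := by
  have h0 : Ob Dat.ω 1 fun (D : Dat M) (y : ℝ) => D.d * kk D.b y := od.mul (ob.exp0 sm).prim
  have h1 := od.mul (okk (M := M))
  have h2 : Ob Dat.ω 1 fun (D : Dat M) (y : ℝ) => (y:ℂ) ^ 1 • (exp D.b0 * D.d) := oy 1 (ow.mul od)
  have h3 : Ob Dat.ω 2 fun (D : Dat M) (y : ℝ) => D.d * kk D.b y - (y:ℂ) ^ 1 • (exp D.b0 * D.d) :=
    ((h1.mono sm (by norm_num)).add (od.mul (ow.mul ((oy 2 (ou.smul (1 / 2))).add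
      ((oy 3 ((ov.smul (1 / 3)).add ((ou.pow 2).smul (1 / 6)))).mono sm (by norm_num)))))).congr
      fun _ _ _ => by algebra
  have h4 := h3.mul (((h0.pow 2).add (h0.mul h2)).add (h2.pow 2))
  have h5 := (((h0.smul I).exp4 sm).sub ((h0.smul (-I)).exp4 sm)).smul (-I / 2)
  refine ((h5.add h1).sub (h4.smul (1 / 6))).congr fun D y _ => ?_
  rw [← odd]
  unfold ph
  generalize (-I / 2) • (exp (I • (D.d * kk D.b y)) - exp (-I • (D.d * kk D.b y))) = s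
  algebra

theorem oall : Ob Dat.ω 4 fun (D : Dat M) (y : ℝ) =>
    exp D.b0 * (em D.b y * (-I / 2) • (ph I D.b D.d y - ph (-I) D.b D.d y)) - ((y:ℂ) ^ 1 • D.d +
      (y:ℂ) ^ 2 • ((-3 / 2 : ℂ) • (D.b1 * D.d ^ 2)) +
      (y:ℂ) ^ 3 • ((4 : ℂ) • (b3 D.b0 D.b1 D.b2 * D.d ^ 3))) := by
  have m0 : Ob Dat.ω 0 fun (D : Dat M) (_ : ℝ) => exp D.b0 * exp ((-2 : ℂ) • D.b0) :=
    ow.mul ((o0.smul (-2)).exp0 sm)
  have e1 := oy 1 ((ou (M := M)).smul (-2))
  have e2 := oy 2 (((ov (M := M)).smul (-2)).add ((ou.pow 2).smul ((-2) ^ 2 / 2)))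
  have s1 := oy 1 (od (M := M))
  have s2 := oy 2 (((ou (M := M)).mul od).smul (1 / 2))
  have s3 := oy 3 (((((ov (M := M)).smul (1 / 3)).add ((ou.pow 2).smul (1 / 6))).mul od).sub
    ((((ow.mul od).pow 2).smul (1 / 6)).mul od))
  have s := (s1.add (s2.mono sm (by norm_num))).add (s3.mono sm (by norm_num))
  have h1 := (m0.mul ((oc.smul (-2)).exp0 sm)).mul osn
  have h2 := (oexp (-2)).mul s
  have h3 := (e1.mul s3).add (e2.mul (s2.add (s3.mono sm (by norm_num))))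
  refine ((h1.add h2).add h3).congr fun D y _ => ?_
  have k1 : em D.b y = exp ((-2 : ℂ) • D.b0) * exp ((-2 : ℂ) • (D.b y - D.b0)) := by
    rw [← ex_add, ← smul_add, add_sub_cancel, em]
  have k2 : exp D.b0 * exp ((-2 : ℂ) • D.b0) * exp D.b0 = 1 := by
    rw [← ex_add, ← ex_add, ← NormedSpace.exp_zero]
    congr 1
    module
  have k3 : ∀ e p : D.B, exp D.b0 * exp ((-2 : ℂ) • D.b0) * e * (exp D.b0 * p) = e * p :=
    fun e p => by linear_combination (e * p) * k2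
  rw [k1, mul_sub (_ * _ * _), k3, b3]
  generalize (-I / 2) • (ph I D.b D.d y - ph (-I) D.b D.d y) = s
  algebra

end ExpSAux

theorem expS : S_expS := by
  intro M
  obtain ⟨C, -, h⟩ := Dat.out (ExpSAux.oall (M := M)).int
  refine ⟨C, fun B _ _ _ _ ω b0 b1 b2 d b h0 h1 h2 => ?_⟩
  refine le_trans (le_of_eq ?_) (h ⟨B, ω, b0, b1, b2, d, b, h0, h1, h2⟩)
  congr 1
  have c0 := em_cont h2.cont
  have c1 := ph_cont I h2.cont d
  have c2 := ph_cont (-I) h2.cont d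
  rw [intervalIntegral.integral_sub (Continuous.intervalIntegrable (by fun_prop) _ _)
    (Continuous.intervalIntegrable (by fun_prop) _ _), ExpSAux.int3 1, int_mul _ (by fun_prop),
    GG, GG, ← intervalIntegral.integral_sub (Continuous.intervalIntegrable (by fun_prop) _ _)
    (Continuous.intervalIntegrable (by fun_prop) _ _), ← intervalIntegral.integral_smul]
  congr 1
  · congr 1
    refine intervalIntegral.integral_congr fun z _ => ?_
    rw [mul_smul_comm, mul_sub]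
  · push_cast
    algebra

end Vale.Agent.P097
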