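import Vale.Agent.P097.Base

open Set NormedSpace Complex

namespace Vale.Agent.P097

namespace FdAux

theorem ee_der (n : ℤ) (t : ℝ) : HasDerivAt (fun t : ℝ => ee (-(n * t)))
    (-(2 * Real.pi * I * n) * ee (-(n * t))) t := by
  have e : ∀ t : ℝ, ee (-(n * t)) = Complex.exp (-(2 * Real.pi * I * n) * t) := fun t => by
    rw [ee]; push_cast; ring_nf
  simp only [e]
  have := (((hasDerivAt_id (t : ℂ)).const_mul (-(2 * Real.pi * I * n))).cexp).comp_ofReal
  simpa [mul_comm] using this

theorem sp_der {β : ℝ → ℝ} (h : SP β) : SP (deriv β) :=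
  ⟨(contDiff_infty_iff_deriv.1 h.1).2, fun t => by
    rw [← deriv_comp_add_const, funext h.2]⟩

theorem parts {β : ℝ → ℝ} (h : SP β) (n : ℤ) :
    fr (deriv β) n = 2 * Real.pi * I * n * fr β n := by
  have hd : Differentiable ℝ β := (contDiff_infty_iff_deriv.1 h.1).1
  have hc := (sp_der h).1.continuous
  have := intervalIntegral.integral_mul_deriv_eq_deriv_mul (a := 0) (b := 1)
    (fun t _ => ee_der n t) (fun t _ => (hd t).hasDerivAt.ofReal_comp)
    (Continuous.intervalIntegrable (by fun_prop) _ _)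
    (Continuous.intervalIntegrable (by fun_prop) _ _)
  have e1 : ee (-(n * (1 : ℝ))) = 1 := by simpa using ee_int (-n)
  have e2 : β 1 = β 0 := by simpa using h.2 0
  rw [e1, e2, mul_zero, neg_zero, ee_zero, sub_self, zero_sub] at this
  simp only [fr, fc, mul_comm _ (ee _)]
  rw [this, ← intervalIntegral.integral_neg, ← intervalIntegral.integral_const_mul]
  exact intervalIntegral.integral_congr fun t _ => by ring

theorem dec (k : ℕ) : ∀ β : ℝ → ℝ, SP β → ∃ M : ℝ, ∀ n : ℤ, ‖fr β n‖ * |(n:ℝ)| ^ k ≤ M := by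
  induction k with
  | zero =>
    intro β h
    obtain ⟨M, hM⟩ := bdd_of_per h.1.continuous h.2
    exact ⟨M, fun n => by simpa [fr] using fc_le (fun t => by simpa using hM t) n⟩
  | succ k ih =>
    intro β h
    obtain ⟨M, hM⟩ := ih _ (sp_der h)
    refine ⟨M, fun n => le_trans ?_ (hM n)⟩
    have e : ‖(2 * Real.pi * I * n : ℂ)‖ = 2 * Real.pi * |(n:ℝ)| := by
      simp [abs_of_pos Real.pi_pos]
    rw [parts h, norm_mul, e, pow_succ]
    have : 0 ≤ ‖fr β n‖ * (|(n:ℝ)| ^ k * |(n:ℝ)|) := by positivity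
    nlinarith [Real.pi_gt_three]

end FdAux

theorem fdE : S_fd := by
  intro β h
  obtain ⟨M, hM⟩ := FdAux.dec 0 β h
  obtain ⟨M', hM'⟩ := FdAux.dec 31 β h
  refine ⟨max 1 (max M M'), le_max_left _ _, fun q => ⟨fun n => ?_, ?_, fun n hn => ?_⟩⟩
  · simpa [fr] using fc_conj (fun t => (β t : ℂ)) n
  · exact le_max_of_le_right (le_max_of_le_left (by simpa using hM 0))
  · rw [zero_mul, neg_zero, Real.exp_zero, mul_one, le_div_iff₀ (by positivity)]
    exact le_max_of_le_right (le_max_of_le_right (hM' n))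

end Vale.Agent.P097
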