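import Vale.Agent.P097.Base
import Vale.Agent.P371.Brouwer

open Set NormedSpace Complex

namespace Vale.Agent.P097

namespace FpAux

theorem sin_low {y e : ℝ} (he : 0 ≤ e) (h1 : e ≤ y) (h2 : y ≤ 1 - e) :
    e ≤ Real.sin (Real.pi * y) := by
  rcases le_total y (1 / 2) with h | h
  · have := Real.le_sin_mul (x := 2 * y) (by linarith) (by linarith)
    rw [show Real.pi / 2 * (2 * y) = Real.pi * y by ring] at this
    linarith
  · have := Real.le_sin_mul (x := 2 * (1 - y)) (by linarith) (by linarith)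
    rw [show Real.pi / 2 * (2 * (1 - y)) = Real.pi - Real.pi * y by ring, Real.sin_pi_sub] at this
    linarith

/-- the modes -/
noncomputable def md (q : ℕ) : Finset ℤ := (Finset.Ioo (-(q : ℤ)) q).erase 0

theorem mem_md {q : ℕ} {n : ℤ} : n ∈ md q ↔ n ≠ 0 ∧ |n| < q := by
  rw [md, Finset.mem_erase, Finset.mem_Ioo, abs_lt]

/-- reflection of the modes -/
def ng {q : ℕ} : md q ≃ md q :=
  Function.Involutive.toPerm (fun n => ⟨-n.1, by simpa [mem_md] using mem_md.1 n.2⟩)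
    fun n => Subtype.ext (neg_neg _)

theorem ng_val {q : ℕ} (n : md q) : ((ng n : md q) : ℤ) = -n := rfl

/-- the symbol of the forward difference -/
noncomputable def al (q : ℕ) (n : ℤ) : ℂ := ee (n * (1 / q)) - 1

theorem al_neg (q : ℕ) (n : ℤ) : al q (-n) = (starRingEnd ℂ) (al q n) := by
  rw [al, al, map_sub, map_one, ee_conj, Int.cast_neg, neg_mul]

theorem al_mul (q : ℕ) (n : ℤ) : al q n * al q (-n) = -(al q n + al q (-n)) := by
  have h := ee_add (n * (1 / q)) (-(n * (1 / q)))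
  rw [add_neg_cancel, ee_zero] at h
  rw [al, al, Int.cast_neg, neg_mul]
  linear_combination -h

theorem al_low {q : ℕ} {n : ℤ} (h : n ∈ md q) : 1 / (q : ℝ) ≤ ‖al q n‖ := by
  obtain ⟨h0, h1⟩ := mem_md.1 h
  have h2 : (1 : ℝ) ≤ |(n : ℝ)| := by exact_mod_cast Int.one_le_abs h0
  have h3 : |(n : ℝ)| + 1 ≤ q := by exact_mod_cast h1
  have hq : (0 : ℝ) < q := by linarith
  have e : ee (n * (1 / q)) = Complex.exp (I * (2 * (Real.pi * (n / q)) : ℝ)) := by
    rw [ee]
    congr 1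
    push_cast
    ring
  have h4 := sin_low (y := |(n : ℝ)| / q) (e := 1 / q) (by positivity)
    (div_le_div_of_nonneg_right h2 hq.le)
    (by rw [le_sub_iff_add_le, ← add_div, div_le_one hq]; exact h3)
  have h5 : Real.sin (Real.pi * (|(n : ℝ)| / q)) ≤ |Real.sin (Real.pi * (n / q))| := by
    rcases abs_cases (n : ℝ) with h | h <;> rw [h.1]
    · exact le_abs_self _
    · rw [neg_div, mul_neg, Real.sin_neg]
      exact neg_le_abs _
  rw [al, e, Complex.norm_exp_I_mul_ofReal_sub_one, mul_div_cancel_left₀ _ two_ne_zero, norm_mul,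
    Real.norm_eq_abs, Real.norm_eq_abs, abs_two]
  linarith [abs_nonneg (Real.sin (Real.pi * (n / q)))]

theorem al_inv {q : ℕ} (n : md q) : al q n ≠ 0 ∧ ‖(al q n)⁻¹‖ ≤ q := by
  have h := al_low n.2
  have hq : (0 : ℝ) < q := by
    have h1 : (0 : ℤ) < q := (abs_nonneg _).trans_lt (mem_md.1 n.2).2
    exact_mod_cast h1
  have h0 : 0 < ‖al q n‖ := lt_of_lt_of_le (by positivity) h
  refine ⟨norm_pos_iff.1 h0, ?_⟩
  rw [norm_inv, inv_le_comm₀ h0 hq, ← one_div]
  exact h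

variable {ρ : ℝ} (w : Wn ρ) {q : ℕ}

/-- synthesis with a multiplier -/
noncomputable def syn (m : ℤ → ℂ) (a : md q → ℂ) : w.B := ∑ n : md q, (m n * a n) • w.e n

theorem syn_cont (m : ℤ → ℂ) : Continuous (syn w (q := q) m) := by
  unfold syn
  fun_prop

theorem syn_ev (m : ℤ → ℂ) (a : md q → ℂ) (t : ℝ) :
    w.ev t (syn w m a) = ∑ n : md q, m n * a n * ee ((n : ℤ) * t) := by
  simp only [syn, map_sum, map_smul, w.ev_e, smul_eq_mul]

theorem syn_norm {m : ℤ → ℂ} {a : md q → ℂ} {A δ : ℝ} (hA : 0 ≤ A) (hm : ∀ n : md q, ‖m n‖ ≤ A)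
    (ha : ∑ n : md q, wt ρ n * ‖a n‖ ≤ δ) : ‖syn w m a‖ ≤ A * δ := by
  refine (norm_sum_le _ _).trans (le_trans ?_ (mul_le_mul_of_nonneg_left ha hA))
  rw [Finset.mul_sum]
  refine Finset.sum_le_sum fun n _ => ?_
  rw [norm_smul, norm_mul, mul_assoc, mul_comm ‖a n‖]
  exact mul_le_mul (hm n) (mul_le_mul_of_nonneg_right (w.e_le n) (norm_nonneg _))
    (by positivity) hA

theorem syn_re {m : ℤ → ℂ} {a : md q → ℂ} (hm : ∀ n, m (-n) = (starRingEnd ℂ) (m n))
    (ha : ∀ n, a (ng n) = (starRingEnd ℂ) (a n)) : w.Re (syn w m a) := fun t => by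
  rw [← Complex.conj_eq_iff_im, syn_ev, map_sum, ← Equiv.sum_comp ng
    fun n : md q => m n * a n * ee ((n : ℤ) * t)]
  refine Finset.sum_congr rfl fun n _ => ?_
  rw [map_mul, map_mul, ng_val, hm, ha, ee_conj, Int.cast_neg, neg_mul]

theorem syn_fc (a : md q → ℂ) (n : md q) :
    fc (fun t => w.ev t (syn w (fun _ => 1) a)) n = a n := by
  simp only [syn_ev, one_mul]
  rw [fc_sum Finset.univ (f := fun (k : md q) t => a k * ee ((k : ℤ) * t))
    fun k _ => continuous_const.mul (ee_cont.comp (by fun_prop))]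
  simp only [fc_mul, fc_ee, Subtype.val_inj, mul_ite, mul_one, mul_zero, Finset.sum_ite_eq,
    Finset.mem_univ, if_true]

theorem fc_ev_sub (x y : w.B) (n : ℤ) : fc (fun t => w.ev t (x - y)) n =
    fc (fun t => w.ev t x) n - fc (fun t => w.ev t y) n := by
  simp only [map_sub]
  exact fc_sub (w.ev_cont x) (w.ev_cont y) n

theorem fc_cont (n : ℤ) : Continuous fun x : w.B => fc (fun t => w.ev t x) n :=
  (LipschitzWith.mk_one fun x y => by
    rw [dist_eq_norm, dist_eq_norm, ← fc_ev_sub]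
    exact fc_le (fun t => w.ev_le t _) n).continuous

/-- the convex set -/
def KK (ρ : ℝ) (q : ℕ) (δ : ℝ) : Set (md q → ℂ) :=
  {a | (∀ n, a (ng n) = (starRingEnd ℂ) (a n)) ∧ ∑ n : md q, wt ρ n * ‖a n‖ ≤ δ}

theorem KK_convex (δ : ℝ) : Convex ℝ (KK ρ q δ) := by
  intro x hx y hy a b ha hb hab
  refine ⟨fun n => by simp [hx.1, hy.1], ?_⟩
  have h : ∑ n : md q, wt ρ n * ‖(a • x + b • y) n‖ ≤
      a * ∑ n : md q, wt ρ n * ‖x n‖ + b * ∑ n : md q, wt ρ n * ‖y n‖ := by
    rw [Finset.mul_sum, Finset.mul_sum, ← Finset.sum_add_distrib]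
    refine Finset.sum_le_sum fun n _ => ?_
    have h1 := norm_add_le (a • x n) (b • y n)
    rw [norm_smul, norm_smul, Real.norm_of_nonneg ha, Real.norm_of_nonneg hb] at h1
    exact (mul_le_mul_of_nonneg_left h1 (wt_pos ρ n).le).trans_eq (by ring)
  have h1 := mul_le_mul_of_nonneg_left hx.2 ha
  have h2 := mul_le_mul_of_nonneg_left hy.2 hb
  have h3 : a * δ + b * δ = δ := by rw [← add_mul, hab, one_mul]
  linarith

theorem KK_compact (hρ : 0 ≤ ρ) {δ : ℝ} (hδ : 0 ≤ δ) : IsCompact (KK ρ q δ) := by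
  refine Metric.isCompact_of_isClosed_isBounded ?_ (isBounded_iff_forall_norm_le.2 ⟨δ, fun a ha =>
      (pi_norm_le_iff_of_nonneg hδ).2 fun n => ?_⟩)
  · rw [KK, ofPred_and, ofPred_forall]
    exact (isClosed_iInter fun n => isClosed_eq (by fun_prop) (by fun_prop)).inter
      (isClosed_le (by fun_prop) continuous_const)
  · have h1 : 1 ≤ wt ρ n := one_le_mul_of_one_le_of_one_le (Real.one_le_exp (by positivity))
      (one_le_pow₀ (le_add_of_nonneg_right (abs_nonneg _)))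
    exact (le_mul_of_one_le_left (norm_nonneg _) h1).trans ((Finset.single_le_sum
      (f := fun n : md q => wt ρ n * ‖a n‖)
      (fun k _ => mul_nonneg (wt_pos _ _).le (norm_nonneg _)) (Finset.mem_univ n)).trans ha.2)

theorem fix (hρ : 0 ≤ ρ) {δ : ℝ} (hδ : 0 ≤ δ) {G : (md q → ℂ) → w.B} (hG : Continuous G)
    (h : ∀ a ∈ KK ρ q δ, w.Re (G a) ∧ ‖G a‖ ≤ δ) :
    ∃ a ∈ KK ρ q δ, ∀ n : md q, -fc (fun t => w.ev t (G a)) n = a n := by
  have hc : Continuous fun (a : md q → ℂ) (n : md q) => -fc (fun t => w.ev t (G a)) n :=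
    continuous_pi fun n => ((fc_cont w n).comp hG).neg
  obtain ⟨a, ha, e⟩ := Vale.Agent.P371.brouwer (KK_convex δ) (KK_compact (q := q) hρ hδ)
    ⟨0, fun n => by simp, by simpa using hδ⟩ hc.continuousOn fun a ha => by
      refine ⟨fun n => ?_, le_trans (le_of_eq ?_) ((w.co_le (md q) _).trans (h a ha).2)⟩
      · beta_reduce
        rw [map_neg, ← fc_conj, ng_val]
        congr 2
        funext t
        exact (Complex.conj_eq_iff_im.2 ((h a ha).1 t)).symm
      · simp only [norm_neg]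
        exact Finset.sum_coe_sort (md q) fun n => wt ρ n * ‖fc (fun t => w.ev t (G a)) n‖
  exact ⟨a, ha, congrFun e⟩

end FpAux

open FpAux

theorem fpE : S_fp := by
  intro ρ w q δ F hρ hq hδ hF h
  have hq' : (0 : ℝ) < q := by exact_mod_cast hq
  have r0 : w.Re 0 := fun t => by simp
  have h0 : 0 ≤ δ := (norm_nonneg _).trans (h 0 0 0 r0 r0 r0 (by simp) (by simp) (by simp)
    (by simp)).2
  let mp : ℤ → ℂ := fun n => -(al q (-n))⁻¹
  let mn : ℤ → ℂ := fun n => (al q n)⁻¹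
  have sp : ∀ n, mp (-n) = (starRingEnd ℂ) (mp n) := fun n => by
    simp only [mp, al_neg q (-n), map_neg, map_inv₀]
  have sn : ∀ n, mn (-n) = (starRingEnd ℂ) (mn n) := fun n => by
    simp only [mn, al_neg q n, map_inv₀]
  have bp : ∀ n : md q, ‖mp n‖ ≤ q := fun n => (norm_neg _).trans_le (al_inv (ng n)).2
  have bn : ∀ n : md q, ‖mn n‖ ≤ q := fun n => (al_inv n).2
  have hd : ∀ a : md q → ℂ, syn w mp a - syn w mn a = syn w (fun _ => 1) a := fun a => by
    simp only [syn, ← Finset.sum_sub_distrib, ← sub_smul, ← sub_mul]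
    refine Finset.sum_congr rfl fun n _ => ?_
    have k1 := (al_inv n).1
    have k2 : al q (-n) ≠ 0 := (al_inv (ng n)).1
    have k3 : mp n - mn n = 1 := by
      simp only [mp, mn]
      field_simp
      linear_combination -al_mul q n
    rw [k3]
  have sol : ∀ a ∈ KK ρ q δ, w.Re (syn w (fun n => mp n * mn n) a) ∧
      ‖syn w (fun n => mp n * mn n) a‖ ≤ (q : ℝ) ^ 2 * δ ∧ ‖syn w mp a‖ ≤ q * δ ∧
      ‖syn w mn a‖ ≤ q * δ ∧ ‖syn w mp a - syn w mn a‖ ≤ δ := fun a ha =>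
    ⟨syn_re w (fun n => by rw [sp, sn, map_mul]) ha.1, syn_norm w (by positivity) (fun n => by
      rw [norm_mul, sq]; exact mul_le_mul (bp n) (bn n) (norm_nonneg _) hq'.le) ha.2,
      syn_norm w hq'.le bp ha.2, syn_norm w hq'.le bn ha.2, by
      rw [hd, ← one_mul δ]; exact syn_norm w zero_le_one (fun _ => norm_one.le) ha.2⟩
  have hc : Continuous fun a : md q → ℂ => F (syn w (fun n => mp n * mn n) a) (syn w mp a)
      (syn w mn a) - (syn w mp a - syn w mn a) :=
    (hF.comp ((syn_cont w fun n => mp n * mn n).prodMk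
      ((syn_cont w mp).prodMk (syn_cont w mn)))).sub ((syn_cont w mp).sub (syn_cont w mn))
  obtain ⟨a, ha, hfix⟩ := fix w hρ h0 hc fun a ha => by
    obtain ⟨k1, k2, k3, k4, k5⟩ := sol a ha
    have l1 : (q : ℝ) ^ 2 * δ ≤ 1 / q :=
      (mul_le_mul_of_nonneg_left hδ (by positivity)).trans_eq (by field_simp)
    have l2 : (q : ℝ) * δ ≤ 1 / (q : ℝ) ^ 2 :=
      (mul_le_mul_of_nonneg_left hδ hq'.le).trans_eq (by field_simp)
    have rp := syn_re w sp ha.1
    have rn := syn_re w sn ha.1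
    obtain ⟨k6, k7⟩ := h _ _ _ k1 rp rn (k2.trans l1) (k3.trans l2) (k4.trans l2) (k5.trans hδ)
    refine ⟨fun t => ?_, k7⟩
    rw [map_sub, map_sub, sub_im, sub_im, k6 t, rp t, rn t, sub_zero, sub_zero]
  obtain ⟨k1, k2, k3, k4, k5⟩ := sol a ha
  refine ⟨_, _, _, k1, k2, k3, k4, k5, fun t => ?_, fun t => ?_, fun n hn hn' => ?_⟩
  · simp only [syn_ev, ← Finset.sum_sub_distrib]
    refine Finset.sum_congr rfl fun n _ => ?_
    have e : mn n * al q n = 1 := inv_mul_cancel₀ (al_inv n).1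
    rw [mul_add, ee_add]
    rw [al] at e
    linear_combination -(mp n * a n * ee ((n : ℤ) * t)) * e
  · simp only [syn_ev, ← Finset.sum_sub_distrib]
    refine Finset.sum_congr rfl fun n _ => ?_
    have e : -mp n * al q (-n) = 1 := by
      rw [neg_neg]
      exact inv_mul_cancel₀ (al_inv (ng n)).1
    rw [sub_eq_add_neg t, mul_add, ee_add, mul_neg]
    rw [al, Int.cast_neg, neg_mul ((n : ℤ) : ℝ)] at e
    linear_combination -(mn n * a n * ee ((n : ℤ) * t)) * e
  · have e := hfix ⟨n, mem_md.2 ⟨hn, hn'⟩⟩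
    have e2 := syn_fc w a ⟨n, mem_md.2 ⟨hn, hn'⟩⟩
    simp only [fc_ev_sub w (F _ _ _), hd] at e
    linear_combination e2 - e

end Vale.Agent.P097
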