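import Vale.Agent.P097.Base

open Set NormedSpace Complex

namespace Vale.Agent.P097

namespace FsAux

theorem four (n : ℤ) (x : ℝ) : fourier n (x : AddCircle (1 : ℝ)) = ee (n * x) := by
  rw [fourier_coe_apply, ee]
  push_cast
  ring_nf

end FsAux

theorem fsE : S_fs := by
  intro f hf hp
  refine ⟨fun n a => ?_, fun hs t => ?_⟩
  · have hg : Function.Periodic (fun t : ℝ => f t * ee (-(n * t))) 1 := fun t => by
      have e : -((n : ℝ) * (t + 1)) = -(n * t) + ((-n : ℤ) : ℝ) := by push_cast; ring
      simp only [hp t, e, ee_add, ee_int, mul_one]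
    have e : ∀ t : ℝ, f (t + a) * ee (-(n * t)) =
        ee (n * a) * (f (t + a) * ee (-(n * (t + a)))) := fun t => by
      rw [mul_left_comm, ← ee_add]
      ring_nf
    simp only [fc, e]
    rw [intervalIntegral.integral_const_mul,
      intervalIntegral.integral_comp_add_right (fun t : ℝ => f t * ee (-(n * t))) a, zero_add,
      add_comm 1 a, hg.intervalIntegral_add_eq a 0, zero_add]
  · let F : C(AddCircle (1 : ℝ), ℂ) := ⟨hp.lift, continuous_coinduced_dom.2 hf⟩
    have hF : ∀ x : ℝ, F x = f x := fun x => hp.lift_coe x
    have e : fourierCoeff F = fc f := funext fun n => by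
      rw [fourierCoeff_eq_intervalIntegral _ n 0, zero_add, div_one, one_smul, fc]
      refine intervalIntegral.integral_congr fun x _ => ?_
      simp only [hF, FsAux.four, smul_eq_mul, Int.cast_neg, neg_mul, mul_comm (f x)]
    have h := has_pointwise_sum_fourier_series_of_summable (f := F) (e ▸ hs.of_norm) t
    simpa only [e, hF, FsAux.four, smul_eq_mul] using h

end Vale.Agent.P097
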