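import Vale.Agent.P097.Base

open Set NormedSpace Complex

namespace Vale.Agent.P097

namespace GBAux

/-- The primitive. -/
noncomputable def pr (β : ℝ → ℝ) (ξ d y : ℝ) : ℝ := ∫ z in (0:ℝ)..y, Real.exp (β (ξ + z * d))

variable {β : ℝ → ℝ} {M ξ d y : ℝ}

theorem pr_cont (hβ : Continuous β) (ξ d : ℝ) : Continuous (pr β ξ d) :=
  intervalIntegral.continuous_primitive (fun _ _ => Continuous.intervalIntegrable (by fun_prop) _ _) 0

theorem pr_pos (hβ : Continuous β) (hy : 0 < y) : 0 < pr β ξ d y :=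
  intervalIntegral.intervalIntegral_pos_of_pos_on (Continuous.intervalIntegrable (by fun_prop) _ _)
    (fun _ _ => Real.exp_pos _) hy

theorem pr_le (hM : ∀ x, |β x| ≤ M) (hy : y ∈ Icc (0:ℝ) 1) : |pr β ξ d y| ≤ Real.exp M := by
  refine (intervalIntegral.norm_integral_le_of_norm_le_const (E := ℝ) (C := Real.exp M)
    fun z _ => ?_).trans ?_
  · rw [Real.norm_eq_abs, Real.abs_exp]
    exact Real.exp_le_exp.2 ((le_abs_self _).trans (hM _))
  · rw [sub_zero, abs_of_nonneg hy.1]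
    exact mul_le_of_le_one_right (Real.exp_pos _).le hy.2

theorem Gr_int (hβ : Continuous β) (ξ d : ℝ) : IntervalIntegrable
    (fun y => em (pth β ξ d) y * ph I (pth β ξ d) d y) MeasureTheory.volume 0 1 :=
  ((em_cont (pth_cont hβ ξ d)).mul (ph_cont I (pth_cont hβ ξ d) _)).intervalIntegrable _ _

theorem Gr_re (hβ : Continuous β) (ξ d : ℝ) : (Gr β ξ d).re =
    ∫ y in (0:ℝ)..1, Real.exp (-2 * β (ξ + y * d)) * Real.cos (d * pr β ξ d y) := by
  refine (reCLM.intervalIntegral_comp_comm (Gr_int hβ ξ d)).symm.trans ?_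
  simp only [reCLM_apply, em_pth, ph_pth, re_ofReal_mul, mul_comm I, exp_ofReal_mul_I_re, pr]

theorem Gr_im (hβ : Continuous β) (ξ d : ℝ) : (Gr β ξ d).im =
    ∫ y in (0:ℝ)..1, Real.exp (-2 * β (ξ + y * d)) * Real.sin (d * pr β ξ d y) := by
  refine (imCLM.intervalIntegral_comp_comm (Gr_int hβ ξ d)).symm.trans ?_
  simp only [imCLM_apply, em_pth, ph_pth, im_ofReal_mul, mul_comm I, exp_ofReal_mul_I_im, pr]

theorem gb (hM0 : 0 ≤ M) : GB M (Real.exp (-(3 * M)) / 2) (Real.exp (-M)) := by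
  refine ⟨by positivity, Real.exp_pos _, fun β hβ hM ξ d hd => ?_⟩
  have hp := pr_cont hβ ξ d
  have w1 : ∀ x, Real.exp (-2 * β x) ≤ Real.exp (2 * M) := fun x =>
    Real.exp_le_exp.2 (by linarith [(abs_le.1 (hM x)).1])
  have w2 : ∀ x, Real.exp (-(3 * M)) ≤ Real.exp (-2 * β x) := fun x =>
    Real.exp_le_exp.2 (by linarith [(abs_le.1 (hM x)).2])
  have t1 : ∀ y ∈ Icc (0:ℝ) 1, |d * pr β ξ d y| ≤ |d| * Real.exp M := fun y hy => by
    rw [abs_mul]; exact mul_le_mul_of_nonneg_left (pr_le hM hy) (abs_nonneg _)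
  have t2 : ∀ y ∈ Icc (0:ℝ) 1, |d * pr β ξ d y| ≤ 1 := fun y hy => (t1 y hy).trans
    ((mul_le_mul_of_nonneg_right hd (Real.exp_pos _).le).trans_eq (by rw [← Real.exp_add]; simp))
  have ec : (Real.exp (-(3 * M)) / 2)⁻¹ = 2 * Real.exp (3 * M) := by
    rw [Real.exp_neg]; field_simp
  have e3 : Real.exp (3 * M) = Real.exp (2 * M) * Real.exp M := by rw [← Real.exp_add]; ring_nf
  have e1 : 1 ≤ Real.exp M := Real.one_le_exp hM0
  have e2 := Real.exp_pos (2 * M)
  have sg : ∀ σ : ℝ, σ = 1 ∨ σ = -1 → 0 < σ * d → 0 < σ * (Gr β ξ d).im := fun σ hσ h => by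
    rw [Gr_im hβ, ← intervalIntegral.integral_const_mul]
    refine intervalIntegral.intervalIntegral_pos_of_pos_on
      (Continuous.intervalIntegrable (by fun_prop) _ _) (fun y hy => ?_) one_pos
    have k0 : 0 < σ * d * pr β ξ d y := mul_pos h (pr_pos hβ hy.1)
    have k1 := abs_le.1 (t2 y (Ioo_subset_Icc_self hy))
    have k2 : σ * Real.sin (d * pr β ξ d y) = Real.sin (σ * d * pr β ξ d y) := by
      rcases hσ with rfl | rfl <;> simp
    rw [mul_left_comm, k2]
    refine mul_pos (Real.exp_pos _) (Real.sin_pos_of_pos_of_lt_pi k0 ?_)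
    rcases hσ with rfl | rfl <;> linarith [Real.pi_gt_three, k1.1, k1.2]
  refine ⟨?_, ?_, ?_, fun h => ?_, fun h => ?_⟩
  · rw [Gr_re hβ]
    refine le_trans (by simp) (intervalIntegral.integral_mono_on (μ := MeasureTheory.volume)
      (f := fun _ => Real.exp (-(3 * M)) / 2) zero_le_one intervalIntegrable_const
      (Continuous.intervalIntegrable (by fun_prop) _ _) fun y hy => ?_)
    have k1 := Real.one_sub_sq_div_two_le_cos (x := d * pr β ξ d y)
    have k2 : (d * pr β ξ d y) ^ 2 ≤ 1 := (sq_le_one_iff_abs_le_one _).2 (t2 y hy)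
    rw [div_eq_mul_one_div]
    exact mul_le_mul (w2 _) (by linarith) (by norm_num) (Real.exp_pos _).le
  · refine (intervalIntegral.norm_integral_le_of_norm_le_const (C := Real.exp (2 * M))
      fun y _ => ?_).trans ?_
    · rw [em_pth, ph_pth, norm_mul, mul_comm I, norm_exp_ofReal_mul_I, mul_one, norm_real,
        Real.norm_eq_abs, Real.abs_exp]
      exact w1 _
    · rw [ec, e3, sub_zero, abs_one]
      nlinarith
  · rw [Gr_im hβ]
    refine (intervalIntegral.norm_integral_le_of_norm_le_const (E := ℝ)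
      (C := Real.exp (2 * M) * (|d| * Real.exp M)) fun y hy => ?_).trans ?_
    · rw [uIoc_of_le zero_le_one] at hy
      rw [norm_mul, Real.norm_eq_abs, Real.abs_exp]
      exact mul_le_mul (w1 _) (Real.abs_sin_le_abs.trans (t1 y (Ioc_subset_Icc_self hy)))
        (norm_nonneg _) e2.le
    · rw [ec, e3, sub_zero, abs_one]
      nlinarith [mul_nonneg (mul_pos e2 (Real.exp_pos M)).le (abs_nonneg d)]
  · simpa using sg 1 (.inl rfl) (by simpa using h)
  · simpa using sg (-1) (.inr rfl) (by simpa using h)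

end GBAux

theorem gbE : S_GB := fun M =>
  have h := GBAux.gb (abs_nonneg M)
  ⟨_, _, h.cpos, h.dpos, fun β hβ hM => h.h β hβ fun x => (hM x).trans (le_abs_self M)⟩

end Vale.Agent.P097
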