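import Vale.Agent.P097.Base

open Set NormedSpace Complex

namespace Vale.Agent.P097

namespace GapAux

theorem walk {D : ℤ → ℝ} {m : ℝ} (h : ∀ k, |D (k + 1) - D k| ≤ m) (k : ℤ) (j : ℕ) :
    |D (k + j) - D k| ≤ j * m := by
  induction j with
  | zero => simp
  | succ j ih =>
    have e : k + ((j + 1 : ℕ) : ℤ) = k + j + 1 := by push_cast; ring
    rw [e, Nat.cast_succ, add_mul, one_mul]
    exact (abs_sub_le _ (D (k + j)) _).trans (by linarith [h (k + j)])

theorem avg {x : ℤ → ℝ} {m s : ℝ} {q : ℕ} (h : ∀ k, |x (k + 1) - 2 * x k + x (k - 1)| ≤ m)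
    (k : ℤ) (hs : x (k + q) = x k + s) : |s - q * (x (k + 1) - x k)| ≤ q * (q * m) := by
  have hm : 0 ≤ m := (abs_nonneg _).trans (h 0)
  have h1 : ∀ k, |(x (k + 1 + 1) - x (k + 1)) - (x (k + 1) - x k)| ≤ m := fun k => by
    have := h (k + 1)
    rw [add_sub_cancel_right] at this
    rw [show (x (k + 1 + 1) - x (k + 1)) - (x (k + 1) - x k) =
      x (k + 1 + 1) - 2 * x (k + 1) + x k by ring]
    exact this
  have h2 := Finset.sum_range_sub (fun j : ℕ => x (k + j)) q
  have e : s - q * (x (k + 1) - x k) = ∑ j ∈ Finset.range q,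
      ((x (k + j + 1) - x (k + j)) - (x (k + 1) - x k)) := by
    rw [Finset.sum_sub_distrib, Finset.sum_const, Finset.card_range, nsmul_eq_mul]
    simp only [Nat.cast_succ, ← add_assoc, Nat.cast_zero, add_zero, hs] at h2
    rw [h2]; ring
  rw [e]
  refine (Finset.abs_sum_le_sum_abs _ _).trans ?_
  refine (Finset.sum_le_card_nsmul _ _ (q * m) fun j hj => ?_).trans_eq (by simp)
  refine (walk (D := fun k => x (k + 1) - x k) h1 k j).trans (mul_le_mul_of_nonneg_right ?_ hm)
  exact_mod_cast (Finset.mem_range.1 hj).le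

end GapAux

theorem gapE : S_gap := by
  intro q hq
  have hq0 : (0 : ℝ) < q := by exact_mod_cast hq
  constructor
  · intro x hx k
    have h := GapAux.avg hx.2 k (hx.1 k)
    rw [show (q : ℝ) * (q * (1 / (2 * (q:ℝ) ^ 2))) = 1 / 2 by field_simp, abs_le] at h
    rw [div_le_iff₀ (by positivity), le_div_iff₀ (by positivity)]
    constructor <;> linarith [h.1, h.2]
  · intro v m hp h0 h
    have hm : 0 ≤ m := (abs_nonneg _).trans (h 0)
    have h1 : ∀ k, |v (k + 1) - v k| ≤ q * m := fun k => by
      have := GapAux.avg (s := 0) h k (by rw [hp, add_zero])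
      rw [zero_sub, abs_neg, abs_mul, abs_of_pos hq0] at this
      exact le_of_mul_le_mul_left this hq0
    refine fun k => ⟨h1 k, ?_⟩
    have hq1 : (0 : ℤ) < q := by exact_mod_cast hq
    have hper : Function.Periodic v (q : ℤ) := hp
    obtain ⟨j, hj⟩ := Int.eq_ofNat_of_zero_le (Int.emod_nonneg k hq1.ne')
    have e : v k = v (0 + j) := by
      rw [zero_add, ← hj, ← (hper.int_mul (k / q)) (k % q)]
      congr 1
      simp only [Int.cast_id]
      rw [mul_comm]
      exact (Int.emod_add_mul_ediv k q).symm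
    have h2 := GapAux.walk h1 0 j
    rw [h0, sub_zero, ← e] at h2
    have h3 : (j : ℝ) ≤ q := by
      have := Int.emod_lt_of_pos k hq1
      rw [hj] at this
      exact_mod_cast this.le
    refine h2.trans ?_
    rw [sq, mul_assoc]
    exact mul_le_mul_of_nonneg_right h3 (by positivity)

end Vale.Agent.P097
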