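import Vale.Agent.P097.Base

open Set NormedSpace Complex

namespace Vale.Agent.P097

namespace Geo2Aux

variable {γ : ℝ → ℂ} {L : ℝ} {β : ℝ → ℝ} {c : ℝ} {s : ℝ ≃ₜ ℝ}

theorem chord1 (hchord : S_chord) (hT : Table γ L) (hβ : Continuous β) (hl : Laz γ L β c s)
    (ξ d : ℝ) : γ (s (ξ + d)) - γ (s ξ) = c * d * Gr β ξ d * deriv γ (s ξ) := by
  obtain ⟨-, h2, h3⟩ := hchord β hβ
  have hγ : Differentiable ℝ γ := hT.smooth.differentiable (by simp)
  have hF : ∀ x, HasDerivAt (fun x => γ (s x) - c * deriv γ (s 0) * Gam β x) 0 x := by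
    intro x
    have a1 := HasDerivAt.scomp x (hγ (s x)).hasDerivAt (hl.der x)
    have a2 := (h2 x).const_mul ((c : ℂ) * deriv γ (s 0))
    have a3 := a1.sub a2
    have e : (c * Real.exp (-2 * β x)) • deriv γ (s x) -
        (c : ℂ) * deriv γ (s 0) * ((Real.exp (-2 * β x) : ℂ) * TT β x) = 0 := by
      rw [hl.tan x, Complex.real_smul, Complex.ofReal_mul]
      ring
    rw [e] at a3
    exact a3
  have hc := is_const_of_deriv_eq_zero (fun x => (hF x).differentiableAt)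
    (fun x => (hF x).deriv) (ξ + d) ξ
  have h4 := h3 ξ d
  rw [hl.tan ξ]
  linear_combination hc + (c : ℂ) * deriv γ (s 0) * h4

theorem chord2 (hchord : S_chord) (hT : Table γ L) (hβ : Continuous β) (hl : Laz γ L β c s)
    (ξ d : ℝ) :
    γ (s (ξ + d)) - γ (s ξ) = c * d * Gr β (ξ + d) (-d) * deriv γ (s (ξ + d)) := by
  have h := chord1 hchord hT hβ hl (ξ + d) (-d)
  rw [add_neg_cancel_right, Complex.ofReal_neg] at h
  linear_combination -h

theorem norm_eq (hchord : S_chord) (hT : Table γ L) (hβ : Continuous β) (hl : Laz γ L β c s)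
    (ξ d : ℝ) (hd : 0 < d) : ‖Gr β (ξ + d) (-d)‖ = ‖Gr β ξ d‖ := by
  have h1 := congrArg norm ((chord2 hchord hT hβ hl ξ d).symm.trans (chord1 hchord hT hβ hl ξ d))
  simp only [norm_mul, hT.unit, mul_one, Complex.norm_real] at h1
  have h2 : ‖c‖ * ‖d‖ ≠ 0 :=
    mul_ne_zero (norm_ne_zero_iff.2 hl.pos.ne') (norm_ne_zero_iff.2 hd.ne')
  exact mul_left_cancel₀ h2 h1

theorem s_mono (hl : Laz γ L β c s) : StrictMono s := by
  refine strictMono_of_deriv_pos fun x => ?_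
  rw [(hl.der x).deriv]
  have := hl.pos
  positivity

theorem step (hchord : S_chord) (hT : Table γ L) (hβ : Continuous β) (hl : Laz γ L β c s)
    (ξ d : ℝ) (hd : 0 < d) (hd1 : d < 1) (hne : Gr β ξ d ≠ 0) :
    Step γ L (s ξ) (arg (Gr β ξ d)) (s (ξ + d)) (-arg (Gr β (ξ + d) (-d))) := by
  refine ⟨s_mono hl (by linarith), ?_, c * d * ‖Gr β ξ d‖, ?_, ?_, ?_⟩
  · rw [← hl.per ξ]
    exact s_mono hl (by linarith)
  · have := hl.pos
    have := norm_pos_iff.2 hne
    positivity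
  · have e := Complex.norm_mul_exp_arg_mul_I (Gr β ξ d)
    rw [chord1 hchord hT hβ hl ξ d, mul_comm I]
    push_cast
    linear_combination -((c : ℂ) * d * deriv γ (s ξ)) * e
  · have e := Complex.norm_mul_exp_arg_mul_I (Gr β (ξ + d) (-d))
    have e2 : -(I * ((-arg (Gr β (ξ + d) (-d)) : ℝ) : ℂ)) = (arg (Gr β (ξ + d) (-d)) : ℂ) * I := by
      push_cast
      ring
    rw [chord2 hchord hT hβ hl ξ d, e2, ← norm_eq hchord hT hβ hl ξ d hd]
    push_cast
    linear_combination -((c : ℂ) * d * deriv γ (s (ξ + d))) * e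

theorem arg_pos {z : ℂ} (h1 : 0 < z.re) (h2 : 0 < z.im) : 0 < arg z ∧ arg z < Real.pi / 2 := by
  have a := abs_lt.1 (Complex.abs_arg_lt_pi_div_two_iff.2 (Or.inl h1))
  refine ⟨lt_of_le_of_ne (Complex.arg_nonneg_iff.2 h2.le) fun h => ?_, a.2⟩
  exact h2.ne' (Complex.arg_eq_zero_iff.1 h.symm).2

theorem arg_neg {z : ℂ} (h1 : 0 < z.re) (h2 : z.im < 0) : 0 < -arg z ∧ -arg z < Real.pi / 2 := by
  have a := abs_lt.1 (Complex.abs_arg_lt_pi_div_two_iff.2 (Or.inl h1))
  have b := Complex.arg_neg_iff.2 h2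
  constructor <;> linarith [a.1]

theorem arg_small {z : ℂ} {c0 d η : ℝ} (hc : 0 < c0) (h1 : c0 ≤ z.re) (h2 : 0 < z.im)
    (h3 : |z.im| ≤ c0⁻¹ * |d|) (hd : 0 < d) (hη : d < η * c0 ^ 2 / 2) : arg z < η := by
  have hre : 0 < z.re := hc.trans_le h1
  obtain ⟨a1, a2⟩ := arg_pos hre h2
  have b1 := Real.mul_le_sin a1.le a2.le
  have b2 := Complex.norm_mul_sin_arg z
  have b3 : c0 ≤ ‖z‖ := h1.trans (Complex.re_le_norm z)
  rw [abs_of_pos h2, abs_of_pos hd] at h3
  have hp := Real.pi_pos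
  have hp4 := Real.pi_le_four
  have b4 : arg z / 2 ≤ 2 / Real.pi * arg z := by
    have : 1 / 2 ≤ 2 / Real.pi := by
      rw [div_le_div_iff₀ (by norm_num) hp]
      linarith
    nlinarith
  have b5 : 0 ≤ Real.sin (arg z) := by
    have : 0 ≤ 2 / Real.pi * arg z := by positivity
    linarith
  have b6 : c0 * (arg z / 2) ≤ c0⁻¹ * d := by
    calc c0 * (arg z / 2) ≤ ‖z‖ * Real.sin (arg z) :=
          mul_le_mul b3 (b4.trans b1) (by linarith) (norm_nonneg _)
      _ = z.im := b2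
      _ ≤ _ := h3
  have b7 : c0 ^ 2 * (arg z / 2) ≤ d := by
    have := mul_le_mul_of_nonneg_left b6 hc.le
    rw [← mul_assoc c0 c0⁻¹, mul_inv_cancel₀ hc.ne', one_mul] at this
    nlinarith
  have hc2 : 0 < c0 ^ 2 := by positivity
  by_contra hn
  have hn' : η ≤ arg z := not_lt.1 hn
  nlinarith

theorem im_zero_iff {z w : ℂ} (h1 : 0 < z.re) (h3 : 0 < w.re) :
    (z * w).im = 0 ↔ arg z = -arg w := by
  have a := abs_lt.1 (Complex.abs_arg_lt_pi_div_two_iff.2 (Or.inl h1))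
  have b := abs_lt.1 (Complex.abs_arg_lt_pi_div_two_iff.2 (Or.inl h3))
  have hz : 0 < ‖z‖ := h1.trans_le (Complex.re_le_norm z)
  have hw : 0 < ‖w‖ := h3.trans_le (Complex.re_le_norm w)
  have e : (z * w).im = ‖z‖ * ‖w‖ * Real.sin (arg z + arg w) := by
    rw [Complex.mul_im, Real.sin_add]
    have e1 := Complex.norm_mul_sin_arg z
    have e2 := Complex.norm_mul_cos_arg z
    have e3 := Complex.norm_mul_sin_arg w
    have e4 := Complex.norm_mul_cos_arg w
    calc z.re * w.im + z.im * w.re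
        = (‖z‖ * Real.cos (arg z)) * (‖w‖ * Real.sin (arg w)) +
          (‖z‖ * Real.sin (arg z)) * (‖w‖ * Real.cos (arg w)) := by rw [e1, e2, e3, e4]
      _ = _ := by ring
  rw [e, mul_eq_zero, or_iff_right (by positivity),
    Real.sin_eq_zero_iff_of_lt_of_lt (by linarith [a.1, b.1]) (by linarith [a.2, b.2])]
  constructor <;> intro h <;> linarith

theorem Ee_zero_iff {ξ p n : ℝ} (h1 : 0 < (Gr β ξ p).re) (h3 : 0 < (Gr β ξ (-n)).re) :
    Ee β ξ p n = 0 ↔ arg (Gr β ξ p) = -arg (Gr β ξ (-n)) := by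
  rw [← im_zero_iff h1 h3, Ee, mul_eq_zero, or_iff_right (by positivity)]

end Geo2Aux

open Geo2Aux in
theorem geo2E (hchord : S_chord) (hGB : S_GB) : S_geo2 := by
  intro γ L β c s hT hβ hl hG
  have hβc : Continuous β := hβ.1.continuous
  obtain ⟨M, hM⟩ := bdd_of_per hβc hβ.2
  obtain ⟨c0, d0, hb⟩ := hGB M
  obtain ⟨η, hη, hG⟩ := hG
  have hc0 := hb.cpos
  have hd0 := hb.dpos
  have H := hb.h β hβc hM
  refine ⟨min (min d0 1) (η * c0 ^ 2 / 2), by positivity, fun q x hq hper hgap hE => ?_⟩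
  have g0 : ∀ k, 0 < x (k + 1) - x k := fun k => (hgap k).1
  have g1 : ∀ k, x (k + 1) - x k < d0 := fun k =>
    (hgap k).2.trans_le ((min_le_left _ _).trans (min_le_left _ _))
  have g2 : ∀ k, x (k + 1) - x k < 1 := fun k =>
    (hgap k).2.trans_le ((min_le_left _ _).trans (min_le_right _ _))
  have g3 : ∀ k, x (k + 1) - x k < η * c0 ^ 2 / 2 := fun k =>
    (hgap k).2.trans_le (min_le_right _ _)
  have Hp : ∀ k, _ := fun k => H (x k) (x (k + 1) - x k) (by rw [abs_of_pos (g0 k)]; exact (g1 k).le)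
  have n0 : ∀ k, 0 < x k - x (k - 1) := fun k => by simpa using g0 (k - 1)
  have n1 : ∀ k, x k - x (k - 1) < d0 := fun k => by simpa using g1 (k - 1)
  have Hn : ∀ k, _ := fun k => H (x k) (-(x k - x (k - 1)))
    (by rw [abs_neg, abs_of_pos (n0 k)]; exact (n1 k).le)
  have rp : ∀ k, 0 < (Gr β (x k) (x (k + 1) - x k)).re := fun k => hc0.trans_le (Hp k).1
  have rn : ∀ k, 0 < (Gr β (x k) (-(x k - x (k - 1)))).re := fun k => hc0.trans_le (Hn k).1
  have ip : ∀ k, 0 < (Gr β (x k) (x (k + 1) - x k)).im := fun k => (Hp k).2.2.2.1 (g0 k)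
  have inn : ∀ k, (Gr β (x k) (-(x k - x (k - 1)))).im < 0 := fun k =>
    (Hn k).2.2.2.2 (by linarith [n0 k])
  have hp := Real.pi_pos
  obtain ⟨g, ⟨-, gper, -, ginv⟩, hg0⟩ := hG (s (x 0)) (arg (Gr β (x 0) (x (0 + 1) - x 0)))
    (arg_pos (rp 0) (ip 0)).1 (arg_small hc0 (Hp 0).1 (ip 0) (Hp 0).2.2.1 (g0 0) (g3 0))
  have next : ∀ k : ℤ, g (s (x k)) = arg (Gr β (x k) (x (k + 1) - x k)) →
      -arg (Gr β (x (k + 1)) (-(x (k + 1) - x (k + 1 - 1)))) = g (s (x (k + 1))) := by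
    intro k hk
    have hne : Gr β (x k) (x (k + 1) - x k) ≠ 0 := fun h => by
      have := rp k
      rw [h] at this
      simp at this
    have st := step hchord hT hβc hl (x k) (x (k + 1) - x k) (g0 k) (g2 k) hne
    have e : x k + (x (k + 1) - x k) = x (k + 1) := by ring
    rw [e, ← hk] at st
    have a := arg_neg (rn (k + 1)) (inn (k + 1))
    refine ginv (s (x k)) _ _ a.1 (by linarith [a.2]) ?_
    rw [add_sub_cancel_right]
    exact st
  have ind : ∀ k : ℕ, k < q → g (s (x k)) = arg (Gr β (x k) (x (k + 1) - x k)) := by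
    intro k
    induction k with
    | zero => intro _; exact hg0
    | succ k ih =>
      intro hk
      have h1 := next k (ih (by omega))
      have h2 := hE ((k : ℤ) + 1) (by omega) (by omega)
      rw [EE, Ee_zero_iff (rp _) (rn _)] at h2
      push_cast
      rw [← h1, h2]
  obtain ⟨m, rfl⟩ : ∃ m, q = m + 1 := ⟨q - 1, by omega⟩
  have h1 := next m (ind m (by omega))
  have e1 : x ((m : ℤ) + 1) = x 0 + 1 := by
    have := hper 0
    rwa [zero_add, Nat.cast_succ] at this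
  have e2 : x ((m : ℤ) + 1 - 1) = x (0 - 1) + 1 := by
    have e : (m : ℤ) + 1 - 1 = 0 - 1 + ((m + 1 : ℕ) : ℤ) := by
      push_cast
      ring
    rw [e]
    exact hper (0 - 1)
  have e3 : x 0 + 1 - (x (0 - 1) + 1) = x 0 - x (0 - 1) := by ring
  rw [e1, e2, e3, Gr_per hβ.2, hl.per, gper, hg0] at h1
  rw [EE, Ee_zero_iff (rp _) (rn _)]
  exact h1.symm

end Vale.Agent.P097
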