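import Vale.Agent.P097.Base

open Set NormedSpace Complex

namespace Vale.Agent.P097

namespace Geo3Aux

theorem ofR {f : ℝ → ℝ} (hf : AnalyticOnNhd ℝ f univ) :
    AnalyticOnNhd ℝ (fun x => (f x : ℂ)) univ := fun x _ =>
  (Complex.ofRealCLM.analyticAt (f x)).comp (hf x trivial)

/-- Real version of the primitive lemma. -/
theorem primR (hprim : S_prim) {f F : ℝ → ℝ} (hf : AnalyticOnNhd ℝ f univ)
    (hF : ∀ x, HasDerivAt F (f x) x) : AnalyticOnNhd ℝ F univ := by
  have h := hprim (fun x => (f x : ℂ)) (fun x => (F x : ℂ)) (ofR hf) fun x => (hF x).ofReal_comp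
  intro x _
  have h2 := (Complex.reCLM.analyticAt (F x : ℂ)).comp (f := fun x => (F x : ℂ)) (h x trivial)
  exact h2.congr (Filter.Eventually.of_forall fun y => by simp)

theorem cex {f : ℝ → ℂ} (hf : AnalyticOnNhd ℝ f univ) :
    AnalyticOnNhd ℝ (fun x => Complex.exp (f x)) univ := fun x _ =>
  ((analyticAt_cexp (z := f x)).restrictScalars (𝕜 := ℝ)).comp (hf x trivial)

end Geo3Aux

open Geo3Aux in
theorem geo3E (hprim : S_prim) : S_geo3 := by
  intro γ L β c s hT hL hβ
  have hd : AnalyticOnNhd ℝ (fun ξ => c * Real.exp (-2 * β ξ)) univ := fun x _ =>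
    analyticAt_const.mul (analyticAt_const.mul (hβ x trivial)).rexp
  have hs : AnalyticOnNhd ℝ s univ := primR hprim hd hL.der
  have hsi : AnalyticOnNhd ℝ s.symm univ := by
    rw [← contDiff_omega_iff_analyticOnNhd] at hs ⊢
    exact s.contDiff_symm_deriv (fun ξ => (mul_pos hL.pos (Real.exp_pos _)).ne') hL.der hs
  have he : AnalyticOnNhd ℝ (fun ξ => Real.exp (β ξ)) univ := fun x _ => (hβ x trivial).rexp
  have hec : Continuous fun ξ => Real.exp (β ξ) :=
    continuousOn_univ.1 he.continuousOn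
  have hψ : AnalyticOnNhd ℝ (fun ξ => ∫ z in (0:ℝ)..ξ, Real.exp (β z)) univ :=
    primR hprim he fun x => (hec.integral_hasStrictDerivAt 0 x).hasDerivAt
  have hTT : AnalyticOnNhd ℝ (TT β) univ :=
    cex fun x _ => analyticAt_const.mul (ofR hψ x trivial)
  have hγ : Differentiable ℝ γ := hT.smooth.differentiable (by simp)
  have hc : AnalyticOnNhd ℝ (fun ξ => γ (s ξ)) univ := by
    refine hprim (fun ξ => ((c * Real.exp (-2 * β ξ) : ℝ) : ℂ) * (deriv γ (s 0) * TT β ξ)) _
      (fun x _ => (ofR hd x trivial).mul (analyticAt_const.mul (hTT x trivial))) fun x => ?_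
    have h := (hγ (s x)).hasDerivAt.scomp x (hL.der x)
    rw [hL.tan x, Complex.real_smul] at h
    exact h
  intro x _
  have h := (hc (s.symm x) trivial).comp (f := s.symm) (hsi x trivial)
  exact h.congr (Filter.Eventually.of_forall fun y => by simp)

end Vale.Agent.P097
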