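import Vale.Agent.P097.IStm

open Set

namespace Vale.Agent.P097

namespace IIbAux

theorem surj {f : ℝ → ℝ} {L : ℝ} (hL : 0 < L) (hc : Continuous f) (hp : ∀ x, f (x + 1) = f x + L)
    (s : ℝ) : ∃ x, f x = s := by
  have k : ∀ (n : ℕ) (x : ℝ), f (x + n) = f x + n * L := fun n x => by
    induction n with
    | zero => simp
    | succ n ih =>
      rw [Nat.cast_succ, ← add_assoc, hp, ih]
      ring
  obtain ⟨n, hn⟩ := exists_nat_ge (|s - f 0| / L)
  rw [div_le_iff₀ hL] at hn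
  have a1 := k n 0
  have a2 := k n (-n)
  rw [neg_add_cancel] at a2
  exact mem_range_of_exists_le_of_exists_ge hc ⟨-n, by linarith [neg_abs_le (s - f 0)]⟩
    ⟨0 + n, by linarith [le_abs_self (s - f 0)]⟩

theorem line1 (b x : ℝ) : HasDerivAt (fun y : ℝ => (y, b)) ((1 : ℝ), (0 : ℝ)) x :=
  (hasDerivAt_id x).prodMk (hasDerivAt_const x b)

theorem line2 (b x : ℝ) : HasDerivAt (fun y : ℝ => (b, y)) ((0 : ℝ), (1 : ℝ)) x :=
  (hasDerivAt_const x b).prodMk (hasDerivAt_id x)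

end IIbAux

theorem ibE : S_ib := by
  intro γ L r η σ d G hL hη h hG hI
  have r0 : |(0 : ℝ)| < r := by rw [abs_zero]; exact h.pos
  have m1 : ∀ x : ℝ, (x, (0 : ℝ)) ∈ (univ : Set ℝ) ×ˢ Ioo (-r) r := fun x =>
    ⟨mem_univ _, neg_lt_zero.2 h.pos, h.pos⟩
  have m2 : ∀ x : ℝ, (x, (0 : ℝ)) ∈ (univ : Set ℝ) ×ˢ Ioo (-η) η := fun x =>
    ⟨mem_univ _, neg_lt_zero.2 hη, hη⟩
  have ds : ∀ x, DifferentiableAt ℝ (fun y => σ (y, 0)) x := fun x =>
    (h.an1 _ (m1 x)).differentiableAt.comp x (IIbAux.line1 0 x).differentiableAt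
  have su := IIbAux.surj (f := fun y => σ (y, 0)) hL
    (continuous_iff_continuousAt.2 fun x => (ds x).continuousAt) fun x => (h.per x 0 r0).1
  have g0 : ∀ x, G (σ (x, 0), 0) = (x, 0) := fun x => by
    have := hI x 0 r0
    rwa [(h.bdry x).1] at this
  have z : ∀ s, (G (s, 0)).2 = 0 := fun s => by
    obtain ⟨x, rfl⟩ := su s
    exact congrArg Prod.snd (g0 x)
  intro s
  obtain ⟨θ, rfl⟩ := su s
  have dG := (hG _ (m2 (σ (θ, 0)))).differentiableAt.hasFDerivAt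
  refine ⟨z _, ?_, ?_⟩
  · have D2 := dG.snd
    obtain ⟨D, hD⟩ : ∃ D : ℝ × ℝ →L[ℝ] ℝ, HasFDerivAt (fun y => (G y).2) D (σ (θ, 0), 0) := ⟨_, D2⟩
    have e1 : HasDerivAt (fun y : ℝ => (G (y, 0)).2) (D (1, 0)) (σ (θ, 0)) :=
      HasFDerivAt.comp_hasDerivAt (f := fun y : ℝ => (y, (0 : ℝ))) (l := fun y => (G y).2)
        (σ (θ, 0)) hD (IIbAux.line1 0 _)
    have e2 : D (1, 0) = 0 := by
      rw [show (fun y : ℝ => (G (y, 0)).2) = fun _ => 0 from funext z] at e1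
      exact e1.unique (hasDerivAt_const _ _)
    have e3 : HasDerivAt (fun y : ℝ => (G (σ (θ, 0), y)).2) (D (0, 1)) 0 :=
      HasFDerivAt.comp_hasDerivAt (f := fun y : ℝ => (σ (θ, 0), y)) (l := fun y => (G y).2)
        0 hD (IIbAux.line2 _ 0)
    have s1 : DifferentiableAt ℝ (fun a => σ (θ, a)) 0 :=
      (h.an1 _ (m1 θ)).differentiableAt.comp 0 (IIbAux.line2 θ 0).differentiableAt
    have s2 : DifferentiableAt ℝ (fun a => d (θ, a)) 0 :=
      (h.an2 _ (m1 θ)).differentiableAt.comp 0 (IIbAux.line2 θ 0).differentiableAt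
    have hD' : HasFDerivAt (fun y => (G y).2) D (σ (θ, 0), d (θ, 0)) := by
      rw [(h.bdry θ).1]
      exact hD
    have e4 : HasDerivAt (fun a : ℝ => (G (σ (θ, a), d (θ, a))).2)
        (D (deriv (fun a => σ (θ, a)) 0, deriv (fun a => d (θ, a)) 0)) 0 :=
      HasFDerivAt.comp_hasDerivAt (f := fun a : ℝ => (σ (θ, a), d (θ, a)))
        (l := fun y => (G y).2) 0 hD' (s1.hasDerivAt.prodMk s2.hasDerivAt)
    have e5 : HasDerivAt (fun a : ℝ => (G (σ (θ, a), d (θ, a))).2) 1 0 :=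
      (hasDerivAt_id (0 : ℝ)).congr_of_eventuallyEq (by
        filter_upwards [Ioo_mem_nhds (neg_lt_zero.2 h.pos) h.pos] with a ha
        rw [hI θ a (abs_lt.2 ha)]
        rfl)
    have e6 := e4.unique e5
    rw [show (deriv (fun a => σ (θ, a)) 0, deriv (fun a => d (θ, a)) 0) =
      deriv (fun a => σ (θ, a)) 0 • ((1 : ℝ), (0 : ℝ)) +
        deriv (fun a => d (θ, a)) 0 • ((0 : ℝ), (1 : ℝ)) by simp, map_add, map_smul, map_smul, e2,
      smul_zero, zero_add, smul_eq_mul] at e6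
    rw [e3.deriv]
    have e7 := (h.bdry θ).2
    by_contra q
    nlinarith [not_lt.1 q]
  · have e1 : DifferentiableAt ℝ (fun y : ℝ => (G (y, 0)).1) (σ (θ, 0)) :=
      DifferentiableAt.comp (f := fun y : ℝ => (y, (0 : ℝ))) (g := fun y => (G y).1) (σ (θ, 0))
        dG.differentiableAt.fst (IIbAux.line1 0 _).differentiableAt
    have e2 := e1.hasDerivAt.comp θ (ds θ).hasDerivAt
    have e3 : (fun y : ℝ => (G (y, 0)).1) ∘ (fun y => σ (y, 0)) = id :=
      funext fun x => congrArg Prod.fst (g0 x)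
    rw [e3] at e2
    have e4 := e2.unique (hasDerivAt_id θ)
    have e5 := h.mono θ 0 r0
    by_contra q
    nlinarith [not_lt.1 q]

end Vale.Agent.P097
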