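import Vale.Agent.P097.IStm

open Set

namespace Vale.Agent.P097

namespace IIsAux

theorem tube {W : Set (ℝ × ℝ)} (hW : IsOpen W) {L : ℝ} (hL : 0 < L) (h0 : ∀ s, (s, 0) ∈ W)
    (hp : ∀ s δ, (s + L, δ) ∈ W ↔ (s, δ) ∈ W) :
    ∃ η : ℝ, 0 < η ∧ ∀ s δ : ℝ, |δ| < η → (s, δ) ∈ W := by
  obtain ⟨u, v, -, hv, h1, h2, h3⟩ := generalized_tube_lemma (isCompact_Icc (a := 0) (b := L))
    (isCompact_singleton (x := (0 : ℝ))) hW (by
      rintro ⟨s, δ⟩ ⟨-, h⟩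
      obtain rfl : δ = 0 := h
      exact h0 s)
  obtain ⟨η, e0, e1⟩ := Metric.isOpen_iff.1 hv 0 (h2 rfl)
  refine ⟨η, e0, fun s δ hδ => ?_⟩
  obtain ⟨y, hy, e⟩ := Function.Periodic.exists_mem_Ico₀ (f := fun s => (s, δ) ∈ W)
    (fun s => propext (hp s δ)) hL s
  exact e.mpr (h3 ⟨h1 (Ico_subset_Icc_self hy), e1 (by simpa using hδ)⟩)

end IIsAux

theorem isE : S_is := by
  intro γ L r σ d hL h
  have h0 : |(0 : ℝ)| < r := by simpa using h.pos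
  refine ⟨fun hW => ?_, fun η hη => ?_⟩
  · have hp : ∀ s δ, (s + L, δ) ∈ (fun y => (σ y, d y)) '' (univ ×ˢ Ioo (-r) r) ↔
        (s, δ) ∈ (fun y => (σ y, d y)) '' (univ ×ˢ Ioo (-r) r) := fun s δ => by
      refine ⟨fun ⟨⟨θ, a⟩, p, q⟩ => ⟨(θ - 1, a), ⟨trivial, p.2⟩, ?_⟩,
        fun ⟨⟨θ, a⟩, p, q⟩ => ⟨(θ + 1, a), ⟨trivial, p.2⟩, ?_⟩⟩
      · have k := h.per (θ - 1) a (abs_lt.2 p.2)
        rw [sub_add_cancel] at k
        obtain ⟨q1, q2⟩ := Prod.mk.inj q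
        exact Prod.ext (by simp only; linarith [k.1]) (by simp only; linarith [k.2])
      · have k := h.per θ a (abs_lt.2 p.2)
        obtain ⟨q1, q2⟩ := Prod.mk.inj q
        exact Prod.ext (by simp only; linarith [k.1]) (by simp only; linarith [k.2])
    obtain ⟨η, e0, e1⟩ := IIsAux.tube hW hL (fun s => by
      obtain ⟨y, hy, e⟩ := Function.Periodic.exists_mem_Ico
        (f := fun s => (s, (0 : ℝ)) ∈ (fun y => (σ y, d y)) '' (univ ×ˢ Ioo (-r) r))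
        (fun s => propext (hp s 0)) hL s (σ (0, 0))
      have hc : ContinuousOn (fun θ : ℝ => σ (θ, 0)) (Icc 0 (0 + 1)) :=
        h.an1.continuousOn.comp (by fun_prop) fun θ _ => ⟨trivial, abs_lt.1 h0⟩
      obtain ⟨θ, -, q⟩ := intermediate_value_Icc (by norm_num) hc
        (show y ∈ _ by rw [(h.per 0 0 h0).1]; exact Ico_subset_Icc_self hy)
      exact e.mpr ⟨(θ, 0), ⟨trivial, abs_lt.1 h0⟩, Prod.ext q (h.bdry θ).1⟩) hp
    exact ⟨η, e0, fun x hx => e1 x.1 x.2 (abs_lt.2 hx.2)⟩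
  · obtain ⟨ρ, e0, e1⟩ := IIsAux.tube (h.an2.continuousOn.isOpen_inter_preimage
      (isOpen_univ.prod isOpen_Ioo) (isOpen_Ioo (a := -η) (b := η))) one_pos
      (fun s => ⟨⟨trivial, abs_lt.1 h0⟩, by
        rw [mem_preimage, (h.bdry s).1]
        exact ⟨by linarith, hη⟩⟩) fun s δ => by
          refine and_congr_right_iff.2 fun p => ?_
          rw [mem_preimage, mem_preimage, (h.per s δ (abs_lt.2 p.2)).2]
    exact ⟨min ρ r, lt_min e0 h.pos, min_le_right _ _, fun θ a ha =>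
      abs_lt.2 (e1 θ a (ha.trans_le (min_le_left _ _))).2⟩

end Vale.Agent.P097
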