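import Vale.Agent.P097.IStm

open Set

namespace Vale.Agent.P097

theorem ivE : S_iv := by
  intro F V hV hA hI hD
  have st : ∀ x ∈ V, ∃ e : (ℝ × ℝ) ≃L[ℝ] (ℝ × ℝ),
      HasStrictFDerivAt F (e : (ℝ × ℝ) →L[ℝ] (ℝ × ℝ)) x := fun x hx => by
    obtain ⟨e, he⟩ := hD x hx
    exact ⟨e, he.fderiv ▸ (hA x hx).hasStrictFDerivAt⟩
  constructor
  · rw [isOpen_iff_mem_nhds]
    rintro _ ⟨x, hx, rfl⟩
    obtain ⟨e, he⟩ := st x hx
    rw [← he.map_nhds_eq_of_equiv]
    exact Filter.image_mem_map (hV.mem_nhds hx)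
  · rintro _ ⟨x, hx, rfl⟩
    obtain ⟨e, he⟩ := st x hx
    have a : AnalyticAt ℝ (he.localInverse F e x) (F x) :=
      (he.toOpenPartialHomeomorph F).analyticAt_symm' he.mem_toOpenPartialHomeomorph_source
        (hA x hx) he.hasFDerivAt.fderiv
    refine a.congr ?_
    filter_upwards [he.eventually_right_inverse, he.localInverse_tendsto (hV.mem_nhds hx)]
      with y h1 h2
    exact (hI.leftInvOn_invFunOn h2).symm.trans (congrArg _ h1)

end Vale.Agent.P097
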