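import Vale.Agent.P097.IStm

open Set Filter Topology

namespace Vale.Agent.P097

namespace IJ1Aux

variable {γ : ℝ → ℂ} {L r : ℝ} {σ d : ℝ × ℝ → ℝ}

theorem per (h : AAng γ L r σ d) (n : ℤ) {a : ℝ} (ha : |a| < r) (θ : ℝ) :
    σ (θ + n, a) = σ (θ, a) + n * L ∧ d (θ + n, a) = d (θ, a) := by
  induction n using Int.induction_on with
  | zero => simp
  | succ n ih =>
    have := h.per (θ + n) a ha
    push_cast at ih ⊢
    rw [← add_assoc, this.1, this.2, ih.1, ih.2]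
    exact ⟨by ring, rfl⟩
  | pred n ih =>
    have := h.per (θ + (-n - 1)) a ha
    rw [show θ + (-n - 1) + 1 = θ + -(n : ℝ) by ring] at this
    push_cast at ih ⊢
    exact ⟨by linarith [this.1, ih.1], by linarith [this.2, ih.2]⟩

theorem det (h : AAng γ L r σ d) (θ : ℝ) :
    (fderiv ℝ (fun y => (σ y, d y)) (θ, 0)).det ≠ 0 := by
  have hx : ((θ, 0) : ℝ × ℝ) ∈ univ ×ˢ Ioo (-r) r := ⟨trivial, by simpa using h.pos, h.pos⟩
  have hF := ((h.an1.prod h.an2) _ hx).differentiableAt.hasFDerivAt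
  generalize fderiv ℝ (fun y => (σ y, d y)) (θ, 0) = D at hF
  have c1 : HasDerivAt (fun x : ℝ => (σ (x, 0), d (x, 0))) (D (1, 0)) θ :=
    hF.comp_hasDerivAt (f := fun x : ℝ => (x, (0 : ℝ))) θ
      ((hasDerivAt_id θ).prodMk (hasDerivAt_const θ 0))
  have c2 : HasDerivAt (fun a : ℝ => (σ (θ, a), d (θ, a))) (D (0, 1)) 0 :=
    hF.comp_hasDerivAt (f := fun a : ℝ => (θ, a)) 0
      ((hasDerivAt_const 0 θ).prodMk (hasDerivAt_id 0))
  have f1 : HasDerivAt (fun x : ℝ => σ (x, 0)) (D (1, 0)).1 θ :=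
    (ContinuousLinearMap.fst ℝ ℝ ℝ).hasFDerivAt.comp_hasDerivAt θ c1
  have f2 : HasDerivAt (fun x : ℝ => d (x, 0)) (D (1, 0)).2 θ :=
    (ContinuousLinearMap.snd ℝ ℝ ℝ).hasFDerivAt.comp_hasDerivAt θ c1
  have f3 : HasDerivAt (fun a : ℝ => d (θ, a)) (D (0, 1)).2 0 :=
    (ContinuousLinearMap.snd ℝ ℝ ℝ).hasFDerivAt.comp_hasDerivAt 0 c2
  have e1 : 0 < (D (1, 0)).1 := f1.deriv ▸ h.mono θ 0 (by simpa using h.pos)
  have e2 : (D (1, 0)).2 = 0 := by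
    rw [← f2.deriv]
    simp only [fun x => (h.bdry x).1, deriv_const]
  have e3 : 0 < (D (0, 1)).2 := f3.deriv ▸ (h.bdry θ).2
  intro h0
  refine (LinearMap.det_eq_zero_iff_ker_ne_bot.1 h0) (LinearMap.ker_eq_bot'.2 fun v hv => ?_)
  have e : D v = v.1 • D (1, 0) + v.2 • D (0, 1) := by
    rw [← map_smul, ← map_smul, ← map_add]
    simp
  have e4 : v.1 • D (1, 0) + v.2 • D (0, 1) = 0 := e.symm.trans hv
  have e5 : v.1 * (D (1, 0)).1 + v.2 * (D (0, 1)).1 = 0 := congrArg Prod.fst e4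
  have e6 : v.1 * (D (1, 0)).2 + v.2 * (D (0, 1)).2 = 0 := congrArg Prod.snd e4
  rw [e2, mul_zero, zero_add] at e6
  have e7 := (mul_eq_zero.1 e6).resolve_right e3.ne'
  rw [e7, zero_mul, add_zero] at e5
  exact Prod.ext ((mul_eq_zero.1 e5).resolve_right e1.ne') e7

end IJ1Aux

theorem ij1E : S_ij1 := by
  intro γ L r σ d h
  have an := h.an1.prod h.an2
  have ev : ∀ᶠ a in 𝓝 (0 : ℝ), ∀ θ ∈ Icc (0 : ℝ) 1,
      (fderiv ℝ (fun y => (σ y, d y)) (θ, a)).det ≠ 0 := by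
    refine isCompact_Icc.eventually_forall_of_forall_eventually fun θ _ => ?_
    have hx : ((θ, 0) : ℝ × ℝ) ∈ univ ×ˢ Ioo (-r) r := ⟨trivial, by simpa using h.pos, h.pos⟩
    have c : ContinuousAt (fun x => (fderiv ℝ (fun y => (σ y, d y)) x).det) (θ, 0) :=
      ContinuousLinearMap.continuous_det.continuousAt.comp (an.fderiv _ hx).continuousAt
    exact (continuous_swap.tendsto ((0 : ℝ), θ)).eventually (c.eventually_ne (IJ1Aux.det h θ))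
  obtain ⟨ε, e0, he⟩ := Metric.eventually_nhds_iff.1 ev
  refine ⟨min ε r, lt_min e0 h.pos, min_le_right _ _, ?_⟩
  rintro ⟨θ, a⟩ ⟨-, hx⟩
  obtain ⟨a1, a2⟩ := lt_min_iff.1 (abs_lt.2 hx)
  have k := he (y := a) (by simpa using a1) (Int.fract θ)
    ⟨Int.fract_nonneg θ, (Int.fract_lt_one θ).le⟩
  refine ⟨ContinuousLinearMap.toContinuousLinearEquivOfDetNeZero _ k, ?_⟩
  rw [ContinuousLinearMap.coe_toContinuousLinearEquivOfDetNeZero]
  have hF := (an (Int.fract θ, a) ⟨trivial, abs_lt.1 a2⟩).differentiableAt.hasFDerivAt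
  generalize fderiv ℝ (fun y => (σ y, d y)) (Int.fract θ, a) = D at hF
  have e : ((Int.fract θ, a) : ℝ × ℝ) = (θ, a) - ((⌊θ⌋ : ℝ), 0) :=
    Prod.ext rfl (sub_zero _).symm
  rw [e] at hF
  have k2 := ((hasFDerivAt_comp_sub _).2 hF).add_const ((⌊θ⌋ * L, 0) : ℝ × ℝ)
  refine k2.congr_of_eventuallyEq ?_
  have o : univ ×ˢ Ioo (-r) r ∈ 𝓝 ((θ, a) : ℝ × ℝ) :=
    (isOpen_univ.prod isOpen_Ioo).mem_nhds ⟨trivial, abs_lt.1 a2⟩
  filter_upwards [o] with y hy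
  have p := IJ1Aux.per h ⌊θ⌋ (abs_lt.2 hy.2) (y.1 - ⌊θ⌋)
  rw [sub_add_cancel] at p
  have e2 : y - ((⌊θ⌋ : ℝ), 0) = (y.1 - ⌊θ⌋, y.2) := Prod.ext rfl (sub_zero _)
  rw [e2]
  exact Prod.ext p.1 (p.2.trans (add_zero _).symm)

end Vale.Agent.P097
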