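import Vale.Agent.P097.IStm

open Set

namespace Vale.Agent.P097

namespace IJ2Aux

theorem per {γ : ℝ → ℂ} {L r : ℝ} {σ d : ℝ × ℝ → ℝ} (h : AAng γ L r σ d) {a : ℝ} (ha : |a| < r)
    (θ : ℝ) (k : ℤ) : σ (θ + k, a) = σ (θ, a) + k * L ∧ d (θ + k, a) = d (θ, a) := by
  induction k using Int.induction_on with
  | zero => simp
  | succ k ih =>
    obtain ⟨p, q⟩ := h.per (θ + (k : ℤ)) a ha
    push_cast at *
    rw [← add_assoc, p, q, ih.1, ih.2]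
    exact ⟨by ring, rfl⟩
  | pred k ih =>
    obtain ⟨p, q⟩ := h.per (θ + (-(k : ℤ) - 1 : ℤ)) a ha
    push_cast at *
    rw [show θ + (-(k : ℝ) - 1) + 1 = θ + -k by ring] at p q
    exact ⟨by linarith [ih.1], by rw [← q, ih.2]⟩

end IJ2Aux

theorem ij2E (hij1 : S_ij1) : S_ij2 := by
  intro γ L r σ d hL h
  obtain ⟨r₀, a1, -, a3⟩ := hij1 γ L r σ d h
  have sm : ∀ a : ℝ, |a| < r → StrictMono fun x => σ (x, a) := fun a ha =>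
    strictMono_of_deriv_pos fun x => h.mono x a ha
  have r0 : |(0 : ℝ)| < r := by simpa using h.pos
  have an : ∀ θ : ℝ, AnalyticAt ℝ (fun y => (σ y, d y)) (θ, 0) := fun θ =>
    h.an1.prod h.an2 _ ⟨trivial, abs_lt.1 r0⟩
  obtain ⟨U, u1, u2, u3⟩ := Set.InjOn.exists_isOpen_superset (f := fun y => (σ y, d y))
    (s := Icc (-1 : ℝ) 2 ×ˢ {(0 : ℝ)})
    (by
      rintro ⟨x, _⟩ ⟨-, rfl⟩ ⟨y, _⟩ ⟨-, rfl⟩ e
      rw [(sm 0 r0).injective (congrArg Prod.fst e)])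
    (isCompact_Icc.prod isCompact_singleton)
    (by
      rintro ⟨x, _⟩ ⟨-, rfl⟩
      exact (an x).continuousAt)
    (by
      rintro ⟨x, _⟩ ⟨-, rfl⟩
      obtain ⟨e, he⟩ := a3 (x, 0) ⟨trivial, by simpa using a1⟩
      have k := (an x).hasStrictFDerivAt
      rw [he.fderiv] at k
      exact ⟨_, k.eventually_left_inverse, Set.LeftInvOn.injOn fun y hy => hy⟩)
  obtain ⟨u, v, -, v1, v2, v3, v4⟩ :=
    generalized_tube_lemma isCompact_Icc isCompact_singleton u1 u2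
  have c : ContinuousAt (fun a : ℝ => σ (1, a)) 0 :=
    ContinuousAt.comp (f := fun a : ℝ => ((1 : ℝ), a))
      (h.an1 (1, 0) ⟨trivial, abs_lt.1 r0⟩).continuousAt (by fun_prop)
  obtain ⟨ε, e0, e1⟩ := Metric.eventually_nhds_iff.1 ((Metric.tendsto_nhds.1 c _
    (half_pos hL)).and (v1.mem_nhds (v3 rfl)))
  refine ⟨min ε r, lt_min e0 h.pos, min_le_right _ _, ?_⟩
  rintro ⟨θ, a⟩ ⟨-, ha⟩ ⟨θ', a'⟩ ⟨-, ha'⟩ e
  obtain ⟨b1, b2⟩ := lt_min_iff.1 (abs_lt.2 ha)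
  obtain ⟨c1, c2⟩ := lt_min_iff.1 (abs_lt.2 ha')
  obtain ⟨p1, p2⟩ := e1 (y := a) (by simpa using b1)
  obtain ⟨q1, q2⟩ := e1 (y := a') (by simpa using c1)
  rw [Real.dist_eq, abs_lt] at p1 q1
  obtain ⟨s1, s2⟩ := Prod.mk.inj e
  obtain ⟨t1, t2⟩ := IJ2Aux.per h b2 (θ - ⌊θ⌋) ⌊θ⌋
  obtain ⟨t3, t4⟩ := IJ2Aux.per h c2 (θ' - ⌊θ⌋) ⌊θ⌋
  rw [sub_add_cancel] at t1 t2 t3 t4
  have f0 : 0 ≤ θ - ⌊θ⌋ := sub_nonneg.2 (Int.floor_le θ)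
  have f1 : θ - ⌊θ⌋ ≤ 1 := by linarith [Int.lt_floor_add_one θ]
  have g0 := (sm a b2).monotone f0
  have g1 := (sm a b2).monotone f1
  have g2 := (h.per 0 a b2).1
  have g3 := (h.per 1 a' c2).1
  have g4 := (h.per 0 a' c2).1
  have g5 := (h.per (-1) a' c2).1
  norm_num at g2 g3 g4 g5
  have m : θ' - ⌊θ⌋ ∈ Icc (-1 : ℝ) 2 :=
    ⟨(sm a' c2).le_iff_le.1 (by linarith), (sm a' c2).le_iff_le.1 (by linarith)⟩
  have := u3 (x₁ := (θ - ⌊θ⌋, a)) (v4 ⟨v2 ⟨by linarith, by linarith⟩, p2⟩)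
    (x₂ := (θ' - ⌊θ⌋, a')) (v4 ⟨v2 m, q2⟩)
    (Prod.ext (by dsimp only; linarith) (t2.symm.trans (s2.trans t4)))
  obtain ⟨w1, w2⟩ := Prod.mk.inj this
  rw [w2, sub_left_inj.1 w1]

end Vale.Agent.P097
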