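import Vale.Agent.P097.BMain
import Vale.Agent.P097.IJ1
import Vale.Agent.P097.IJ2
import Vale.Agent.P097.IIv
import Vale.Agent.P097.IIs
import Vale.Agent.P097.IIb

namespace Vale.Agent.P097

theorem mainI (γ : ℝ → ℂ) (L η : ℝ) (e : OpenPartialHomeomorph (ℝ × ℝ) (ℝ × ℝ))
    (h : Table γ L) (hf : Fol γ L η e) :
    AnalyticOnNhd ℝ γ Set.univ ∧ ∃ (η η' : ℝ) (A Θ : ℝ × ℝ → ℝ), FI γ L η η' A Θ :=
  let ⟨h1, r, σ, d, h2, _⟩ := mainK γ L h (mainB γ L η e h hf)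
  ⟨h1, finalI ij1E (ij2E ij1E) ivE isE ibE p_cov γ L r σ d h.pos h2⟩

end Vale.Agent.P097
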