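import Vale.Agent.P097.KStm

/-! P097, part I: the analytic first integral. Statements. -/

open Set

namespace Vale.Agent.P097

/-- Analytic action and angle functions on the phase strip. -/
structure FI (γ : ℝ → ℂ) (L η η' : ℝ) (A Θ : ℝ × ℝ → ℝ) : Prop where
  pos : 0 < η'
  le : η' ≤ η
  an1 : AnalyticOnNhd ℝ A (univ ×ˢ Ioo (-η) η)
  an2 : AnalyticOnNhd ℝ Θ (univ ×ˢ Ioo (-η) η)
  per : ∀ s δ : ℝ, |δ| < η → A (s + L, δ) = A (s, δ) ∧ Θ (s + L, δ) = Θ (s, δ) + 1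
  inj : InjOn (fun x => (Θ x, A x)) (univ ×ˢ Ioo (-η) η)
  bdry : ∀ s : ℝ, A (s, 0) = 0 ∧ 0 < deriv (fun δ => A (s, δ)) 0 ∧ 0 < deriv (fun x => Θ (x, 0)) s
  step : ∀ s δ : ℝ, 0 < δ → δ < η' → ∃ t δ' : ℝ, 0 < δ' ∧ δ' < η ∧ Step γ L s δ t δ' ∧
    A (t, δ') = A (s, δ) ∧ Θ (t, δ') = Θ (s, δ) + A (s, δ)

def S_ij1 : Prop := ∀ (γ : ℝ → ℂ) (L r : ℝ) (σ d : ℝ × ℝ → ℝ), AAng γ L r σ d →
  ∃ r₁ : ℝ, 0 < r₁ ∧ r₁ ≤ r ∧ ∀ x ∈ univ ×ˢ Ioo (-r₁) r₁, ∃ e : (ℝ × ℝ) ≃L[ℝ] (ℝ × ℝ),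
    HasFDerivAt (fun y => (σ y, d y)) (e : (ℝ × ℝ) →L[ℝ] (ℝ × ℝ)) x

def S_ij2 : Prop := ∀ (γ : ℝ → ℂ) (L r : ℝ) (σ d : ℝ × ℝ → ℝ), 0 < L → AAng γ L r σ d →
  ∃ r₁ : ℝ, 0 < r₁ ∧ r₁ ≤ r ∧ InjOn (fun y => (σ y, d y)) (univ ×ˢ Ioo (-r₁) r₁)

def S_iv : Prop := ∀ (F : ℝ × ℝ → ℝ × ℝ) (V : Set (ℝ × ℝ)), IsOpen V → AnalyticOnNhd ℝ F V →
  InjOn F V → (∀ x ∈ V, ∃ e : (ℝ × ℝ) ≃L[ℝ] (ℝ × ℝ), HasFDerivAt F (e : (ℝ × ℝ) →L[ℝ] (ℝ × ℝ)) x) →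
  IsOpen (F '' V) ∧ AnalyticOnNhd ℝ (Function.invFunOn F V) (F '' V)

def S_is : Prop := ∀ (γ : ℝ → ℂ) (L r : ℝ) (σ d : ℝ × ℝ → ℝ), 0 < L → AAng γ L r σ d →
  (IsOpen ((fun y => (σ y, d y)) '' (univ ×ˢ Ioo (-r) r)) → ∃ η : ℝ, 0 < η ∧
    univ ×ˢ Ioo (-η) η ⊆ (fun y => (σ y, d y)) '' (univ ×ˢ Ioo (-r) r)) ∧
  ∀ η : ℝ, 0 < η → ∃ r₁ : ℝ, 0 < r₁ ∧ r₁ ≤ r ∧ ∀ θ a : ℝ, |a| < r₁ → |d (θ, a)| < η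

def S_ib : Prop := ∀ (γ : ℝ → ℂ) (L r η : ℝ) (σ d : ℝ × ℝ → ℝ) (G : ℝ × ℝ → ℝ × ℝ), 0 < L → 0 < η →
  AAng γ L r σ d → AnalyticOnNhd ℝ G (univ ×ˢ Ioo (-η) η) →
  (∀ θ a : ℝ, |a| < r → G (σ (θ, a), d (θ, a)) = (θ, a)) →
  ∀ s : ℝ, (G (s, 0)).2 = 0 ∧ 0 < deriv (fun δ => (G (s, δ)).2) 0 ∧
    0 < deriv (fun x => (G (x, 0)).1) s

theorem AAng.shrink {γ : ℝ → ℂ} {L r r' : ℝ} {σ d : ℝ × ℝ → ℝ} (h : AAng γ L r σ d) (h0 : 0 < r')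
    (h1 : r' ≤ r) : AAng γ L r' σ d :=
  have s : univ ×ˢ Ioo (-r') r' ⊆ (univ : Set ℝ) ×ˢ Ioo (-r) r :=
    prod_mono_right (Ioo_subset_Ioo (by linarith) h1)
  ⟨h0, h.an1.mono s, h.an2.mono s, fun θ a ha => h.per θ a (ha.trans_le h1),
    fun θ a ha => h.mono θ a (ha.trans_le h1), h.bdry,
    fun θ a h2 h3 => h.step θ a h2 (h3.trans_le h1)⟩

theorem finalI (ij1 : S_ij1) (ij2 : S_ij2) (iv : S_iv) (is : S_is) (ib : S_ib) (cov : S_cov)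
    (γ : ℝ → ℂ) (L r : ℝ) (σ d : ℝ × ℝ → ℝ) (hL : 0 < L) (h : AAng γ L r σ d) :
    ∃ (η η' : ℝ) (A Θ : ℝ × ℝ → ℝ), FI γ L η η' A Θ := by
  obtain ⟨r₁, a1, a2, a3⟩ := ij1 γ L r σ d h
  obtain ⟨r₂, b1, b2, b3⟩ := ij2 γ L r₁ σ d hL (h.shrink a1 a2)
  have h2 := h.shrink b1 (b2.trans a2)
  obtain ⟨c1, c2⟩ := iv (fun y => (σ y, d y)) _ (isOpen_univ.prod isOpen_Ioo) (h2.an1.prod h2.an2)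
    b3 fun x hx => a3 x (prod_mono_right (Ioo_subset_Ioo (by linarith) b2) hx)
  obtain ⟨η, e1, e2⟩ := (is γ L r₂ σ d hL h2).1 c1
  obtain ⟨r₃, f1, f2, f3⟩ := (is γ L r₂ σ d hL h2).2 η e1
  obtain ⟨η', g1, g2⟩ := cov γ L r₃ σ d hL (h2.shrink f1 f2)
  obtain ⟨G, hG⟩ : ∃ G, G = Function.invFunOn (fun y => (σ y, d y)) (univ ×ˢ Ioo (-r₂) r₂) :=
    ⟨_, rfl⟩
  have hl : ∀ θ a : ℝ, |a| < r₂ → G (σ (θ, a), d (θ, a)) = (θ, a) := fun θ a ha =>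
    hG ▸ b3.leftInvOn_invFunOn (x := (θ, a)) ⟨trivial, abs_lt.1 ha⟩
  have ha : AnalyticOnNhd ℝ G (univ ×ˢ Ioo (-η) η) := hG ▸ c2.mono e2
  refine ⟨η, min η η', fun x => (G x).2, fun x => (G x).1, lt_min e1 g1, min_le_left _ _,
    fun x hx => analyticAt_snd.comp (ha x hx), fun x hx => analyticAt_fst.comp (ha x hx),
    fun s δ hδ => ?_, fun x hx y hy hxy => ?_, ib γ L r₂ η σ d G hL e1 h2 ha hl,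
    fun s δ h0 h1 => ?_⟩
  · obtain ⟨⟨θ, a⟩, p1, p2⟩ := e2 (show (s, δ) ∈ univ ×ˢ Ioo (-η) η from ⟨trivial, abs_lt.1 hδ⟩)
    have p3 : |a| < r₂ := abs_lt.2 p1.2
    obtain ⟨rfl, rfl⟩ := Prod.mk.inj p2
    have q := hl (θ + 1) a p3
    rw [(h2.per θ a p3).1, (h2.per θ a p3).2] at q
    simp only [q, hl θ a p3, and_self]
  · obtain ⟨⟨θ, a⟩, p1, rfl⟩ := e2 hx
    obtain ⟨⟨θ', a'⟩, p2, rfl⟩ := e2 hy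
    simp only [hl θ a (abs_lt.2 p1.2), hl θ' a' (abs_lt.2 p2.2)] at hxy
    rw [hxy]
  · obtain ⟨θ, a, p1, p2, rfl, rfl⟩ := g2 s δ h0 (h1.trans_le (min_le_right _ _))
    have p3 : |a| < r₃ := by rwa [abs_of_pos p1]
    have p4 := p3.trans_le f2
    refine ⟨σ (θ + a, a), d (θ + a, a), (h2.step (θ + a) a p1 (p2.trans_le f2)).1,
      (abs_lt.1 (f3 _ a p3)).2, (h2.step θ a p1 (p2.trans_le f2)).2.2, ?_, ?_⟩ <;>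
      simp only [hl _ a p4]

end Vale.Agent.P097
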