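import Vale.Agent.P097.Base

open Set NormedSpace Complex

namespace Vale.Agent.P097

namespace IndAux

lemma norm_natAbs (c : ℤ → ℂ) (hs : ∀ n, c (-n) = (starRingEnd ℂ) (c n)) (n : ℤ) :
    ‖c n‖ = ‖c (n.natAbs : ℕ)‖ := by
  rcases Int.natAbs_eq n with h | h
  · rw [← h]
  · have h2 : c n = (starRingEnd ℂ) (c (n.natAbs : ℕ)) := by
      rw [← hs, ← h]
    rw [h2, Complex.norm_conj]

lemma abs_cast (n : ℤ) : |(n:ℝ)| = ((n.natAbs : ℕ) : ℝ) := by
  rw [Nat.cast_natAbs, Int.cast_abs]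

lemma step (c : ℤ → ℂ) (M C σ : ℝ) (q0 q1 : ℕ) (hM : 1 ≤ M) (hH : ∀ q : ℕ, HC M 0 q c)
    (hAP : ∀ q : ℕ, q0 ≤ q → ∀ τ : ℝ, 0 ≤ τ → τ ≤ 1 → HC (2 * M) τ q c →
      ‖c q‖ ≤ C * Real.exp (-(τ * q)) / (q:ℝ) ^ 32)
    (h01 : q0 ≤ q1) (hC : 3 * |C| ≤ q1) (hσ : 0 < σ) (hσ1 : σ ≤ 1)
    (hσ2 : σ * q1 ≤ Real.log 2) (K : ℕ)
    (ih : ∀ n : ℤ, n ≠ 0 →
      ‖c n‖ ≤ 2 * M * Real.exp (-(σ * min |(n:ℝ)| K)) / |(n:ℝ)| ^ 31) (n : ℤ) (hn : n ≠ 0) :
    ‖c n‖ ≤ 2 * M * Real.exp (-(σ * min |(n:ℝ)| ((K + 1 : ℕ) : ℝ))) / |(n:ℝ)| ^ 31 := by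
  have hq0 : 0 < n.natAbs := Int.natAbs_pos.2 hn
  have hab := abs_cast n
  have hnn := norm_natAbs c (hH 0).1 n
  obtain ⟨q, hq⟩ : ∃ q : ℕ, n.natAbs = q := ⟨_, rfl⟩
  rw [hq] at hq0 hab hnn
  have hqR : (0:ℝ) < q := by exact_mod_cast hq0
  have hK0 : (0:ℝ) ≤ K := Nat.cast_nonneg K
  rcases le_or_gt q K with hqK | hqK
  · have h1 : (q:ℝ) ≤ K := by exact_mod_cast hqK
    have h2 : (q:ℝ) ≤ ((K + 1 : ℕ) : ℝ) := by push_cast; linarith
    have h3 := ih n hn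
    rw [hab] at h3 ⊢
    rw [min_eq_left h1] at h3
    rw [min_eq_left h2]
    exact h3
  · have h1 : ((K + 1 : ℕ) : ℝ) ≤ q := by exact_mod_cast hqK
    have h1' : (K:ℝ) + 1 ≤ q := by exact_mod_cast h1
    rw [hab, min_eq_right h1]
    have hp : (0:ℝ) < (q:ℝ) ^ 31 := by positivity
    rcases lt_or_ge q q1 with hq1 | hq1
    · have h3 := (hH 0).2.2 n hn
      rw [hab, zero_mul, neg_zero, Real.exp_zero, mul_one] at h3
      refine h3.trans (div_le_div_of_nonneg_right ?_ hp.le)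
      have h4 : (q:ℝ) ≤ q1 := by exact_mod_cast hq1.le
      have h5 : σ * ((K + 1 : ℕ) : ℝ) ≤ Real.log 2 :=
        (mul_le_mul_of_nonneg_left (h1.trans h4) hσ.le).trans hσ2
      have h6 : Real.exp (-Real.log 2) ≤ Real.exp (-(σ * ((K + 1 : ℕ) : ℝ))) :=
        Real.exp_le_exp.2 (by linarith)
      rw [Real.exp_neg, Real.exp_log (by norm_num)] at h6
      nlinarith
    · have hτ0 : 0 ≤ σ * K / q := by positivity
      have hKq : (K:ℝ) / q ≤ 1 := by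
        rw [div_le_one hqR]; linarith
      have hKq0 : 0 ≤ (K:ℝ) / q := by positivity
      have hτ1 : σ * K / q ≤ 1 := by
        rw [mul_div_assoc]; nlinarith
      have hHC : HC (2 * M) (σ * K / q) q c := by
        refine ⟨(hH 0).1, (hH 0).2.1.trans (by linarith), fun m hm => ?_⟩
        refine (ih m hm).trans (div_le_div_of_nonneg_right ?_ (by positivity))
        refine mul_le_mul_of_nonneg_left (Real.exp_le_exp.2 ?_) (by linarith)
        rw [neg_le_neg_iff, mul_div_assoc, mul_assoc]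
        refine mul_le_mul_of_nonneg_left ?_ hσ.le
        have hm0 : 0 ≤ min |(m:ℝ)| (q:ℝ) := le_min (abs_nonneg _) hqR.le
        refine le_min ?_ ?_
        · have := min_le_left |(m:ℝ)| (q:ℝ)
          nlinarith
        · have h7 := mul_le_mul_of_nonneg_left (min_le_right |(m:ℝ)| (q:ℝ)) hKq0
          rwa [div_mul_cancel₀ _ hqR.ne'] at h7
      have h3 := hAP q (h01.trans hq1) _ hτ0 hτ1 hHC
      rw [div_mul_cancel₀ _ hqR.ne'] at h3
      rw [hnn]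
      refine h3.trans ?_
      have h4 : (q1:ℝ) ≤ q := by exact_mod_cast hq1
      have he : Real.exp σ ≤ 3 :=
        (Real.exp_le_exp.2 hσ1).trans (Real.exp_one_lt_d9.le.trans (by norm_num))
      have hE : 0 < Real.exp (-(σ * ((K + 1 : ℕ) : ℝ))) := Real.exp_pos _
      have hsplit : Real.exp (-(σ * K)) =
          Real.exp σ * Real.exp (-(σ * ((K + 1 : ℕ) : ℝ))) := by
        rw [← Real.exp_add]
        congr 1
        push_cast
        ring
      rw [hsplit, div_le_div_iff₀ (by positivity) hp, pow_succ (q:ℝ) 31]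
      have h5 : C * Real.exp σ ≤ 2 * M * q := by
        have h6 : C * Real.exp σ ≤ |C| * 3 :=
          (mul_le_mul_of_nonneg_right (le_abs_self C) (Real.exp_pos _).le).trans
            (mul_le_mul_of_nonneg_left he (abs_nonneg C))
        nlinarith
      have h7 := mul_le_mul_of_nonneg_right h5 (mul_pos hE hp).le
      calc C * (Real.exp σ * Real.exp (-(σ * ((K + 1 : ℕ) : ℝ)))) * (q:ℝ) ^ 31
          = C * Real.exp σ * (Real.exp (-(σ * ((K + 1 : ℕ) : ℝ))) * (q:ℝ) ^ 31) := by ring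
        _ ≤ 2 * M * q * (Real.exp (-(σ * ((K + 1 : ℕ) : ℝ))) * (q:ℝ) ^ 31) := h7
        _ = 2 * M * Real.exp (-(σ * ((K + 1 : ℕ) : ℝ))) * ((q:ℝ) ^ 31 * q) := by ring

end IndAux

theorem indE : S_ind := by
  intro c M hM hH hA
  obtain ⟨C, q0, hAP⟩ := hA (2 * M)
  obtain ⟨N, hN⟩ := exists_nat_ge (3 * |C|)
  have hq1 : (0:ℝ) < ((q0 + N + 1 : ℕ) : ℝ) := by positivity
  have hl : 0 < Real.log 2 := Real.log_pos (by norm_num)
  obtain ⟨σ, hσ, hσ1, hσ2⟩ : ∃ σ : ℝ, 0 < σ ∧ σ ≤ 1 ∧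
      σ * ((q0 + N + 1 : ℕ) : ℝ) ≤ Real.log 2 := by
    refine ⟨min 1 (Real.log 2 / ((q0 + N + 1 : ℕ) : ℝ)), lt_min one_pos (div_pos hl hq1),
      min_le_left _ _, ?_⟩
    rw [← le_div_iff₀ hq1]
    exact min_le_right _ _
  have hC : 3 * |C| ≤ ((q0 + N + 1 : ℕ) : ℝ) := by
    have h0 : (0:ℝ) ≤ q0 := Nat.cast_nonneg q0
    push_cast
    linarith
  have hall : ∀ K : ℕ, ∀ n : ℤ, n ≠ 0 →
      ‖c n‖ ≤ 2 * M * Real.exp (-(σ * min |(n:ℝ)| K)) / |(n:ℝ)| ^ 31 := by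
    intro K
    induction K with
    | zero =>
      intro n hn
      have h3 := (hH 0).2.2 n hn
      rw [zero_mul, neg_zero, Real.exp_zero, mul_one] at h3
      rw [Nat.cast_zero, min_eq_right (abs_nonneg _), mul_zero, neg_zero, Real.exp_zero, mul_one]
      exact h3.trans (div_le_div_of_nonneg_right (by linarith) (by positivity))
    | succ K ih =>
      exact IndAux.step c M C σ q0 (q0 + N + 1) hM hH hAP (by omega) hC hσ hσ1 hσ2 K ih
  refine ⟨2 * M, σ, hσ, fun n => ?_⟩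
  rcases eq_or_ne n 0 with rfl | hn
  · rw [Int.cast_zero, abs_zero, mul_zero, neg_zero, Real.exp_zero, mul_one]
    exact (hH 0).2.1.trans (by linarith)
  · have h1 := hall n.natAbs n hn
    rw [← IndAux.abs_cast n, min_self] at h1
    have h2 : (1:ℝ) ≤ |(n:ℝ)| := by
      rw [← Int.cast_abs]
      exact_mod_cast Int.one_le_abs hn
    refine h1.trans (div_le_self ?_ (one_le_pow₀ h2))
    have := Real.exp_pos (-(σ * |(n:ℝ)|))
    positivity

end Vale.Agent.P097
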