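import Vale.Agent.P097.KStm

open Set NormedSpace Complex Metric

namespace Vale.Agent.P097

theorem agrE (hshol : S_shol) (hsag1 : S_sag1) (hGB : S_GB) : S_agr := by
  intro β b s M hβ hb
  have hc : Continuous β := hβ.1.continuous
  obtain ⟨M', hM'⟩ := bdd_of_per hc hβ.2
  obtain ⟨c, d, hG⟩ := hGB M'
  refine ⟨d, hG.dpos, fun x hx => ?_⟩
  have hx' : |x.2| < d := abs_lt.2 hx.2
  have he : ∀ y : ℝ × ℝ, Gr β y.1 y.2 = Gc I b ((y.1 : ℂ), ((y.1 + y.2 : ℝ) : ℂ)) := fun y => by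
    rw [(hsag1 β b s M hb).1, add_sub_cancel_left]
  have hs : 0 < s / 2 := half_pos hb.pos
  have hmem : (((x.1 : ℂ), ((x.1 + x.2 : ℝ) : ℂ)) : ℂ × ℂ) ∈ Om (s / 2) d := by
    refine ⟨by simpa using hb.pos, by simpa using hb.pos, ?_⟩
    simpa using hx'
  have h1 : AnalyticAt ℂ (Gc I b) ((x.1 : ℂ), ((x.1 + x.2 : ℝ) : ℂ)) :=
    P274.analyticOnNhd_of_differentiableOn (oOm _ _) ((hshol β b s M hb).1 I d) _ hmem
  have hre : Gc I b ((x.1 : ℂ), ((x.1 + x.2 : ℝ) : ℂ)) ∈ slitPlane := by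
    rw [← he]
    exact Or.inl (hG.cpos.trans_le (hG.h β hc hM' x.1 x.2 hx'.le).1)
  have h2 := (h1.clog hre).restrictScalars (𝕜 := ℝ)
  have h3 : AnalyticAt ℝ (fun y : ℝ × ℝ => (((y.1 : ℂ), ((y.1 + y.2 : ℝ) : ℂ)) : ℂ × ℂ)) x :=
    ((ofRealCLM.analyticAt _).comp analyticAt_fst).prod
      ((ofRealCLM.analyticAt _).comp (analyticAt_fst.add analyticAt_snd))
  have h4 := (imCLM.analyticAt _).comp (AnalyticAt.comp (x := x) h2 h3)
  refine h4.congr (Filter.Eventually.of_forall fun y => ?_)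
  simp only [Function.comp_def, imCLM_apply, Complex.log_im, he]

end Vale.Agent.P097
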