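import Vale.Agent.P097.KDefs

/-! P097, part K: basic lemmas. -/

open Set NormedSpace Complex Metric

namespace Vale.Agent.P097

theorem oSt (s : ℝ) : IsOpen (St s) := isOpen_lt (by fun_prop) continuous_const

theorem oOm (σ d : ℝ) : IsOpen (Om σ d) :=
  (isOpen_lt (f := fun z : ℂ × ℂ => |z.1.im|) (by fun_prop) continuous_const).inter
    ((isOpen_lt (f := fun z : ℂ × ℂ => |z.2.im|) (by fun_prop) continuous_const).inter
      (isOpen_lt (f := fun z : ℂ × ℂ => ‖z.2 - z.1‖) (by fun_prop) continuous_const))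

theorem oXX (σ c r : ℝ) : IsOpen (XX σ c r) :=
  (isOpen_lt (f := fun z : ℂ × ℂ => |z.1.im| + c * |z.2.im|) (by fun_prop) continuous_const).inter
    (isOpen_lt (f := fun z : ℂ × ℂ => ‖z.2‖) (by fun_prop) continuous_const)

theorem oXP (σ c r : ℝ) : IsOpen (XP σ c r) :=
  (oXX σ c r).inter (isOpen_ne_fun continuous_snd continuous_const)

theorem XX_mono {σ σ' c c' r r' : ℝ} (h1 : σ ≤ σ') (h2 : c' ≤ c) (h3 : r ≤ r') :
    XX σ c r ⊆ XX σ' c' r' := fun z hz =>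
  ⟨by nlinarith [hz.1, abs_nonneg z.2.im], hz.2.trans_le h3⟩

theorem XP_mono {σ σ' c c' r r' : ℝ} (h1 : σ ≤ σ') (h2 : c' ≤ c) (h3 : r ≤ r') :
    XP σ c r ⊆ XP σ' c' r' := fun _ hz => ⟨XX_mono h1 h2 h3 hz.1, hz.2⟩

theorem im_half (a b : ℂ) : |(a + b / 2).im| ≤ |a.im| + 1 / 2 * |b.im| ∧
    |(a - b / 2).im| ≤ |a.im| + 1 / 2 * |b.im| := by
  have h : (b / 2).im = b.im / 2 := by simp
  rw [add_im, sub_im, h]
  have h2 : |b.im / 2| = 1 / 2 * |b.im| := by rw [abs_div]; norm_num; ring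
  exact ⟨h2 ▸ abs_add_le _ _, h2 ▸ abs_sub _ _⟩

theorem zp_mem {σ c r : ℝ} {z : ℂ × ℂ} (hz : z ∈ XX σ c r) : zp z ∈ XX σ (c - 1 / 2) r :=
  ⟨by have := (im_half z.1 z.2).1; have h := hz.1; simp only [zp]; linarith, hz.2⟩

theorem zm_mem {σ c r : ℝ} {z : ℂ × ℂ} (hz : z ∈ XX σ c r) : zm z ∈ XX σ (c - 1 / 2) r :=
  ⟨by have := (im_half z.1 z.2).2; have h := hz.1; simp only [zm]; linarith, hz.2⟩

theorem zP_mem {σ c r : ℝ} {z : ℂ × ℂ} (hz : z ∈ XX σ c r) : zP z ∈ XX σ (c - 1) r :=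
  ⟨by have := abs_add_le z.1.im z.2.im; have h := hz.1; simp only [zP, add_im]; linarith, hz.2⟩

theorem zM_mem {σ c r : ℝ} {z : ℂ × ℂ} (hz : z ∈ XX σ c r) : zM z ∈ XX σ (c - 1) r :=
  ⟨by have := abs_sub z.1.im z.2.im; have h := hz.1; simp only [zM, sub_im]; linarith, hz.2⟩

theorem zp_zp (z : ℂ × ℂ) : zp (zp z) = zP z := by simp only [zp, zP]; ext <;> simp; ring
theorem zm_zm (z : ℂ × ℂ) : zm (zm z) = zM z := by simp only [zm, zM]; ext <;> simp; ring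
theorem zp_zm (z : ℂ × ℂ) : zp (zm z) = z := by simp [zp, zm]
theorem zm_zp (z : ℂ × ℂ) : zm (zp z) = z := by simp [zp, zm]

theorem cj_cj (z : ℂ × ℂ) : cj (cj z) = z := by simp [cj]
theorem cj_zp (z : ℂ × ℂ) : cj (zp z) = zp (cj z) := by
  simp only [cj, zp, map_add, map_div₀, conj_ofNat]
theorem cj_zm (z : ℂ × ℂ) : cj (zm z) = zm (cj z) := by
  simp only [cj, zm, map_sub, map_div₀, conj_ofNat]
theorem cj_zP (z : ℂ × ℂ) : cj (zP z) = zP (cj z) := by simp [cj, zP]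
theorem cj_zM (z : ℂ × ℂ) : cj (zM z) = zM (cj z) := by simp [cj, zM]

theorem XX_cj {σ c r : ℝ} {z : ℂ × ℂ} (hz : z ∈ XX σ c r) : cj z ∈ XX σ c r := by
  simpa [XX, cj] using hz

theorem XP_cj {σ c r : ℝ} {z : ℂ × ℂ} (hz : z ∈ XP σ c r) : cj z ∈ XP σ c r :=
  ⟨XX_cj hz.1, by simpa [cj] using hz.2⟩

theorem Om_cj {σ d : ℝ} {z : ℂ × ℂ} (hz : z ∈ Om σ d) : cj z ∈ Om σ d := by
  have h : ‖(starRingEnd ℂ) z.2 - (starRingEnd ℂ) z.1‖ = ‖z.2 - z.1‖ := by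
    rw [← map_sub, norm_conj]
  simpa [Om, cj, h] using hz

theorem XX_per {σ c r : ℝ} {z : ℂ × ℂ} (hz : z ∈ XX σ c r) : (z.1 + 1, z.2) ∈ XX σ c r := by
  simpa [XX] using hz

theorem XP_per {σ c r : ℝ} {z : ℂ × ℂ} (hz : z ∈ XP σ c r) : (z.1 + 1, z.2) ∈ XP σ c r :=
  ⟨XX_per hz.1, hz.2⟩

theorem Om_per {σ d : ℝ} {z : ℂ × ℂ} (hz : z ∈ Om σ d) : (z.1 + 1, z.2 + 1) ∈ Om σ d := by
  simpa [Om] using hz

theorem PR.mono {U V : Set (ℂ × ℂ)} {f : ℂ × ℂ → ℂ} (h : PR U f) (hV : V ⊆ U) : PR V f :=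
  ⟨h.hol.mono hV, fun z hz => h.per z (hV hz), fun z hz => h.real z (hV hz)⟩

variable {U : Set (ℂ × ℂ)} {f : ℂ × ℂ → ℂ} {z : ℂ × ℂ}

theorem hol1 (hU : IsOpen U) (hf : DifferentiableOn ℂ f U) : DifferentiableOn ℂ (p1 f) U :=
  P274.SCV1Aux.fderiv_apply hU hf (1, 0)

theorem hol2 (hU : IsOpen U) (hf : DifferentiableOn ℂ f U) : DifferentiableOn ℂ (p2 f) U :=
  P274.SCV1Aux.fderiv_apply hU hf (0, 1)

theorem fd_apply (f : ℂ × ℂ → ℂ) (z : ℂ × ℂ) (a b : ℂ) :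
    fderiv ℂ f z (a, b) = p1 f z * a + p2 f z * b := by
  have : ((a, b) : ℂ × ℂ) = a • ((1, 0) : ℂ × ℂ) + b • ((0, 1) : ℂ × ℂ) := by simp
  rw [this, map_add, map_smul, map_smul, p1, p2, smul_eq_mul, smul_eq_mul]; ring

/-- Chain rule along a curve. -/
theorem chain {u v : ℂ → ℂ} {u' v' t : ℂ} (hf : DifferentiableAt ℂ f (u t, v t))
    (hu : HasDerivAt u u' t) (hv : HasDerivAt v v' t) :
    HasDerivAt (fun t => f (u t, v t)) (p1 f (u t, v t) * u' + p2 f (u t, v t) * v') t := by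
  rw [← fd_apply]
  exact hf.hasFDerivAt.comp_hasDerivAt t (hu.prodMk hv)

theorem hd1 (hf : DifferentiableAt ℂ f z) : HasDerivAt (fun t => f (t, z.2)) (p1 f z) z.1 := by
  simpa using chain (u := fun t => t) (v := fun _ => z.2) (t := z.1) hf (hasDerivAt_id _)
    (hasDerivAt_const _ _)

theorem hd2 (hf : DifferentiableAt ℂ f z) : HasDerivAt (fun t => f (z.1, t)) (p2 f z) z.2 := by
  simpa using chain (u := fun _ => z.1) (v := fun t => t) (t := z.2) hf (hasDerivAt_const _ _)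
    (hasDerivAt_id _)

theorem p1_eq {a : ℂ} (hf : DifferentiableAt ℂ f z) (h : HasDerivAt (fun t => f (t, z.2)) a z.1) :
    p1 f z = a := (hd1 hf).unique h

theorem p2_eq {a : ℂ} (hf : DifferentiableAt ℂ f z) (h : HasDerivAt (fun t => f (z.1, t)) a z.2) :
    p2 f z = a := (hd2 hf).unique h

theorem p1_congr {g : ℂ × ℂ → ℂ} (h : f =ᶠ[nhds z] g) : p1 f z = p1 g z := by
  rw [p1, p1, h.fderiv_eq]

theorem p2_congr {g : ℂ × ℂ → ℂ} (h : f =ᶠ[nhds z] g) : p2 f z = p2 g z := by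
  rw [p2, p2, h.fderiv_eq]

theorem p12 (hU : IsOpen U) (hf : DifferentiableOn ℂ f U) (hz : z ∈ U) :
    p1 (p2 f) z = p2 (p1 f) z := by
  have h2 : ContDiffAt ℂ 2 f z := (P274.SCV1Aux.cont_diff hU 2 hf).contDiffAt (hU.mem_nhds hz)
  have hs := h2.isSymmSndFDerivAt (by simp)
  have hd : DifferentiableAt ℂ (fderiv ℂ f) z :=
    (h2.fderiv_right (m := 1) (by norm_num)).differentiableAt (by simp)
  have e : ∀ v w : ℂ × ℂ, fderiv ℂ (fun y => fderiv ℂ f y v) z w = fderiv ℂ (fderiv ℂ f) z w v := by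
    intro v w
    rw [fderiv_clm_apply hd (differentiableAt_const _)]; simp
  change fderiv ℂ (fun y => fderiv ℂ f y (0, 1)) z (1, 0) =
    fderiv ℂ (fun y => fderiv ℂ f y (1, 0)) z (0, 1)
  rw [e, e, hs.eq]

/-- Cauchy estimate in one variable. -/
theorem cauchy {g : ℂ → ℂ} {c : ℂ} {ρ M : ℝ} (hρ : 0 < ρ)
    (hg : ∀ t ∈ closedBall c ρ, DifferentiableAt ℂ g t) (hM : ∀ t ∈ sphere c ρ, ‖g t‖ ≤ M) :
    ‖deriv g c‖ ≤ M / ρ := by
  refine Complex.norm_deriv_le_of_forall_mem_sphere_norm_le hρ ?_ hM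
  refine DifferentiableOn.diffContOnCl fun t ht => (hg t ?_).differentiableWithinAt
  rwa [closure_ball c hρ.ne'] at ht

theorem p1_le {ρ M : ℝ} (hU : IsOpen U) (hf : DifferentiableOn ℂ f U) (hρ : 0 < ρ)
    (h : ∀ t ∈ closedBall z.1 ρ, (t, z.2) ∈ U ∧ ‖f (t, z.2)‖ ≤ M) : ‖p1 f z‖ ≤ M / ρ := by
  rw [← (hd1 (hf.differentiableAt (hU.mem_nhds (h z.1 (mem_closedBall_self hρ.le)).1))).deriv]
  exact cauchy hρ (fun t ht => (hd1 (z := (t, z.2))
    (hf.differentiableAt (hU.mem_nhds (h t ht).1))).differentiableAt)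
    fun t ht => (h t (sphere_subset_closedBall ht)).2

theorem p2_le {ρ M : ℝ} (hU : IsOpen U) (hf : DifferentiableOn ℂ f U) (hρ : 0 < ρ)
    (h : ∀ t ∈ closedBall z.2 ρ, (z.1, t) ∈ U ∧ ‖f (z.1, t)‖ ≤ M) : ‖p2 f z‖ ≤ M / ρ := by
  rw [← (hd2 (hf.differentiableAt (hU.mem_nhds (h z.2 (mem_closedBall_self hρ.le)).1))).deriv]
  exact cauchy hρ (fun t ht => (hd2 (z := (z.1, t))
    (hf.differentiableAt (hU.mem_nhds (h t ht).1))).differentiableAt)
    fun t ht => (h t (sphere_subset_closedBall ht)).2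

/-- Mean value inequality on a complex segment. -/
theorem mvt {g g' : ℂ → ℂ} {a b : ℂ} {M : ℝ}
    (h : ∀ t ∈ segment ℝ a b, HasDerivAt g (g' t) t ∧ ‖g' t‖ ≤ M) : ‖g b - g a‖ ≤ M * ‖b - a‖ :=
  (convex_segment a b).norm_image_sub_le_of_norm_hasDerivWithin_le
    (fun t ht => (h t ht).1.hasDerivWithinAt) (fun t ht => (h t ht).2) (left_mem_segment _ _ _)
    (right_mem_segment _ _ _)

/-- Derivatives inherit translation invariance up to a constant. -/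
theorem fd_shift (hU : IsOpen U) {v : ℂ × ℂ} {k : ℂ} (h : ∀ z ∈ U, f (z + v) = f z + k)
    (hz : z ∈ U) : p1 f (z + v) = p1 f z ∧ p2 f (z + v) = p2 f z := by
  have e : fderiv ℂ f (z + v) = fderiv ℂ f z := by
    rw [← fderiv_comp_add_right, ← fderiv_add_const (f := f) k]
    exact Filter.EventuallyEq.fderiv_eq (Filter.mem_of_superset (hU.mem_nhds hz) h)
  simp [p1, p2, e]

theorem conj_deriv {g : ℂ → ℂ} {a t : ℂ} (h : HasDerivAt g a ((starRingEnd ℂ) t)) :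
    HasDerivAt (fun s => (starRingEnd ℂ) (g ((starRingEnd ℂ) s))) ((starRingEnd ℂ) a) t := by
  simpa [Function.comp_def] using h.conj_conj

/-- Derivatives inherit reality. -/
theorem fd_real (hU : IsOpen U) (hf : DifferentiableOn ℂ f U) (hc : ∀ z ∈ U, cj z ∈ U)
    (h : ∀ z ∈ U, f (cj z) = (starRingEnd ℂ) (f z)) (hz : z ∈ U) :
    p1 f (cj z) = (starRingEnd ℂ) (p1 f z) ∧ p2 f (cj z) = (starRingEnd ℂ) (p2 f z) := by
  have hd := hf.differentiableAt (hU.mem_nhds hz)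
  have hd' := hf.differentiableAt (hU.mem_nhds (hc z hz))
  have he : ∀ y ∈ U, f y = (starRingEnd ℂ) (f (cj y)) := fun y hy => by rw [h y hy, conj_conj]
  constructor
  · refine p1_eq hd' ((conj_deriv (g := fun t => f (t, z.2)) (t := (cj z).1)
      (by simpa [cj] using hd1 hd)).congr_of_eventuallyEq ?_)
    have : ∀ᶠ t in nhds (cj z).1, (t, (cj z).2) ∈ U :=
      (continuous_id.prodMk continuous_const).continuousAt.preimage_mem_nhds (hU.mem_nhds (hc z hz))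
    exact this.mono fun t ht => by simpa [cj] using he _ ht
  · refine p2_eq hd' ((conj_deriv (g := fun t => f (z.1, t)) (t := (cj z).2)
      (by simpa [cj] using hd2 hd)).congr_of_eventuallyEq ?_)
    have : ∀ᶠ t in nhds (cj z).2, ((cj z).1, t) ∈ U :=
      (continuous_const.prodMk continuous_id).continuousAt.preimage_mem_nhds (hU.mem_nhds (hc z hz))
    exact this.mono fun t ht => by simpa [cj] using he _ ht

theorem ce_real (x : ℝ) : ce x = ee x := rfl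

theorem ce_add (a b : ℂ) : ce (a + b) = ce a * ce b := by
  rw [ce, ce, ce, ← Complex.exp_add, mul_add]

theorem norm_ce (a : ℂ) : ‖ce a‖ = Real.exp (-(2 * Real.pi * a.im)) := by
  rw [ce, Complex.norm_exp]; congr 1; simp

theorem ce_conj (a : ℂ) : (starRingEnd ℂ) (ce a) = ce (-(starRingEnd ℂ) a) := by
  rw [ce, ce, ← Complex.exp_conj]; congr 1; simp [conj_ofNat]

theorem sv_eq (n : ℤ) (α : ℂ) : sv n α = ce (n * (α / 2)) - ce (n * (-(α / 2))) := by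
  rw [sv, ce, ce, Complex.sin]
  have h1 : 2 * (Real.pi:ℂ) * I * (n * (α / 2)) = Real.pi * (n * α) * I := by ring
  have h2 : 2 * (Real.pi:ℂ) * I * (n * (-(α / 2))) = -(Real.pi * (n * α)) * I := by ring
  rw [h1, h2]
  linear_combination (Complex.exp (-(Real.pi * (n * α)) * I)
    - Complex.exp (Real.pi * (n * α) * I)) * I_mul_I

theorem gw_pos (c : ℝ) (n : ℤ) (s : ℝ) : 0 < gw c n s := Real.exp_pos _

theorem im_ball {a t : ℂ} {ρ : ℝ} (h : t ∈ closedBall a ρ) : |t.im| ≤ |a.im| + ρ := by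
  have h1 := (Complex.abs_im_le_norm (t - a)).trans (mem_closedBall_iff_norm.1 h)
  have h2 := abs_add_le a.im (t - a).im
  rw [sub_im, add_sub_cancel] at h2
  rw [sub_im] at h1
  linarith

/-- Cauchy estimate in the first variable on `XX`. -/
theorem cx1 {σ c r η A : ℝ} (hf : DifferentiableOn ℂ f (XX σ c r)) (hη : 0 < η)
    (hz : z ∈ XX (σ - η) c r) (hA : ∀ t : ℂ, (t, z.2) ∈ XX σ c r → ‖f (t, z.2)‖ ≤ A) :
    ‖p1 f z‖ ≤ A / η :=
  p1_le (oXX σ c r) hf hη fun t ht =>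
    have h : (t, z.2) ∈ XX σ c r := ⟨by have := im_ball ht; have := hz.1; dsimp only; linarith, hz.2⟩
    ⟨h, hA t h⟩

/-- Cauchy estimate in the first variable on `XP`. -/
theorem cx1' {σ c r η A : ℝ} (hf : DifferentiableOn ℂ f (XP σ c r)) (hη : 0 < η)
    (hz : z ∈ XP (σ - η) c r) (hA : ∀ t : ℂ, (t, z.2) ∈ XP σ c r → ‖f (t, z.2)‖ ≤ A) :
    ‖p1 f z‖ ≤ A / η :=
  p1_le (oXP σ c r) hf hη fun t ht =>
    have h : (t, z.2) ∈ XP σ c r :=
      ⟨⟨by have := im_ball ht; have := hz.1.1; dsimp only; linarith, hz.1.2⟩, hz.2⟩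
    ⟨h, hA t h⟩

/-- Cauchy estimate in the second variable on `XX`. -/
theorem cx2 {σ c r ρ A : ℝ} (hf : DifferentiableOn ℂ f (XX σ c r)) (hρ : 0 < ρ) (hc : 0 ≤ c)
    (hz : z ∈ XX (σ - c * ρ) c (r - ρ)) (hA : ∀ y ∈ XX σ c r, ‖f y‖ ≤ A) : ‖p2 f z‖ ≤ A / ρ :=
  p2_le (oXX σ c r) hf hρ fun t ht =>
    have h : (z.1, t) ∈ XX σ c r := ⟨by
      have := mul_le_mul_of_nonneg_left (im_ball ht) hc
      have := hz.1; dsimp only; linarith, by
      have := norm_le_of_mem_closedBall ht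
      have h2 : ‖z.2‖ < r - ρ := hz.2
      dsimp only; linarith⟩
    ⟨h, hA _ h⟩

theorem KS.mono {S ξ : ℂ × ℂ → ℂ} {σ r ε t σ' r' ε' t' : ℝ} (h : KS S σ r ε t ξ) (h1 : σ' ≤ σ)
    (h2 : r' ≤ r) (h3 : ε ≤ ε') (h4 : t ≤ t') : KS S σ' r' ε' t' ξ :=
  have s0 : XX σ' 0 r' ⊆ XX σ 0 r := XX_mono h1 le_rfl h2
  ⟨h.hol.mono s0, fun z hz => h.per z (s0 hz), fun z hz => h.real z (s0 hz),
    fun θ hθ => h.zero θ (lt_of_lt_of_le hθ h1), fun z hz => (h.d1 z (s0 hz)).trans h4,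
    fun z hz => (h.d2 z (s0 hz)).trans h4, fun z hz => (h.err z (XX_mono h1 le_rfl h2 hz)).trans
      (mul_le_mul_of_nonneg_right h3 (by positivity))⟩

section Congr

variable {B : Type} [NormedCommRing B] [NormedAlgebra ℂ B] {b b' : ℝ → B}

theorem kk_congr (h : ∀ y ∈ Icc (0:ℝ) 1, b y = b' y) {y : ℝ} (hy : y ∈ Icc (0:ℝ) 1) :
    kk b y = kk b' y :=
  intervalIntegral.integral_congr fun u hu => by
    rw [uIcc_of_le hy.1] at hu
    simp only [h u ⟨hu.1, hu.2.trans hy.2⟩]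

theorem GG_congr (h : ∀ y ∈ Icc (0:ℝ) 1, b y = b' y) (j : ℂ) (d : B) : GG j b d = GG j b' d :=
  intervalIntegral.integral_congr fun u hu => by
    rw [uIcc_of_le zero_le_one] at hu
    simp only [em, ph, h u hu, kk_congr h hu]

theorem LA_congr (h : ∀ y ∈ Icc (0:ℝ) 1, b y = b' y) (d R : B) : LA b d R = LA b' d R := by
  have : ∫ y in (0:ℝ)..1, em b y = ∫ y in (0:ℝ)..1, em b' y :=
    intervalIntegral.integral_congr fun u hu => by
      rw [uIcc_of_le zero_le_one] at hu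
      simp only [em, h u hu]
  rw [LA, LA, this]

end Congr

theorem cl_mem (y : ℝ) : cl y ∈ Icc (0:ℝ) 1 :=
  ⟨le_max_left _ _, max_le zero_le_one (min_le_right _ _)⟩

theorem cl_eq {y : ℝ} (hy : y ∈ Icc (0:ℝ) 1) : cl y = y := by
  rw [cl, min_eq_left hy.2, max_eq_right hy.1]

theorem cl_cont : Continuous cl := by unfold cl; fun_prop

/-- The segment between two points of a strip stays in the strip. -/
theorem seg_mem {s : ℝ} {a c : ℂ} (ha : |a.im| < s) (hc : |c.im| < s) (y : ℝ) :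
    a + cl y * (c - a) ∈ St s := by
  obtain ⟨h0, h1⟩ := cl_mem y
  have e : (a + cl y * (c - a)).im = (1 - cl y) * a.im + cl y * c.im := by simp; ring
  change |(a + cl y * (c - a)).im| < s
  rw [e]
  exact (convex_Ioo (-s) s |>.add_smul_sub_mem (abs_lt.1 ha) (abs_lt.1 hc) ⟨h0, h1⟩ |> fun h =>
    abs_lt.2 ⟨by have := h.1; simp only [smul_eq_mul] at this; linarith,
      by have := h.2; simp only [smul_eq_mul] at this; linarith⟩)

end Vale.Agent.P097
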