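import Vale.Agent.P097.KStm

open Set NormedSpace Complex Metric

namespace Vale.Agent.P097

namespace KCovAux

theorem surj {f : ℝ → ℝ} {L : ℝ} (hL : 0 < L) (hf : Continuous f) (h : ∀ x, f (x + 1) = f x + L)
    (s : ℝ) : ∃ x, f x = s := by
  have p : Function.Periodic (fun x => f x - L * x) 1 := fun x => by
    simp only [h]
    ring
  obtain ⟨n, hn⟩ := exists_nat_ge (|s - f 0| / L)
  rw [div_le_iff₀ hL, abs_le] at hn
  have h1 := p.int_mul_eq n
  have h2 := p.int_mul_eq (-n)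
  simp only [mul_one, mul_zero, sub_zero, Int.cast_neg, Int.cast_natCast] at h1 h2
  exact intermediate_value_univ (-(n : ℝ)) n hf ⟨by linarith [hn.1], by linarith [hn.2]⟩

end KCovAux

theorem covE : S_cov := by
  intro γ L r σ d hL h
  have hr := h.pos
  have a0 : (0 : ℝ) ≤ r / 2 := by linarith
  have ab : ∀ a : Icc (0 : ℝ) (r / 2), |(a : ℝ)| < r := fun a =>
    abs_lt.2 ⟨by linarith [a.2.1], by linarith [a.2.2]⟩
  have c0 : ∀ f : ℝ × ℝ → ℝ, AnalyticOnNhd ℝ f (univ ×ˢ Ioo (-r) r) →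
      Continuous fun p : ℝ × Icc (0 : ℝ) (r / 2) => f (p.1, p.2) := fun f hf =>
    hf.continuousOn.comp_continuous (by fun_prop) fun p => ⟨mem_univ _, abs_lt.1 (ab p.2)⟩
  have cσ := c0 σ h.an1
  have cd := c0 d h.an2
  let b : Icc (0 : ℝ) (r / 2) := ⟨r / 2, a0, le_rfl⟩
  let o : Icc (0 : ℝ) (r / 2) := ⟨0, le_rfl, a0⟩
  obtain ⟨θ0, -, h0⟩ := isCompact_Icc.exists_isMinOn (nonempty_Icc.2 (zero_le_one' ℝ))
    (cd.comp (Continuous.prodMk_left b)).continuousOn
  refine ⟨d (θ0, r / 2), (h.step θ0 _ (by linarith) (by linarith)).1, fun s δ h1 h2 => ?_⟩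
  choose T hT using fun a : Icc (0 : ℝ) (r / 2) => KCovAux.surj (f := fun x => σ (x, a)) hL
    (cσ.comp (Continuous.prodMk_left a)) (fun x => (h.per x a (ab a)).1) s
  have m : ∀ a : Icc (0 : ℝ) (r / 2), StrictMono fun x => σ (x, a) := fun a =>
    strictMono_of_deriv_pos fun x => h.mono x a (ab a)
  have cT : Continuous T := OrderTopology.continuous_iff.2 fun c => by
    have k := cσ.comp (Continuous.prodMk_right c)
    constructor
    · rw [show T ⁻¹' Ioi c = {a | σ (c, a.1) < s} from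
        Set.ext fun a => (m a).lt_iff_lt.symm.trans (by rw [hT a]; rfl)]
      exact isOpen_lt k continuous_const
    · rw [show T ⁻¹' Iio c = {a | s < σ (c, a.1)} from
        Set.ext fun a => (m a).lt_iff_lt.symm.trans (by rw [hT a]; rfl)]
      exact isOpen_lt continuous_const k
  have := Subtype.preconnectedSpace (isPreconnected_Icc (a := (0 : ℝ)) (b := r / 2))
  have p : Function.Periodic (fun x => d (x, r / 2)) 1 := fun x => (h.per x _ (ab b)).2
  obtain ⟨y, hy, e⟩ := p.exists_mem_Ico₀ one_pos (T b)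
  obtain ⟨a, ha⟩ := intermediate_value_univ o b (cd.comp (cT.prodMk continuous_id))
    (show δ ∈ Icc (d (T o, 0)) (d (T b, r / 2)) from
      ⟨(h.bdry _).1.trans_le h1.le, h2.le.trans ((h0 (Ico_subset_Icc_self hy)).trans_eq e.symm)⟩)
  refine ⟨T a, a, lt_of_le_of_ne a.2.1 fun k => ?_, (abs_lt.1 (ab a)).2, hT a, ha⟩
  have k' : d (T a, a) = δ := ha
  rw [← k, (h.bdry _).1] at k'
  exact h1.ne k'

end Vale.Agent.P097
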