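import Vale.Agent.P097.Base
import Vale.Agent.P274.SCV1

/-! P097, part K: definitions for the convergence of the normal form. -/

open Set NormedSpace Complex Metric

namespace Vale.Agent.P097

noncomputable def p1 (f : ℂ × ℂ → ℂ) (z : ℂ × ℂ) : ℂ := fderiv ℂ f z (1, 0)

noncomputable def p2 (f : ℂ × ℂ → ℂ) (z : ℂ × ℂ) : ℂ := fderiv ℂ f z (0, 1)

noncomputable def ce (z : ℂ) : ℂ := Complex.exp (2 * Real.pi * I * z)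

/-- `2 i sin (π n α)`. -/
noncomputable def sv (n : ℤ) (α : ℂ) : ℂ := 2 * I * Complex.sin (Real.pi * (n * α))

/-- `exp (2 π c |n| s)`. -/
noncomputable def gw (c : ℝ) (n : ℤ) (s : ℝ) : ℝ := Real.exp (2 * Real.pi * c * |(n:ℝ)| * s)

def St (s : ℝ) : Set ℂ := {z | |z.im| < s}

def Om (σ d : ℝ) : Set (ℂ × ℂ) := {z | |z.1.im| < σ ∧ |z.2.im| < σ ∧ ‖z.2 - z.1‖ < d}

def XX (σ c r : ℝ) : Set (ℂ × ℂ) := {z | |z.1.im| + c * |z.2.im| < σ ∧ ‖z.2‖ < r}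

def XP (σ c r : ℝ) : Set (ℂ × ℂ) := {z | z ∈ XX σ c r ∧ z.2 ≠ 0}

noncomputable def zp (z : ℂ × ℂ) : ℂ × ℂ := (z.1 + z.2 / 2, z.2)

noncomputable def zm (z : ℂ × ℂ) : ℂ × ℂ := (z.1 - z.2 / 2, z.2)

def zP (z : ℂ × ℂ) : ℂ × ℂ := (z.1 + z.2, z.2)

def zM (z : ℂ × ℂ) : ℂ × ℂ := (z.1 - z.2, z.2)

def cj (z : ℂ × ℂ) : ℂ × ℂ := ((starRingEnd ℂ) z.1, (starRingEnd ℂ) z.2)

/-- Holomorphic, periodic in the first variable and real on `U`. -/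
structure PR (U : Set (ℂ × ℂ)) (f : ℂ × ℂ → ℂ) : Prop where
  hol : DifferentiableOn ℂ f U
  per : ∀ z ∈ U, f (z.1 + 1, z.2) = f z
  real : ∀ z ∈ U, f (cj z) = (starRingEnd ℂ) (f z)

/-- Fourier coefficient in the first variable. -/
noncomputable def f2 (f : ℂ × ℂ → ℂ) (n : ℤ) (α : ℂ) : ℂ := fc (fun t => f (t, α)) n

noncomputable def e3 (S : ℂ × ℂ → ℂ) (a b c : ℂ) : ℂ := p2 S (a, b) + p1 S (b, c)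

noncomputable def HH (S : ℂ × ℂ → ℂ) : ℂ × ℂ → ℂ := p2 (p1 S)

noncomputable def De (S : ℂ × ℂ → ℂ) (a b c u v w : ℂ) : ℂ :=
  HH S (a, b) * u + (p2 (p2 S) (a, b) + p1 (p1 S) (b, c)) * v + HH S (b, c) * w

noncomputable def EK (S ξ : ℂ × ℂ → ℂ) (z : ℂ × ℂ) : ℂ := e3 S (ξ (zM z)) (ξ z) (ξ (zP z))

noncomputable def MK (S ξ : ℂ × ℂ → ℂ) (z : ℂ × ℂ) : ℂ := p1 ξ z * EK S ξ z

noncomputable def ac (S ξ : ℂ × ℂ → ℂ) (z : ℂ × ℂ) : ℂ :=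
  HH S (ξ (zm z), ξ (zp z)) * p1 ξ (zm z) * p1 ξ (zp z)

noncomputable def gg (ξ : ℂ × ℂ → ℂ) (z : ℂ × ℂ) : ℂ := p2 ξ z / p1 ξ z

noncomputable def Jc (S ξ : ℂ × ℂ → ℂ) (z : ℂ × ℂ) : ℂ :=
  -ac S ξ z * (1 + gg ξ (zp z) - gg ξ (zm z))

/-- Pinned critical configurations close up. -/
def Crit (S : ℂ × ℂ → ℂ) (G : Set ℝ) : Prop :=
  ∀ (q : ℕ) (p : ℤ) (x : ℤ → ℝ), 1 ≤ q → (∀ k, x (k + q) = x k + p) →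
    (∀ k, x (k + 1) - x k ∈ G) →
    (∀ k : ℤ, 0 < k → k < q → e3 S (x (k - 1)) (x k) (x (k + 1)) = 0) →
    e3 S (x (0 - 1)) (x 0) (x (0 + 1)) = 0

/-- Analytic generating function of a grazing twist map. -/
structure GF (S : ℂ × ℂ → ℂ) (σ d C : ℝ) : Prop where
  spos : 0 < σ
  dpos : 0 < d
  hol : DifferentiableOn ℂ S (Om σ d)
  per : ∀ z ∈ Om σ d, S (z.1 + 1, z.2 + 1) = S z
  real : ∀ z ∈ Om σ d, S (cj z) = (starRingEnd ℂ) (S z)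
  anti : ∀ z ∈ Om σ d, S (z.2, z.1) = -S z
  cub : ∀ z ∈ Om σ d, ‖S z + (z.2 - z.1) ^ 3 / 6‖ ≤ C * ‖z.2 - z.1‖ ^ 4
  crit : Crit S (Ioo 0 d)

/-- The properties of the generating function used by the iteration. -/
structure GD (S : ℂ × ℂ → ℂ) (σ d C : ℝ) : Prop where
  spos : 0 < σ
  sle : σ ≤ 1
  dpos : 0 < d
  dle : d ≤ 1
  one_le : 1 ≤ C
  hol : DifferentiableOn ℂ S (Om σ d)
  per : ∀ z ∈ Om σ d, S (z.1 + 1, z.2 + 1) = S z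
  real : ∀ z ∈ Om σ d, S (cj z) = (starRingEnd ℂ) (S z)
  hA : ∀ z ∈ Om σ d, ‖p1 S z‖ ≤ C * ‖z.2 - z.1‖ ^ 2
  hB : ∀ z ∈ Om σ d, ‖p2 S z‖ ≤ C * ‖z.2 - z.1‖ ^ 2
  hH : ∀ z ∈ Om σ d, ‖HH S z - (z.2 - z.1)‖ ≤ C * ‖z.2 - z.1‖ ^ 2
  h5 : ∀ θ α : ℂ, (θ - α, θ) ∈ Om σ d → (θ, θ + α) ∈ Om σ d →
    ‖e3 S (θ - α) θ (θ + α)‖ ≤ C * ‖α‖ ^ 5
  cp : Crit S (Ioo 0 d)
  cn : Crit S (Ioo (-d) 0)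

/-- Admissible parameters. -/
structure OK (σ₁ d₁ C σ r t : ℝ) : Prop where
  lo : σ₁ / 8 ≤ σ
  hi : σ ≤ σ₁ / 2
  rpos : 0 < r
  r1 : r ≤ σ₁ / 100
  r2 : r ≤ d₁ / 10
  r3 : C * r ≤ 1 / 20
  t0 : 0 ≤ t
  t1 : t ≤ 1 / 10

/-- Approximate family of invariant curves. -/
structure KS (S : ℂ × ℂ → ℂ) (σ r ε t : ℝ) (ξ : ℂ × ℂ → ℂ) : Prop where
  hol : DifferentiableOn ℂ ξ (XX σ 0 r)
  per : ∀ z ∈ XX σ 0 r, ξ (z.1 + 1, z.2) = ξ z + 1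
  real : ∀ z ∈ XX σ 0 r, ξ (cj z) = (starRingEnd ℂ) (ξ z)
  zero : ∀ θ ∈ St σ, ξ (θ, 0) = θ
  d1 : ∀ z ∈ XX σ 0 r, ‖p1 ξ z - 1‖ ≤ t
  d2 : ∀ z ∈ XX σ 0 r, ‖p2 ξ z‖ ≤ t
  err : ∀ z ∈ XX σ 1 r, ‖EK S ξ z‖ ≤ ε * ‖z.2‖ ^ 5

structure K1 (S : ℂ × ℂ → ℂ) (σ₁ σ r : ℝ) (ξ : ℂ × ℂ → ℂ) : Prop where
  im : ∀ z ∈ XX σ 0 r, |(ξ z).im| ≤ 3 / 5 * σ₁
  gap : ∀ z ∈ XX σ (1 / 2) r, ‖ξ (zp z) - ξ (zm z) - z.2‖ ≤ ‖z.2‖ / 10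
  pr1 : PR (XX σ 0 r) (p1 ξ)
  pr2 : PR (XX σ 0 r) (p2 ξ)
  pra : PR (XX σ (1 / 2) r) (ac S ξ)
  ha : ∀ z ∈ XX σ (1 / 2) r, ‖ac S ξ z - z.2‖ ≤ ‖z.2‖ / 2

structure K2 (S : ℂ × ℂ → ℂ) (σ r : ℝ) (ξ : ℂ × ℂ → ℂ) : Prop where
  prE : PR (XX σ 1 r) (EK S ξ)
  e1 : ∀ z ∈ XX σ 1 r, p1 (EK S ξ) z =
    De S (ξ (zM z)) (ξ z) (ξ (zP z)) (p1 ξ (zM z)) (p1 ξ z) (p1 ξ (zP z))
  e2 : ∀ z ∈ XX σ 1 r, p2 (EK S ξ) z = De S (ξ (zM z)) (ξ z) (ξ (zP z))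
    (p2 ξ (zM z) - p1 ξ (zM z)) (p2 ξ z) (p2 ξ (zP z) + p1 ξ (zP z))

structure K4 (S : ℂ × ℂ → ℂ) (σ r : ℝ) (ξ : ℂ × ℂ → ℂ) : Prop where
  prg : PR (XX σ 0 r) (gg ξ)
  hg : ∀ z ∈ XX σ 0 r, ‖gg ξ z‖ ≤ 1 / 9
  prJ : PR (XX σ (1 / 2) r) (Jc S ξ)
  hJ : ∀ z ∈ XX σ (1 / 2) r, ‖Jc S ξ z + z.2‖ ≤ 9 / 10 * ‖z.2‖
  idJ : ∀ z ∈ XX σ 1 r, Jc S ξ (zp z) - Jc S ξ (zm z)
    = p2 ξ z * p1 (EK S ξ) z - p1 ξ z * p2 (EK S ξ) z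

/-- Second order remainder of the three-term equation. -/
def QF (S : ℂ × ℂ → ℂ) (σ₁ d₁ c₀ C : ℝ) : Prop :=
  ∀ (ρ N : ℝ) (a b c u v w : ℂ), 0 < ρ → ρ ≤ d₁ / 10 → |a.im| ≤ 3 / 5 * σ₁ →
    |b.im| ≤ 3 / 5 * σ₁ → |c.im| ≤ 3 / 5 * σ₁ → ‖b - a‖ ≤ 2 * ρ → ‖c - b‖ ≤ 2 * ρ →
    ‖v - u‖ ≤ N → ‖w - v‖ ≤ N → ρ * ‖v‖ ≤ N → N ≤ c₀ * ρ →
    (a + u, b + v) ∈ Om σ₁ d₁ ∧ (b + v, c + w) ∈ Om σ₁ d₁ ∧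
    ‖e3 S (a + u) (b + v) (c + w) - e3 S a b c - De S a b c u v w‖ ≤ C * N ^ 2

/-- Factorised linearisation. -/
def LF (S ξ : ℂ × ℂ → ℂ) (σ₁ d₁ σ r c₀ C : ℝ) : Prop :=
  ∀ z ∈ XP σ 1 r, ∀ (N : ℝ) (wm w wp : ℂ), ‖p1 ξ z * w - p1 ξ (zM z) * wm‖ ≤ N →
    ‖p1 ξ (zP z) * wp - p1 ξ z * w‖ ≤ N → ‖z.2‖ * ‖p1 ξ z * w‖ ≤ N → N ≤ c₀ * ‖z.2‖ →
    (ξ (zM z) + p1 ξ (zM z) * wm, ξ z + p1 ξ z * w) ∈ Om σ₁ d₁ ∧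
    (ξ z + p1 ξ z * w, ξ (zP z) + p1 ξ (zP z) * wp) ∈ Om σ₁ d₁ ∧
    ‖p1 ξ z * e3 S (ξ (zM z) + p1 ξ (zM z) * wm) (ξ z + p1 ξ z * w) (ξ (zP z) + p1 ξ (zP z) * wp)
      - MK S ξ z - (ac S ξ (zp z) * (wp - w) - ac S ξ (zm z) * (w - wm))
      - p1 ξ z * w * p1 (EK S ξ) z‖ ≤ C * N ^ 2

/-- All facts on an approximate family. -/
structure KF (S : ℂ × ℂ → ℂ) (σ₁ d₁ C c₀ C' σ r ε t : ℝ) (ξ : ℂ × ℂ → ℂ) : Prop where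
  gd : GD S σ₁ d₁ C
  ok : OK σ₁ d₁ C σ r t
  cpos : 0 < c₀
  c0 : 0 ≤ C'
  e0 : 0 ≤ ε
  ks : KS S σ r ε t ξ
  k1 : K1 S σ₁ σ r ξ
  k2 : K2 S σ r ξ
  k3 : ∀ α : ℂ, ‖α‖ < r → f2 (MK S ξ) 0 α = 0
  k4 : K4 S σ r ξ
  lf : LF S ξ σ₁ d₁ σ r c₀ C'

/-- Solution of the discrete Dirichlet problem. -/
noncomputable def ds (q : ℕ) (a F : ℕ → ℂ) (j : ℕ) : ℂ :=
  ∑ i ∈ Finset.range j, ((∑ i ∈ Finset.range q, (∑ l ∈ Finset.Icc 1 i, F l) / a i) /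
    (∑ i ∈ Finset.range q, 1 / a i) - ∑ l ∈ Finset.Icc 1 i, F l) / a i

/-- Corrected points of a pinned periodic chain. -/
noncomputable def xw (ξ : ℂ × ℂ → ℂ) (α : ℝ) (w : ℕ → ℂ → ℂ) (j : ℕ) (θ : ℂ) : ℂ :=
  ξ (θ + j * α, α) + p1 ξ (θ + j * α, α) * w j θ

/-- Holomorphic family of pinned critical chains. -/
structure MW (S ξ : ℂ × ℂ → ℂ) (s R : ℝ) (q : ℕ) (α : ℝ) (w : ℕ → ℂ → ℂ) : Prop where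
  hol : ∀ j, DifferentiableOn ℂ (w j) (St s)
  w0 : ∀ θ ∈ St s, w 0 θ = 0
  wq : ∀ θ ∈ St s, w q θ = 0
  bd : ∀ j, ∀ θ ∈ St s, ‖w j θ‖ ≤ R
  real : ∀ (j : ℕ) (t : ℝ), (w j t).im = 0
  eq : ∀ θ ∈ St s, ∀ j, 0 < j → j < q →
    e3 S (xw ξ α w (j - 1) θ) (xw ξ α w j θ) (xw ξ α w (j + 1) θ) = 0

/-- Extension by zero. -/
noncomputable def wx (q : ℕ) (w : Fin q → ℂ) (j : ℕ) : ℂ := if h : j < q then w ⟨j, h⟩ else 0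

/-- Nonlinear part of the three-term equation at the point `z`. -/
noncomputable def Fm (S ξ : ℂ × ℂ → ℂ) (z : ℂ × ℂ) (wm w wp : ℂ) : ℂ :=
  p1 ξ z * e3 S (ξ (zM z) + p1 ξ (zM z) * wm) (ξ z + p1 ξ z * w) (ξ (zP z) + p1 ξ (zP z) * wp)
    - (ac S ξ (zp z) * (wp - w) - ac S ξ (zm z) * (w - wm))

/-- Right hand side of the second cohomological equation. -/
noncomputable def Ph (S ξ : ℂ × ℂ → ℂ) (μ : ℂ → ℂ) (Ψ : ℂ × ℂ → ℂ) (z : ℂ × ℂ) : ℂ :=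
  (μ z.2 + Ψ z) / ac S ξ z

/-- The Newton update. -/
noncomputable def nx (ξ w : ℂ × ℂ → ℂ) (z : ℂ × ℂ) : ℂ := ξ z + p1 ξ z * w z

/-- Hypotheses of the cohomological equation. -/
structure SH (m K : ℕ) (σ c r η A δ : ℝ) (f : ℂ × ℂ → ℂ) : Prop where
  m1 : 1 ≤ m
  K2 : 2 ≤ K
  e0 : 0 < η
  e1 : η ≤ 1
  r0 : 0 < r
  r1 : r ≤ 1 / 4
  r2 : r ≤ σ - η
  c0 : 1 / 2 ≤ c
  c1 : c ≤ 1
  A0 : 0 ≤ A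
  d0 : 0 ≤ δ
  pr : PR (XP σ c r) f
  bd : ∀ z ∈ XP σ c r, ‖f z‖ ≤ A * ‖z.2‖ ^ m
  mean : ∀ α : ℂ, α ≠ 0 → ‖α‖ < r → f2 f 0 α = 0
  res : ∀ n k : ℤ, n ≠ 0 → |n| ≤ K → k ≠ 0 → |(k:ℝ) / n| < r →
    ‖f2 f n (k / n)‖ ≤ δ * gw (-1) n σ

/-- Approximate solution of the cohomological equation. -/
structure SC (C : ℝ) (m K : ℕ) (σ c r η A δ : ℝ) (f g : ℂ × ℂ → ℂ) : Prop where
  hol : DifferentiableOn ℂ g (XX (σ - η) (c - 1 / 2) (r * (1 - 1 / K)))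
  per : ∀ z ∈ XX (σ - η) (c - 1 / 2) (r * (1 - 1 / K)), g (z.1 + 1, z.2) = g z
  bd : ∀ z ∈ XX (σ - η) (c - 1 / 2) (r * (1 - 1 / K)),
    ‖g z‖ ≤ C * (K / η) ^ (m + 3) * (A + δ) * ‖z.2‖ ^ (m - 1)
  df : ∀ z ∈ XP (σ - η) c (r * (1 - 1 / K)), ‖g (zp z) - g (zm z) - f z‖
    ≤ C * (K / η) ^ (m + 3) * (δ + A * Real.exp (-(η * K))) * ‖z.2‖ ^ m

/-! ### The billiard generating function -/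

noncomputable def cl (y : ℝ) : ℝ := max 0 (min y 1)

noncomputable def cp (b : ℂ → ℂ) (z : ℂ × ℂ) (y : ℝ) : ℂ := b (z.1 + cl y * (z.2 - z.1))

noncomputable def Gc (j : ℂ) (b : ℂ → ℂ) (z : ℂ × ℂ) : ℂ := GG j (cp b z) (z.2 - z.1)

noncomputable def Rc (b : ℂ → ℂ) (z : ℂ × ℂ) : ℂ :=
  Complex.exp (-2 * b z.1) *
    Complex.exp (Complex.log (Complex.exp (4 * b z.1) * (Gc I b z * Gc (-I) b z)) / 2)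

noncomputable def Sc (b : ℂ → ℂ) (z : ℂ × ℂ) : ℂ := 4 * LA (cp b z) (z.2 - z.1) (Rc b z)

/-- Holomorphic extension of `β` to a strip. -/
structure EX (β : ℝ → ℝ) (b : ℂ → ℂ) (s M : ℝ) : Prop where
  pos : 0 < s
  hol : DifferentiableOn ℂ b (St s)
  per : ∀ z ∈ St s, b (z + 1) = b z
  real : ∀ z ∈ St s, b ((starRingEnd ℂ) z) = (starRingEnd ℂ) (b z)
  ext : ∀ t : ℝ, b t = β t
  bd : ∀ z ∈ St s, ‖b z‖ ≤ M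

structure RC (b : ℂ → ℂ) (s d C : ℝ) : Prop where
  dpos : 0 < d
  dle : d ≤ 1
  dls : d ≤ s / 4
  small : C * d ≤ 1 / 4
  h1 : ∀ z ∈ Om (s / 2) d,
    ‖Complex.exp (4 * b z.1) * (Gc I b z * Gc (-I) b z) - 1‖ ≤ C * ‖z.2 - z.1‖
  h2 : ∀ z ∈ Om (s / 2) d, Rc b z ^ 2 = Gc I b z * Gc (-I) b z
  h3 : ∀ z ∈ Om (s / 2) d, ‖Complex.exp (2 * b z.1) * Rc b z - 1‖ ≤ C * ‖z.2 - z.1‖

/-- Pinned billiard polygons of any winding number close up. -/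
def PQ (β : ℝ → ℝ) : Prop :=
  ∃ η : ℝ, 0 < η ∧ ∀ (q : ℕ) (p : ℤ) (x : ℤ → ℝ), 1 ≤ q → (∀ k, x (k + q) = x k + p) →
    (∀ k, 0 < x (k + 1) - x k ∧ x (k + 1) - x k < η) →
    (∀ k : ℤ, 0 < k → k < q → EE β x k = 0) → EE β x 0 = 0

/-- Real analytic family of invariant curves in the Lazutkin parameter. -/
structure RX (β : ℝ → ℝ) (r : ℝ) (X : ℝ × ℝ → ℝ) : Prop where
  pos : 0 < r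
  an : AnalyticOnNhd ℝ X (univ ×ˢ Ioo (-r) r)
  per : ∀ θ a : ℝ, |a| < r → X (θ + 1, a) = X (θ, a) + 1
  zero : ∀ θ : ℝ, X (θ, 0) = θ
  d1 : ∀ θ a : ℝ, |a| < r → |deriv (fun x => X (x, a)) θ - 1| ≤ 1 / 10
  eq : ∀ θ a : ℝ, 0 < a → a < r →
    Ee β (X (θ, a)) (X (θ + a, a) - X (θ, a)) (X (θ, a) - X (θ - a, a)) = 0

/-- Analytic action-angle coordinates near the boundary. -/
structure AAng (γ : ℝ → ℂ) (L r : ℝ) (σ d : ℝ × ℝ → ℝ) : Prop where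
  pos : 0 < r
  an1 : AnalyticOnNhd ℝ σ (univ ×ˢ Ioo (-r) r)
  an2 : AnalyticOnNhd ℝ d (univ ×ˢ Ioo (-r) r)
  per : ∀ θ a : ℝ, |a| < r → σ (θ + 1, a) = σ (θ, a) + L ∧ d (θ + 1, a) = d (θ, a)
  mono : ∀ θ a : ℝ, |a| < r → 0 < deriv (fun x => σ (x, a)) θ
  bdry : ∀ θ : ℝ, d (θ, 0) = 0 ∧ 0 < deriv (fun a => d (θ, a)) 0
  step : ∀ θ a : ℝ, 0 < a → a < r → 0 < d (θ, a) ∧ d (θ, a) < Real.pi ∧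
    Step γ L (σ (θ, a)) (d (θ, a)) (σ (θ + a, a)) (d (θ + a, a))

end Vale.Agent.P097
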