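import Vale.Agent.P097.KStm

open Set NormedSpace Complex Metric

namespace Vale.Agent.P097

namespace KDivAux

theorem gw_mono {c c' s : ℝ} (n : ℤ) (h : c ≤ c') (hs : 0 ≤ s) : gw c n s ≤ gw c' n s := by
  unfold gw
  have := Real.pi_pos
  gcongr

theorem gw_split (c s : ℝ) (n : ℤ) : gw c n s = gw (c - 1 / 2) n s * gw (1 / 2) n s := by
  unfold gw
  rw [← Real.exp_add]
  congr 1
  ring

theorem gw_shift {c s t R : ℝ} {n : ℤ} (h0 : 0 ≤ c) (h1 : c ≤ 1) (hR : 0 ≤ R)
    (hn : |(n:ℝ)| * R ≤ 1 / 4) (h : t ≤ s + R) : gw c n t ≤ Real.exp 2 * gw c n s := by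
  unfold gw
  rw [← Real.exp_add]
  refine Real.exp_le_exp.2 ?_
  have hp := Real.pi_pos
  have a : 2 * Real.pi * c * |(n:ℝ)| * t ≤ 2 * Real.pi * c * |(n:ℝ)| * (s + R) := by gcongr
  have b : Real.pi * c ≤ 4 * 1 := mul_le_mul Real.pi_le_four h1 h0 (by norm_num)
  have e : Real.pi * c * (|(n:ℝ)| * R) ≤ 4 * 1 * (1 / 4) :=
    mul_le_mul b hn (by positivity) (by norm_num)
  linarith

end KDivAux

open KDivAux in
theorem divE (hquot : S_quot) (hdiva : S_diva) (hdivb : S_divb) : S_div := by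
  classical
  refine ⟨32 * Real.exp 2, by positivity, ?_⟩
  intro m K n r c A δ N hm hK hn hnK hr hr4 hc hc1 hA hδ hN hb hres
  obtain ⟨d, hd, hdk, hdb⟩ := hdiva m K n r δ N hn hnK hr4 hδ hres
  obtain ⟨m, rfl⟩ : ∃ j, m = j + 1 := ⟨m - 1, by omega⟩
  rw [Nat.add_sub_cancel]
  have hK1 : (1 : ℝ) ≤ K := by exact_mod_cast (by omega : 1 ≤ K)
  have hK0 : (0 : ℝ) < K := by linarith
  obtain ⟨Q, hQ⟩ : ∃ Q : ℝ, Q = (K : ℝ) ^ (m + 1 + 1) * (A + δ) := ⟨_, rfl⟩
  have hQ0 : 0 ≤ Q := by rw [hQ]; positivity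
  obtain ⟨N1, hN1⟩ : ∃ N1 : ℂ → ℂ, N1 = fun x => if x = 0 then 0 else (N x - d x) / x ^ m :=
    ⟨_, rfl⟩
  have n0 : N1 0 = 0 := by rw [hN1]; exact if_pos rfl
  have n1 : ∀ x, x ≠ 0 → N1 x = (N x - d x) / x ^ m := fun x hx => by rw [hN1]; exact if_neg hx
  have bd : ∀ x ∈ ball (0:ℂ) r, ‖N1 x‖ ≤ Q * ‖x‖ * gw c n |x.im| := by
    intro x hx
    by_cases h0 : x = 0
    · rw [h0, n0]; simp
    have hx0 : 0 < ‖x‖ := norm_pos_iff.2 h0
    have g0 := gw_pos c n |x.im|
    have a1 := hb x hx h0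
    have a2 : ‖d x‖ ≤ (K : ℝ) ^ (m + 1 + 1) * δ * ‖x‖ ^ (m + 1) * gw c n |x.im| :=
      (hdb x).trans (mul_le_mul_of_nonneg_left (gw_mono n hc (abs_nonneg _)) (by positivity))
    have a3 : A * ‖x‖ ^ (m + 1) * gw c n |x.im| ≤
        (K : ℝ) ^ (m + 1 + 1) * (A * ‖x‖ ^ (m + 1) * gw c n |x.im|) :=
      le_mul_of_one_le_left (by positivity) (one_le_pow₀ hK1)
    rw [n1 x h0, norm_div, norm_pow, div_le_iff₀ (by positivity)]
    calc ‖N x - d x‖ ≤ ‖N x‖ + ‖d x‖ := norm_sub_le _ _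
      _ ≤ _ := add_le_add (a1.trans a3) a2
      _ = _ := by rw [hQ]; ring
  have hol : DifferentiableOn ℂ N1 (ball 0 r) := by
    refine (Complex.differentiableOn_compl_singleton_and_continuousAt_iff
      (ball_mem_nhds 0 hr)).1 ⟨?_, ?_⟩
    · exact ((hN.sub hd.differentiableOn).div (differentiableOn_pow m)
        fun x hx => pow_ne_zero _ hx.2).congr fun x hx => n1 x hx.2
    · have hc : Continuous fun x : ℂ => Q * ‖x‖ * gw c n |x.im| := by
        unfold gw
        fun_prop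
      have h1 := hc.tendsto 0
      rw [norm_zero, mul_zero, zero_mul] at h1
      rw [ContinuousAt, n0]
      exact squeeze_zero_norm' (Filter.eventually_of_mem (ball_mem_nhds 0 hr) bd) h1
  have hn0 : (n : ℂ) ≠ 0 := by exact_mod_cast hn
  obtain ⟨h, hh, hE⟩ := hdivb n r N1 hn hol fun k hk => by
    by_cases h0 : k = 0
    · rw [h0, Int.cast_zero, zero_div, n0]
    · rw [n1 _ (div_ne_zero (by exact_mod_cast h0) hn0), hdk k h0 hk, sub_self, zero_div]
  refine ⟨fun x => x ^ m * h x, (differentiableOn_pow m).mul hh, fun x hx => ?_,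
    fun x hx h0 => ?_⟩
  · have hR : 0 < r / K := by positivity
    have a1 : (1 : ℝ) ≤ |(n : ℝ)| := by exact_mod_cast Int.one_le_abs hn
    have a2 : |(n : ℝ)| ≤ K := by exact_mod_cast hnK
    have a3 : |(n : ℝ)| * (r / K) ≤ 1 / 4 := by
      refine le_trans ?_ hr4
      rw [← mul_div_assoc, div_le_iff₀ hK0]
      nlinarith
    have sub : ball x (r / K) ⊆ ball 0 r := ball_subset_ball' (by
      have := mem_ball.1 hx
      rw [mul_sub, mul_one, mul_one_div] at this
      linarith)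
    have g0 := gw_pos c n |x.im|
    have g1 := gw_pos (1 / 2) n |x.im|
    have key := hquot n x (r / K) (Q * r * (Real.exp 2 * gw c n |x.im|)) h hn hR a3 (hh.mono sub)
      fun α hα => by
        rw [← hE α (sub hα)]
        refine (bd α (sub hα)).trans (mul_le_mul (mul_le_mul_of_nonneg_left
          (mem_ball_zero_iff.1 (sub hα)).le hQ0) (gw_shift (by linarith) hc1 hR.le a3
          (im_ball (ball_subset_closedBall hα))) (gw_pos _ _ _).le (by positivity))
    have k2 : 32 * (Q * r * (Real.exp 2 * gw c n |x.im|)) / (|(n : ℝ)| * (r / K)) ≤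
        32 * (Q * r * (Real.exp 2 * gw c n |x.im|)) / (r / K) :=
      div_le_div_of_nonneg_left (by positivity) hR (le_mul_of_one_le_left hR.le a1)
    have k3 : ‖h x‖ ≤ 32 * Real.exp 2 * (K : ℝ) ^ (m + 1 + 2) * (A + δ) *
        gw (c - 1 / 2) n |x.im| := by
      refine le_of_mul_le_mul_right ((key.trans k2).trans (le_of_eq ?_)) g1
      rw [gw_split c, hQ]
      field_simp
      ring
    rw [norm_mul, norm_pow]
    refine (mul_le_mul_of_nonneg_left k3 (by positivity)).trans (le_of_eq (by ring))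
  · have e : sv n x * (x ^ m * h x) - N x = -d x := by
      have h1 := hE x hx
      rw [n1 x h0, div_eq_iff (pow_ne_zero _ h0)] at h1
      linear_combination -h1
    show ‖sv n x * (x ^ m * h x) - N x‖ ≤ _
    rw [e, norm_neg]
    exact hdb x

end Vale.Agent.P097
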