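import Vale.Agent.P097.KStm

open Set NormedSpace Complex Metric

namespace Vale.Agent.P097

namespace KDivaAux

theorem hd (n : ℤ) (x : ℂ) :
    HasDerivAt (sv n) (2 * I * (Complex.cos (Real.pi * (n * x)) * (Real.pi * (n * 1)))) x :=
  ((((hasDerivAt_id x).const_mul (n : ℂ)).const_mul (Real.pi : ℂ)).csin).const_mul (2 * I)

theorem cos_le (w : ℂ) : ‖Complex.cos w‖ ≤ Real.exp |w.im| := by
  have h1 : ‖Complex.exp (w * I)‖ ≤ Real.exp |w.im| := by
    rw [norm_exp]; exact Real.exp_le_exp.2 (by simp [neg_le_abs])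
  have h2 : ‖Complex.exp (-w * I)‖ ≤ Real.exp |w.im| := by
    rw [norm_exp]; exact Real.exp_le_exp.2 (by simp [le_abs_self])
  have h3 := norm_add_le (Complex.exp (w * I)) (Complex.exp (-w * I))
  rw [Complex.cos, norm_div, Complex.norm_two]
  linarith

theorem nrm (n : ℤ) (x : ℂ) :
    ‖2 * I * (Complex.cos (Real.pi * (n * x)) * (Real.pi * (n * 1)))‖ =
      2 * Real.pi * |(n : ℝ)| * ‖Complex.cos (Real.pi * (n * x))‖ := by
  simp only [norm_mul, Complex.norm_two, norm_I, norm_real, norm_intCast, norm_one,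
    Real.norm_eq_abs, abs_of_pos Real.pi_pos]
  ring

theorem der_le (n : ℤ) {t : ℂ} {s : ℝ} (h : |t.im| ≤ s) :
    ‖2 * I * (Complex.cos (Real.pi * (n * t)) * (Real.pi * (n * 1)))‖ ≤
      2 * Real.pi * |(n : ℝ)| * gw (1 / 2) n s := by
  rw [nrm]
  refine mul_le_mul_of_nonneg_left ((cos_le _).trans (Real.exp_le_exp.2 ?_)) (by positivity)
  have e : ((Real.pi : ℂ) * (n * t)).im = Real.pi * (n * t.im) := by simp
  rw [e, abs_mul, abs_mul, abs_of_pos Real.pi_pos]
  have : Real.pi * (|(n : ℝ)| * |t.im|) ≤ Real.pi * (|(n : ℝ)| * s) := by gcongr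
  linarith

theorem ds_le (n : ℤ) {a : ℂ} (ha : a.im = 0) (x : ℂ) :
    ‖dslope (sv n) a x‖ ≤ 2 * Real.pi * |(n : ℝ)| * gw (1 / 2) n |x.im| := by
  by_cases h : x = a
  · rw [h, dslope_same, (hd n a).deriv]
    exact der_le n le_rfl
  · rw [dslope_of_ne _ h, slope_def_field, norm_div, div_le_iff₀ (norm_pos_iff.2 (sub_ne_zero.2 h))]
    refine mvt fun t ht => ⟨hd n t, der_le n ?_⟩
    obtain ⟨p, q, hp, hq, e, rfl⟩ := ht
    have e2 : (p • a + q • x).im = q * x.im := by simp [ha]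
    rw [e2, abs_mul, abs_of_nonneg hq]
    exact mul_le_of_le_one_left (abs_nonneg _) (by linarith)

theorem arg {n : ℤ} (hn : n ≠ 0) (k : ℤ) : (Real.pi : ℂ) * (n * ((k : ℂ) / n)) = k * Real.pi := by
  have : (n : ℂ) ≠ 0 := Int.cast_ne_zero.2 hn
  field_simp

theorem sv_zero {n : ℤ} (hn : n ≠ 0) (k : ℤ) : sv n (k / n) = 0 := by
  rw [sv, arg hn, Complex.sin_int_mul_pi, mul_zero]

theorem der_eq {n : ℤ} (hn : n ≠ 0) (k : ℤ) :
    ‖deriv (sv n) (k / n)‖ = 2 * Real.pi * |(n : ℝ)| := by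
  have h := Complex.sin_sq_add_cos_sq (k * Real.pi)
  rw [Complex.sin_int_mul_pi, zero_pow two_ne_zero, zero_add] at h
  have h2 : ‖Complex.cos (k * Real.pi)‖ = 1 := by
    have := congrArg norm h
    rw [norm_pow, norm_one] at this
    exact (pow_eq_one_iff_of_nonneg (norm_nonneg _) two_ne_zero).1 this
  rw [(hd n _).deriv, nrm, arg hn, h2, mul_one]

end KDivaAux

open KDivaAux in
theorem divaE : S_diva := by
  classical
  intro m K n r δ N hn hK hr hδ hN
  have n0 : (n : ℂ) ≠ 0 := Int.cast_ne_zero.2 hn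
  have n1 : (0 : ℝ) < |(n : ℝ)| := abs_pos.2 (Int.cast_ne_zero.2 hn)
  have nK : |(n : ℝ)| ≤ K := by exact_mod_cast hK
  have p0 : 0 < 2 * Real.pi * |(n : ℝ)| := by have := Real.pi_pos; positivity
  have K1 : 1 ≤ K := by have := Int.one_le_abs hn; omega
  set s := (Finset.Icc (-((K / 4 : ℕ) : ℤ)) ((K / 4 : ℕ) : ℤ)).filter
    fun k : ℤ => k ≠ 0 ∧ |(k : ℝ) / n| < r with hs
  have cs : (s.card : ℝ) ≤ K := by
    have := Finset.card_filter_le (Finset.Icc (-((K / 4 : ℕ) : ℤ)) ((K / 4 : ℕ) : ℤ))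
      fun k : ℤ => k ≠ 0 ∧ |(k : ℝ) / n| < r
    rw [Int.card_Icc] at this
    have h2 : s.card ≤ K := by rw [hs]; omega
    exact_mod_cast h2
  have ms : ∀ k : ℤ, k ≠ 0 → |(k : ℝ) / n| < r → k ∈ s := fun k h1 h2 => by
    refine Finset.mem_filter.2 ⟨Finset.mem_Icc.2 ?_, h1, h2⟩
    rw [abs_div, div_lt_iff₀ n1] at h2
    have h3 : 4 * |(k : ℝ)| < K := by nlinarith
    have h4 : 4 * |k| < K := by exact_mod_cast h3
    have := le_abs_self k
    have := neg_abs_le k
    omega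
  have dd : ∀ a, Differentiable ℂ (dslope (sv n) a) := fun a =>
    differentiableOn_univ.1 ((Complex.differentiableOn_dslope Filter.univ_mem).2
      fun x _ => (hd n x).differentiableAt.differentiableWithinAt)
  refine ⟨fun x => ∑ k ∈ s, N (k / n) * (x / (k / n)) ^ m * dslope (sv n) (k / n) x /
    deriv (sv n) (k / n), ?_, fun k h1 h2 => ?_, fun x => ?_⟩
  · exact Differentiable.fun_sum fun k _ => (((differentiable_const _).mul
      ((differentiable_id.div_const _).pow m)).mul (dd _)).div_const _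
  · have k0 : (k : ℂ) / n ≠ 0 := div_ne_zero (Int.cast_ne_zero.2 h1) n0
    have d0 : deriv (sv n) (k / n) ≠ 0 := norm_pos_iff.1 (by rw [der_eq hn]; exact p0)
    beta_reduce
    rw [Finset.sum_eq_single_of_mem k (ms k h1 h2), dslope_same, div_self k0, one_pow, mul_one,
      mul_div_cancel_right₀ _ d0]
    intro j _ hj
    have ne : (k : ℂ) / n ≠ j / n := fun e =>
      hj (Int.cast_injective (α := ℂ) ((div_left_inj' n0).1 e)).symm
    rw [dslope_of_ne _ ne, slope_def_field, sv_zero hn, sv_zero hn]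
    simp
  · have g0 : 0 < gw (1 / 2) n |x.im| := Real.exp_pos _
    refine (norm_sum_le _ _).trans ((Finset.sum_le_card_nsmul _ _
      ((K : ℝ) ^ m * δ * ‖x‖ ^ m * gw (1 / 2) n |x.im|) fun k hk => ?_).trans ?_)
    · obtain ⟨-, h1, h2⟩ := Finset.mem_filter.1 hk
      have k1 : (1 : ℝ) ≤ |(k : ℝ)| := by exact_mod_cast Int.one_le_abs h1
      have a1 : ‖x / ((k : ℂ) / n)‖ ≤ K * ‖x‖ := by
        rw [div_div_eq_mul_div, norm_div, norm_mul, norm_intCast, norm_intCast]
        refine (div_le_self (by positivity) k1).trans ?_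
        rw [mul_comm]
        gcongr
      have a2 := ds_le n (a := (k : ℂ) / n) (by
        rw [← ofReal_intCast, ← ofReal_intCast, ← ofReal_div, ofReal_im]) x
      have a3 := hN k h1 h2
      rw [norm_div, der_eq hn, div_le_iff₀ p0, norm_mul, norm_mul, norm_pow]
      calc _ ≤ δ * (K * ‖x‖) ^ m * (2 * Real.pi * |(n : ℝ)| * gw (1 / 2) n |x.im|) := by gcongr
        _ = _ := by ring
    · rw [nsmul_eq_mul]
      calc _ ≤ K * ((K : ℝ) ^ m * δ * ‖x‖ ^ m * gw (1 / 2) n |x.im|) := by gcongr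
        _ = _ := by ring

end Vale.Agent.P097
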