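import Vale.Agent.P097.KStm

open Set NormedSpace Complex Metric

namespace Vale.Agent.P097

namespace KDivbAux

open Filter Topology

theorem sv_der (n : ℤ) (a : ℂ) :
    HasDerivAt (sv n) (2 * I * (Complex.cos (Real.pi * (n * a)) * (Real.pi * (n * 1)))) a :=
  ((((hasDerivAt_id a).const_mul (n : ℂ)).const_mul (Real.pi : ℂ)).csin).const_mul (2 * I)

theorem sv_diff (n : ℤ) : Differentiable ℂ (sv n) := fun a => (sv_der n a).differentiableAt

theorem sin_zero {n : ℤ} {a : ℂ} (h : sv n a = 0) : Complex.sin (Real.pi * (n * a)) = 0 :=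
  (mul_eq_zero.1 h).resolve_left (mul_ne_zero two_ne_zero I_ne_zero)

theorem der_ne {n : ℤ} (hn : n ≠ 0) {a : ℂ} (h : sv n a = 0) : deriv (sv n) a ≠ 0 := by
  rw [(sv_der n a).deriv]
  have h1 : Complex.cos (Real.pi * (n * a)) ≠ 0 := fun h0 => by
    have := Complex.sin_sq_add_cos_sq (Real.pi * (n * a))
    rw [sin_zero h, h0] at this
    simp at this
  have h2 : (Real.pi : ℂ) ≠ 0 := by exact_mod_cast Real.pi_ne_zero
  have h3 : (n : ℂ) ≠ 0 := by exact_mod_cast hn
  simp [h1, h2, h3]

theorem zero_eq {n : ℤ} (hn : n ≠ 0) {a : ℂ} (h : sv n a = 0) : ∃ k : ℤ, a = k / n := by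
  obtain ⟨k, hk⟩ := Complex.sin_eq_zero_iff.1 (sin_zero h)
  have h2 : (Real.pi : ℂ) ≠ 0 := by exact_mod_cast Real.pi_ne_zero
  have h3 : (n : ℂ) ≠ 0 := by exact_mod_cast hn
  refine ⟨k, ?_⟩
  rw [eq_div_iff h3]
  exact mul_left_cancel₀ h2 (by rw [mul_comm a, hk, mul_comm])

end KDivbAux

open KDivbAux Filter Topology in
theorem divbE : S_divb := by
  classical
  intro n r N hn hN h0
  have hz : ∀ a ∈ ball (0 : ℂ) r, sv n a = 0 → N a = 0 := fun a ha h => by
    obtain ⟨k, rfl⟩ := zero_eq hn h
    refine h0 k ?_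
    rw [mem_ball_zero_iff, show ((k : ℂ) / n) = (((k : ℝ) / n : ℝ) : ℂ) by push_cast; rfl,
      Complex.norm_real, Real.norm_eq_abs] at ha
    exact ha
  refine ⟨fun x => if sv n x = 0 then deriv N x / deriv (sv n) x else N x / sv n x,
    fun a ha => DifferentiableAt.differentiableWithinAt ?_, fun a ha => ?_⟩
  · have hb : ball (0 : ℂ) r ∈ 𝓝 a := isOpen_ball.mem_nhds ha
    by_cases h : sv n a = 0
    · have d1 := ((Complex.differentiableOn_dslope hb).2 hN).differentiableAt hb
      have d2 := ((Complex.differentiableOn_dslope hb).2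
        (sv_diff n).differentiableOn).differentiableAt hb
      have d3 : dslope (sv n) a a ≠ 0 := by rw [dslope_same]; exact der_ne hn h
      refine (d1.div d2 d3).congr_of_eventuallyEq ?_
      filter_upwards [d2.continuousAt.eventually_ne d3] with x hx
      by_cases hxa : x = a
      · subst hxa
        simp [h]
      · have e1 := sub_smul_dslope (sv n) a x
        have e2 := sub_smul_dslope N a x
        rw [h, sub_zero, smul_eq_mul] at e1
        rw [hz a ha h, sub_zero, smul_eq_mul] at e2
        have e3 := sub_ne_zero.2 hxa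
        rw [if_neg (by rw [← e1]; exact mul_ne_zero e3 hx), ← e1, ← e2, mul_div_mul_left _ _ e3]
        rfl
    · refine ((hN.differentiableAt hb).div (sv_diff n a) h).congr_of_eventuallyEq ?_
      filter_upwards [(sv_diff n a).continuousAt.eventually_ne h] with x hx
      rw [if_neg hx]
      rfl
  · by_cases h : sv n a = 0
    · rw [hz a ha h, h, zero_mul]
    · simp only [if_neg h]
      rw [mul_div_cancel₀ _ h]

end Vale.Agent.P097
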