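import Vale.Agent.P097.KStm

open Set NormedSpace Complex Metric

namespace Vale.Agent.P097

namespace KDsAux

theorem low {α a : ℂ} (h : ‖a - α‖ ≤ ‖α‖ / 2) : ‖α‖ / 2 ≤ ‖a‖ := by
  have := norm_sub_norm_le α a
  rw [norm_sub_rev] at this
  linarith

theorem disc {α a : ℂ} (h0 : a ≠ 0) (h : ‖a - α‖ ≤ ‖α‖ / 2) : ‖α * (1 / a) - 4 / 3‖ ≤ 2 / 3 := by
  have h1 : ‖3 * α - 4 * a‖ ≤ 2 * ‖a‖ := by
    rw [← sq_le_sq₀ (norm_nonneg _) (by positivity)] at h ⊢
    simp only [mul_pow, div_pow, Complex.sq_norm, Complex.normSq_apply, sub_re, sub_im, mul_re,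
      mul_im, re_ofNat, im_ofNat] at h ⊢
    linarith
  rw [show α * (1 / a) - 4 / 3 = (3 * α - 4 * a) / (3 * a) by field_simp, norm_div, norm_mul,
    div_le_iff₀ (mul_pos (by simp) (norm_pos_iff.2 h0))]
  simp only [Complex.norm_ofNat]
  linarith

theorem sum_low {q : ℕ} {α : ℂ} {a : ℕ → ℂ} (h0 : ∀ i < q, a i ≠ 0)
    (h : ∀ i < q, ‖a i - α‖ ≤ ‖α‖ / 2) :
    2 / 3 * (q : ℝ) ≤ ‖α‖ * ‖∑ i ∈ Finset.range q, 1 / a i‖ := by
  have h1 := norm_sum_le_of_le (Finset.range q) fun i hi =>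
    disc (h0 i (Finset.mem_range.1 hi)) (h i (Finset.mem_range.1 hi))
  rw [Finset.sum_sub_distrib, ← Finset.mul_sum, Finset.sum_const, Finset.sum_const,
    Finset.card_range, nsmul_eq_mul, nsmul_eq_mul, norm_sub_rev] at h1
  have h2 := (norm_sub_norm_le _ _).trans h1
  rw [norm_mul, norm_mul, norm_div] at h2
  simp only [Complex.norm_ofNat, Complex.norm_natCast] at h2
  linarith

end KDsAux

theorem dsE : S_ds := by
  intro q α a hq hα h
  have n0 : 0 < ‖α‖ := norm_pos_iff.2 hα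
  have q0 : (0 : ℝ) < q := by exact_mod_cast hq
  have h0 : ∀ i < q, a i ≠ 0 := fun i hi =>
    norm_pos_iff.1 ((half_pos n0).trans_le (KDsAux.low (h i hi)))
  have h1 := KDsAux.sum_low h0 h
  have h2 : ∑ i ∈ Finset.range q, 1 / a i ≠ 0 := fun e => by
    rw [e, norm_zero] at h1
    linarith
  refine ⟨h0, h2, fun F => ⟨rfl, ?_, fun j j0 jq => ?_, fun B hB hF j hj => ?_⟩⟩
  · simp only [ds, sub_div, Finset.sum_sub_distrib]
    rw [Finset.sum_congr rfl fun i _ => div_eq_mul_one_div _ (a i), ← Finset.mul_sum,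
      div_mul_cancel₀ _ h2, sub_self]
  · obtain ⟨k, rfl⟩ : ∃ k, j = k + 1 := ⟨j - 1, by omega⟩
    simp only [ds, Finset.sum_range_succ, add_sub_cancel_left, Nat.add_sub_cancel]
    rw [mul_div_cancel₀ _ (h0 _ jq), mul_div_cancel₀ _ (h0 k (by omega)),
      Finset.sum_Icc_succ_top (by omega)]
    ring
  · have hP : ∀ i < q, ‖∑ l ∈ Finset.Icc 1 i, F l‖ ≤ q * B := fun i hi => by
      refine (norm_sum_le_of_le _ fun l hl => hF l (Finset.mem_Icc.1 hl).1
        ((Finset.mem_Icc.1 hl).2.trans_lt hi)).trans ?_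
      rw [Finset.sum_const, Nat.card_Icc, Nat.add_sub_cancel, nsmul_eq_mul]
      exact mul_le_mul_of_nonneg_right (by exact_mod_cast hi.le) hB
    have hd : ∀ i < q, ∀ (x : ℂ) (y : ℝ), ‖x‖ ≤ y → ‖x / a i‖ ≤ y / (‖α‖ / 2) :=
      fun i hi x y e => by
        rw [norm_div]
        exact div_le_div₀ ((norm_nonneg _).trans e) e (half_pos n0) (KDsAux.low (h i hi))
    have hN := norm_sum_le_of_le (Finset.range q) fun i hi =>
      hd i (Finset.mem_range.1 hi) _ _ (hP i (Finset.mem_range.1 hi))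
    rw [Finset.sum_const, Finset.card_range, nsmul_eq_mul] at hN
    have hl : ‖(∑ i ∈ Finset.range q, (∑ l ∈ Finset.Icc 1 i, F l) / a i) /
        ∑ i ∈ Finset.range q, 1 / a i‖ ≤ 3 * (q * B) := by
      rw [norm_div, div_le_iff₀ (norm_pos_iff.2 h2)]
      refine hN.trans ?_
      rw [← mul_div_assoc, div_le_iff₀ (half_pos n0)]
      nlinarith [mul_le_mul_of_nonneg_left h1 (show 0 ≤ q * B by positivity)]
    refine (norm_sum_le_of_le _ fun i hi => hd i ((Finset.mem_range.1 hi).trans_le hj) _ _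
      ((norm_sub_le _ _).trans (add_le_add hl (hP i ((Finset.mem_range.1 hi).trans_le hj))))).trans ?_
    rw [Finset.sum_const, Finset.card_range, nsmul_eq_mul]
    refine (mul_le_mul_of_nonneg_right (show (j : ℝ) ≤ q by exact_mod_cast hj)
      (by positivity)).trans_eq ?_
    field_simp
    ring

end Vale.Agent.P097
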