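import Vale.Agent.P097.Ob

open Set NormedSpace Complex

namespace Vale.Agent.P097

namespace LinAux

/-- Data of the linear term. -/
structure DL (M : ℝ) : Type 1 where
  D : Dat M
  R : D.B
  Ri : D.B
  h : ℝ → D.B
  hR : R ^ 2 = GG I D.b D.d * GG (-I) D.b D.d
  hRi : R * Ri = 1
  h1 : ‖exp ((2 : ℂ) • D.b0) * R - 1‖ ≤ M * D.ω
  h2 : ‖Ri‖ ≤ M
  hc : Continuous h
  hh : ∀ y ∈ Icc (0:ℝ) 1, ‖h y‖ ≤ M

section Alg

variable {B : Type} [NormedCommRing B] [NormedAlgebra ℂ B] [CompleteSpace B]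

theorem ex_two (x : B) : exp ((2 : ℂ) • x) = exp x ^ 2 := by
  rw [two_smul, ex_add, sq]

theorem ex_m (x : B) : exp ((-2 : ℂ) • x) * exp x ^ 2 = 1 := by
  rw [← ex_two, ← ex_add, ← add_smul]
  simp

theorem ex_diff (x y : B) : exp x - exp y = exp y * (exp (x - y) - 1) := by
  rw [mul_sub, ← ex_add, add_sub_cancel, mul_one]

theorem cs_sn (b : ℝ → B) (d R Ri : B) (hR : R ^ 2 = GG I b d * GG (-I) b d) (hRi : R * Ri = 1)
    (y : ℝ) : cs b d Ri y ^ 2 + sn b d Ri y ^ 2 = 1 := by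
  have e : ph I b d y * ph (-I) b d y = 1 := by
    rw [ph, ph, neg_smul]
    exact ex_neg _
  unfold cs sn
  generalize ph I b d y = P at e ⊢
  generalize ph (-I) b d y = Q at e ⊢
  generalize GG I b d = G at hR ⊢
  generalize GG (-I) b d = H at hR ⊢
  linear_combination (norm := algebra) (Ri ^ 2 * G * H) * e - Ri ^ 2 * hR + (R * Ri + 1) * hRi
    + I_mul_I • ((1 / 4 : ℂ) • (Ri * (P * H - Q * G)) ^ 2)

end Alg

variable {M : ℝ}

/-- The small parameter. -/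
abbrev ww (E : DL M) : ℝ := E.D.ω

theorem sm : Sm (ww (M := M)) := fun E => ⟨E.D.pos, E.D.le⟩

theorem o0 : Ob ww 0 fun (E : DL M) (_ : ℝ) => E.D.b0 := Dat.o0.comp DL.D
theorem o1 : Ob ww 0 fun (E : DL M) (_ : ℝ) => E.D.b1 := Dat.o1.comp DL.D
theorem o2 : Ob ww 0 fun (E : DL M) (_ : ℝ) => E.D.b2 := Dat.o2.comp DL.D
theorem od : Ob ww 1 fun (E : DL M) (_ : ℝ) => E.D.d := Dat.od.comp DL.D
theorem oc : Ob ww 1 fun (E : DL M) (y : ℝ) => E.D.b y - E.D.b0 := Dat.oc.comp DL.D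
theorem ow : Ob ww 0 fun (E : DL M) (_ : ℝ) => exp E.D.b0 := o0.exp0 sm
theorem oE : Ob ww 0 fun (E : DL M) (_ : ℝ) => exp ((-2 : ℂ) • E.D.b0) := (o0.smul _).exp0 sm
theorem oh : Ob ww 0 fun (E : DL M) (y : ℝ) => E.h y :=
  .of_le sm (C := M) fun E y hy => by simpa using E.hh y hy
theorem oRi : Ob ww 0 fun (E : DL M) (_ : ℝ) => E.Ri :=
  .of_le sm (C := M) fun E _ _ => by simpa using E.h2
theorem oR : Ob ww 1 fun (E : DL M) (_ : ℝ) => exp ((2 : ℂ) • E.D.b0) * E.R - 1 :=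
  .of_le sm (C := M) fun E _ _ => by simpa using E.h1

/-- `r = exp (-2 b0) Ri = 1 + O(1)`. -/
theorem or1 : Ob ww 1 fun (E : DL M) (_ : ℝ) => exp ((-2 : ℂ) • E.D.b0) * E.Ri - 1 :=
  ((oE.mul oRi).mul oR).neg.congr fun E _ _ => by
    have e := ex_m E.D.b0
    rw [ex_two]
    linear_combination (E.R * E.Ri) * e + E.hRi

theorem oexp : Ob ww 1 fun (E : DL M) (y : ℝ) => exp (E.D.b y) - exp E.D.b0 :=
  (ow.mul (oc.exp1 sm)).congr fun _ _ _ => ex_diff _ _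

theorem oem : Ob ww 1 fun (E : DL M) (y : ℝ) => em E.D.b y - exp ((-2 : ℂ) • E.D.b0) :=
  (oE.mul ((oc.smul (-2)).exp1 sm)).congr fun E y _ => by rw [em, ex_diff, smul_sub]

theorem okk : Ob ww 1 fun (E : DL M) (y : ℝ) => kk E.D.b y - (y:ℂ) • exp E.D.b0 :=
  oexp.prim.congr fun E y _ => by
    rw [intervalIntegral.integral_sub (f := fun z => exp (E.D.b z))
      ((ex_cont.comp E.D.h.cont).intervalIntegrable _ _)
      intervalIntegrable_const, intervalIntegral.integral_const, sub_zero, kk,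
      Complex.coe_smul]

theorem oJ : Ob ww 1 fun (E : DL M) (y : ℝ) =>
    JJ E.D.b E.h y - exp E.D.b0 * ∫ z in (0:ℝ)..y, E.h z :=
  (oexp.mul oh).prim.congr fun E y _ => by
    rw [← int_mul _ E.hc, JJ, ← intervalIntegral.integral_sub
      (f := fun z => exp (E.D.b z) * E.h z) (g := fun z => exp E.D.b0 * E.h z)
      (((ex_cont.comp E.D.h.cont).mul E.hc).intervalIntegrable _ _)
      ((continuous_const.mul E.hc).intervalIntegrable _ _)]
    simp only [sub_mul]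

theorem odk : Ob ww 1 fun (E : DL M) (y : ℝ) => E.D.d * kk E.D.b y :=
  (od.mul ((okk.mono sm zero_le_one).add (ow.smul_fn continuous_ofReal))).congr
    fun _ _ _ => by rw [sub_add_cancel]

theorem oph (j : ℂ) : Ob ww 2 fun (E : DL M) (y : ℝ) =>
    ph j E.D.b E.D.d y - (1 + j • (E.D.d * kk E.D.b y)) := (odk.smul j).exp2 sm

/-- Even part of `GG`. -/
noncomputable def AA (E : DL M) : E.D.B :=
  exp ((2 : ℂ) • E.D.b0) * ((1 / 2 : ℂ) • (GG I E.D.b E.D.d + GG (-I) E.D.b E.D.d))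

/-- Odd part of `GG`. -/
noncomputable def SS (E : DL M) : E.D.B :=
  exp E.D.b0 * ((-I / 2) • (GG I E.D.b E.D.d - GG (-I) E.D.b E.D.d))

/-- Odd part of `ph`. -/
noncomputable def si (E : DL M) (y : ℝ) : E.D.B :=
  (-I / 2) • (ph I E.D.b E.D.d y - ph (-I) E.D.b E.D.d y)

/-- Even part of `ph`. -/
noncomputable def ka (E : DL M) (y : ℝ) : E.D.B :=
  (1 / 2 : ℂ) • (ph I E.D.b E.D.d y + ph (-I) E.D.b E.D.d y)

/-- Leading term of `sn`. -/
noncomputable def tt (E : DL M) (y : ℝ) : E.D.B := ((y:ℂ) - 1 / 2) • (exp E.D.b0 * E.D.d)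

theorem oA (hA : S_expA) : Ob ww 1 fun (E : DL M) (_ : ℝ) => AA E - 1 := by
  obtain ⟨C, hC⟩ := hA M
  have h1 : Ob ww 3 fun (E : DL M) (_ : ℝ) =>
      AA E - (1 - E.D.b1 * E.D.d + a2 E.D.b0 E.D.b1 E.D.b2 * E.D.d ^ 2) :=
    .of_le sm (C := C) fun E _ _ => hC _ _ _ _ _ _ _ E.D.pos E.D.le E.D.h
  have h2 : Ob ww 0 fun (E : DL M) (_ : ℝ) => a2 E.D.b0 E.D.b1 E.D.b2 :=
    (((o1.pow 2).sub o2).smul _).sub ((ow.pow 2).smul _)
  exact (((h1.mono sm (by norm_num)).sub (o1.mul od)).add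
    ((h2.mul (od.pow 2)).mono sm (by norm_num))).congr fun _ _ _ => by ring

theorem oS (hS : S_expS) : Ob ww 2 fun (E : DL M) (_ : ℝ) => SS E - (1 / 2 : ℂ) • E.D.d := by
  obtain ⟨C, hC⟩ := hS M
  have h1 : Ob ww 4 fun (E : DL M) (_ : ℝ) => SS E - ((1 / 2 : ℂ) • E.D.d
      - (1 / 2 : ℂ) • (E.D.b1 * E.D.d ^ 2) + b3 E.D.b0 E.D.b1 E.D.b2 * E.D.d ^ 3) :=
    .of_le sm (C := C) fun E _ _ => hC _ _ _ _ _ _ _ E.D.pos E.D.le E.D.h
  have h2 : Ob ww 0 fun (E : DL M) (_ : ℝ) => b3 E.D.b0 E.D.b1 E.D.b2 :=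
    (((o1.pow 2).smul _).sub (o2.smul _)).sub ((ow.pow 2).smul _)
  exact (((h1.mono sm (by norm_num)).sub ((o1.mul (od.pow 2)).smul (1 / 2))).add
    ((h2.mul (od.pow 3)).mono sm (by norm_num))).congr fun _ _ _ => by ring

theorem osi : Ob ww 2 fun (E : DL M) (y : ℝ) => si E y - (y:ℂ) • (exp E.D.b0 * E.D.d) :=
  ((((oph I).sub (oph (-I))).smul (-I / 2)).add (od.mul okk)).congr fun E y _ => by
    unfold si
    linear_combination (norm := algebra) -(I_mul_I • (E.D.d * kk E.D.b y))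

theorem oka : Ob ww 2 fun (E : DL M) (y : ℝ) => ka E y - 1 :=
  (((oph I).add (oph (-I))).smul (1 / 2)).congr fun E y _ => by
    unfold ka
    algebra

theorem ot : Ob ww 1 fun (E : DL M) (y : ℝ) => tt E y :=
  (ow.mul od).smul_fn (c := fun y => (y:ℂ) - 1 / 2) (by fun_prop)

theorem sn_eq (E : DL M) (y : ℝ) : sn E.D.b E.D.d E.Ri y =
    exp ((-2 : ℂ) • E.D.b0) * E.Ri * (si E y * AA E - exp E.D.b0 * SS E * ka E y) := by
  have e := ex_m E.D.b0
  rw [← one_mul (sn _ _ _ _), ← e]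
  unfold sn si AA SS ka
  rw [ex_two]
  algebra

theorem cs_eq (E : DL M) (y : ℝ) : cs E.D.b E.D.d E.Ri y =
    exp ((-2 : ℂ) • E.D.b0) * E.Ri * (ka E y * AA E + si E y * (exp E.D.b0 * SS E)) := by
  have e := ex_m E.D.b0
  rw [← one_mul (cs _ _ _ _), ← e]
  unfold cs si AA SS ka
  rw [ex_two]
  linear_combination (norm := algebra) -(I_mul_I • ((1 / 4 : ℂ) • (exp ((-2 : ℂ) • E.D.b0) * E.Ri
    * exp E.D.b0 ^ 2 * (ph I E.D.b E.D.d y - ph (-I) E.D.b E.D.d y)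
    * (GG I E.D.b E.D.d - GG (-I) E.D.b E.D.d))))

section

variable (hA : S_expA) (hS : S_expS)
include hA hS

theorem osn : Ob ww 2 fun (E : DL M) (y : ℝ) => sn E.D.b E.D.d E.Ri y - tt E y := by
  have h1 : Ob ww 1 fun (E : DL M) (y : ℝ) => si E y :=
    ((osi.mono sm one_le_two).add ((ow.mul od).smul_fn continuous_ofReal)).congr
      fun _ _ _ => by rw [sub_add_cancel]
  have h2 : Ob ww 1 fun (E : DL M) (_ : ℝ) => SS E :=
    (((oS hS).mono sm one_le_two).add (od.smul (1 / 2))).congr fun _ _ _ => by rw [sub_add_cancel]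
  have h3 : Ob ww 2 fun (E : DL M) (y : ℝ) =>
      si E y * AA E - exp E.D.b0 * SS E * ka E y - tt E y :=
    (((osi.add (h1.mul (oA hA))).sub (ow.mul (oS hS))).sub
      (((ow.mul h2).mul oka).mono sm (by norm_num))).congr fun E y _ => by
        unfold tt
        algebra
  exact ((or1.mul ((h3.mono sm one_le_two).add ot)).add h3).congr fun E y _ => by
    rw [sn_eq]
    ring

theorem ocs1 : Ob ww 1 fun (E : DL M) (y : ℝ) => cs E.D.b E.D.d E.Ri y - 1 := by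
  have h1 : Ob ww 1 fun (E : DL M) (y : ℝ) => si E y :=
    ((osi.mono sm one_le_two).add ((ow.mul od).smul_fn continuous_ofReal)).congr
      fun _ _ _ => by rw [sub_add_cancel]
  have h2 : Ob ww 1 fun (E : DL M) (_ : ℝ) => SS E :=
    (((oS hS).mono sm one_le_two).add (od.smul (1 / 2))).congr fun _ _ _ => by rw [sub_add_cancel]
  have h4 : Ob ww 0 fun (E : DL M) (_ : ℝ) => AA E :=
    (((oA hA).mono sm zero_le_one).add Ob.one).congr fun _ _ _ => by rw [sub_add_cancel]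
  have h3 : Ob ww 1 fun (E : DL M) (y : ℝ) =>
      ka E y * AA E + si E y * (exp E.D.b0 * SS E) - 1 :=
    ((((oka.mul h4).mono sm (by norm_num)).add (oA hA)).add
      ((h1.mul (ow.mul h2)).mono sm (by norm_num))).congr fun E y _ => by ring
  exact ((or1.mul ((h3.mono sm zero_le_one).add Ob.one)).add h3).congr fun E y _ => by
    rw [cs_eq]
    ring

theorem osn1 : Ob ww 1 fun (E : DL M) (y : ℝ) => sn E.D.b E.D.d E.Ri y :=
  (((osn hA hS).mono sm one_le_two).add ot).congr fun _ _ _ => by rw [sub_add_cancel]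

theorem ocs2 : Ob ww 2 fun (E : DL M) (y : ℝ) => cs E.D.b E.D.d E.Ri y - 1 :=
  ((((osn1 hA hS).pow 2).add ((ocs1 hA hS).pow 2)).smul (-1 / 2)).congr fun E y _ => by
    linear_combination (norm := algebra) (1 / 2 : ℂ) • cs_sn E.D.b E.D.d E.R E.Ri E.hR E.hRi y

theorem ocs3 : Ob ww 3 fun (E : DL M) (y : ℝ) =>
    cs E.D.b E.D.d E.Ri y - 1 + (1 / 2 : ℂ) • tt E y ^ 2 :=
  ((((osn hA hS).mul ((osn1 hA hS).add ot)).add
    (((ocs2 hA hS).pow 2).mono sm (by norm_num))).smul (-1 / 2)).congr fun E y _ => by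
    linear_combination (norm := algebra) (1 / 2 : ℂ) • cs_sn E.D.b E.D.d E.R E.Ri E.hR E.hRi y

theorem oF : Ob ww 3 fun (E : DL M) (y : ℝ) =>
    em E.D.b y * ((-2 : ℂ) • (E.h y * (cs E.D.b E.D.d E.Ri y - 1))
      - E.D.d * JJ E.D.b E.h y * sn E.D.b E.D.d E.Ri y)
    - E.D.d ^ 2 * (((y:ℂ) - 1 / 2) ^ 2 • E.h y - ((y:ℂ) - 1 / 2) • ∫ z in (0:ℝ)..y, E.h z) := by
  have hH : Ob ww 0 fun (E : DL M) (y : ℝ) => exp E.D.b0 * ∫ z in (0:ℝ)..y, E.h z := ow.mul oh.prim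
  have hJ : Ob ww 0 fun (E : DL M) (y : ℝ) => JJ E.D.b E.h y :=
    ((oJ.mono sm zero_le_one).add hH).congr fun _ _ _ => by rw [sub_add_cancel]
  have h1 : Ob ww 2 fun (E : DL M) (y : ℝ) => (-2 : ℂ) • (E.h y * (cs E.D.b E.D.d E.Ri y - 1))
      - E.D.d * JJ E.D.b E.h y * sn E.D.b E.D.d E.Ri y :=
    ((oh.mul (ocs2 hA hS)).smul _).sub ((od.mul hJ).mul (osn1 hA hS))
  have h2 := (((oh.mul (ocs3 (M := M) hA hS)).smul (-2)).sub ((od.mul oJ).mul (osn1 hA hS))).sub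
    ((od.mul hH).mul (osn hA hS))
  exact ((oem.mul h1).add (oE.mul h2)).congr fun E y _ => by
    unfold tt
    linear_combination (norm := algebra) (E.D.d ^ 2 *
      (((y:ℂ) - 1 / 2) ^ 2 • E.h y - ((y:ℂ) - 1 / 2) • ∫ z in (0:ℝ)..y, E.h z)) * ex_m E.D.b0

theorem olin : Ob ww 4 fun (E : DL M) (_ : ℝ) =>
    lin E.D.b E.D.d E.Ri E.h - E.D.d ^ 3 * lead E.h :=
  (od.mul (oF hA hS).int).congr fun E _ _ => by
    have hb := E.D.h.cont
    have hc := E.hc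
    have h1 : Continuous fun y : ℝ =>
        ((y:ℂ) - 1 / 2) ^ 2 • E.h y - ((y:ℂ) - 1 / 2) • ∫ z in (0:ℝ)..y, E.h z := by
      have := intervalIntegral.continuous_primitive (μ := MeasureTheory.volume)
        (fun a b => hc.intervalIntegrable a b) 0
      fun_prop
    have h2 : Continuous fun y : ℝ => em E.D.b y * ((-2 : ℂ) • (E.h y * (cs E.D.b E.D.d E.Ri y - 1))
        - E.D.d * JJ E.D.b E.h y * sn E.D.b E.D.d E.Ri y) :=
      (em_cont hb).mul (((hc.mul ((cs_cont hb _ _).sub continuous_const)).const_smul _).sub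
        ((continuous_const.mul (JJ_cont hb hc)).mul (sn_cont hb _ _)))
    rw [intervalIntegral.integral_sub (h2.intervalIntegrable _ _)
      (Continuous.intervalIntegrable (by fun_prop) _ _), int_mul _ h1, lin, lead]
    ring

end

end LinAux

theorem linE (hexpA : S_expA) (hexpS : S_expS) : S_lin := by
  intro M
  obtain ⟨C, -, hC⟩ := LinAux.olin (M := M) hexpA hexpS
  exact ⟨C, fun B _ _ _ _ ω b0 b1 b2 d R Ri b h h0 h1 hp hR hRi h2 h3 hc hh =>
    hC ⟨⟨B, ω, b0, b1, b2, d, b, h0, h1, hp⟩, R, Ri, h, hR, hRi, h2, h3, hc, hh⟩ 0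
      ⟨le_rfl, zero_le_one⟩⟩

end Vale.Agent.P097
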