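import Vale.Agent.P097.KStm
import Vale.Agent.P097.Lin
import Vale.Agent.P097.ExpA

open Set NormedSpace Complex Metric

namespace Vale.Agent.P097

namespace KExplAux

open LinAux (ex_two ex_m)

variable {M : ℝ}

/-- Even part of `GG`. -/
noncomputable def AA (D : Dat M) : D.B :=
  exp ((2 : ℂ) • D.b0) * ((1 / 2 : ℂ) • (GG I D.b D.d + GG (-I) D.b D.d))

/-- Odd part of `GG`. -/
noncomputable def SS (D : Dat M) : D.B := exp D.b0 * ((-I / 2) • (GG I D.b D.d - GG (-I) D.b D.d))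

/-- Normalised arc length. -/
noncomputable def II (D : Dat M) : D.B := exp ((2 : ℂ) • D.b0) * ∫ y in (0:ℝ)..1, em D.b y

section

open Dat ExpAAux

theorem oA3 (hA : S_expA) : Ob Dat.ω 3 fun (D : Dat M) (_ : ℝ) =>
    AA D - (1 - D.b1 * D.d + a2 D.b0 D.b1 D.b2 * D.d ^ 2) := by
  obtain ⟨C, hC⟩ := hA M
  exact .of_le sm (C := C) fun D _ _ => hC _ _ _ _ _ _ _ D.pos D.le D.h

theorem oA (hA : S_expA) : Ob Dat.ω 1 fun (D : Dat M) (_ : ℝ) => AA D - 1 := by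
  have h2 : Ob Dat.ω 0 fun (D : Dat M) (_ : ℝ) => a2 D.b0 D.b1 D.b2 :=
    (((o1.pow 2).sub o2).smul _).sub ((ow.pow 2).smul _)
  exact ((((oA3 hA).mono sm (by norm_num)).sub (o1.mul od)).add
    ((h2.mul (od.pow 2)).mono sm (by norm_num))).congr fun _ _ _ => by ring

theorem oS (hS : S_expS) : Ob Dat.ω 2 fun (D : Dat M) (_ : ℝ) => SS D - (1 / 2 : ℂ) • D.d := by
  obtain ⟨C, hC⟩ := hS M
  have h1 : Ob Dat.ω 4 fun (D : Dat M) (_ : ℝ) => SS D - ((1 / 2 : ℂ) • D.d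
      - (1 / 2 : ℂ) • (D.b1 * D.d ^ 2) + b3 D.b0 D.b1 D.b2 * D.d ^ 3) :=
    .of_le sm (C := C) fun D _ _ => hC _ _ _ _ _ _ _ D.pos D.le D.h
  have h2 : Ob Dat.ω 0 fun (D : Dat M) (_ : ℝ) => b3 D.b0 D.b1 D.b2 :=
    (((o1.pow 2).smul _).sub (o2.smul _)).sub ((ow.pow 2).smul _)
  exact (((h1.mono sm (by norm_num)).sub ((o1.mul (od.pow 2)).smul (1 / 2))).add
    ((h2.mul (od.pow 3)).mono sm (by norm_num))).congr fun _ _ _ => by ring

theorem oS1 (hS : S_expS) : Ob Dat.ω 1 fun (D : Dat M) (_ : ℝ) => SS D :=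
  (((oS hS).mono sm one_le_two).add (od.smul (1 / 2))).congr fun _ _ _ => by rw [sub_add_cancel]

theorem oI : Ob Dat.ω 3 fun (D : Dat M) (_ : ℝ) =>
    II D - (1 - D.b1 * D.d + (2 / 3 : ℂ) • ((D.b1 ^ 2 - D.b2) * D.d ^ 2)) :=
  oem.int.congr fun D _ _ => by
    have hb := D.h.cont
    rw [intervalIntegral.integral_sub (Continuous.intervalIntegrable (by fun_prop) _ _)
      (Continuous.intervalIntegrable (by fun_prop) _ _), int_q, II, ← int_mul _ (em_cont hb)]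
    simp only [em_eq]
    congr 1
    algebra

end

/-- Data with a modulus. -/
structure DR (M : ℝ) : Type 1 where
  D : Dat M
  R : D.B
  hR : R ^ 2 = GG I D.b D.d * GG (-I) D.b D.d
  h1 : ‖exp ((2 : ℂ) • D.b0) * R - 1‖ ≤ M * D.ω

/-- The small parameter. -/
abbrev ww (E : DR M) : ℝ := E.D.ω

/-- The normalised modulus. -/
noncomputable def rr (E : DR M) : E.D.B := exp ((2 : ℂ) • E.D.b0) * E.R

theorem sm : Sm (ww (M := M)) := fun E => ⟨E.D.pos, E.D.le⟩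

theorem od : Ob ww 1 fun (E : DR M) (_ : ℝ) => E.D.d := Dat.od.comp DR.D
theorem ow : Ob ww 0 fun (E : DR M) (_ : ℝ) => exp E.D.b0 := ExpAAux.ow.comp DR.D
theorem oE : Ob ww 0 fun (E : DR M) (_ : ℝ) => exp ((-2 : ℂ) • E.D.b0) :=
  ((Dat.o0.comp DR.D).smul _).exp0 sm
theorem oR : Ob ww 1 fun (E : DR M) (_ : ℝ) => rr E - 1 :=
  .of_le sm (C := M) fun E _ _ => by simpa [rr] using E.h1

theorem rr_sq (E : DR M) : rr E ^ 2 = AA E.D ^ 2 + exp E.D.b0 ^ 2 * SS E.D ^ 2 := by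
  rw [rr, mul_pow, E.hR, AA, SS, ex_two]
  generalize GG I E.D.b E.D.d = G
  generalize GG (-I) E.D.b E.D.d = H
  generalize exp E.D.b0 = w
  linear_combination (norm := algebra) -(I_mul_I • ((1 / 4 : ℂ) • (w ^ 4 * (G - H) ^ 2)))

section

variable (hA : S_expA) (hS : S_expS)
include hA hS

theorem ox2 : Ob ww 2 fun (E : DR M) (_ : ℝ) => rr E - AA E.D :=
  have h1 := (oA (M := M) hA).comp DR.D
  ((((ow.pow 2).mul (((oS1 hS).comp DR.D).pow 2)).sub ((oR.sub h1).mul (oR.add h1))).smul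
    (1 / 2)).congr fun E _ _ => by
      linear_combination (norm := algebra) (1 / 2 : ℂ) • rr_sq E

theorem ox3 : Ob ww 3 fun (E : DR M) (_ : ℝ) =>
    rr E - AA E.D - (1 / 8 : ℂ) • (exp E.D.b0 ^ 2 * E.D.d ^ 2) :=
  ((((ow.pow 2).mul (((oS hS).comp DR.D).mul (((oS1 hS).comp DR.D).add (od.smul (1 / 2))))).sub
    ((ox2 hA hS).mul (oR.add ((oA hA).comp DR.D)))).smul (1 / 2)).congr fun E _ _ => by
      linear_combination (norm := algebra) (1 / 2 : ℂ) • rr_sq E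

theorem fin : Ob ww 4 fun (E : DR M) (_ : ℝ) =>
    LA E.D.b E.D.d E.R + (1 / 24 : ℂ) • E.D.d ^ 3 :=
  ((od.mul oE).mul (((ox3 hA hS).add ((oA3 hA).comp DR.D)).sub (oI.comp DR.D))).congr
    fun E _ _ => by
      have e := ex_m E.D.b0
      rw [LA, rr, II, a2, ex_two]
      generalize AA E.D = A
      generalize ∫ y in (0:ℝ)..1, em E.D.b y = J
      linear_combination (norm := algebra)
        -(E.D.d * (E.R - J) + (1 / 24 : ℂ) • E.D.d ^ 3) * e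

end

end KExplAux

theorem explE (hexpA : S_expA) (hexpS : S_expS) : S_expl := by
  intro M
  obtain ⟨C, -, hC⟩ := KExplAux.fin (M := M) hexpA hexpS
  exact ⟨C, fun B _ _ _ _ ω b0 b1 b2 d R b h0 h1 hp hR h2 =>
    hC ⟨⟨B, ω, b0, b1, b2, d, b, h0, h1, hp⟩, R, hR, h2⟩ 0 ⟨le_rfl, zero_le_one⟩⟩

end Vale.Agent.P097
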