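import Vale.Agent.P097.KStm

open Set NormedSpace Complex Metric

namespace Vale.Agent.P097

namespace KExtAux

theorem summ {a : ℝ} (ha : 0 < a) : Summable fun n : ℤ => Real.exp (-(a * |(n:ℝ)|)) := by
  have h : Summable fun n : ℕ => Real.exp (-(a * n)) := by
    have := summable_geometric_of_lt_one (Real.exp_pos (-a)).le
      (Real.exp_lt_one_iff.2 (by linarith))
    refine this.congr fun n => ?_
    rw [← Real.exp_nat_mul]
    congr 1
    ring
  exact Summable.of_nat_of_neg (by simpa using h) (by simpa using h)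

end KExtAux

theorem extE (hfs : S_fs) : S_ext := by
  intro β hc hp M σ hσ hb
  have hpi := Real.pi_pos
  have hM : 0 ≤ M := by
    have := (norm_nonneg _).trans (hb 0)
    simpa using this
  have hsum := (KExtAux.summ (half_pos hσ)).mul_left M
  have hbd : ∀ (n : ℤ) (z : ℂ), z ∈ St (σ / (4 * Real.pi)) →
      ‖fr β n * ce (n * z)‖ ≤ M * Real.exp (-(σ / 2 * |(n:ℝ)|)) := by
    intro n z hz
    have h1 : (n * z : ℂ).im = n * z.im := by simp
    have h2 : |z.im| * (4 * Real.pi) < σ := (lt_div_iff₀ (by positivity)).1 hz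
    have h3 : -(n * z.im) ≤ |(n:ℝ)| * |z.im| := by rw [← abs_mul]; exact neg_le_abs _
    rw [norm_mul, norm_ce, h1]
    refine (mul_le_mul_of_nonneg_right (hb n) (Real.exp_pos _).le).trans ?_
    rw [mul_assoc, ← Real.exp_add]
    refine mul_le_mul_of_nonneg_left (Real.exp_le_exp.2 ?_) hM
    have h4 := mul_le_mul_of_nonneg_left h3 (show 0 ≤ 2 * Real.pi by positivity)
    have h5 := mul_le_mul_of_nonneg_left h2.le (abs_nonneg (n:ℝ))
    linarith
  have hs : Summable fun n => ‖fc (fun t => (β t : ℂ)) n‖ :=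
    Summable.of_nonneg_of_le (fun _ => norm_nonneg _) hb ((KExtAux.summ hσ).mul_left M)
  refine ⟨fun z => ∑' n : ℤ, fr β n * ce (n * z), σ / (4 * Real.pi),
    ∑' n : ℤ, M * Real.exp (-(σ / 2 * |(n:ℝ)|)), by positivity, ?_, fun z _ => ?_, fun z _ => ?_,
    fun t => ?_, fun z hz => tsum_of_norm_bounded hsum.hasSum fun n => hbd n z hz⟩
  · exact differentiableOn_tsum_of_summable_norm hsum (fun n => by unfold ce; fun_prop) (oSt _) hbd
  · refine tsum_congr fun n => ?_
    have e : ce (n : ℂ) = 1 := by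
      rw [← ee_int n, ← ce_real, ofReal_intCast]
    rw [mul_add, mul_one, ce_add, e, mul_one]
  · rw [Complex.conj_tsum, ← (Equiv.neg ℤ).tsum_eq]
    refine tsum_congr fun n => ?_
    have e : fr β (-n) = (starRingEnd ℂ) (fr β n) := by
      have := fc_conj (fun t => (β t : ℂ)) n
      simp only [conj_ofReal] at this
      exact this
    rw [Equiv.neg_apply, map_mul, e, ce_conj, map_mul, map_intCast, Int.cast_neg, neg_mul]
  · have h1 := ((hfs (fun t => (β t : ℂ)) (continuous_ofReal.comp hc)
      fun x => by simp only [hp x]).2 hs t).tsum_eq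
    rw [← h1]
    refine tsum_congr fun n => ?_
    rw [← ce_real, ofReal_mul, ofReal_intCast, fr]

end Vale.Agent.P097
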