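import Vale.Agent.P097.KStm

open Set NormedSpace Complex Metric

namespace Vale.Agent.P097

namespace KFc1Aux

theorem shift {h : ℂ → ℂ} {s : ℝ} (hd : DifferentiableOn ℂ h (St s))
    (hp : ∀ z ∈ St s, h (z + 1) = h z) {z : ℂ} (hz : z ∈ St s) :
    ∫ t in (0:ℝ)..1, h (t + z) = ∫ t in (0:ℝ)..1, h t := by
  have hz' : |z.im| < s := hz
  have m : ∀ w : ℂ, w.im ∈ uIcc 0 z.im → w ∈ St s := fun w hw => by
    have := abs_sub_left_of_mem_uIcc hw
    rw [sub_zero, sub_zero] at this
    exact this.trans_lt hz'
  have h1 := integral_boundary_rect_eq_zero_of_differentiableOn h 0 ⟨1, z.im⟩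
    (hd.mono fun w hw => m w hw.2)
  have h2 : ∫ y : ℝ in (0:ℝ)..z.im, h ((1:ℝ) + y * I) = ∫ y : ℝ in (0:ℝ)..z.im, h ((0:ℝ) + y * I) :=
    intervalIntegral.integral_congr fun y hy => by
      have := hp (y * I) (m _ (by simpa using hy))
      simpa [add_comm] using this
  simp only [zero_re, zero_im] at h1
  rw [h2, add_sub_cancel_right, sub_eq_zero] at h1
  simp only [ofReal_zero, zero_mul, add_zero] at h1
  have h3 : Function.Periodic (fun x : ℝ => h (x + z.im * I)) 1 := fun x => by
    have := hp (x + z.im * I) (m _ (by simp))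
    simpa [add_right_comm] using this
  have h4 := h3.intervalIntegral_add_eq z.re 0
  have h5 := intervalIntegral.integral_comp_add_right (a := 0) (b := 1)
    (fun x : ℝ => h (x + z.im * I)) z.re
  rw [zero_add, add_comm (1:ℝ), h4, zero_add, ← h1] at h5
  simpa only [ofReal_add, add_assoc, re_add_im] using h5

end KFc1Aux

theorem fc1E : S_fc1 := by
  intro f s hs hd hp
  have m : ∀ t : ℝ, (t:ℂ) ∈ St s := fun t => by simpa [St] using hs
  have h1 : ∀ z ∈ St s, ∀ n : ℤ,
      fc (fun t => f (t + z)) n = ce (n * z) * fc (fun t => f t) n := fun z hz n => by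
    have e := KFc1Aux.shift (h := fun w => f w * ce (-(n * w))) (hd.mul (by unfold ce; fun_prop))
      (fun w hw => by
        have : ce ((-n : ℤ) : ℝ) = 1 := ee_int (-n)
        rw [hp w hw, mul_add, neg_add, ce_add, mul_one]
        push_cast at this
        rw [this, mul_one]) hz
    simp only [fc, ← ce_real, ofReal_neg, ofReal_mul, ofReal_intCast]
    rw [← e, ← intervalIntegral.integral_const_mul]
    refine intervalIntegral.integral_congr fun t _ => ?_
    simp only [mul_left_comm (ce _), ← ce_add]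
    rw [show (n:ℂ) * z + -(n * (t + z)) = -(n * t) by ring]
  refine ⟨h1, fun A hA n => ?_, fun n => ?_⟩
  · have c : Continuous fun r : ℝ => A * gw (-1) n r := by unfold gw; fun_prop
    refine ge_of_tendsto (c.continuousAt.tendsto.mono_left (nhdsWithin_le_nhds (s := Iio s))) ?_
    filter_upwards [Ioo_mem_nhdsLT hs] with r hr
    obtain ⟨y, y1, y2⟩ : ∃ y : ℝ, |y| = r ∧ n * y = -(|(n:ℝ)| * r) := by
      rcases le_total 0 (n:ℝ) with h | h
      · exact ⟨-r, by rw [abs_neg, abs_of_pos hr.1], by rw [abs_of_nonneg h, mul_neg]⟩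
      · exact ⟨r, abs_of_pos hr.1, by rw [abs_of_nonpos h, neg_mul, neg_neg]⟩
    have b := fc_le (f := fun t => f (t + y * I)) (fun t => hA _ (by simpa [St, y1] using hr.2)) n
    rw [h1 _ (by simpa [St, y1] using hr.2), norm_mul, norm_ce,
      show ((n:ℂ) * (y * I)).im = n * y by simp, y2, mul_comm, ← le_div_iff₀ (Real.exp_pos _),
      div_eq_mul_inv, ← Real.exp_neg] at b
    rwa [gw, show 2 * Real.pi * -1 * |(n:ℝ)| * r = - -(2 * Real.pi * -(|(n:ℝ)| * r)) by ring]
  · have e : ∀ t : ℝ, ee (-(n * t)) = Complex.exp (-(2 * Real.pi * I * n) * t) := fun t => by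
      rw [ee]
      push_cast
      ring_nf
    have c : Continuous fun t : ℝ => deriv f t :=
      (hd.deriv (oSt s)).continuousOn.comp_continuous continuous_ofReal m
    have p := intervalIntegral.integral_mul_deriv_eq_deriv_mul (a := 0) (b := 1)
      (u := fun t : ℝ => f t) (u' := fun t => deriv f t)
      (v := fun t : ℝ => Complex.exp (-(2 * Real.pi * I * n) * t))
      (v' := fun t => Complex.exp (-(2 * Real.pi * I * n) * t) * (-(2 * Real.pi * I * n) * 1))
      (fun t _ => (hd.differentiableAt ((oSt s).mem_nhds (m t))).hasDerivAt.comp_ofReal)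
      (fun t _ => ((hasDerivAt_id (t:ℂ)).const_mul _).cexp.comp_ofReal)
      (c.intervalIntegrable _ _) (Continuous.intervalIntegrable (by fun_prop) _ _)
    have q := hp _ (m 0)
    have e1 : ee (-(n * (1:ℝ))) = 1 := by simpa using ee_int (-n)
    simp only [← e, ← mul_assoc, intervalIntegral.integral_mul_const, e1, mul_zero, neg_zero,
      ee_zero] at p
    simp only [ofReal_zero, zero_add] at q
    simp only [ofReal_zero, ofReal_one, q] at p
    unfold fc
    linear_combination p

end Vale.Agent.P097
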