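import Vale.Agent.P097.KStm

open Set NormedSpace Complex Metric

namespace Vale.Agent.P097

namespace KFc2Aux

theorem geo {q : ℝ} (h0 : 0 ≤ q) (h1 : q < 1) (A : ℝ) (K : ℕ) :
    HasSum (fun n : ℤ => if K < n.natAbs then A * q ^ n.natAbs else 0)
      (2 * (A * q ^ (K + 1) * (1 - q)⁻¹)) := by
  have h : HasSum (fun j : ℕ => if K < j then A * q ^ j else 0) (A * q ^ (K + 1) * (1 - q)⁻¹) := by
    rw [← hasSum_nat_add_iff' (K + 1), Finset.sum_eq_zero fun j hj =>
      if_neg (by have := Finset.mem_range.1 hj; omega), sub_zero]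
    have e : (fun j : ℕ => if K < j + (K + 1) then A * q ^ (j + (K + 1)) else 0) =
        fun j => A * q ^ (K + 1) * q ^ j := funext fun j => by rw [if_pos (by omega)]; ring
    exact e ▸ (hasSum_geometric_of_lt_one h0 h1).mul_left (A * q ^ (K + 1))
  have := HasSum.of_nat_of_neg (f := fun n : ℤ => if K < n.natAbs then A * q ^ n.natAbs else 0)
    (by simpa only [Int.natAbs_natCast] using h)
    (by simpa only [Int.natAbs_neg, Int.natAbs_natCast] using h)
  simpa [two_mul] using this

end KFc2Aux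

theorem fc2E (hfc1 : S_fc1) (hfs : S_fs) : S_fc2 := by
  intro f s s' η A K e0 hs A0 hf hp hc θ hθ
  have t1 : |θ.im| < s' - η := hθ
  have mem : ∀ t : ℝ, (t : ℂ) + θ ∈ St s := fun t => by
    change |((t : ℂ) + θ).im| < s
    rw [add_im, ofReal_im, zero_add]
    linarith
  have m0 : θ ∈ St s := by simpa using mem 0
  have e1 := (hfc1 f s (by linarith [abs_nonneg θ.im]) hf hp).1 θ m0
  have cg : Continuous fun t : ℝ => f (t + θ) :=
    hf.continuousOn.comp_continuous (by fun_prop) mem
  have pg : Function.Periodic (fun t : ℝ => f (t + θ)) 1 := fun t => by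
    simp only [ofReal_add, ofReal_one, add_right_comm _ 1 θ]
    exact hp _ (mem t)
  have q0 := Real.exp_pos (-(2 * Real.pi * η))
  have q1 : Real.exp (-(2 * Real.pi * η)) < 1 :=
    Real.exp_lt_one_iff.2 (neg_neg_of_pos (by positivity))
  have hu := KFc2Aux.geo q0.le q1 A K
  have bd : ∀ n : ℤ, ‖fc (fun t => f t) n * ce (n * θ) - if n ∈ Finset.Icc (-(K : ℤ)) K then
      fc (fun t => f t) n * ce (n * θ) else 0‖ ≤
      if K < n.natAbs then A * Real.exp (-(2 * Real.pi * η)) ^ n.natAbs else 0 := fun n => by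
    by_cases h : n ∈ Finset.Icc (-(K : ℤ)) K
    · rw [if_pos h, sub_self, norm_zero]
      split_ifs <;> positivity
    · rw [Finset.mem_Icc] at h
      rw [if_neg (by rwa [Finset.mem_Icc]), sub_zero, if_pos (by omega), norm_mul, norm_ce]
      refine (mul_le_mul_of_nonneg_right (hc n (by rw [Int.abs_eq_natAbs]; omega))
        (Real.exp_pos _).le).trans ?_
      rw [gw, mul_assoc, ← Real.exp_add, ← Real.exp_nat_mul, Nat.cast_natAbs, Int.cast_abs]
      refine mul_le_mul_of_nonneg_left (Real.exp_le_exp.2 ?_) A0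
      have : -((n : ℝ) * θ.im) ≤ |(n : ℝ)| * (s' - η) := (neg_le_abs _).trans
        ((abs_mul _ _).trans_le (mul_le_mul_of_nonneg_left t1.le (abs_nonneg _)))
      have e : ((n : ℂ) * θ).im = n * θ.im := by simp
      rw [e]
      nlinarith [Real.pi_pos]
  have fin : HasSum (fun n : ℤ => if n ∈ Finset.Icc (-(K : ℤ)) K then
      fc (fun t => f t) n * ce (n * θ) else 0)
      (∑ n ∈ Finset.Icc (-(K : ℤ)) K, fc (fun t => f t) n * ce (n * θ)) := by
    rw [← Finset.sum_congr rfl fun n hn => if_pos hn]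
    exact hasSum_sum_of_ne_finset_zero fun n hn => if_neg hn
  have sm : Summable fun n : ℤ => fc (fun t => f t) n * ce (n * θ) := by
    simpa using (Summable.of_norm_bounded hu.summable bd).add fin.summable
  have hs' := (hfs _ cg pg).2 (by simpa only [e1, mul_comm] using sm.norm) 0
  simp only [e1, mul_zero, ee_zero, mul_one, ofReal_zero, zero_add, mul_comm (ce _)] at hs'
  refine ((hs'.sub fin).norm_le_of_bounded hu bd).trans ?_
  have k1 : Real.exp (-(2 * Real.pi * η)) ^ K ≤ Real.exp (-(η * K)) := by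
    rw [← Real.exp_nat_mul]
    exact Real.exp_le_exp.2 (by nlinarith [Real.pi_gt_three, mul_nonneg e0.le K.cast_nonneg])
  have k2 : Real.exp (-(2 * Real.pi * η)) * (1 + 2 * η) ≤ 1 := by
    rw [Real.exp_neg, inv_mul_le_iff₀ (Real.exp_pos _)]
    nlinarith [Real.pi_gt_three, Real.add_one_le_exp (2 * Real.pi * η)]
  generalize Real.exp (-(2 * Real.pi * η)) = q at *
  have k3 : 2 * q * η * (1 - q)⁻¹ ≤ 1 := by
    rw [mul_inv_le_iff₀ (by linarith)]
    linarith
  rw [le_div_iff₀ e0, pow_succ]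
  exact le_of_eq_of_le (by ring) ((mul_le_mul k3 (mul_le_mul_of_nonneg_left k1 A0)
    (by positivity) zero_le_one).trans_eq (one_mul _))

end Vale.Agent.P097
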