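import Vale.Agent.P097.KStm
import Vale.Agent.P097.Geo2
import Vale.Agent.P097.Geo3

open Set NormedSpace Complex Metric

namespace Vale.Agent.P097

namespace KFinAux

variable {β : ℝ → ℝ} {r : ℝ} {X : ℝ × ℝ → ℝ}

theorem an (h : RX β r X) (θ : ℝ) {a : ℝ} (ha : |a| < r) : AnalyticAt ℝ X (θ, a) :=
  h.an _ ⟨trivial, abs_lt.1 ha⟩

theorem dX (h : RX β r X) (θ : ℝ) {a : ℝ} (ha : |a| < r) :
    HasDerivAt (fun x => X (x, a)) (deriv (fun x => X (x, a)) θ) θ :=
  ((an h θ ha).differentiableAt.comp θ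
    (differentiableAt_id.prodMk (differentiableAt_const a))).hasDerivAt

theorem gap_le (h : RX β r X) (θ : ℝ) {a : ℝ} (ha : |a| < r) :
    |X (θ + a, a) - X (θ, a) - a| ≤ |a| / 10 := by
  have key := Convex.norm_image_sub_le_of_norm_hasDerivWithin_le (𝕜 := ℝ) (s := univ)
    (f := fun x => X (x, a) - x) (f' := fun x => deriv (fun x => X (x, a)) x - 1) (C := 1 / 10)
    (fun x _ => ((dX h x ha).sub (hasDerivAt_id x)).hasDerivWithinAt)
    (fun x _ => h.d1 x a ha) convex_univ (mem_univ θ) (mem_univ (θ + a))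
  rw [Real.norm_eq_abs, Real.norm_eq_abs, add_sub_cancel_left,
    show X (θ + a, a) - (θ + a) - (X (θ, a) - θ) = X (θ + a, a) - X (θ, a) - a by ring] at key
  linarith

end KFinAux

open KFinAux Geo2Aux in
theorem finE (hchord : S_chord) (hGB : S_GB) (hgb2 : S_gb2) (hprim : S_prim) : S_fin := by
  intro γ L β c s r d X hT hβ hl hβa hX hd hA
  have hβc : Continuous β := hβ.1.continuous
  obtain ⟨M, hM⟩ := bdd_of_per hβc hβ.2
  obtain ⟨c0, d0, hb⟩ := hGB M
  obtain ⟨κ, d1, hκ, hd1, hk⟩ := hgb2 β hβ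
  have hc0 := hb.cpos
  have hd0 := hb.dpos
  have H := hb.h β hβc hM
  obtain ⟨e, he⟩ : ∃ e, e = min d (min d0 (min d1 1)) := ⟨_, rfl⟩
  have he0 : 0 < e := by rw [he]; positivity
  have e1 : e ≤ d := he ▸ min_le_left _ _
  have e2 : e ≤ d0 := he ▸ (min_le_right _ _).trans (min_le_left _ _)
  have e3 : e ≤ d1 := he ▸ (min_le_right _ _).trans ((min_le_right _ _).trans (min_le_left _ _))
  have e4 : e ≤ 1 := he ▸ (min_le_right _ _).trans ((min_le_right _ _).trans (min_le_right _ _))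
  have hr := hX.pos
  have r1 : ∀ {a : ℝ}, |a| < min r (e / 2) → |a| < r := fun h => h.trans_le (min_le_left _ _)
  have g1 : ∀ (θ : ℝ) {a : ℝ}, |a| < min r (e / 2) → |X (θ + a, a) - X (θ, a)| < e := by
    intro θ a ha
    have h1 := gap_le hX θ (r1 ha)
    have h2 := ha.trans_le (min_le_right _ _)
    have h3 := abs_add_le (X (θ + a, a) - X (θ, a) - a) a
    rw [sub_add_cancel] at h3
    linarith [abs_nonneg a]
  have g2 : ∀ (θ : ℝ) {a : ℝ}, 0 < a → a < min r (e / 2) →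
      9 / 10 * a ≤ X (θ + a, a) - X (θ, a) := by
    intro θ a h0 ha
    have h1 := gap_le hX θ (r1 (by rwa [abs_of_pos h0]))
    rw [abs_of_pos h0] at h1
    linarith [(abs_le.1 h1).1]
  have hs : AnalyticOnNhd ℝ s univ := Geo3Aux.primR hprim (fun x _ =>
    analyticAt_const.mul (analyticAt_const.mul (hβa x trivial)).rexp) hl.der
  have a2 : ∀ (θ : ℝ) {a : ℝ}, |a| < min r (e / 2) → AnalyticAt ℝ
      (fun z : ℝ × ℝ => arg (Gr β (X z) (X (z.1 + z.2, z.2) - X z))) (θ, a) := by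
    intro θ a ha
    have h1 : AnalyticAt ℝ (fun z : ℝ × ℝ => X (z.1 + z.2, z.2)) (θ, a) :=
      (an hX (θ + a) (r1 ha)).comp (f := fun z : ℝ × ℝ => (z.1 + z.2, z.2))
        ((analyticAt_fst.add analyticAt_snd).prod analyticAt_snd)
    exact (hA (X (θ, a), X (θ + a, a) - X (θ, a))
      ⟨trivial, abs_lt.1 ((g1 θ ha).trans_le e1)⟩).comp
      (f := fun z : ℝ × ℝ => (X z, X (z.1 + z.2, z.2) - X z))
      ((an hX θ (r1 ha)).prod (h1.sub (an hX θ (r1 ha))))
  have hm : 0 < min r (e / 2) := by positivity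
  have z0 : ∀ θ : ℝ, arg (Gr β (X (θ, 0)) (X (θ + 0, 0) - X (θ, 0))) = 0 := by
    intro θ
    rw [add_zero, sub_self]
    have h1 := H (X (θ, 0)) 0 (by simpa using hd0.le)
    refine Complex.arg_eq_zero_iff.2 ⟨hc0.le.trans h1.1, ?_⟩
    simpa using h1.2.2.1
  refine ⟨min r (e / 2), fun z => s (X z), fun z => arg (Gr β (X z) (X (z.1 + z.2, z.2) - X z)),
    hm, fun z hz => ?_, fun z hz => a2 z.1 (abs_lt.2 hz.2), fun θ a ha => ⟨?_, ?_⟩,
    fun θ a ha => ?_, fun θ => ⟨z0 θ, ?_⟩, fun θ a h0 ha => ?_⟩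
  · exact (hs _ trivial).comp (an hX z.1 (r1 (abs_lt.2 hz.2)))
  · show s (X (θ + 1, a)) = s (X (θ, a)) + L
    rw [hX.per θ a (r1 ha), hl.per]
  · show arg (Gr β (X (θ + 1, a)) (X (θ + 1 + a, a) - X (θ + 1, a))) =
      arg (Gr β (X (θ, a)) (X (θ + a, a) - X (θ, a)))
    rw [add_right_comm, hX.per _ a (r1 ha), hX.per _ a (r1 ha), Gr_per hβ.2,
      add_sub_add_right_eq_sub]
  · have h1 := (hl.der (X (θ, a))).comp θ (dX hX θ (r1 ha))
    have h2 : deriv (fun x => s (X (x, a))) θ = _ := h1.deriv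
    have h3 := (abs_le.1 (hX.d1 θ a (r1 ha))).1
    have h4 := hl.pos
    show 0 < deriv (fun x => s (X (x, a))) θ
    rw [h2]
    exact mul_pos (by positivity) (by linarith)
  · have h1 : DifferentiableAt ℝ
        (fun a : ℝ => arg (Gr β (X (θ, a)) (X (θ + a, a) - X (θ, a)))) 0 :=
      (a2 θ (a := 0) (by simpa using hm)).differentiableAt.comp (0 : ℝ)
        (f := fun a : ℝ => (θ, a)) ((differentiableAt_const θ).prodMk differentiableAt_id)
    have h2 := h1.hasDerivAt.tendsto_slope_zero_right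
    refine lt_of_lt_of_le (by positivity : 0 < κ * (9 / 10)) (ge_of_tendsto h2 ?_)
    filter_upwards [Ioo_mem_nhdsGT hm] with t ht
    have h3 := g2 θ ht.1 ht.2
    have h4 := (abs_lt.1 (g1 θ (a := t) (by rw [abs_of_pos ht.1]; exact ht.2))).2
    have h5 := hk (X (θ, t)) _ (by linarith [ht.1]) (h4.le.trans e3)
    rw [z0, zero_add, sub_zero, smul_eq_mul, ← div_eq_inv_mul, le_div_iff₀ ht.1]
    nlinarith
  · have ha' : |a| < min r (e / 2) := by rwa [abs_of_pos h0]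
    have p0 : ∀ θ, 0 < X (θ + a, a) - X (θ, a) := fun θ => by linarith [g2 θ h0 ha]
    have Hp := fun θ => H (X (θ, a)) _ ((g1 θ ha').le.trans e2)
    have Hn := H (X (θ + a, a)) (-(X (θ + a, a) - X (θ, a)))
      (by rw [abs_neg]; exact (g1 θ ha').le.trans e2)
    have rp := fun θ => hc0.trans_le (Hp θ).1
    have h1 := arg_pos (rp θ) ((Hp θ).2.2.2.1 (p0 θ))
    have hne : Gr β (X (θ, a)) (X (θ + a, a) - X (θ, a)) ≠ 0 := fun h => by
      have := rp θ
      rw [h] at this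
      simp at this
    have st := step hchord hT hβc hl _ _ (p0 θ) ((abs_lt.1 (g1 θ ha')).2.trans_le e4) hne
    have h2 := hX.eq (θ + a) a h0 (ha.trans_le (min_le_left _ _))
    rw [add_sub_cancel_right, Ee_zero_iff (rp _) (hc0.trans_le Hn.1)] at h2
    rw [add_sub_cancel, ← h2] at st
    exact ⟨h1.1, by linarith [h1.2, Real.pi_pos], st⟩

end Vale.Agent.P097
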