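import Vale.Agent.P097.KStm
import Vale.Agent.P097.GB

open Set NormedSpace Complex Metric

namespace Vale.Agent.P097

namespace KGb2Aux

open GBAux

variable {β : ℝ → ℝ} {M ξ d y : ℝ}

theorem pr_ge (hβ : Continuous β) (hM : ∀ x, |β x| ≤ M) (hy : 0 ≤ y) :
    y * Real.exp (-M) ≤ pr β ξ d y := by
  have h := intervalIntegral.integral_mono_on (μ := MeasureTheory.volume)
    (f := fun _ => Real.exp (-M)) (g := fun z => Real.exp (β (ξ + z * d))) hy
    intervalIntegrable_const (Continuous.intervalIntegrable (by fun_prop) _ _)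
    fun z _ => Real.exp_le_exp.2 (abs_le.1 (hM _)).1
  simpa [pr] using h

theorem im_ge (hβ : Continuous β) (hM : ∀ x, |β x| ≤ M) (hd : 0 ≤ d) (hd' : d ≤ Real.exp (-M)) :
    Real.exp (-(2 * M)) * (2 / Real.pi) * Real.exp (-M) / 2 * d ≤ (Gr β ξ d).im := by
  have hp := pr_cont hβ ξ d
  rw [Gr_im hβ]
  have h := intervalIntegral.integral_mono_on (μ := MeasureTheory.volume)
    (f := fun y : ℝ => Real.exp (-(2 * M)) * (2 / Real.pi) * Real.exp (-M) * d * y)
    (g := fun y => Real.exp (-2 * β (ξ + y * d)) * Real.sin (d * pr β ξ d y)) zero_le_one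
    (Continuous.intervalIntegrable (by fun_prop) _ _)
    (Continuous.intervalIntegrable (by fun_prop) _ _) fun y hy => by
      have k1 : y * Real.exp (-M) ≤ pr β ξ d y := pr_ge hβ hM hy.1
      have k0 : 0 ≤ y * Real.exp (-M) := mul_nonneg hy.1 (Real.exp_pos _).le
      have k2 : d * pr β ξ d y ≤ 1 := by
        refine (mul_le_mul hd' ((le_abs_self _).trans (pr_le hM hy)) (k0.trans k1)
          (Real.exp_pos _).le).trans_eq ?_
        rw [← Real.exp_add]
        simp
      have k3 := Real.mul_le_sin (mul_nonneg hd (k0.trans k1))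
        (k2.trans (by linarith [Real.pi_gt_three]))
      have k4 : 2 / Real.pi * (d * (y * Real.exp (-M))) ≤ Real.sin (d * pr β ξ d y) :=
        le_trans (by gcongr) k3
      have k5 : Real.exp (-(2 * M)) ≤ Real.exp (-2 * β (ξ + y * d)) :=
        Real.exp_le_exp.2 (by linarith [(abs_le.1 (hM (ξ + y * d))).2])
      refine le_trans (le_of_eq (by ring)) (mul_le_mul k5 k4 ?_ (Real.exp_pos _).le)
      exact mul_nonneg (by positivity) (mul_nonneg hd k0)
  rw [intervalIntegral.integral_const_mul, integral_id] at h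
  exact le_trans (le_of_eq (by ring)) h

end KGb2Aux

theorem gb2E (hGB : S_GB) : S_gb2 := by
  intro β hβ
  have hc := hβ.1.continuous
  obtain ⟨M, hM⟩ := bdd_of_per hc hβ.2
  obtain ⟨c, d₀, hG⟩ := hGB M
  have c0 := hG.cpos
  refine ⟨c * (Real.exp (-(2 * M)) * (2 / Real.pi) * Real.exp (-M) / 2), min d₀ (Real.exp (-M)),
    by positivity, lt_min hG.dpos (Real.exp_pos _), fun ξ d hd hd' => ?_⟩
  have h1 := KGb2Aux.im_ge (ξ := ξ) hc hM hd (hd'.trans (min_le_right _ _))
  obtain ⟨h2, h3, -⟩ := hG.h β hc hM ξ d (by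
    rw [abs_of_nonneg hd]
    exact hd'.trans (min_le_left _ _))
  have h4 : 0 ≤ (Gr β ξ d).im := le_trans (by positivity) h1
  have h5 : 0 < ‖Gr β ξ d‖ := c0.trans_le (h2.trans (re_le_norm _))
  have h6 := Real.sin_le (arg_nonneg_iff.2 h4)
  rw [sin_arg] at h6
  refine le_trans ?_ h6
  rw [le_div_iff₀ h5, mul_assoc c]
  refine (mul_le_mul (mul_le_mul_of_nonneg_left h1 c0.le) h3 h5.le (mul_nonneg c0.le h4)).trans_eq ?_
  field_simp

end Vale.Agent.P097
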