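import Vale.Agent.P097.KStm

open Set NormedSpace Complex Metric

namespace Vale.Agent.P097

namespace KGdAux

theorem Om_sub {σ σ' d d' : ℝ} (h1 : σ ≤ σ') (h2 : d ≤ d') : Om σ d ⊆ Om σ' d' := fun _ hz =>
  ⟨hz.1.trans_le h1, hz.2.1.trans_le h1, hz.2.2.trans_le h2⟩

theorem crit_sub {S : ℂ × ℂ → ℂ} {G G' : Set ℝ} (h : Crit S G') (hG : G ⊆ G') : Crit S G :=
  fun q p x hq hx hk he => h q p x hq hx (fun k => hG (hk k)) he

noncomputable def gT (S : ℂ × ℂ → ℂ) (z : ℂ × ℂ) : ℂ := S z + (z.2 - z.1) ^ 3 / 6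

theorem gT_hol {S : ℂ × ℂ → ℂ} {U : Set (ℂ × ℂ)} (h : DifferentiableOn ℂ S U) :
    DifferentiableOn ℂ (gT S) U :=
  h.add (by fun_prop)

theorem p1_gT {S : ℂ × ℂ → ℂ} {z : ℂ × ℂ} (h : DifferentiableAt ℂ S z) :
    p1 S z = p1 (gT S) z + (z.2 - z.1) ^ 2 / 2 := by
  have hT : DifferentiableAt ℂ (gT S) z := h.add (by fun_prop)
  have h1 : HasDerivAt (fun t : ℂ => (z.2 - t) ^ 3 / 6) (-(z.2 - z.1) ^ 2 / 2) z.1 := by
    have := (((hasDerivAt_id z.1).const_sub z.2).pow 3).div_const 6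
    refine (this.congr_deriv ?_)
    simp only [id]; push_cast; ring
  have h2 := p1_eq hT ((hd1 h).add h1)
  rw [h2]; ring

theorem p2_gT {S : ℂ × ℂ → ℂ} {z : ℂ × ℂ} (h : DifferentiableAt ℂ S z) :
    p2 S z = p2 (gT S) z - (z.2 - z.1) ^ 2 / 2 := by
  have hT : DifferentiableAt ℂ (gT S) z := h.add (by fun_prop)
  have h1 : HasDerivAt (fun t : ℂ => (t - z.1) ^ 3 / 6) ((z.2 - z.1) ^ 2 / 2) z.2 := by
    have := (((hasDerivAt_id z.2).sub_const z.1).pow 3).div_const 6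
    refine (this.congr_deriv ?_)
    simp only [id]; push_cast; ring
  have h2 := p2_eq hT ((hd2 h).add h1)
  rw [h2]; ring

theorem HH_gT {S : ℂ × ℂ → ℂ} {U : Set (ℂ × ℂ)} (hU : IsOpen U) (h : DifferentiableOn ℂ S U)
    {z : ℂ × ℂ} (hz : z ∈ U) : HH S z = p2 (p1 (gT S)) z + (z.2 - z.1) := by
  have e : p1 S =ᶠ[nhds z] fun y => p1 (gT S) y + (y.2 - y.1) ^ 2 / 2 :=
    Filter.mem_of_superset (hU.mem_nhds hz) fun y hy =>
      p1_gT (h.differentiableAt (hU.mem_nhds hy))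
  have hP : DifferentiableAt ℂ (p1 (gT S)) z :=
    (hol1 hU (gT_hol h)).differentiableAt (hU.mem_nhds hz)
  have h1 : HasDerivAt (fun t : ℂ => (t - z.1) ^ 2 / 2) (z.2 - z.1) z.2 := by
    have := (((hasDerivAt_id z.2).sub_const z.1).pow 2).div_const 2
    refine (this.congr_deriv ?_)
    simp only [id]; push_cast; ring
  rw [HH, p2_congr e]
  exact p2_eq (hP.add (by fun_prop)) ((hd2 hP).add h1)

theorem bnd {a : ℂ} {x K C : ℝ} {D : ℂ} (hx : ‖D‖ = x) (hx1 : x ≤ 1) (hK : 0 ≤ K)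
    (ha : ‖a‖ ≤ K * x ^ 3) (hC : K + 1 ≤ C) :
    ‖a + D ^ 2 / 2‖ ≤ C * x ^ 2 ∧ ‖a - D ^ 2 / 2‖ ≤ C * x ^ 2 := by
  have h0 : 0 ≤ x := hx ▸ norm_nonneg D
  have h1 : ‖D ^ 2 / 2‖ = x ^ 2 / 2 := by rw [norm_div, norm_pow, hx]; simp
  have h2 : K * x ^ 3 ≤ K * x ^ 2 :=
    mul_le_mul_of_nonneg_left (pow_le_pow_of_le_one h0 hx1 (by norm_num)) hK
  have h3 : (K + 1) * x ^ 2 ≤ C * x ^ 2 := mul_le_mul_of_nonneg_right hC (sq_nonneg x)
  have h4 := norm_add_le a (D ^ 2 / 2)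
  have h5 := norm_sub_le a (D ^ 2 / 2)
  have h6 := sq_nonneg x
  constructor <;> linarith

end KGdAux

open KGdAux in
theorem gdE (hord : S_ord) (hgd5 : S_gd5) (hgdc : S_gdc) : S_gd := by
  intro S σ d C h
  obtain ⟨s5, d5, C5, hs5, hd5, h5⟩ := hgd5 S σ d C h
  have hσ := h.spos
  have hd := h.dpos
  obtain ⟨e, he0, hed, heσ⟩ : ∃ e : ℝ, 0 < e ∧ e ≤ d ∧ e ≤ σ :=
    ⟨min d σ, lt_min hd hσ, min_le_left _ _, min_le_right _ _⟩
  have hS : DifferentiableOn ℂ S (Om σ e) := h.hol.mono (Om_sub le_rfl hed)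
  have hT := gT_hol hS
  have o1 := hord (gT S) σ e |C| 3 he0 heσ (abs_nonneg C) hT fun z hz =>
    (h.cub z (Om_sub le_rfl hed hz)).trans
      (mul_le_mul_of_nonneg_right (le_abs_self C) (by positivity))
  have hsub : Om (σ / 2) (e / 2) ⊆ Om σ e := Om_sub (by linarith) (by linarith)
  have o2 := hord (p1 (gT S)) (σ / 2) (e / 2) (2 ^ (3 + 1) * |C|) 2 (by linarith) (by linarith)
    (by positivity) ((hol1 (oOm σ e) hT).mono hsub) fun z hz => (o1 z hz).1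
  obtain ⟨σ₁, a0, a1, a2, a3⟩ : ∃ s : ℝ, 0 < s ∧ s ≤ σ / 2 / 2 ∧ s ≤ 1 ∧ s ≤ s5 :=
    ⟨min (σ / 2 / 2) (min 1 s5), lt_min (by linarith) (lt_min one_pos hs5), min_le_left _ _,
      (min_le_right _ _).trans (min_le_left _ _), (min_le_right _ _).trans (min_le_right _ _)⟩
  obtain ⟨d₁, b0, b1, b2, b3⟩ : ∃ s : ℝ, 0 < s ∧ s ≤ e / 2 / 2 ∧ s ≤ 1 ∧ s ≤ d5 :=
    ⟨min (e / 2 / 2) (min 1 d5), lt_min (by linarith) (lt_min one_pos hd5), min_le_left _ _,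
      (min_le_right _ _).trans (min_le_left _ _), (min_le_right _ _).trans (min_le_right _ _)⟩
  have s4 : Om σ₁ d₁ ⊆ Om (σ / 2 / 2) (e / 2 / 2) := Om_sub a1 b1
  have s2 : Om σ₁ d₁ ⊆ Om (σ / 2) (e / 2) := Om_sub (by linarith) (by linarith)
  have s1 : Om σ₁ d₁ ⊆ Om σ e := s2.trans hsub
  have s0 : Om σ₁ d₁ ⊆ Om σ d := s1.trans (Om_sub le_rfl hed)
  have c0 := abs_nonneg C
  have c5 := abs_nonneg C5
  have hK : 2 ^ (3 + 1) * |C| + 1 ≤ 1 + 128 * |C| + |C5| := by norm_num; linarith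
  refine ⟨σ₁, d₁, 1 + 128 * |C| + |C5|, a0, a2, b0, b2, by linarith, h.hol.mono s0,
    fun z hz => h.per z (s0 hz), fun z hz => h.real z (s0 hz), fun z hz => ?_, fun z hz => ?_,
    fun z hz => ?_, fun θ α h1 h2 => ?_, crit_sub h.crit (Ioo_subset_Ioo_right (by linarith)),
    crit_sub (hgdc S σ d C h) (Ioo_subset_Ioo_left (by linarith))⟩
  · rw [p1_gT (hS.differentiableAt ((oOm σ e).mem_nhds (s1 hz)))]
    exact (bnd rfl (hz.2.2.le.trans b2) (by positivity) (o1 z (s2 hz)).1 hK).1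
  · rw [p2_gT (hS.differentiableAt ((oOm σ e).mem_nhds (s1 hz)))]
    exact (bnd rfl (hz.2.2.le.trans b2) (by positivity) (o1 z (s2 hz)).2 hK).2
  · rw [HH_gT (oOm σ e) hS (s1 hz), add_sub_cancel_right]
    refine (o2 z (s4 hz)).2.trans (mul_le_mul_of_nonneg_right ?_ (by positivity))
    norm_num; linarith
  · have hα : ‖α‖ < d₁ := by simpa using h2.2.2
    refine (h5 θ α (h2.1.trans_le a3) (hα.trans_le b3)).trans
      (mul_le_mul_of_nonneg_right ?_ (by positivity))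
    linarith [le_abs_self C5]

end Vale.Agent.P097
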