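import Vale.Agent.P097.KStm

open Set NormedSpace Complex Metric

namespace Vale.Agent.P097

namespace KGd5Aux

open Filter Topology

theorem odd5 {f : ℂ → ℂ} {r M : ℝ} (hM : 0 ≤ M) (hd : DifferentiableOn ℂ f (ball 0 r))
    (ho : ∀ a ∈ ball (0 : ℂ) r, f (-a) = -f a) (hb : ∀ a ∈ ball (0 : ℂ) r, ‖f a‖ ≤ M * ‖a‖ ^ 4)
    {a : ℂ} (ha : a ∈ ball (0 : ℂ) r) : ‖f a‖ ≤ M / r * ‖a‖ ^ 5 := by
  rcases eq_or_ne a 0 with rfl | h0
  · simpa using hb 0 ha
  have hr : 0 < r := nonempty_ball.1 ⟨a, ha⟩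
  have b1 : ∀ z ∈ ball (0 : ℂ) r, z ≠ 0 → ‖f z / z ^ 4‖ ≤ M := fun z hz h => by
    rw [norm_div, norm_pow, div_le_iff₀ (pow_pos (norm_pos_iff.2 h) 4)]
    exact hb z hz
  have d1 := differentiableOn_update_limUnder_of_bddAbove (f := fun z => f z / z ^ 4)
    (ball_mem_nhds (0 : ℂ) hr)
    ((hd.mono sdiff_subset).div (by fun_prop) fun z hz => pow_ne_zero 4 hz.2)
    ⟨M, by rintro _ ⟨z, hz, rfl⟩; exact b1 z hz.1 hz.2⟩
  generalize limUnder (𝓝[≠] (0 : ℂ)) (fun z => f z / z ^ 4) = l at d1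
  set g := Function.update (fun z => f z / z ^ 4) 0 l with hg
  have e : ∀ z, z ≠ 0 → g z = f z / z ^ 4 := fun z h => Function.update_of_ne h _ _
  have c : ContinuousAt g 0 := (d1.differentiableAt (ball_mem_nhds _ hr)).continuousAt
  have g0 : g 0 = 0 := by
    have c2 : ContinuousAt (fun z => g (-z) + g z) 0 :=
      (ContinuousAt.comp (g := g) (f := fun z : ℂ => -z) (by rwa [neg_zero])
        continuousAt_neg).add c
    have t : Tendsto (fun z => g (-z) + g z) (𝓝[≠] 0) (𝓝 0) := by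
      refine tendsto_const_nhds.congr' ?_
      filter_upwards [self_mem_nhdsWithin, mem_nhdsWithin_of_mem_nhds (ball_mem_nhds (0 : ℂ) hr)]
        with z h hz
      rw [e z h, e _ (neg_ne_zero.2 h), ho z hz]
      ring
    have := tendsto_nhds_unique (c2.tendsto.mono_left nhdsWithin_le_nhds) t
    rw [neg_zero] at this
    linear_combination this / 2
  have s := dist_le_div_mul_dist_of_mapsTo_ball (R₂ := M) d1 (fun z hz => by
    rw [g0, mem_closedBall_zero_iff]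
    rcases eq_or_ne z 0 with rfl | h
    · rwa [g0, norm_zero]
    · rw [e z h]; exact b1 z hz h) ha
  rw [g0, dist_zero_right, dist_zero_right, e a h0, norm_div, norm_pow,
    div_le_iff₀ (pow_pos (norm_pos_iff.2 h0) 4)] at s
  exact s.trans_eq (by ring)

theorem Om_mono {σ σ' d d' : ℝ} (h1 : σ ≤ σ') (h2 : d ≤ d') : Om σ d ⊆ Om σ' d' := fun _ hz =>
  ⟨hz.1.trans_le h1, hz.2.1.trans_le h1, hz.2.2.trans_le h2⟩

theorem ord5 {T : ℂ × ℂ → ℂ} {σ d M : ℝ} (hσ : d ≤ σ) (hM : 0 ≤ M)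
    (hd : DifferentiableOn ℂ T (Om σ d)) (ha : ∀ z ∈ Om σ d, T (z.2, z.1) = -T z)
    (hb : ∀ z ∈ Om σ d, ‖T z‖ ≤ M * ‖z.2 - z.1‖ ^ 4) {z : ℂ × ℂ} (hz : z ∈ Om (σ / 2) d) :
    ‖T z‖ ≤ M / d * ‖z.2 - z.1‖ ^ 5 := by
  set m := (z.1 + z.2) / 2 with hm
  have m1 : |m.im| < σ / 2 := by
    have : m.im = (z.1.im + z.2.im) / 2 := by simp [hm]
    have h1 := abs_lt.1 hz.1
    have h2 := abs_lt.1 hz.2.1
    rw [this, abs_lt]
    constructor <;> linarith
  have e : ∀ a : ℂ, m + a / 2 - (m - a / 2) = a := fun a => by ring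
  have mem : ∀ a ∈ ball (0 : ℂ) d, (m - a / 2, m + a / 2) ∈ Om σ d := fun a h => by
    have h1 := mem_ball_zero_iff.1 h
    have h2 := abs_im_le_norm a
    obtain ⟨h3, h4⟩ := im_half m a
    exact ⟨by dsimp only; linarith, by dsimp only; linarith, by dsimp only; rwa [e]⟩
  have k := odd5 (f := fun a => T (m - a / 2, m + a / 2)) hM
    (hd.comp (by fun_prop) mem)
    (fun a h => by
      rw [← ha _ (mem a h), neg_div, sub_neg_eq_add, ← sub_eq_add_neg])
    (fun a h => by simpa only [e] using hb _ (mem a h)) (mem_ball_zero_iff.2 hz.2.2)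
  have e1 : m - (z.2 - z.1) / 2 = z.1 := by rw [hm]; ring
  have e2 : m + (z.2 - z.1) / 2 = z.2 := by rw [hm]; ring
  simpa only [e1, e2] using k

end KGd5Aux

open KGd5Aux in
theorem gd5E (hord : S_ord) : S_gd5 := by
  intro S σ d C h
  have hσ := h.spos
  obtain ⟨e, e0, e1, e2⟩ : ∃ e : ℝ, 0 < e ∧ e ≤ d ∧ e ≤ σ :=
    ⟨min d σ, lt_min h.dpos hσ, min_le_left _ _, min_le_right _ _⟩
  have s1 : Om σ e ⊆ Om σ d := Om_mono le_rfl e1
  set T : ℂ × ℂ → ℂ := fun z => S z + (z.2 - z.1) ^ 3 / 6 with hT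
  have dT : DifferentiableOn ℂ T (Om σ d) := h.hol.add (by fun_prop)
  have b5 := fun z (hz : z ∈ Om (σ / 2) (e / 2)) => ord5 (T := T) (M := |C|) e2 (abs_nonneg C)
    (dT.mono s1) (fun z hz => by simp only [hT, h.anti z (s1 hz)]; ring)
    (fun z hz => (h.cub z (s1 hz)).trans
      (mul_le_mul_of_nonneg_right (le_abs_self C) (by positivity)))
    (Om_mono le_rfl (by linarith) hz)
  have b4 := hord T (σ / 2) (e / 2) (|C| / e) 4 (by linarith) (by linarith) (by positivity)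
    (dT.mono (Om_mono (by linarith) (by linarith))) b5
  refine ⟨σ / 8, e / 8, 2 * (2 ^ (4 + 1) * (|C| / e)) / (e / 8), by linarith, by linarith,
    fun θ α hθ hα => ?_⟩
  have mem : ∀ a ∈ ball (0 : ℂ) (e / 8), (θ, θ + a) ∈ Om (σ / 2 / 2) (e / 2 / 2) := fun a ha => by
    have h1 := mem_ball_zero_iff.1 ha
    have h2 := abs_im_le_norm a
    have h3 := abs_add_le θ.im a.im
    refine ⟨by dsimp only; linarith, by dsimp only; rw [add_im]; linarith, ?_⟩
    dsimp only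
    rw [add_sub_cancel_left]
    linarith
  have s2 : Om (σ / 2 / 2) (e / 2 / 2) ⊆ Om σ d := Om_mono (by linarith) (by linarith)
  have ng : ∀ a ∈ ball (0 : ℂ) (e / 8), -a ∈ ball (0 : ℂ) (e / 8) := fun a ha => by simpa using ha
  have dg : DifferentiableOn ℂ (fun a => p1 T (θ, θ + a)) (ball 0 (e / 8)) :=
    (hol1 (oOm σ d) dT).comp (by fun_prop) fun a ha => s2 (mem a ha)
  have bg : ∀ a ∈ ball (0 : ℂ) (e / 8),
      ‖p1 T (θ, θ + a)‖ ≤ 2 ^ (4 + 1) * (|C| / e) * ‖a‖ ^ 4 := fun a ha => by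
    simpa only [add_sub_cancel_left] using (b4 _ (mem a ha)).1
  have ha := mem_ball_zero_iff.2 hα
  have k := odd5 (f := fun a => p1 T (θ, θ + a) - p1 T (θ, θ + -a))
    (M := 2 * (2 ^ (4 + 1) * (|C| / e))) (by positivity)
    (dg.sub (dg.comp (by fun_prop) ng)) (fun a _ => by rw [neg_neg, neg_sub])
    (fun a ha => by
      have h1 := bg a ha
      have h2 := bg _ (ng a ha)
      rw [norm_neg] at h2
      exact (norm_sub_le _ _).trans (by linarith)) ha
  have dS : ∀ z ∈ Om σ d, DifferentiableAt ℂ S z := fun z hz =>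
    h.hol.differentiableAt ((oOm σ d).mem_nhds hz)
  have q1 : ∀ a ∈ ball (0 : ℂ) (e / 8), p1 T (θ, θ + a) = p1 S (θ, θ + a) - a ^ 2 / 2 := by
    intro a ha
    have hz := s2 (mem a ha)
    refine p1_eq (dT.differentiableAt ((oOm σ d).mem_nhds hz)) ?_
    have := (hd1 (dS _ hz)).add
      ((((hasDerivAt_id θ).const_sub (θ + a)).fun_pow 3).div_const 6)
    refine this.congr_deriv ?_
    simp only [id, add_sub_cancel_left]
    push_cast
    ring
  have q2 : p2 S (θ - α, θ) = -p1 S (θ, θ + -α) := by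
    have hz := s2 (mem _ (ng α ha))
    have hz' : (θ - α, θ) ∈ Om σ d :=
      ⟨by simpa only [sub_eq_add_neg] using hz.2.1, hz.1, by
        have := hz.2.2
        rw [norm_sub_rev] at this
        simpa only [sub_eq_add_neg] using this⟩
    refine p2_eq (dS _ hz') ((hd1 (dS _ hz)).neg.congr_of_eventuallyEq ?_)
    have : ∀ᶠ t in nhds θ, (t, θ + -α) ∈ Om σ d :=
      (continuous_id.prodMk continuous_const).continuousAt.preimage_mem_nhds
        ((oOm σ d).mem_nhds hz)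
    exact this.mono fun t ht => by simpa only [sub_eq_add_neg, Pi.neg_apply] using h.anti _ ht
  refine le_of_eq_of_le (congrArg _ ?_) k
  rw [e3, q2, q1 _ ha, q1 _ (ng α ha)]
  ring

end Vale.Agent.P097
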