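import Vale.Agent.P097.KStm

open Set NormedSpace Complex Metric

namespace Vale.Agent.P097

namespace KGdcAux

variable {S : ℂ × ℂ → ℂ} {σ d C : ℝ}

theorem swap {a b : ℂ} (h : (a, b) ∈ Om σ d) : (b, a) ∈ Om σ d :=
  ⟨h.2.1, h.1, by have := h.2.2; rwa [norm_sub_rev] at this⟩

theorem p1_swap (hS : GF S σ d C) {a b : ℂ} (h : (a, b) ∈ Om σ d) :
    p1 S (b, a) = -p2 S (a, b) := by
  have hd := hS.hol.differentiableAt ((oOm σ d).mem_nhds h)
  have hd' := hS.hol.differentiableAt ((oOm σ d).mem_nhds (swap h))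
  refine p1_eq hd' ((hd2 hd).neg.congr_of_eventuallyEq ?_)
  have : ∀ᶠ t in nhds b, (a, t) ∈ Om σ d :=
    (continuous_const.prodMk continuous_id).continuousAt.preimage_mem_nhds ((oOm σ d).mem_nhds h)
  exact this.mono fun t ht => hS.anti _ ht

theorem e3_swap (hS : GF S σ d C) {a b c : ℂ} (h : (a, b) ∈ Om σ d) (h' : (b, c) ∈ Om σ d) :
    e3 S c b a = -e3 S a b c := by
  have h1 := p1_swap hS h
  have h2 := p1_swap hS (swap h')
  simp only [e3]
  rw [h1, h2]
  ring

theorem mem_add {a b : ℂ} (h : (a, b) ∈ Om σ d) (p : ℤ) : (a + p, b + p) ∈ Om σ d := by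
  simpa [Om] using h

theorem shift1 (hS : GF S σ d C) {a b : ℂ} (h : (a, b) ∈ Om σ d) :
    p1 S (a + 1, b + 1) = p1 S (a, b) ∧ p2 S (a + 1, b + 1) = p2 S (a, b) :=
  fd_shift (f := S) (v := (1, 1)) (k := 0) (oOm σ d)
    (fun z hz => by rw [add_zero]; exact hS.per z hz) h

theorem shift (hS : GF S σ d C) {a b : ℂ} (h : (a, b) ∈ Om σ d) (p : ℤ) :
    p1 S (a + p, b + p) = p1 S (a, b) ∧ p2 S (a + p, b + p) = p2 S (a, b) := by
  induction p using Int.induction_on with
  | zero => simp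
  | succ n ih =>
    have := shift1 hS (mem_add h (n : ℤ))
    have e : ∀ u : ℂ, u + (((n : ℤ) + 1 : ℤ) : ℂ) = u + ((n : ℤ) : ℂ) + 1 := fun u => by
      push_cast; ring
    rw [e, e, this.1, this.2]
    exact ih
  | pred n ih =>
    have := shift1 hS (mem_add h (-(n : ℤ) - 1))
    have e : ∀ u : ℂ, u + ((-(n : ℤ) - 1 : ℤ) : ℂ) + 1 = u + ((-(n : ℤ) : ℤ) : ℂ) := fun u => by
      push_cast; ring
    rw [e, e] at this
    rw [← this.1, ← this.2]
    exact ih

theorem e3_shift (hS : GF S σ d C) {a b c : ℂ} (h : (a, b) ∈ Om σ d) (h' : (b, c) ∈ Om σ d)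
    (p : ℤ) : e3 S (a + p) (b + p) (c + p) = e3 S a b c := by
  simp only [e3]
  rw [(shift hS h p).2, (shift hS h' p).1]

theorem real_mem (hS : GF S σ d C) {a b : ℝ} (h : b - a ∈ Ioo (-d) 0) :
    ((a : ℂ), (b : ℂ)) ∈ Om σ d := by
  refine ⟨by simpa using hS.spos, by simpa using hS.spos, ?_⟩
  change ‖(b : ℂ) - (a : ℂ)‖ < d
  rw [← ofReal_sub, Complex.norm_real, Real.norm_eq_abs, abs_lt]
  exact ⟨h.1, h.2.trans hS.dpos⟩

end KGdcAux

open KGdcAux in
theorem gdcE : S_gdc := by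
  intro S σ d C hS q p x hq hper hgap heq
  have hm : ∀ k : ℤ, ((x (k - 1) : ℂ), (x k : ℂ)) ∈ Om σ d := fun k => by
    have := hgap (k - 1)
    rw [sub_add_cancel] at this
    exact real_mem hS this
  have hm' : ∀ k : ℤ, ((x k : ℂ), (x (k + 1) : ℂ)) ∈ Om σ d := fun k => real_mem hS (hgap k)
  have key := hS.crit q (-p) (fun k => x (-k)) hq (fun k => by
      have := hper (-(k + q))
      rw [show -(k + (q : ℤ)) + q = -k by ring] at this
      push_cast
      linarith)
    (fun k => by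
      have := hgap (-(k + 1))
      rw [show -(k + 1) + 1 = -k by ring] at this
      exact ⟨by linarith [this.2], by linarith [this.1]⟩)
    (fun k hk0 hkq => by
      have h0 := heq (-k + q) (by omega) (by omega)
      rw [show -k + (q : ℤ) - 1 = (-k - 1) + q by ring,
        show -k + (q : ℤ) + 1 = (-k + 1) + q by ring, hper, hper, hper] at h0
      push_cast at h0
      rw [e3_shift hS (hm (-k)) (hm' (-k))] at h0
      rw [show -(k - 1) = -k + 1 by ring, show -(k + 1) = -k - 1 by ring,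
        e3_swap hS (hm (-k)) (hm' (-k)), h0, neg_zero])
  rw [show -((0 : ℤ) - 1) = 0 + 1 by ring, show -((0 : ℤ) + 1) = 0 - 1 by ring, neg_zero,
    e3_swap hS (hm 0) (hm' 0), neg_eq_zero] at key
  exact key

end Vale.Agent.P097
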