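import Vale.Agent.P097.KStm
import Vale.Agent.P097.Geo2

open Set NormedSpace Complex Metric

namespace Vale.Agent.P097

open Geo2Aux in
theorem geo2pE (hchord : S_chord) (hGB : S_GB) : S_geo2p := by
  intro γ L β c s hT hβ hl hG
  have hβc : Continuous β := hβ.1.continuous
  obtain ⟨M, hM⟩ := bdd_of_per hβc hβ.2
  obtain ⟨c0, d0, hb⟩ := hGB M
  obtain ⟨η, hη, hG⟩ := hG
  have hc0 := hb.cpos
  have hd0 := hb.dpos
  have H := hb.h β hβc hM
  refine ⟨min (min d0 1) (η * c0 ^ 2 / 2), by positivity, fun q p x hq hper hgap hE => ?_⟩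
  have g0 : ∀ k, 0 < x (k + 1) - x k := fun k => (hgap k).1
  have g1 : ∀ k, x (k + 1) - x k < d0 := fun k =>
    (hgap k).2.trans_le ((min_le_left _ _).trans (min_le_left _ _))
  have g2 : ∀ k, x (k + 1) - x k < 1 := fun k =>
    (hgap k).2.trans_le ((min_le_left _ _).trans (min_le_right _ _))
  have g3 : ∀ k, x (k + 1) - x k < η * c0 ^ 2 / 2 := fun k =>
    (hgap k).2.trans_le (min_le_right _ _)
  have Hp : ∀ k, _ := fun k => H (x k) (x (k + 1) - x k) (by rw [abs_of_pos (g0 k)]; exact (g1 k).le)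
  have n0 : ∀ k, 0 < x k - x (k - 1) := fun k => by simpa using g0 (k - 1)
  have n1 : ∀ k, x k - x (k - 1) < d0 := fun k => by simpa using g1 (k - 1)
  have Hn : ∀ k, _ := fun k => H (x k) (-(x k - x (k - 1)))
    (by rw [abs_neg, abs_of_pos (n0 k)]; exact (n1 k).le)
  have rp : ∀ k, 0 < (Gr β (x k) (x (k + 1) - x k)).re := fun k => hc0.trans_le (Hp k).1
  have rn : ∀ k, 0 < (Gr β (x k) (-(x k - x (k - 1)))).re := fun k => hc0.trans_le (Hn k).1
  have ip : ∀ k, 0 < (Gr β (x k) (x (k + 1) - x k)).im := fun k => (Hp k).2.2.2.1 (g0 k)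
  have inn : ∀ k, (Gr β (x k) (-(x k - x (k - 1)))).im < 0 := fun k =>
    (Hn k).2.2.2.2 (by linarith [n0 k])
  have hp := Real.pi_pos
  obtain ⟨g, ⟨-, gper, -, ginv⟩, hg0⟩ := hG (s (x 0)) (arg (Gr β (x 0) (x (0 + 1) - x 0)))
    (arg_pos (rp 0) (ip 0)).1 (arg_small hc0 (Hp 0).1 (ip 0) (Hp 0).2.2.1 (g0 0) (g3 0))
  have next : ∀ k : ℤ, g (s (x k)) = arg (Gr β (x k) (x (k + 1) - x k)) →
      -arg (Gr β (x (k + 1)) (-(x (k + 1) - x (k + 1 - 1)))) = g (s (x (k + 1))) := by
    intro k hk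
    have hne : Gr β (x k) (x (k + 1) - x k) ≠ 0 := fun h => by
      have := rp k
      rw [h] at this
      simp at this
    have st := step hchord hT hβc hl (x k) (x (k + 1) - x k) (g0 k) (g2 k) hne
    have e : x k + (x (k + 1) - x k) = x (k + 1) := by ring
    rw [e, ← hk] at st
    have a := arg_neg (rn (k + 1)) (inn (k + 1))
    refine ginv (s (x k)) _ _ a.1 (by linarith [a.2]) ?_
    rw [add_sub_cancel_right]
    exact st
  have ind : ∀ k : ℕ, k < q → g (s (x k)) = arg (Gr β (x k) (x (k + 1) - x k)) := by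
    intro k
    induction k with
    | zero => intro _; exact hg0
    | succ k ih =>
      intro hk
      have h1 := next k (ih (by omega))
      have h2 := hE ((k : ℤ) + 1) (by omega) (by omega)
      rw [EE, Ee_zero_iff (rp _) (rn _)] at h2
      push_cast
      rw [← h1, h2]
  obtain ⟨m, rfl⟩ : ∃ m, q = m + 1 := ⟨q - 1, by omega⟩
  have h1 := next m (ind m (by omega))
  have e1 : x ((m : ℤ) + 1) = x 0 + p := by
    have := hper 0
    rwa [zero_add, Nat.cast_succ] at this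
  have e2 : x ((m : ℤ) + 1 - 1) = x (0 - 1) + p := by
    have e : (m : ℤ) + 1 - 1 = 0 - 1 + ((m + 1 : ℕ) : ℤ) := by
      push_cast
      ring
    rw [e]
    exact hper (0 - 1)
  have e3 : x 0 + p - (x (0 - 1) + p) = x 0 - x (0 - 1) := by ring
  have p1 : ∀ d, Function.Periodic (fun ξ => Gr β ξ d) 1 := fun d ξ => Gr_per hβ.2 ξ d
  have p2 : Function.Periodic (fun ξ => g (s ξ)) 1 := fun ξ => by
    simp only [hl.per, gper _]
  have p3 : ∀ d, Gr β (x 0 + p) d = Gr β (x 0) d := fun d => by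
    simpa only [mul_one] using (p1 d).int_mul p (x 0)
  have p4 : g (s (x 0 + p)) = g (s (x 0)) := by
    simpa only [mul_one] using p2.int_mul p (x 0)
  rw [e1, e2, e3, p3, p4, hg0] at h1
  rw [EE, Ee_zero_iff (rp _) (rn _)]
  exact h1.symm

end Vale.Agent.P097
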