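import Vale.Agent.P097.KStm

open Set NormedSpace Complex Metric Filter Topology

namespace Vale.Agent.P097

theorem hfpE : S_hfp := by
  intro q U V R T Rl hU hR hT hb hV hc h0 hRl
  have mem : ∀ w : Fin q → ℂ, ‖w‖ ≤ R → w ∈ ball (0 : Fin q → ℂ) (3 * R) := fun w hw =>
    mem_ball_zero_iff.2 (by linarith)
  have dT : ∀ θ ∈ U, DifferentiableOn ℂ (fun w => T (θ, w)) (ball 0 (3 * R)) := fun θ hθ =>
    hT.comp (by fun_prop) fun w hw => ⟨hθ, hw⟩
  have lip : ∀ θ ∈ U, ∀ w w', ‖w‖ ≤ R → ‖w'‖ ≤ R →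
      ‖T (θ, w) - T (θ, w')‖ ≤ 1 / 2 * ‖w - w'‖ := by
    intro θ hθ w w' hw hw'
    refine (convex_closedBall (0 : Fin q → ℂ) R).norm_image_sub_le_of_norm_fderiv_le (𝕜 := ℂ)
      (f := fun w => T (θ, w)) (fun x hx => (dT θ hθ).differentiableAt
        (isOpen_ball.mem_nhds (mem x (mem_closedBall_zero_iff.1 hx)))) (fun x hx => ?_)
      (mem_closedBall_zero_iff.2 hw') (mem_closedBall_zero_iff.2 hw)
    have sub : ball x (2 * R) ⊆ ball 0 (3 * R) :=
      ball_subset_ball' (by linarith [mem_closedBall.1 hx])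
    refine (P274.norm_fderiv_le_of_bdd (by positivity) ((dT θ hθ).mono sub)
      fun y hy => hb (θ, y) ⟨hθ, sub hy⟩).trans (le_of_eq ?_)
    field_simp
  obtain ⟨W, W0, WS⟩ : ∃ W : ℕ → ℂ → Fin q → ℂ, (∀ θ, W 0 θ = 0) ∧
      ∀ k θ, W (k + 1) θ = T (θ, W k θ) :=
    ⟨fun k θ => (fun w => T (θ, w))^[k] 0, fun _ => rfl, fun k θ => Function.iterate_succ_apply' ..⟩
  have bd : ∀ k, ∀ θ ∈ U, ‖W k θ‖ ≤ R := fun k θ hθ => by
    induction k with
    | zero => rw [W0, norm_zero]; exact hR.le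
    | succ k ih => rw [WS]; exact (hb _ ⟨hθ, mem _ ih⟩).trans (by linarith)
  have hol : ∀ k, DifferentiableOn ℂ (W k) U := fun k => by
    induction k with
    | zero => exact (differentiableOn_const 0).congr fun θ _ => W0 θ
    | succ k ih =>
      exact (hT.comp (differentiableOn_id.prodMk ih) fun θ hθ => ⟨hθ, mem _ (bd k θ hθ)⟩).congr
        fun θ _ => WS k θ
  have rl : ∀ k, ∀ θ ∈ V, W k θ ∈ Rl := fun k θ hθ => by
    induction k with
    | zero => rwa [W0]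
    | succ k ih => rw [WS]; exact hRl θ hθ _ ih (bd k θ (hV hθ))
  have geo : ∀ θ ∈ U, ∀ k, dist (W k θ) (W (k + 1) θ) ≤ R * (1 / 2) ^ k := fun θ hθ k => by
    rw [dist_eq_norm]
    induction k with
    | zero => rw [W0, zero_sub, norm_neg, pow_zero, mul_one]; exact bd _ θ hθ
    | succ k ih =>
      rw [WS k, WS (k + 1), pow_succ]
      linarith [lip θ hθ _ _ (bd k θ hθ) (bd (k + 1) θ hθ)]
  have lim : ∀ θ ∈ U, Tendsto (fun k => W k θ) atTop (𝓝 (limUnder atTop fun k => W k θ)) :=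
    fun θ hθ => (cauchySeq_of_le_geometric (1 / 2) R (by norm_num) (geo θ hθ)).tendsto_limUnder
  refine ⟨fun θ => limUnder atTop fun k => W k θ, ?_, fun θ hθ => ?_,
    fun θ hθ => hc.mem_of_tendsto (lim θ (hV hθ)) (Eventually.of_forall fun k => rl k θ hθ)⟩
  · refine (P274.weierstrass hU (fun x hx => ?_) lim).1
    obtain ⟨r, hr, hs⟩ := Metric.isOpen_iff.1 hU x hx
    exact ⟨r, hr, R, Eventually.of_forall fun k => ⟨(hol k).mono hs, fun y hy => bd k y (hs hy)⟩⟩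
  · have b := le_of_tendsto' (lim θ hθ).norm fun k => bd k θ hθ
    refine ⟨b, tendsto_nhds_unique ?_ ((tendsto_add_atTop_iff_nat 1).2 (lim θ hθ))⟩
    simp only [WS]
    exact ((dT θ hθ).differentiableAt (isOpen_ball.mem_nhds (mem _ b))).continuousAt.tendsto.comp
      (lim θ hθ)

end Vale.Agent.P097
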