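import Vale.Agent.P097.KStm

open Set NormedSpace Complex Metric

namespace Vale.Agent.P097

namespace KJbAux

theorem shift_mem {a s : ℝ} {z θ : ℂ} (h : s + |z.im| ≤ a) (hθ : θ ∈ St s) : θ + z ∈ St a := by
  have h1 : |θ.im| < s := hθ
  have h2 := abs_add_le θ.im z.im
  change |(θ + z).im| < a
  rw [add_im]
  linarith

theorem diff (hfc1 : S_fc1) {g : ℂ → ℂ} {a s A : ℝ} {x : ℂ} (hs : 0 < s) (h : s + |x.im| / 2 ≤ a)
    (hg : DifferentiableOn ℂ g (St a)) (hp : ∀ z ∈ St a, g (z + 1) = g z)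
    (hA : ∀ θ ∈ St s, ‖g (θ + x / 2) - g (θ - x / 2)‖ ≤ A) (n : ℤ) :
    ‖sv n x * fc (fun t => g t) n‖ ≤ A * gw (-1) n s := by
  have e1 : |(x / 2).im| = |x.im| / 2 := by simp [abs_div]
  have e2 : |(-(x / 2)).im| = |x.im| / 2 := by rw [neg_im, abs_neg, e1]
  have d : ∀ z : ℂ, |z.im| = |x.im| / 2 → DifferentiableOn ℂ (fun θ => g (θ + z)) (St s) :=
    fun z hz => hg.comp (by fun_prop) fun θ hθ => shift_mem (by rw [hz]; exact h) hθ
  have c : ∀ z : ℂ, |z.im| = |x.im| / 2 → Continuous fun t : ℝ => g (t + z) := fun z hz =>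
    (d z hz).continuousOn.comp_continuous continuous_ofReal fun t => by simpa [St] using hs
  have p : ∀ z : ℂ, |z.im| = |x.im| / 2 → ∀ θ ∈ St s, g (θ + 1 + z) = g (θ + z) :=
    fun z hz θ hθ => by
      rw [add_right_comm]; exact hp _ (shift_mem (by rw [hz]; exact h) hθ)
  have H := (hfc1 g a (by linarith [abs_nonneg x.im]) hg hp).1
  have m : ∀ z : ℂ, |z.im| = |x.im| / 2 → z ∈ St a := fun z hz => by
    change |z.im| < a
    linarith
  rw [sv_eq, sub_mul, ← H _ (m _ e1), ← H _ (m _ e2), ← fc_sub (c _ e1) (c _ e2)]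
  exact (hfc1 (fun θ => g (θ + x / 2) - g (θ + -(x / 2))) s hs ((d _ e1).sub (d _ e2))
    fun θ hθ => by simp only [p _ e1 θ hθ, p _ e2 θ hθ]).2.1 A
      (fun θ hθ => by rw [← sub_eq_add_neg]; exact hA θ hθ) n

variable {S ξ : ℂ × ℂ → ℂ} {σ₁ d₁ C c₀ C' σ r ε t η : ℝ}

theorem slice {f : ℂ × ℂ → ℂ} (h : PR (XX σ (1 / 2) r) f) {x : ℂ} (hx : ‖x‖ < r) :
    DifferentiableOn ℂ (fun θ => f (θ, x)) (St (σ - |x.im| / 2)) ∧
      ∀ z ∈ St (σ - |x.im| / 2), f (z + 1, x) = f (z, x) := by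
  have m : ∀ z ∈ St (σ - |x.im| / 2), (z, x) ∈ XX σ (1 / 2) r := fun z hz =>
    ⟨by have : |z.im| < _ := hz; dsimp only; linarith, hx⟩
  exact ⟨h.hol.comp (by fun_prop) m, fun z hz => h.per _ (m z hz)⟩

theorem Fbd (h : KF S σ₁ d₁ C c₀ C' σ r ε t ξ) (hη : 0 < η) {k : ℝ} (hk : 1 ≤ k) {z : ℂ × ℂ}
    (hz : z ∈ XX (σ - η / 2) 1 (r - η / (2 * k))) :
    ‖Jc S ξ (zp z) - Jc S ξ (zm z)‖ ≤ 3 * k * ε / η := by
  have hρ : 0 < η / (2 * k) := by positivity
  have hρ' : η / (2 * k) ≤ η / 2 := by gcongr; linarith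
  have hε := h.e0
  have hE : ∀ y ∈ XX σ 1 r, ‖EK S ξ y‖ ≤ ε := fun y hy =>
    (h.ks.err y hy).trans (mul_le_of_le_one_right hε (pow_le_one₀ (norm_nonneg _) (by
      linarith [hy.2, h.ok.r2, h.gd.dle])))
  have z1 : z ∈ XX σ 1 r := XX_mono (by linarith) le_rfl (by linarith) hz
  have z0 : z ∈ XX σ 0 r := XX_mono le_rfl zero_le_one le_rfl z1
  have a1 := cx1 h.k2.prE.hol (half_pos hη) (XX_mono le_rfl le_rfl (by linarith) hz)
    fun t ht => hE _ ht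
  have a2 := cx2 h.k2.prE.hol hρ zero_le_one (XX_mono (by linarith) le_rfl le_rfl hz) hE
  have a3 : ‖p2 ξ z‖ ≤ 1 / 10 := (h.ks.d2 z z0).trans h.ok.t1
  have a4 : ‖p1 ξ z‖ ≤ 11 / 10 := by
    have b1 := (h.ks.d1 z z0).trans h.ok.t1
    have b2 := norm_le_norm_add_norm_sub' (p1 ξ z) 1
    rw [norm_one] at b2
    linarith
  rw [h.k4.idJ z z1]
  refine (norm_sub_le _ _).trans ?_
  rw [norm_mul, norm_mul]
  have b1 := mul_le_mul a3 a1 (norm_nonneg _) (by norm_num)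
  have b2 := mul_le_mul a4 a2 (norm_nonneg _) (by norm_num)
  have e1 : ε / (η / 2) = 2 * (ε / η) := by field_simp
  have e2 : ε / (η / (2 * k)) = 2 * (k * (ε / η)) := by field_simp
  have e3 : 3 * k * ε / η = 3 * (k * (ε / η)) := by ring
  have b3 : ε / η ≤ k * (ε / η) := le_mul_of_one_le_left (by positivity) hk
  have b4 : 0 ≤ ε / η := by positivity
  rw [e1] at b1
  rw [e2] at b2
  linarith

theorem gw_le {n : ℤ} {s b : ℝ} (h : |(n:ℝ)| * b ≤ 1 / 32) :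
    gw (-1) n (s - b) ≤ 2 * gw (-1) n s := by
  have e : gw (-1) n (s - b) = Real.exp (2 * Real.pi * (|(n:ℝ)| * b)) * gw (-1) n s := by
    rw [gw, gw, ← Real.exp_add]; congr 1; ring
  rw [e]
  refine mul_le_mul_of_nonneg_right ?_ (gw_pos _ _ _).le
  have a : 2 * Real.pi * (|(n:ℝ)| * b) ≤ 2 * Real.pi * (1 / 32) := by gcongr
  have b : 2 * Real.pi * (|(n:ℝ)| * b) ≤ Real.log 2 := by
    linarith [Real.pi_le_four, Real.log_two_gt_d9]
  exact (Real.exp_le_exp.2 b).trans (Real.exp_log two_pos).le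

theorem coef (hfc1 : S_fc1) (hpar : S_par) (hquot : S_quot) (h : KF S σ₁ d₁ C c₀ C' σ r ε t ξ)
    (hη : 0 < η) (hησ : η ≤ σ / 2) {k α : ℝ} (hk : 4 ≤ k) (hα : |α| + 1 / k ≤ r) {n : ℤ}
    (hn : n ≠ 0) : ‖f2 (Jc S ξ) n α‖ ≤ 1536 * k ^ 2 * ε / η * gw (-1) n (σ - η / 2) := by
  have n1 : (1:ℝ) ≤ |(n:ℝ)| := by exact_mod_cast Int.one_le_abs hn
  have k0 : 0 < k := by linarith
  have hε := h.e0
  have s1 : σ ≤ 1 / 2 := by linarith [h.ok.hi, h.gd.sle]
  have s2 : r ≤ σ / 10 := by linarith [h.ok.lo, h.ok.r1, h.ok.rpos]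
  have eR : |(n:ℝ)| * (1 / (8 * k * |(n:ℝ)|)) = 1 / k / 8 := by field_simp
  have k1 : 1 / k ≤ 1 / 4 := one_div_le_one_div_of_le (by norm_num) hk
  have k2 : 0 < 1 / k := by positivity
  have hR : 1 / (8 * k * |(n:ℝ)|) ≤ 1 / k / 8 :=
    eR ▸ le_mul_of_one_le_left (by positivity) n1
  have hρ : η / (2 * k) ≤ 1 / k / 8 := by
    rw [show 1 / k / 8 = 1 / 4 / (2 * k) by field_simp; norm_num]
    gcongr
    linarith
  have hx : ∀ x ∈ ball (α:ℂ) (1 / (8 * k * |(n:ℝ)|)), ‖x‖ < r - η / (2 * k) ∧ ‖x‖ < r ∧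
      |x.im| < r ∧ |x.im| ≤ 1 / (8 * k * |(n:ℝ)|) := fun x hx => by
    have a1 := norm_lt_of_mem_ball hx
    rw [norm_real, Real.norm_eq_abs] at a1
    have a2 := im_ball (ball_subset_closedBall hx)
    rw [ofReal_im, abs_zero, zero_add] at a2
    exact ⟨by linarith, by linarith, (abs_im_le_norm x).trans_lt (by linarith), a2⟩
  have Q := hquot n α (1 / (8 * k * |(n:ℝ)|)) (3 * k * ε / η * (2 * gw (-1) n (σ - η / 2)))
    (f2 (Jc S ξ) n) hn (by positivity) (by linarith)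
    (fun x hx' => (hpar _ _ _ n (oXX σ (1 / 2) r) isOpen_ball h.k4.prJ.hol (fun y hy t _ =>
      ⟨by have := (hx y hy).2.2.1; simp only [ofReal_im, abs_zero]; linarith [h.ok.rpos],
        (hx y hy).2.1⟩) x hx').differentiableAt.differentiableWithinAt)
    fun x hx' => by
      obtain ⟨a1, a2, a3, a4⟩ := hx x hx'
      have a5 := abs_nonneg x.im
      refine (diff hfc1 (s := σ - η / 2 - |x.im|) (by linarith) (by linarith)
        (slice h.k4.prJ a2).1 (slice h.k4.prJ a2).2 (fun θ hθ => Fbd (z := (θ, x)) h hη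
          (by linarith : 1 ≤ k) ⟨by have : |θ.im| < _ := hθ; dsimp only; linarith, a1⟩) n).trans ?_
      refine mul_le_mul_of_nonneg_left (gw_le ?_) (by positivity)
      linarith [mul_le_mul_of_nonneg_left a4 (abs_nonneg (n:ℝ))]
  rw [ofReal_im, abs_zero, gw, mul_zero, Real.exp_zero, mul_one, eR] at Q
  refine Q.trans (le_of_eq ?_)
  field_simp
  ring

end KJbAux

open KJbAux

theorem jbE (hfc1 : S_fc1) (hfc2 : S_fc2) (hpar : S_par) (hquot : S_quot) : S_jb := by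
  refine ⟨3072, by norm_num, fun S ξ σ₁ d₁ C c₀ C' σ r ε t η K α h hη hησ hK h1 h2 φ hφ => ?_⟩
  have K2 : (2:ℝ) ≤ K := by exact_mod_cast hK
  have K0 : (0:ℝ) < K := by linarith
  have hε := h.e0
  have hr := h.ok.rpos
  have a0 : r * (1 - 1 / K) = r - r * (1 / K) := by ring
  have a1 : 0 < r * (1 / K) := by positivity
  have a2 : 1 / K ≤ r := by
    rw [div_le_iff₀' K0]
    exact h1.trans (mul_le_mul_of_nonneg_left (by linarith) K0.le)
  have a3 : 1 / (K:ℝ) ^ 2 ≤ r * (1 / K) := by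
    rw [show 1 / (K:ℝ) ^ 2 = 1 / K * (1 / K) by ring]
    gcongr
  have hα : ‖(α:ℂ)‖ < r := by rw [norm_real, Real.norm_eq_abs]; linarith
  have sl := slice h.k4.prJ hα
  rw [ofReal_im, abs_zero, zero_div, sub_zero] at sl
  have H := hfc2 (fun θ => Jc S ξ (θ, α)) σ (σ - η / 2) (η / 2) (1536 * ((K:ℝ) ^ 2) ^ 2 * ε / η) 0
    (half_pos hη) (by linarith) (by positivity) sl.1 sl.2
    (fun n hn => coef hfc1 hpar hquot h hη hησ (by nlinarith) (by linarith)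
      (by rintro rfl; simp at hn)) φ (by rwa [show σ - η / 2 - η / 2 = σ - η by ring])
  simp only [Nat.cast_zero, neg_zero, Finset.Icc_self, Finset.sum_singleton, Int.cast_zero,
    zero_mul, mul_zero, ce, Complex.exp_zero, Real.exp_zero, mul_one] at H
  refine H.trans ?_
  have e1 : η ≤ 1 := by linarith [h.ok.hi, h.gd.sle]
  rw [show 1536 * ((K:ℝ) ^ 2) ^ 2 * ε / η / (η / 2) = 3072 * (K:ℝ) ^ 4 * ε / η ^ 2 by
    field_simp; ring]
  exact div_le_div_of_nonneg_left (by positivity) (by positivity)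
    (pow_le_pow_of_le_one hη.le e1 (by norm_num))

end Vale.Agent.P097
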