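import Vale.Agent.P097.KStm

open Set NormedSpace Complex Metric

namespace Vale.Agent.P097

namespace KK1Aux

variable {S ξ : ℂ × ℂ → ℂ} {σ₁ d₁ C σ r ε t : ℝ} {z : ℂ × ℂ}

theorem mem0 : z ∈ XX σ 0 r ↔ |z.1.im| < σ ∧ ‖z.2‖ < r := by simp [XX]

theorem zp0 (hz : z ∈ XX σ (1 / 2) r) : zp z ∈ XX σ 0 r := sub_self (1 / 2 : ℝ) ▸ zp_mem hz

theorem zm0 (hz : z ∈ XX σ (1 / 2) r) : zm z ∈ XX σ 0 r := sub_self (1 / 2 : ℝ) ▸ zm_mem hz

theorem cvx (s : ℝ) : Convex ℝ (St s) := by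
  have : St s = imLm ⁻¹' Ioo (-s) s := by
    ext w
    exact abs_lt (a := w.im) (b := s)
  rw [this]
  exact (convex_Ioo _ _).linear_preimage _

theorem im (hs : 0 < σ₁) (ho : OK σ₁ d₁ C σ r t) (hk : KS S σ r ε t ξ) (hz : z ∈ XX σ 0 r) :
    |(ξ z).im| ≤ 3 / 5 * σ₁ := by
  obtain ⟨h1, h2⟩ := mem0.1 hz
  have h := mvt (g := fun s => ξ (z.1, s)) (g' := fun s => p2 ξ (z.1, s)) (a := 0) (b := z.2)
    (M := t) fun s hs => by
      have hm : (z.1, s) ∈ XX σ 0 r := mem0.2 ⟨h1, mem_ball_zero_iff.1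
        ((convex_ball 0 r).segment_subset (mem_ball_self ho.rpos) (mem_ball_zero_iff.2 h2) hs)⟩
      exact ⟨hd2 (z := (z.1, s)) (hk.hol.differentiableAt ((oXX _ _ _).mem_nhds hm)), hk.d2 _ hm⟩
  rw [hk.zero _ h1, sub_zero] at h
  have h3 := (Complex.abs_im_le_norm _).trans h
  have h4 := abs_add_le z.1.im (ξ z - z.1).im
  have h5 : t * ‖z.2‖ ≤ 1 / 10 * r := mul_le_mul ho.t1 h2.le (norm_nonneg _) (by norm_num)
  rw [sub_im, add_sub_cancel] at h4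
  rw [sub_im] at h3
  linarith [ho.hi, ho.r1]

theorem gap (ho : OK σ₁ d₁ C σ r t) (hk : KS S σ r ε t ξ) (hz : z ∈ XX σ (1 / 2) r) :
    ‖ξ (zp z) - ξ (zm z) - z.2‖ ≤ ‖z.2‖ / 10 := by
  have h := mvt (g := fun s => ξ (s, z.2) - s) (g' := fun s => p1 ξ (s, z.2) - 1)
    (a := z.1 - z.2 / 2) (b := z.1 + z.2 / 2) (M := t) fun s hs => by
      have hm : (s, z.2) ∈ XX σ 0 r :=
        mem0.2 ⟨(cvx σ).segment_subset (mem0.1 (zm0 hz)).1 (mem0.1 (zp0 hz)).1 hs, hz.2⟩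
      exact ⟨(hd1 (z := (s, z.2)) (hk.hol.differentiableAt ((oXX _ _ _).mem_nhds hm))).sub
        (hasDerivAt_id s), hk.d1 _ hm⟩
  have e1 : ξ (zp z) - ξ (zm z) - z.2 = ξ (z.1 + z.2 / 2, z.2) - (z.1 + z.2 / 2) -
      (ξ (z.1 - z.2 / 2, z.2) - (z.1 - z.2 / 2)) := by
    unfold zp zm; ring
  have e2 : z.1 + z.2 / 2 - (z.1 - z.2 / 2) = z.2 := by ring
  rw [e2] at h
  rw [e1]
  have := mul_le_mul_of_nonneg_right ho.t1 (norm_nonneg z.2)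
  linarith

theorem gap' (ho : OK σ₁ d₁ C σ r t) (hk : KS S σ r ε t ξ) (hz : z ∈ XX σ (1 / 2) r) :
    ‖ξ (zp z) - ξ (zm z)‖ ≤ 11 / 10 * ‖z.2‖ := by
  have h := norm_add_le (ξ (zp z) - ξ (zm z) - z.2) z.2
  rw [sub_add_cancel] at h
  linarith [gap ho hk hz]

theorem om (hg : GD S σ₁ d₁ C) (ho : OK σ₁ d₁ C σ r t) (hk : KS S σ r ε t ξ)
    (hz : z ∈ XX σ (1 / 2) r) : (ξ (zm z), ξ (zp z)) ∈ Om σ₁ d₁ := by
  have h1 := im hg.spos ho hk (zm0 hz)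
  have h2 := im hg.spos ho hk (zp0 hz)
  have h3 := gap' ho hk hz
  have h4 : ‖z.2‖ < r := hz.2
  refine ⟨?_, ?_, ?_⟩ <;> dsimp only <;> linarith [hg.spos, hg.dpos, ho.r2]

theorem pr (hk : KS S σ r ε t ξ) : PR (XX σ 0 r) (p1 ξ) ∧ PR (XX σ 0 r) (p2 ξ) := by
  have h1 : ∀ z ∈ XX σ 0 r, p1 ξ (z.1 + 1, z.2) = p1 ξ z ∧ p2 ξ (z.1 + 1, z.2) = p2 ξ z := by
    intro z hz
    have e : ∀ y : ℂ × ℂ, y + (1, 0) = (y.1 + 1, y.2) := fun y => Prod.ext rfl (add_zero _)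
    have := fd_shift (f := ξ) (v := (1, 0)) (k := 1) (oXX σ 0 r)
      (fun y hy => by rw [e]; exact hk.per y hy) hz
    rwa [e] at this
  have h2 := fun z (hz : z ∈ XX σ 0 r) =>
    fd_real (oXX σ 0 r) hk.hol (fun _ => XX_cj) hk.real hz
  exact ⟨⟨hol1 (oXX _ _ _) hk.hol, fun z hz => (h1 z hz).1, fun z hz => (h2 z hz).1⟩,
    hol2 (oXX _ _ _) hk.hol, fun z hz => (h1 z hz).2, fun z hz => (h2 z hz).2⟩

theorem hh_per (hg : GD S σ₁ d₁ C) (hz : z ∈ Om σ₁ d₁) : HH S (z.1 + 1, z.2 + 1) = HH S z :=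
  (fd_shift (f := p1 S) (v := (1, 1)) (k := 0) (oOm σ₁ d₁) (fun y hy =>
    ((fd_shift (f := S) (v := (1, 1)) (k := 0) (oOm σ₁ d₁)
      (fun x hx => (hg.per x hx).trans (add_zero _).symm) hy).1).trans (add_zero _).symm) hz).2

theorem hh_real (hg : GD S σ₁ d₁ C) (hz : z ∈ Om σ₁ d₁) :
    HH S (cj z) = (starRingEnd ℂ) (HH S z) :=
  (fd_real (oOm σ₁ d₁) (hol1 (oOm _ _) hg.hol) (fun _ => Om_cj)
    (fun _ hy => (fd_real (oOm σ₁ d₁) hg.hol (fun _ => Om_cj) hg.real hy).1) hz).2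

theorem pra (hg : GD S σ₁ d₁ C) (ho : OK σ₁ d₁ C σ r t) (hk : KS S σ r ε t ξ) :
    PR (XX σ (1 / 2) r) (ac S ξ) := by
  have dp : DifferentiableOn ℂ zp (XX σ (1 / 2) r) := by unfold zp; fun_prop
  have dm : DifferentiableOn ℂ zm (XX σ (1 / 2) r) := by unfold zm; fun_prop
  obtain ⟨q1, -⟩ := pr hk
  refine ⟨?_, fun z hz => ?_, fun z hz => ?_⟩
  · exact (((hol2 (oOm _ _) (hol1 (oOm _ _) hg.hol)).comp
      ((hk.hol.comp dm fun _ => zm0).prodMk (hk.hol.comp dp fun _ => zp0))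
      fun _ h => om hg ho hk h).mul (q1.hol.comp dm fun _ => zm0)).mul
      (q1.hol.comp dp fun _ => zp0)
  · have e1 : zm (z.1 + 1, z.2) = ((zm z).1 + 1, (zm z).2) :=
      Prod.ext (add_sub_right_comm _ _ _) rfl
    have e2 : zp (z.1 + 1, z.2) = ((zp z).1 + 1, (zp z).2) :=
      Prod.ext (add_right_comm _ _ _) rfl
    unfold ac
    rw [e1, e2, hk.per _ (zm0 hz), hk.per _ (zp0 hz), q1.per _ (zm0 hz), q1.per _ (zp0 hz),
      ← hh_per hg (om hg ho hk hz)]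
  · unfold ac
    rw [← cj_zm, ← cj_zp, hk.real _ (zm0 hz), hk.real _ (zp0 hz), q1.real _ (zm0 hz),
      q1.real _ (zp0 hz), map_mul, map_mul, ← hh_real hg (om hg ho hk hz)]
    rfl

theorem est {H x y a : ℂ} (h : ‖H - a‖ ≤ 17 / 100 * ‖a‖) (hx : ‖x - 1‖ ≤ 1 / 10)
    (hy : ‖y - 1‖ ≤ 1 / 10) : ‖H * x * y - a‖ ≤ ‖a‖ / 2 := by
  have h1 : ‖x * y - 1‖ ≤ 21 / 100 := by
    have e : x * y - 1 = (x - 1) * (y - 1) + ((x - 1) + (y - 1)) := by ring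
    have h1 := norm_add_le ((x - 1) * (y - 1)) ((x - 1) + (y - 1))
    have h2 := norm_add_le (x - 1) (y - 1)
    have h3 := mul_le_mul hx hy (norm_nonneg _) (by norm_num)
    rw [norm_mul] at h1
    rw [e]
    linarith
  have e : H * x * y - a = (H - a) * (x * y - 1) + ((H - a) + a * (x * y - 1)) := by ring
  have h2 := norm_add_le ((H - a) * (x * y - 1)) ((H - a) + a * (x * y - 1))
  have h3 := norm_add_le (H - a) (a * (x * y - 1))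
  have h4 := mul_le_mul h h1 (norm_nonneg _) (by positivity)
  have h5 := mul_le_mul_of_nonneg_left h1 (norm_nonneg a)
  rw [norm_mul] at h2 h3
  rw [e]
  linarith [norm_nonneg a]

theorem ha (hg : GD S σ₁ d₁ C) (ho : OK σ₁ d₁ C σ r t) (hk : KS S σ r ε t ξ)
    (hz : z ∈ XX σ (1 / 2) r) : ‖ac S ξ z - z.2‖ ≤ ‖z.2‖ / 2 := by
  refine est ?_ ((hk.d1 _ (zm0 hz)).trans ho.t1) ((hk.d1 _ (zp0 hz)).trans ho.t1)
  have hC : 0 ≤ C := zero_le_one.trans hg.one_le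
  have h1 := hg.hH _ (om hg ho hk hz)
  have h2 := gap ho hk hz
  have h3 := mul_le_mul_of_nonneg_left
    (pow_le_pow_left₀ (norm_nonneg _) (gap' ho hk hz) 2) hC
  have h4 : C * ‖z.2‖ ≤ 1 / 20 := (mul_le_mul_of_nonneg_left (le_of_lt hz.2) hC).trans ho.r3
  have h5 := mul_le_mul_of_nonneg_right h4 (norm_nonneg z.2)
  have h6 := norm_add_le (HH S (ξ (zm z), ξ (zp z)) - (ξ (zp z) - ξ (zm z)))
    (ξ (zp z) - ξ (zm z) - z.2)
  have e : C * (11 / 10 * ‖z.2‖) ^ 2 = 121 / 100 * (C * ‖z.2‖ * ‖z.2‖) := by ring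
  rw [sub_add_sub_cancel] at h6
  dsimp only at h1
  linarith [norm_nonneg z.2]

end KK1Aux

open KK1Aux in
theorem k1E : S_k1 := fun _ _ _ _ _ _ _ _ _ hg ho hk =>
  ⟨fun _ hz => im hg.spos ho hk hz, fun _ hz => KK1Aux.gap ho hk hz, (pr hk).1, (pr hk).2,
    pra hg ho hk, fun _ hz => ha hg ho hk hz⟩

end Vale.Agent.P097
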