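import Vale.Agent.P097.KStm

open Set NormedSpace Complex Metric

namespace Vale.Agent.P097

namespace KK2Aux

variable {S ξ : ℂ × ℂ → ℂ} {σ₁ d₁ C σ r ε t : ℝ} {z : ℂ × ℂ}

theorem m0 (hz : z ∈ XX σ 1 r) : z ∈ XX σ 0 r := XX_mono le_rfl zero_le_one le_rfl hz

theorem mM (hz : z ∈ XX σ 1 r) : zM z ∈ XX σ 0 r :=
  XX_mono le_rfl (by norm_num) le_rfl (zM_mem hz)

theorem mP (hz : z ∈ XX σ 1 r) : zP z ∈ XX σ 0 r :=
  XX_mono le_rfl (by norm_num) le_rfl (zP_mem hz)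

theorem gapl {a b c : ℂ} (hd : 0 < d₁) (h1 : ‖b - a - c‖ ≤ ‖c‖ / 10) (h2 : ‖c‖ < r)
    (h3 : r ≤ d₁ / 10) : ‖b - a‖ < d₁ := by
  have h4 := norm_add_le (b - a - c) c
  rw [sub_add_cancel] at h4
  linarith

theorem om (hD : GD S σ₁ d₁ C) (ho : OK σ₁ d₁ C σ r t) (h1 : K1 S σ₁ σ r ξ)
    (hz : z ∈ XX σ 1 r) :
    (ξ (zM z), ξ z) ∈ Om σ₁ d₁ ∧ (ξ z, ξ (zP z)) ∈ Om σ₁ d₁ := by
  have hs : 3 / 5 * σ₁ < σ₁ := by linarith [hD.spos]
  have a := (h1.im _ (mM hz)).trans_lt hs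
  have b := (h1.im _ (m0 hz)).trans_lt hs
  have c := (h1.im _ (mP hz)).trans_lt hs
  have g1 := h1.gap (zm z) (XX_mono le_rfl (by norm_num) le_rfl (zm_mem hz))
  have g2 := h1.gap (zp z) (XX_mono le_rfl (by norm_num) le_rfl (zp_mem hz))
  rw [zp_zm, zm_zm] at g1
  rw [zp_zp, zm_zp] at g2
  exact ⟨⟨a, b, gapl hD.dpos g1 hz.2 ho.r2⟩, b, c, gapl hD.dpos g2 hz.2 ho.r2⟩

theorem der (hD : GD S σ₁ d₁ C) {a b c : ℂ → ℂ} {u v w s : ℂ} (ha : HasDerivAt a u s)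
    (hb : HasDerivAt b v s) (hc : HasDerivAt c w s) (h1 : (a s, b s) ∈ Om σ₁ d₁)
    (h2 : (b s, c s) ∈ Om σ₁ d₁) :
    HasDerivAt (fun s => e3 S (a s) (b s) (c s)) (De S (a s) (b s) (c s) u v w) s := by
  have k1 := chain (((hol2 (oOm σ₁ d₁) hD.hol).differentiableAt ((oOm σ₁ d₁).mem_nhds h1))) ha hb
  have k2 := chain (((hol1 (oOm σ₁ d₁) hD.hol).differentiableAt ((oOm σ₁ d₁).mem_nhds h2))) hb hc
  rw [p12 (oOm σ₁ d₁) hD.hol h1] at k1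
  refine (k1.add k2).congr_deriv ?_
  unfold De HH
  ring

theorem dM : Differentiable ℂ zM := by unfold zM; fun_prop

theorem dP : Differentiable ℂ zP := by unfold zP; fun_prop

theorem hol (hD : GD S σ₁ d₁ C) (ho : OK σ₁ d₁ C σ r t) (hs : KS S σ r ε t ξ)
    (h1 : K1 S σ₁ σ r ξ) : DifferentiableOn ℂ (EK S ξ) (XX σ 1 r) := by
  have a : DifferentiableOn ℂ (fun z => ξ (zM z)) (XX σ 1 r) :=
    hs.hol.comp dM.differentiableOn fun _ hz => mM hz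
  have b : DifferentiableOn ℂ ξ (XX σ 1 r) := hs.hol.mono fun _ hz => m0 hz
  have c : DifferentiableOn ℂ (fun z => ξ (zP z)) (XX σ 1 r) :=
    hs.hol.comp dP.differentiableOn fun _ hz => mP hz
  exact ((hol2 (oOm σ₁ d₁) hD.hol).comp (a.prodMk b) fun _ hz => (om hD ho h1 hz).1).add
    ((hol1 (oOm σ₁ d₁) hD.hol).comp (b.prodMk c) fun _ hz => (om hD ho h1 hz).2)

theorem shift (hD : GD S σ₁ d₁ C) {a b : ℂ} (h : (a, b) ∈ Om σ₁ d₁) :
    p1 S (a + 1, b + 1) = p1 S (a, b) ∧ p2 S (a + 1, b + 1) = p2 S (a, b) :=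
  fd_shift (oOm σ₁ d₁) (v := (1, 1)) (k := 0)
    (fun y hy => (hD.per y hy).trans (add_zero _).symm) h

theorem real (hD : GD S σ₁ d₁ C) {a b : ℂ} (h : (a, b) ∈ Om σ₁ d₁) :
    p1 S ((starRingEnd ℂ) a, (starRingEnd ℂ) b) = (starRingEnd ℂ) (p1 S (a, b)) ∧
    p2 S ((starRingEnd ℂ) a, (starRingEnd ℂ) b) = (starRingEnd ℂ) (p2 S (a, b)) :=
  fd_real (oOm σ₁ d₁) hD.hol (fun _ hy => Om_cj hy) hD.real h

end KK2Aux

open KK2Aux in
theorem k2E : S_k2 := by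
  intro S ξ σ₁ d₁ C σ r ε t hD ho hs h1
  have hh := hol hD ho hs h1
  have hd : ∀ z ∈ XX σ 0 r, DifferentiableAt ℂ ξ z := fun z hz =>
    hs.hol.differentiableAt ((oXX σ 0 r).mem_nhds hz)
  refine ⟨⟨hh, fun z hz => ?_, fun z hz => ?_⟩, fun z hz => ?_, fun z hz => ?_⟩
  · obtain ⟨o1, o2⟩ := om hD ho h1 hz
    have e1 : zM (z.1 + 1, z.2) = ((zM z).1 + 1, (zM z).2) :=
      Prod.ext (add_sub_right_comm _ _ _) rfl
    have e2 : zP (z.1 + 1, z.2) = ((zP z).1 + 1, (zP z).2) :=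
      Prod.ext (add_right_comm _ _ _) rfl
    rw [EK, e1, e2, hs.per _ (mM hz), hs.per _ (m0 hz), hs.per _ (mP hz), e3, (shift hD o1).2,
      (shift hD o2).1, EK, e3]
  · obtain ⟨o1, o2⟩ := om hD ho h1 hz
    rw [EK, ← cj_zM, ← cj_zP, hs.real _ (mM hz), hs.real _ (m0 hz), hs.real _ (mP hz), e3,
      (real hD o1).2, (real hD o2).1, EK, e3, map_add]
  · obtain ⟨o1, o2⟩ := om hD ho h1 hz
    refine p1_eq (hh.differentiableAt ((oXX σ 1 r).mem_nhds hz)) ?_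
    have a := chain (f := ξ) (u := fun s => s - z.2) (v := fun _ => z.2) (t := z.1)
      (hd _ (mM hz)) ((hasDerivAt_id _).sub_const _) (hasDerivAt_const _ _)
    have c := chain (f := ξ) (u := fun s => s + z.2) (v := fun _ => z.2) (t := z.1)
      (hd _ (mP hz)) ((hasDerivAt_id _).add_const _) (hasDerivAt_const _ _)
    rw [mul_one, mul_zero, add_zero] at a c
    exact der hD a (hd1 (hd _ (m0 hz))) c o1 o2
  · obtain ⟨o1, o2⟩ := om hD ho h1 hz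
    refine p2_eq (hh.differentiableAt ((oXX σ 1 r).mem_nhds hz)) ?_
    have a := chain (f := ξ) (u := fun s => z.1 - s) (v := fun s => s) (t := z.2)
      (hd _ (mM hz)) ((hasDerivAt_id _).const_sub _) (hasDerivAt_id _)
    have c := chain (f := ξ) (u := fun s => z.1 + s) (v := fun s => s) (t := z.2)
      (hd _ (mP hz)) ((hasDerivAt_id _).const_add _) (hasDerivAt_id _)
    rw [mul_one, mul_neg_one, neg_add_eq_sub] at a
    rw [mul_one, mul_one, add_comm (p1 _ _)] at c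
    exact der hD a (hd2 (hd _ (m0 hz))) c o1 o2

end Vale.Agent.P097
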