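import Vale.Agent.P097.KStm

open Set NormedSpace Complex Metric

namespace Vale.Agent.P097

namespace KK3Aux

theorem shift (hfc1 : S_fc1) {f : ℂ → ℂ} {s : ℝ} (hs : 0 < s) (hf : DifferentiableOn ℂ f (St s))
    (hp : ∀ z ∈ St s, f (z + 1) = f z) {z : ℂ} (hz : z ∈ St s) :
    fc (fun t => f (t + z)) 0 = fc (fun t => f t) 0 ∧ Continuous fun t : ℝ => f (t + z) := by
  constructor
  · have := (hfc1 f s hs hf hp).1 z hz 0
    rwa [Int.cast_zero, zero_mul, ce, mul_zero, Complex.exp_zero, one_mul] at this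
  · refine hf.continuousOn.comp_continuous (by fun_prop) fun t => ?_
    simpa [St] using hz

end KK3Aux

theorem k3E (hfc1 : S_fc1) : S_k3 := by
  intro S ξ σ₁ d₁ C σ r ε t hG hO hK h1 a ha
  have hσ := hG.spos
  have hd := hG.dpos
  have him : |a.im| < r := (abs_im_le_norm a).trans_lt ha
  have hrσ : r < σ := by linarith [hO.lo, hO.r1]
  obtain ⟨s, hs⟩ : ∃ s : ℝ, s = σ - |a.im| / 2 := ⟨_, rfl⟩
  have hs0 : 0 < s := by linarith [abs_nonneg a.im]
  have hX : ∀ u ∈ St s, (u, a) ∈ XX σ (1 / 2) r := fun u hu =>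
    ⟨by have : |u.im| < s := hu; dsimp only; linarith, ha⟩
  have hm : ∀ u ∈ St s, (u - a / 2, a) ∈ XX σ 0 r := fun u hu => by
    have := zm_mem (hX u hu)
    rwa [sub_self] at this
  have hp : ∀ u ∈ St s, (u + a / 2, a) ∈ XX σ 0 r := fun u hu => by
    have := zp_mem (hX u hu)
    rwa [sub_self] at this
  have hP : ∀ u ∈ St s, (ξ (u - a / 2, a), ξ (u + a / 2, a)) ∈ Om σ₁ d₁ := fun u hu => by
    have a1 := h1.im _ (hm u hu)
    have a2 := h1.im _ (hp u hu)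
    have a3 : ‖ξ (u + a / 2, a) - ξ (u - a / 2, a) - a‖ ≤ ‖a‖ / 10 := h1.gap _ (hX u hu)
    have a4 := norm_sub_norm_le (ξ (u + a / 2, a) - ξ (u - a / 2, a)) a
    exact ⟨by dsimp only; linarith, by dsimp only; linarith, by dsimp only; linarith [hO.r2]⟩
  have dm : ∀ g : ℂ × ℂ → ℂ, DifferentiableOn ℂ g (XX σ 0 r) → ∀ u ∈ St s,
      HasDerivAt (fun u => g (u - a / 2, a)) (p1 g (u - a / 2, a)) u := fun g hg u hu =>
    (hd1 (hg.differentiableAt ((oXX σ 0 r).mem_nhds (hm u hu)))).comp_sub_const u (a / 2)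
  have dp : ∀ g : ℂ × ℂ → ℂ, DifferentiableOn ℂ g (XX σ 0 r) → ∀ u ∈ St s,
      HasDerivAt (fun u => g (u + a / 2, a)) (p1 g (u + a / 2, a)) u := fun g hg u hu =>
    (hd1 (hg.differentiableAt ((oXX σ 0 r).mem_nhds (hp u hu)))).comp_add_const u (a / 2)
  have dS : ∀ g : ℂ × ℂ → ℂ, DifferentiableOn ℂ g (Om σ₁ d₁) → ∀ u ∈ St s,
      HasDerivAt (fun u => g (ξ (u - a / 2, a), ξ (u + a / 2, a)))
        (p1 g (ξ (u - a / 2, a), ξ (u + a / 2, a)) * p1 ξ (u - a / 2, a) +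
          p2 g (ξ (u - a / 2, a), ξ (u + a / 2, a)) * p1 ξ (u + a / 2, a)) u := fun g hg u hu =>
    chain (u := fun u => ξ (u - a / 2, a)) (v := fun u => ξ (u + a / 2, a))
      (hg.differentiableAt ((oOm σ₁ d₁).mem_nhds (hP u hu))) (dm ξ hK.hol u hu) (dp ξ hK.hol u hu)
  have em : ∀ u : ℂ, u + 1 - a / 2 = u - a / 2 + 1 := fun u => by ring
  have ep : ∀ u : ℂ, u + 1 + a / 2 = u + a / 2 + 1 := fun u => by ring
  have pP : ∀ u ∈ St s, (ξ (u + 1 - a / 2, a), ξ (u + 1 + a / 2, a)) =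
      (ξ (u - a / 2, a), ξ (u + a / 2, a)) + (1, 1) := fun u hu => by
    rw [em, ep, Prod.mk_add_mk, ← hK.per _ (hm u hu), ← hK.per _ (hp u hu)]
  have hS : ∀ z ∈ Om σ₁ d₁, S (z + (1, 1)) = S z + 0 := fun z hz => by
    rw [add_zero, ← hG.per z hz]
    rfl
  have hA := fun z => KK3Aux.shift hfc1 (z := z)
    (f := fun u => p1 S (ξ (u - a / 2, a), ξ (u + a / 2, a)) * p1 ξ (u - a / 2, a)) hs0
    (fun u hu => ((dS _ (hol1 (oOm _ _) hG.hol) u hu).mul
      (dm _ h1.pr1.hol u hu)).differentiableAt.differentiableWithinAt)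
    (fun u hu => by
      rw [pP u hu, (fd_shift (oOm _ _) hS (hP u hu)).1, em, ← h1.pr1.per _ (hm u hu)])
  have hB := fun z => KK3Aux.shift hfc1 (z := z)
    (f := fun u => p2 S (ξ (u - a / 2, a), ξ (u + a / 2, a)) * p1 ξ (u + a / 2, a)) hs0
    (fun u hu => ((dS _ (hol2 (oOm _ _) hG.hol) u hu).mul
      (dp _ h1.pr1.hol u hu)).differentiableAt.differentiableWithinAt)
    (fun u hu => by
      rw [pP u hu, (fd_shift (oOm _ _) hS (hP u hu)).2, ep, ← h1.pr1.per _ (hp u hu)])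
  have hF := (hfc1 (fun u => S (ξ (u - a / 2, a), ξ (u + a / 2, a))) s hs0
    (fun u hu => (dS _ hG.hol u hu).differentiableAt.differentiableWithinAt)
    (fun u hu => by rw [pP u hu, hS _ (hP u hu), add_zero])).2.2 0
  have z0 : (0 : ℂ) ∈ St s := by simpa [St] using hs0
  have hh : |(a / 2).im| < s := by
    have := (im_half 0 a).1
    rw [zero_add, zero_im, abs_zero] at this
    linarith
  have z1 : a / 2 ∈ St s := hh
  have z2 : -(a / 2) ∈ St s := by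
    change |(-(a / 2)).im| < s
    rwa [neg_im, abs_neg]
  have e1 : (fun t : ℝ => deriv (fun u => S (ξ (u - a / 2, a), ξ (u + a / 2, a))) t) =
      fun t : ℝ => p1 S (ξ (t + 0 - a / 2, a), ξ (t + 0 + a / 2, a)) * p1 ξ (t + 0 - a / 2, a) +
        p2 S (ξ (t + 0 - a / 2, a), ξ (t + 0 + a / 2, a)) * p1 ξ (t + 0 + a / 2, a) := by
    funext t
    rw [add_zero]
    exact (dS _ hG.hol t (by simpa [St] using hs0)).deriv
  have e2 : (fun t : ℝ => MK S ξ (t, a)) = fun t : ℝ =>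
      p1 S (ξ (t + a / 2 - a / 2, a), ξ (t + a / 2 + a / 2, a)) * p1 ξ (t + a / 2 - a / 2, a) +
        p2 S (ξ (t + -(a / 2) - a / 2, a), ξ (t + -(a / 2) + a / 2, a)) *
          p1 ξ (t + -(a / 2) + a / 2, a) := by
    funext t
    have b1 : (t : ℂ) + a / 2 - a / 2 = t := by ring
    have b2 : (t : ℂ) + a / 2 + a / 2 = t + a := by ring
    have b3 : (t : ℂ) + -(a / 2) - a / 2 = t - a := by ring
    have b4 : (t : ℂ) + -(a / 2) + a / 2 = t := by ring
    rw [b1, b2, b3, b4]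
    simp only [MK, EK, e3, zM, zP]
    ring
  rw [e1, fc_add (hA 0 z0).2 (hB 0 z0).2, (hA 0 z0).1, (hB 0 z0).1, Int.cast_zero, mul_zero,
    zero_mul] at hF
  rw [f2, e2, fc_add (hA _ z1).2 (hB _ z2).2, (hA _ z1).1, (hB _ z2).1, hF]

end Vale.Agent.P097
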