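import Vale.Agent.P097.KStm

open Set NormedSpace Complex Metric

namespace Vale.Agent.P097

namespace KK4Aux

variable {σ r : ℝ} {z : ℂ × ℂ}

theorem mp (hz : z ∈ XX σ (1 / 2) r) : zp z ∈ XX σ 0 r := by simpa using zp_mem hz

theorem mm (hz : z ∈ XX σ (1 / 2) r) : zm z ∈ XX σ 0 r := by simpa using zm_mem hz

theorem sp (z : ℂ × ℂ) : zp (z.1 + 1, z.2) = ((zp z).1 + 1, (zp z).2) :=
  Prod.ext (add_right_comm _ _ _) rfl

theorem sm (z : ℂ × ℂ) : zm (z.1 + 1, z.2) = ((zm z).1 + 1, (zm z).2) :=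
  Prod.ext (add_sub_right_comm _ _ _) rfl

end KK4Aux

open KK4Aux in
theorem k4E : S_k4 := by
  intro S ξ σ₁ d₁ C σ r ε t ok ks k1 k2
  have lo : ∀ z ∈ XX σ 0 r, 9 / 10 ≤ ‖p1 ξ z‖ := fun z hz => by
    have a := norm_sub_norm_le (1 : ℂ) (p1 ξ z)
    rw [norm_one, norm_sub_rev] at a
    linarith [ks.d1 z hz, ok.t1]
  have ne : ∀ z ∈ XX σ 0 r, p1 ξ z ≠ 0 := fun z hz =>
    norm_pos_iff.1 (lt_of_lt_of_le (by norm_num) (lo z hz))
  have prg : PR (XX σ 0 r) (gg ξ) :=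
    ⟨(k1.pr2.hol.mul (k1.pr1.hol.inv ne)).congr fun z _ => div_eq_mul_inv _ _,
      fun z hz => by rw [gg, gg, k1.pr1.per z hz, k1.pr2.per z hz],
      fun z hz => by rw [gg, gg, k1.pr1.real z hz, k1.pr2.real z hz, map_div₀]⟩
  have hg : ∀ z ∈ XX σ 0 r, ‖gg ξ z‖ ≤ 1 / 9 := fun z hz => by
    rw [gg, norm_div, div_le_iff₀ (norm_pos_iff.2 (ne z hz))]
    linarith [lo z hz, ks.d2 z hz, ok.t1]
  refine ⟨prg, hg, ⟨?_, fun z hz => ?_, fun z hz => ?_⟩, fun z hz => ?_, fun z hz => ?_⟩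
  · have a : Differentiable ℂ zp := by unfold zp; fun_prop
    have b : Differentiable ℂ zm := by unfold zm; fun_prop
    exact k1.pra.hol.neg.mul (((differentiableOn_const 1).add
      (prg.hol.comp a.differentiableOn fun z hz => mp hz)).sub
      (prg.hol.comp b.differentiableOn fun z hz => mm hz))
  · rw [Jc, Jc, k1.pra.per z hz, sp, sm, prg.per _ (mp hz), prg.per _ (mm hz)]
  · rw [Jc, Jc, k1.pra.real z hz, ← cj_zp, ← cj_zm, prg.real _ (mp hz), prg.real _ (mm hz)]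
    simp
  · have a := k1.ha z hz
    have b : ‖ac S ξ z‖ ≤ 3 / 2 * ‖z.2‖ := by linarith [norm_sub_norm_le (ac S ξ z) z.2]
    have c : ‖gg ξ (zp z) - gg ξ (zm z)‖ ≤ 2 / 9 := by
      linarith [norm_sub_le (gg ξ (zp z)) (gg ξ (zm z)), hg _ (mp hz), hg _ (mm hz)]
    have d := norm_add_le (ac S ξ z - z.2) (ac S ξ z * (gg ξ (zp z) - gg ξ (zm z)))
    have e := mul_le_mul b c (norm_nonneg _) (by positivity)
    rw [norm_mul] at d
    rw [← norm_neg, show -(Jc S ξ z + z.2) =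
      ac S ξ z - z.2 + ac S ξ z * (gg ξ (zp z) - gg ξ (zm z)) by rw [Jc]; ring]
    linarith [norm_nonneg z.2]
  · have a := ne z (XX_mono le_rfl zero_le_one le_rfl hz)
    have b := ne (zP z) (by simpa using zP_mem hz)
    have c := ne (zM z) (by simpa using zM_mem hz)
    rw [k2.e1 z hz, k2.e2 z hz]
    simp only [Jc, ac, gg, De, zp_zp, zm_zm, zp_zm, zm_zp]
    field_simp
    ring

end Vale.Agent.P097
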