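import Vale.Agent.P097.KStm

open Set NormedSpace Complex Metric

namespace Vale.Agent.P097

namespace KKamAux

theorem start {S : ℂ × ℂ → ℂ} {σ₁ d₁ C σ r : ℝ} (h : GD S σ₁ d₁ C) (h1 : σ ≤ σ₁) (h2 : r ≤ d₁) :
    KS S σ r C 0 Prod.fst := by
  refine ⟨differentiable_fst.differentiableOn, fun _ _ => rfl, fun _ _ => rfl, fun _ _ => rfl,
    fun z _ => ?_, fun z _ => ?_, fun z hz => h.h5 z.1 z.2 ⟨?_, ?_, ?_⟩ ⟨?_, ?_, ?_⟩⟩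
  · rw [p1_eq differentiableAt_fst (hasDerivAt_id' z.1), sub_self, norm_zero]
  · rw [p2_eq differentiableAt_fst (hasDerivAt_const z.2 z.1), norm_zero]
  · simpa [zM] using (zM_mem hz).1.trans_le h1
  · linarith [hz.1, abs_nonneg z.2.im]
  · simpa using hz.2.trans_le h2
  · linarith [hz.1, abs_nonneg z.2.im]
  · simpa [zP] using (zP_mem hz).1.trans_le h1
  · simpa using hz.2.trans_le h2

theorem rad {K₀ : ℕ} (hK : 12 ≤ K₀) (j : ℕ) : 2 ≤ K₀ * 4 ^ j ∧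
    1 / 2 + (1 / 4 : ℝ) ^ (j + 1) / 2 ≤
      (1 / 2 + (1 / 4 : ℝ) ^ j / 2) * (1 - 1 / ((K₀ * 4 ^ j : ℕ) : ℝ)) ^ 4 := by
  have h0 : 0 < (1 / 4 : ℝ) ^ j := by positivity
  have h1 : (1 / 4 : ℝ) ^ j ≤ 1 := pow_le_one₀ (by norm_num) (by norm_num)
  have h2 : 1 / ((K₀ * 4 ^ j : ℕ) : ℝ) ≤ (1 / 4 : ℝ) ^ j / 12 := by
    have : (12 : ℝ) ≤ K₀ := by exact_mod_cast hK
    rw [one_div_pow, div_div, mul_comm _ (12 : ℝ)]
    push_cast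
    gcongr
  have h3 := one_add_mul_le_pow (a := -(1 / ((K₀ * 4 ^ j : ℕ) : ℝ))) (by linarith) 4
  refine ⟨(by omega : 2 ≤ K₀ * 1).trans (Nat.mul_le_mul_left _ (Nat.one_le_pow _ _ (by norm_num))),
    le_trans ?_ (mul_le_mul_of_nonneg_left
      (show 1 - (1 / 4 : ℝ) ^ j / 3 ≤ _ by
        rw [sub_eq_add_neg 1 (1 / _)]
        push_cast at h2 h3 ⊢
        linarith) (by positivity))⟩
  rw [pow_succ]
  nlinarith

end KKamAux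

open KKamAux

theorem kamE (hkf : S_kf) (hns : S_ns) (hnum : S_num) (hlim : S_lim) : S_kam := by
  intro S σ₁ d₁ C hG
  have s0 := hG.spos
  have d0 := hG.dpos
  have c0 : 0 < C := zero_lt_one.trans_le hG.one_le
  obtain ⟨c₀, C', h1⟩ := hkf S σ₁ d₁ C hG
  obtain ⟨C₄, b, c4, h2⟩ := hns c₀ C'
  obtain ⟨K₀, r₀, lam, k0, r0, rρ, l0, l1, h3⟩ := hnum C₄ C (σ₁ / 64)
    (min (σ₁ / 100) (min (d₁ / 10) (1 / (20 * C)))) b c4 c0 (by positivity)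
    (by linarith [hG.sle]) (by positivity)
  obtain ⟨r1, r2, r3⟩ : r₀ ≤ σ₁ / 100 ∧ r₀ ≤ d₁ / 10 ∧ r₀ ≤ 1 / (20 * C) := by
    simpa only [le_min_iff] using rρ
  have ok : ∀ σ r t, σ₁ / 8 ≤ σ → σ ≤ σ₁ / 2 → 0 < r → r ≤ r₀ → 0 ≤ t → t ≤ 1 / 10 →
      OK σ₁ d₁ C σ r t := fun σ r t a1 a2 a3 a4 a5 a6 =>
    ⟨a1, a2, a3, a4.trans r1, a4.trans r2, by
      linarith [(le_div_iff₀ (by positivity)).1 (a4.trans r3)], a5, a6⟩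
  have x0 : ∀ j : ℕ, 0 < (1 / 2 : ℝ) ^ j ∧ (1 / 2 : ℝ) ^ j ≤ 1 ∧ 0 < (1 / 4 : ℝ) ^ j ∧
      (1 / 4 : ℝ) ^ j ≤ 1 := fun j => ⟨by positivity, pow_le_one₀ (by norm_num) (by norm_num),
    by positivity, pow_le_one₀ (by norm_num) (by norm_num)⟩
  have b1 : ∀ j : ℕ, 3 / 8 * σ₁ ≤ σ₁ * (3 / 8 + (1 / 2) ^ j / 8) ∧
      r₀ / 2 ≤ r₀ * (1 / 2 + (1 / 4) ^ j / 2) := fun j =>
    ⟨by nlinarith [(x0 j).1], by nlinarith [(x0 j).2.2.1]⟩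
  have step : ∀ (j : ℕ) (ξ : ℂ × ℂ → ℂ), KS S (σ₁ * (3 / 8 + (1 / 2) ^ j / 8))
      (r₀ * (1 / 2 + (1 / 4) ^ j / 2)) (C * lam ^ j) ((1 - (1 / 2) ^ j) / 10) ξ →
      ∃ ξ', KS S (σ₁ * (3 / 8 + (1 / 2) ^ (j + 1) / 8)) (r₀ * (1 / 2 + (1 / 4) ^ (j + 1) / 2))
        (C * lam ^ (j + 1)) ((1 - (1 / 2) ^ (j + 1)) / 10) ξ' ∧
        ∀ z ∈ XX (3 / 8 * σ₁) 0 (r₀ / 2), ‖ξ' z - ξ z‖ ≤ (1 / 2) ^ j := fun j ξ hξ => by
    obtain ⟨y1, y2, y3, y4⟩ := x0 j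
    obtain ⟨n1, n2⟩ := h3 j
    obtain ⟨q1, q2⟩ := rad k0 j
    have rj : r₀ * (1 / 2 + (1 / 4) ^ j / 2) ≤ r₀ := by nlinarith
    have a1 : C₄ * (((K₀ * 4 ^ j : ℕ) : ℝ) / (σ₁ / 64 / 2 ^ j)) ^ b *
        (r₀ * (1 / 2 + (1 / 4) ^ j / 2)) * (C * lam ^ j) ≤ (1 / 2) ^ j / 20 :=
      le_trans (by gcongr) n1
    have e1 : σ₁ / 64 / 2 ^ j = σ₁ / 64 * (1 / 2) ^ j := by rw [one_div_pow, mul_one_div]
    obtain ⟨ξ', k1, k2⟩ := h2 S ξ σ₁ d₁ C _ _ _ _ (σ₁ / 64 / 2 ^ j) (K₀ * 4 ^ j)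
      (h1 _ _ _ _ ξ (ok _ _ _ (by linarith [(b1 j).1]) (by nlinarith) (by positivity) rj
        (by linarith) (by linarith)) (by positivity) hξ) q1 (by positivity)
      (by rw [e1]; nlinarith) (by linarith)
    have a2 : σ₁ * (3 / 8 + (1 / 2) ^ (j + 1) / 8) ≤
        σ₁ * (3 / 8 + (1 / 2) ^ j / 8) - 4 * (σ₁ / 64 / 2 ^ j) := by
      rw [e1, pow_succ]
      linarith
    have a3 := (mul_le_mul_of_nonneg_left q2 r0.le).trans_eq (mul_assoc _ _ _).symm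
    refine ⟨ξ', k1.mono a2 a3 (le_trans (by gcongr) n2) (by rw [pow_succ]; linarith),
      fun z hz => (k2 z (XX_mono ((b1 _).1.trans a2) le_rfl ((b1 _).2.trans a3) hz)).trans ?_⟩
    linarith
  choose! F f1 f2 using step
  have key : ∀ j : ℕ, KS S (σ₁ * (3 / 8 + (1 / 2) ^ j / 8)) (r₀ * (1 / 2 + (1 / 4) ^ j / 2))
      (C * lam ^ j) ((1 - (1 / 2) ^ j) / 10) (Nat.rec Prod.fst F j) := fun j => by
    induction j with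
    | zero =>
      exact (start hG (by norm_num; linarith) (by norm_num; linarith)).mono le_rfl le_rfl
        (by simp) (by simp)
    | succ j ih => exact f1 j _ ih
  have o := ok (3 / 8 * σ₁) (r₀ / 2) (1 / 10) (by linarith) (by linarith) (by linarith)
    (by linarith) (by norm_num) le_rfl
  obtain ⟨ζ, hζ⟩ := hlim S σ₁ d₁ C _ _ (fun j => C * lam ^ j) (fun j => Nat.rec Prod.fst F j) hG o
    (fun j => (key j).mono (b1 j).1 (b1 j).2 le_rfl (by linarith [(x0 j).1]))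
    (by simpa using (tendsto_pow_atTop_nhds_zero_of_lt_one l0.le l1).const_mul C)
    fun j => f2 j _ (key j)
  exact ⟨_, _, ζ, o, hζ⟩

end Vale.Agent.P097
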