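import Vale.Agent.P097.KStm

open Set NormedSpace Complex Metric

namespace Vale.Agent.P097

theorem lfE : S_lf := by
  intro S ξ σ₁ d₁ C σ r ε t c₀ C' ok ks k1 k2 hC hq z hz N wm w wp h1 h2 h3 h4
  have m0 : z ∈ XX σ 0 r := XX_mono le_rfl zero_le_one le_rfl hz.1
  have mM : zM z ∈ XX σ 0 r := XX_mono le_rfl (by norm_num) le_rfl (zM_mem hz.1)
  have mP : zP z ∈ XX σ 0 r := XX_mono le_rfl (by norm_num) le_rfl (zP_mem hz.1)
  have gm := k1.gap _ (XX_mono le_rfl (by norm_num) le_rfl (zm_mem hz.1))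
  have gp := k1.gap _ (XX_mono le_rfl (by norm_num) le_rfl (zp_mem hz.1))
  rw [zp_zm, zm_zm] at gm
  rw [zp_zp, zm_zp] at gp
  have hg : ∀ a : ℂ, ‖a - z.2‖ ≤ ‖z.2‖ / 10 → ‖a‖ ≤ 2 * ‖z.2‖ := fun a ha => by
    have := norm_sub_norm_le a z.2
    linarith [norm_nonneg z.2]
  obtain ⟨q1, q2, q3⟩ := hq ‖z.2‖ N (ξ (zM z)) (ξ z) (ξ (zP z)) (p1 ξ (zM z) * wm) (p1 ξ z * w)
    (p1 ξ (zP z) * wp) (norm_pos_iff.2 hz.2) (hz.1.2.le.trans ok.r2) (k1.im _ mM) (k1.im _ m0)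
    (k1.im _ mP) (hg _ gm) (hg _ gp) h1 h2 h3 h4
  refine ⟨q1, q2, ?_⟩
  have h5 : ‖p1 ξ z‖ ≤ 2 := by
    have := norm_sub_norm_le (p1 ξ z) 1
    rw [norm_one] at this
    linarith [ks.d1 z m0, ok.t1]
  have h6 := mul_le_mul h5 q3 (norm_nonneg _) zero_le_two
  rw [← norm_mul, ← mul_assoc] at h6
  refine le_of_eq_of_le (congrArg norm ?_) h6
  rw [k2.e1 z hz.1]
  simp only [MK, EK, ac, De, zp_zp, zm_zm, zp_zm, zm_zp]
  ring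

end Vale.Agent.P097
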