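import Vale.Agent.P097.KStm

open Set NormedSpace Complex Metric

namespace Vale.Agent.P097

namespace KLimAux

open Filter Topology

theorem bnd {a : ℕ → ℂ} (h : ∀ j, ‖a (j + 1) - a j‖ ≤ (1 / 2) ^ j) (j : ℕ) :
    ‖a j‖ ≤ ‖a 0‖ + 2 - 2 * (1 / 2) ^ j := by
  induction j with
  | zero => simp
  | succ n ih =>
    have h1 := norm_add_le (a n) (a (n + 1) - a n)
    rw [add_sub_cancel] at h1
    have h2 := h n
    rw [pow_succ]
    linarith

theorem cv {a : ℕ → ℂ} (h : ∀ j, ‖a (j + 1) - a j‖ ≤ (1 / 2) ^ j) :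
    Tendsto a atTop (𝓝 (limUnder atTop a)) := by
  refine CauchySeq.tendsto_limUnder (cauchySeq_of_le_geometric (1 / 2) 1 (by norm_num) fun n => ?_)
  rw [dist_comm, dist_eq_norm, one_mul]
  exact h n

theorem om {σ₁ d₁ r : ℝ} {a b : ℕ → ℂ} {x y α : ℂ} (h1 : 0 < σ₁) (h2 : r ≤ d₁ / 10)
    (hα : ‖α‖ < r) (ha : Tendsto a atTop (𝓝 x)) (hb : Tendsto b atTop (𝓝 y))
    (ia : ∀ j, |(a j).im| ≤ 3 / 5 * σ₁) (ib : ∀ j, |(b j).im| ≤ 3 / 5 * σ₁)
    (g : ∀ j, ‖b j - a j - α‖ ≤ ‖α‖ / 10) : (x, y) ∈ Om σ₁ d₁ := by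
  have e1 : |x.im| ≤ 3 / 5 * σ₁ := le_of_tendsto' ((continuous_im.tendsto x).comp ha).abs ia
  have e2 : |y.im| ≤ 3 / 5 * σ₁ := le_of_tendsto' ((continuous_im.tendsto y).comp hb).abs ib
  have e3 : ‖y - x - α‖ ≤ ‖α‖ / 10 := le_of_tendsto' ((hb.sub ha).sub_const α).norm g
  have e4 := norm_add_le (y - x - α) α
  rw [sub_add_cancel] at e4
  have e5 := norm_nonneg α
  refine ⟨by dsimp only; linarith, by dsimp only; linarith, by dsimp only; linarith⟩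

end KLimAux

open KLimAux Filter Topology in
theorem limE (hk1 : S_k1) : S_lim := by
  intro S σ₁ d₁ C σ r ε ξ gd ok ks hε hd
  have k1 := fun j => hk1 S (ξ j) σ₁ d₁ C σ r (ε j) (1 / 10) gd ok (ks j)
  obtain ⟨ζ, hζ⟩ : ∃ ζ : ℂ × ℂ → ℂ, ∀ z ∈ XX σ 0 r, Tendsto (fun j => ξ j z) atTop (𝓝 (ζ z)) :=
    ⟨fun z => limUnder atTop fun j => ξ j z, fun z hz => cv fun j => hd j z hz⟩
  obtain ⟨w1, -, w3⟩ := P274.weierstrass (f := ξ) (g := ζ) (l := atTop) (oXX σ 0 r)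
    (fun x hx => by
      obtain ⟨R, hR, hs, M, hM⟩ := P274.SCV1Aux.exists_bdd (oXX σ 0 r) (ks 0).hol hx
      refine ⟨R, hR, M + 2, Eventually.of_forall fun j => ⟨(ks j).hol.mono hs, fun y hy => ?_⟩⟩
      have b1 := bnd (a := fun j => ξ j y) (fun j => hd j y (hs hy)) j
      have b2 := hM y hy
      have b3 : (0:ℝ) ≤ (1 / 2) ^ j := by positivity
      linarith) hζ
  have hp : ∀ z ∈ XX σ 0 r, ∀ v : ℂ × ℂ,
      Tendsto (fun j => fderiv ℂ (ξ j) z v) atTop (𝓝 (fderiv ℂ ζ z v)) := fun z hz v =>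
    ((ContinuousLinearMap.apply ℂ ℂ v).continuous.tendsto _).comp (w3.tendsto_at hz)
  refine ⟨ζ, w1, fun z hz => ?_, fun z hz => ?_, fun θ hθ => ?_, fun z hz => ?_, fun z hz => ?_,
    fun z hz => ?_⟩
  · refine tendsto_nhds_unique (hζ _ (XX_per hz)) ?_
    simp only [fun j => (ks j).per z hz]
    exact (hζ z hz).add_const 1
  · refine tendsto_nhds_unique (hζ _ (XX_cj hz)) ?_
    simp only [fun j => (ks j).real z hz]
    exact (continuous_conj.tendsto _).comp (hζ z hz)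
  · have hm : (θ, (0:ℂ)) ∈ XX σ 0 r := ⟨by simpa [St] using hθ, by simpa using ok.rpos⟩
    refine tendsto_nhds_unique (hζ _ hm) ?_
    simp only [fun j => (ks j).zero θ hθ]
    exact tendsto_const_nhds
  · exact le_of_tendsto' ((hp z hz (1, 0)).sub_const 1).norm fun j => (ks j).d1 z hz
  · exact le_of_tendsto' (hp z hz (0, 1)).norm fun j => (ks j).d2 z hz
  · have m0 : z ∈ XX σ 0 r := XX_mono le_rfl zero_le_one le_rfl hz
    have mP : zP z ∈ XX σ 0 r := by simpa using zP_mem hz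
    have mM : zM z ∈ XX σ 0 r := by simpa using zM_mem hz
    have mp : zp z ∈ XX σ (1 / 2) r := XX_mono le_rfl (by norm_num) le_rfl (zp_mem hz)
    have mm : zm z ∈ XX σ (1 / 2) r := XX_mono le_rfl (by norm_num) le_rfl (zm_mem hz)
    have o1 : (ζ (zM z), ζ z) ∈ Om σ₁ d₁ := om gd.spos ok.r2 hz.2 (hζ _ mM) (hζ _ m0)
      (fun j => (k1 j).im _ mM) (fun j => (k1 j).im _ m0) fun j => by
        have := (k1 j).gap _ mm
        rwa [zp_zm, zm_zm] at this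
    have o2 : (ζ z, ζ (zP z)) ∈ Om σ₁ d₁ := om gd.spos ok.r2 hz.2 (hζ _ m0) (hζ _ mP)
      (fun j => (k1 j).im _ m0) (fun j => (k1 j).im _ mP) fun j => by
        have := (k1 j).gap _ mp
        rwa [zp_zp, zm_zp] at this
    have c2 := ((hol2 (oOm σ₁ d₁) gd.hol).differentiableAt
      ((oOm σ₁ d₁).mem_nhds o1)).continuousAt.tendsto.comp ((hζ _ mM).prodMk_nhds (hζ _ m0))
    have c1 := ((hol1 (oOm σ₁ d₁) gd.hol).differentiableAt
      ((oOm σ₁ d₁).mem_nhds o2)).continuousAt.tendsto.comp ((hζ _ m0).prodMk_nhds (hζ _ mP))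
    exact le_of_tendsto_of_tendsto' (c2.add c1).norm (hε.mul_const _) fun j => (ks j).err z hz

end Vale.Agent.P097
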