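import Vale.Agent.P097.KStm

open Set NormedSpace Complex Metric

namespace Vale.Agent.P097

namespace KM2aAux

theorem mem {σ c r : ℝ} {x z : ℂ} (hx : ‖x‖ < r) (hz : z ∈ St (σ - c * |x.im|)) :
    (z, x) ∈ XX σ c r := ⟨by have h : |z.im| < _ := hz; dsimp only; linarith, hx⟩

theorem slice {σ c r : ℝ} {f : ℂ × ℂ → ℂ} (h : DifferentiableOn ℂ f (XX σ c r)) {x : ℂ}
    (hx : ‖x‖ < r) : DifferentiableOn ℂ (fun z => f (z, x)) (St (σ - c * |x.im|)) :=
  h.comp (differentiable_id.prodMk (differentiable_const x)).differentiableOn fun _ hz => mem hx hz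

theorem cont {g : ℂ → ℂ} {s : ℝ} (h : DifferentiableOn ℂ g (St s)) {z : ℂ} (hz : z ∈ St s) :
    Continuous fun t : ℝ => g (t + z) :=
  h.continuousOn.comp_continuous (by fun_prop) fun t => by simpa [St] using hz

theorem key (hfc1 : S_fc1) {Ψ M : ℂ × ℂ → ℂ} {σ r D : ℝ} (hr : r ≤ σ) (hΨ : PR (XX σ (1 / 2) r) Ψ)
    (hM : DifferentiableOn ℂ M (XX σ 1 r)) (hM' : ∀ z ∈ XX σ 1 r, M (z.1 + 1, z.2) = M z)
    (hD : ∀ z ∈ XP σ 1 r, ‖Ψ (zp z) - Ψ (zm z) + M z‖ ≤ D) (n : ℤ) {x : ℂ} (hx : ‖x‖ < r)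
    (h0 : x ≠ 0) : ‖sv n x * f2 Ψ n x + f2 M n x‖ ≤ D * gw (-1) n (σ - 1 * |x.im|) := by
  have hi : |x.im| < σ := ((abs_im_le_norm x).trans_lt hx).trans_le hr
  have hi0 := abs_nonneg x.im
  have e2 : |(x / 2).im| = 1 / 2 * |x.im| := by
    rw [show (x / 2).im = x.im / 2 by simp, abs_div]; norm_num; ring
  have mp : x / 2 ∈ St (σ - 1 / 2 * |x.im|) := by change |(x / 2).im| < _; rw [e2]; linarith
  have mn : -(x / 2) ∈ St (σ - 1 / 2 * |x.im|) := by
    change |(-(x / 2)).im| < _; rw [neg_im, abs_neg, e2]; linarith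
  have s1 := slice hΨ.hol hx
  have s2 := slice hM hx
  have a1 := (hfc1 _ _ (by linarith) s1 fun z hz => hΨ.per _ (mem hx hz)).1
  have c2 : Continuous fun t : ℝ => M (t, x) := by
    simpa using cont s2 (z := 0) (by simpa [St] using hi)
  have hp : ∀ z ∈ XX σ 1 r, zp z ∈ XX σ (1 / 2) r := fun z hz => by
    have := zp_mem hz; norm_num at this ⊢; exact this
  have hm : ∀ z ∈ XX σ 1 r, zm z ∈ XX σ (1 / 2) r := fun z hz => by
    have := zm_mem hz; norm_num at this ⊢; exact this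
  have s3 : DifferentiableOn ℂ (fun z => Ψ (zp z) - Ψ (zm z) + M z) (XX σ 1 r) :=
    ((hΨ.hol.comp (by unfold zp; fun_prop) hp).sub (hΨ.hol.comp (by unfold zm; fun_prop) hm)).add hM
  have a2 := (hfc1 _ _ (by linarith) (slice s3 hx) fun z hz => by
    have q1 := hΨ.per _ (hp _ (mem hx hz))
    have q2 := hΨ.per _ (hm _ (mem hx hz))
    have q3 := hM' _ (mem hx hz)
    simp only [zp, zm] at q1 q2 q3 ⊢
    rw [add_right_comm, q1, add_sub_right_comm, q2, q3]).2.1 D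
      (fun z hz => hD _ ⟨mem hx hz, h0⟩) n
  refine le_of_eq_of_le (congrArg norm ?_) a2
  have q := fc_add ((cont s1 mp).sub (cont s1 mn)) c2 n
  simp only [Pi.sub_apply] at q
  have q' := fc_sub (cont s1 mp) (cont s1 mn) n
  rw [a1 _ mp, a1 _ mn, ← sub_mul, ← sv_eq] at q'
  simp only [zp, zm, sub_eq_add_neg (_ : ℂ) (x / 2)]
  rw [q]
  exact congrArg (· + _) q'.symm

end KM2aAux

open KM2aAux in
theorem m2aE (hfc1 : S_fc1) (hpar : S_par) (hrid : S_rid) : S_m2a := by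
  refine ⟨Real.exp Real.pi, (Real.exp_pos _).le, ?_⟩
  intro S ξ Ψ σ₁ d₁ C c₀ C' σ r ε t σ' r' D K n k hF h1 h2 h3 hK hn hnK hk hr hΨ hD
  have hK' : (2 : ℝ) ≤ K := by exact_mod_cast hK
  have hK0 : (0 : ℝ) < K := by linarith
  have n1 : (1 : ℝ) ≤ |(n : ℝ)| := by exact_mod_cast Int.one_le_abs hn
  have n2 : |(n : ℝ)| ≤ K := by exact_mod_cast hnK
  have k1 : (1 : ℝ) ≤ |(k : ℝ)| := by exact_mod_cast Int.one_le_abs hk
  have lo : 1 / (K : ℝ) ≤ |(k : ℝ) / n| := by rw [abs_div]; gcongr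
  have ea : ((k : ℂ) / n) = (((k : ℝ) / n : ℝ) : ℂ) := by push_cast; rfl
  have na : ‖(k : ℂ) / n‖ = |(k : ℝ) / n| := by rw [ea, norm_real, Real.norm_eq_abs]
  have iK : 0 < 1 / (K : ℝ) := by positivity
  have iK' : 1 / (K : ℝ) ≤ 1 / 2 := by gcongr
  have r0 : 1 / (K : ℝ) < r' := by nlinarith
  have hb : ∀ x ∈ closedBall ((k : ℂ) / n) ((1 / (K : ℝ)) ^ 2),
      ‖x‖ < r' ∧ x ≠ 0 ∧ |x.im| ≤ (1 / (K : ℝ)) ^ 2 := fun x hx => by
    refine ⟨?_, fun e => ?_, ?_⟩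
    · have := norm_le_of_mem_closedBall hx
      nlinarith
    · rw [e, mem_closedBall, dist_comm, dist_zero_right, na] at hx
      nlinarith
    · have := im_ball hx
      rwa [ea, ofReal_im, abs_zero, zero_add] at this
  have sub : XX σ' 1 r' ⊆ XX σ 1 r := XX_mono h1 le_rfl h2
  have sub0 : XX σ' 1 r' ⊆ XX σ 0 r := XX_mono h1 zero_le_one h2
  have hM : DifferentiableOn ℂ (MK S ξ) (XX σ' 1 r') :=
    (hF.k1.pr1.hol.mono sub0).mul (hF.k2.prE.hol.mono sub)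
  have hM' : ∀ z ∈ XX σ' 1 r', MK S ξ (z.1 + 1, z.2) = MK S ξ z := fun z hz => by
    rw [MK, MK, hF.k1.pr1.per z (sub0 hz), hF.k2.prE.per z (sub hz)]
  have mm : ∀ c : ℝ, c ≤ 1 → ∀ x ∈ ball (0 : ℂ) r', ∀ t ∈ Icc (0 : ℝ) 1,
      ((t : ℂ), x) ∈ XX σ' c r' := fun c hc x hx t _ => by
    have hx' := mem_ball_zero_iff.1 hx
    refine ⟨?_, hx'⟩
    have := abs_im_le_norm x
    simp only [ofReal_im, abs_zero, zero_add]
    nlinarith [abs_nonneg x.im]
  have d1 := hpar Ψ _ _ n (oXX _ _ _) isOpen_ball hΨ.hol (mm _ (by norm_num))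
  have d2 := hpar _ _ _ n (oXX _ _ _) isOpen_ball hM (mm _ le_rfl)
  have d3 : ∀ x : ℂ, HasDerivAt (sv n)
      (2 * I * (Complex.cos (Real.pi * (n * x)) * (Real.pi * (n * 1)))) x := fun x =>
    ((((hasDerivAt_id x).const_mul (n : ℂ)).const_mul (Real.pi : ℂ)).csin).const_mul (2 * I)
  have D0 : 0 ≤ D := by
    have q := hb _ (mem_closedBall_self (by positivity))
    exact (norm_nonneg _).trans
      (hD ((0 : ℝ), _) ⟨mm 1 le_rfl _ (mem_ball_zero_iff.2 q.1) 0 (by simp), q.2.1⟩)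
  have cy := cauchy (g := fun x => sv n x * f2 Ψ n x + f2 (MK S ξ) n x) (c := (k : ℂ) / n)
    (ρ := (1 / (K : ℝ)) ^ 2) (M := Real.exp Real.pi * D * gw (-1) n σ') (by positivity)
    (fun x hx => (((d3 x).mul (d1 x (mem_ball_zero_iff.2 (hb x hx).1))).add
      (d2 x (mem_ball_zero_iff.2 (hb x hx).1))).differentiableAt)
    (fun x hx => by
      obtain ⟨b1, b2, b3⟩ := hb x (sphere_subset_closedBall hx)
      refine (key hfc1 (h2.trans h3) hΨ hM hM' hD n b1 b2).trans ?_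
      rw [mul_comm _ D, mul_assoc]
      refine mul_le_mul_of_nonneg_left ?_ D0
      rw [gw, gw, ← Real.exp_add, Real.exp_le_exp]
      have q : |(n : ℝ)| * |x.im| ≤ 1 / 2 :=
        calc |(n : ℝ)| * |x.im| ≤ K * (1 / (K : ℝ)) ^ 2 := by gcongr
          _ = 1 / K := by field_simp
          _ ≤ 1 / 2 := iK'
      nlinarith [Real.pi_pos])
  have hn' : (n : ℂ) ≠ 0 := by exact_mod_cast hn
  have e1 : (Real.pi : ℂ) * (n * (k / n)) = k * Real.pi := by field_simp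
  have e2 : Complex.sin (Real.pi * (n * (k / n))) = 0 := by rw [e1, Complex.sin_int_mul_pi]
  have e3 : ce (k / 2) = Complex.cos (Real.pi * (n * (k / n))) := by
    rw [← add_zero (Complex.cos _), ← zero_mul I, ← e2, ← Complex.exp_mul_I, e1, ce]
    congr 1; ring
  have e4 : ce (k / 2) ^ 2 = 1 := by
    rw [e3, ← Complex.sin_sq_add_cos_sq (Real.pi * (n * (k / n))), e2]; ring
  have e5 : ‖ce (k / 2)‖ = 1 := by rw [norm_ce]; simp
  have q := hb _ (mem_closedBall_self (by positivity))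
  have d4 := ((d3 _).mul (d1 _ (mem_ball_zero_iff.2 q.1))).add
    (hrid S ξ σ₁ d₁ C c₀ C' σ r ε t n k hF hn (by rw [← na]; exact q.1.trans_le h2))
  have d5 := d4.deriv
  rw [← e3, sv, e2] at d5
  have e6 : ‖deriv (fun x => sv n x * f2 Ψ n x + f2 (MK S ξ) n x) ((k : ℂ) / n)‖ =
      2 * Real.pi * |(n : ℝ)| *
        ‖f2 Ψ n (k / n) + ce (k / 2) * f2 (fun z => p2 ξ z * EK S ξ z) n (k / n)‖ := by
    have q' : deriv (fun x => sv n x * f2 Ψ n x + f2 (MK S ξ) n x) ((k : ℂ) / n) =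
        2 * Real.pi * I * n * ce (k / 2) *
          (f2 Ψ n (k / n) + ce (k / 2) * f2 (fun z => p2 ξ z * EK S ξ z) n (k / n)) := by
      refine d5.trans ?_
      linear_combination (-(2 * Real.pi * I * n *
        f2 (fun z => p2 ξ z * EK S ξ z) n (k / n))) * e4
    rw [q']
    simp [e5, abs_of_pos Real.pi_pos]
  rw [e6, one_div, inv_pow, div_inv_eq_mul] at cy
  refine le_trans (le_mul_of_one_le_left (norm_nonneg _) ?_) (cy.trans_eq (by ring))
  nlinarith [Real.pi_gt_three]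

end Vale.Agent.P097
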