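import Vale.Agent.P097.KStm

open Set NormedSpace Complex Metric

namespace Vale.Agent.P097

namespace KM2bAux

variable {s : ℝ} {f g : ℂ → ℂ}

def HP (s : ℝ) (f : ℂ → ℂ) : Prop := DifferentiableOn ℂ f (St s) ∧ ∀ z ∈ St s, f (z + 1) = f z

theorem HP.add (h : HP s f) (h' : HP s g) : HP s fun z => f z + g z :=
  ⟨h.1.add h'.1, fun z hz => by simp only [h.2 z hz, h'.2 z hz]⟩

theorem HP.sub (h : HP s f) (h' : HP s g) : HP s fun z => f z - g z :=
  ⟨h.1.sub h'.1, fun z hz => by simp only [h.2 z hz, h'.2 z hz]⟩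

theorem HP.mul (h : HP s f) (h' : HP s g) : HP s fun z => f z * g z :=
  ⟨h.1.mul h'.1, fun z hz => by simp only [h.2 z hz, h'.2 z hz]⟩

theorem HP.const (c : ℂ) : HP s fun _ => c := ⟨differentiableOn_const c, fun _ _ => rfl⟩

theorem HP.shift (h : HP s f) {a : ℂ} (ha : a.im = 0) : HP s fun z => f (z + a) := by
  have m : ∀ z ∈ St s, z + a ∈ St s := fun z hz => by simpa [St, ha] using hz
  exact ⟨h.1.comp (by fun_prop) m, fun z hz => by
    simp only [add_right_comm z 1 a, h.2 _ (m z hz)]⟩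

theorem HP.cont (h : HP s f) (hs : 0 < s) : Continuous fun t : ℝ => f t :=
  h.1.continuousOn.comp_continuous continuous_ofReal fun t => by simpa [St] using hs

theorem of_pr {U : Set (ℂ × ℂ)} {F : ℂ × ℂ → ℂ} (h : PR U F) {α : ℂ}
    (m : ∀ z ∈ St s, (z, α) ∈ U) : HP s fun z => F (z, α) :=
  ⟨h.hol.comp (by fun_prop) m, fun z hz => h.per _ (m z hz)⟩

end KM2bAux

open KM2bAux in
theorem m2bE (hfc1 : S_fc1) : S_m2b := by
  intro S ξ Ψ σ₁ d₁ C c₀ C' σ r ε t σ' r' D n k μ hK h1 h2 h3 hn hk h4 hΨ hD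
  have hs : 0 < σ' := hK.ok.rpos.trans_le h3
  have hn' : (n : ℂ) ≠ 0 := Int.cast_ne_zero.2 hn
  obtain ⟨α, hα⟩ : ∃ α : ℂ, α = k / n := ⟨_, rfl⟩
  have e0 : α = ((k : ℝ) / n : ℝ) := by rw [hα]; push_cast; rfl
  have a0 : α.im = 0 := by rw [e0, ofReal_im]
  have a1 : ‖α‖ < r' := by rwa [e0, norm_real]
  have a2 : α ≠ 0 := hα ▸ div_ne_zero (Int.cast_ne_zero.2 hk) hn'
  have a3 : (α / 2).im = 0 := by simp [a0]
  have a4 : (-(α / 2)).im = 0 := by simp [a0]
  have m : ∀ c, ∀ z ∈ St σ', (z, α) ∈ XX σ' c r' := fun c z hz =>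
    ⟨by simpa [a0, St] using hz, a1⟩
  have m' : ∀ c, ∀ z ∈ St σ', (z, α) ∈ XX σ c r := fun c z hz => XX_mono h1 le_rfl h2 (m c z hz)
  have s1 : ce (n * (α / 2)) = ce (k / 2) := by
    rw [hα]; congr 1; field_simp
  have s2 : ce (n * -(α / 2)) = ce (k / 2) := by
    have : ce k = 1 := (ce_real k).trans (ee_int k)
    rw [← mul_one (ce (n * _)), ← this, ← ce_add, hα]; congr 1; field_simp; ring
  have hG := of_pr hK.k4.prg (m' 0)
  have hP := of_pr hΨ (m _)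
  have F1 := ((HP.const μ).add (hP.shift a4)).mul hG
  have F2 := ((HP.const μ).add (hP.shift a3)).mul hG
  have hE := (of_pr hK.k1.pr2 (m' 0)).mul (of_pr hK.k2.prE (m' 1))
  have hH := (F2.sub F1).add hE
  have b1 := (hfc1 _ σ' hs F1.1 F1.2).1 (α / 2) (by simpa [St, a0] using hs) n
  have b2 := (hfc1 _ σ' hs F2.1 F2.2).1 (-(α / 2)) (by simpa [St, a0] using hs) n
  have b3 := (hfc1 _ σ' hs hH.1 hH.2).2.1 D (fun z hz => by
    have d1 := hD (z, α) ⟨m 1 z hz, a2⟩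
    have d2 := hK.k4.hg _ (m' 0 z hz)
    have d3 : p1 ξ (z, α) ≠ 0 := fun e => by
      have := hK.ks.d1 _ (m' 0 z hz)
      rw [e, zero_sub, norm_neg, norm_one] at this
      linarith [hK.ok.t1]
    refine le_trans (le_of_eq ?_) ((mul_le_mul d1 d2 (norm_nonneg _)
      ((norm_nonneg _).trans d1)).trans (by linarith [(norm_nonneg _).trans d1]))
    rw [← norm_mul]
    congr 1
    simp only [zp, zm, MK, gg, sub_eq_add_neg]
    field_simp
    ring) n
  rw [fc_add ((F2.sub F1).cont hs) (hE.cont hs), fc_sub (F2.cont hs) (F1.cont hs)] at b3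
  have b4 := fc_sub ((F1.shift a3).cont hs) ((F2.shift a4).cont hs) n
  rw [b1, b2, s1, s2] at b4
  simp only [add_neg_cancel_right, neg_add_cancel_right, ← mul_sub] at b4
  have b5 : ‖ce (k / 2)‖ = 1 := by rw [norm_ce]; simp
  simp only [← hα, f2, zp, zm, sub_eq_add_neg (_ : ℂ) (α / 2)]
  rw [b4, ← mul_sub, norm_mul, b5, one_mul, ← norm_neg]
  refine le_trans (le_of_eq ?_) b3
  congr 1
  ring

end Vale.Agent.P097
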