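import Vale.Agent.P097.KStm

open Set NormedSpace Complex Metric

namespace Vale.Agent.P097

namespace KMa1Aux

variable {S ξ : ℂ × ℂ → ℂ} {σ₁ d₁ C c₀ C' σ r ε t ρ : ℝ} {z : ℂ × ℂ}

theorem mems (hz : z ∈ XX σ 1 r) : z ∈ XX σ 0 r ∧ zM z ∈ XX σ 0 r ∧ zP z ∈ XX σ 0 r ∧
    zp z ∈ XX σ (1 / 2) r ∧ zm z ∈ XX σ (1 / 2) r :=
  ⟨XX_mono le_rfl zero_le_one le_rfl hz, XX_mono le_rfl (by norm_num) le_rfl (zM_mem hz),
    XX_mono le_rfl (by norm_num) le_rfl (zP_mem hz), XX_mono le_rfl (by norm_num) le_rfl (zp_mem hz),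
    XX_mono le_rfl (by norm_num) le_rfl (zm_mem hz)⟩

theorem n1 (h : KF S σ₁ d₁ C c₀ C' σ r ε t ξ) (hz : z ∈ XX σ 0 r) : ‖p1 ξ z‖ ≤ 11 / 10 := by
  have a := norm_add_le (p1 ξ z - 1) 1
  rw [sub_add_cancel, norm_one] at a
  linarith [h.ks.d1 z hz, h.ok.t1]

theorem n2 (h : KF S σ₁ d₁ C c₀ C' σ r ε t ξ) (hz : z ∈ XX σ 0 r) {u : ℂ} (hu : ‖u‖ ≤ ρ) :
    ‖p1 ξ z * u‖ ≤ 11 / 10 * ρ := by
  rw [norm_mul]
  exact mul_le_mul (n1 h hz) hu (norm_nonneg _) (by norm_num)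

theorem r1 (h : KF S σ₁ d₁ C c₀ C' σ r ε t ξ) : r ≤ 1 := by linarith [h.ok.r1, h.gd.sle]

theorem key (h : KF S σ₁ d₁ C c₀ C' σ r ε t ξ) (hz : z ∈ XP σ 1 r) (hρ : 3 * ρ ≤ c₀ * ‖z.2‖)
    {u v w : ℂ} (hu : ‖u‖ ≤ ρ) (hv : ‖v‖ ≤ ρ) (hw : ‖w‖ ≤ ρ) :
    (ξ (zM z) + p1 ξ (zM z) * u, ξ z + p1 ξ z * v) ∈ Om σ₁ d₁ ∧
    (ξ z + p1 ξ z * v, ξ (zP z) + p1 ξ (zP z) * w) ∈ Om σ₁ d₁ ∧
    ‖Fm S ξ z u v w - MK S ξ z - p1 ξ z * v * p1 (EK S ξ) z‖ ≤ C' * (3 * ρ) ^ 2 := by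
  obtain ⟨m0, mM, mP, -, -⟩ := mems hz.1
  have a0 := n2 h m0 hv
  have aM := n2 h mM hu
  have aP := n2 h mP hw
  have h0 : 0 ≤ ρ := (norm_nonneg _).trans hu
  obtain ⟨k1, k2, k3⟩ := h.lf z hz (3 * ρ) u v w ((norm_sub_le _ _).trans (by linarith))
    ((norm_sub_le _ _).trans (by linarith))
    ((mul_le_of_le_one_left (norm_nonneg _) (hz.1.2.le.trans (r1 h))).trans (by linarith)) hρ
  refine ⟨k1, k2, le_of_eq_of_le (congrArg _ ?_) k3⟩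
  unfold Fm
  ring

theorem real (h : KF S σ₁ d₁ C c₀ C' σ r ε t ξ) (hz : z ∈ XX σ 1 r) {u v w : ℂ}
    (k1 : (ξ (zM z) + p1 ξ (zM z) * u, ξ z + p1 ξ z * v) ∈ Om σ₁ d₁)
    (k2 : (ξ z + p1 ξ z * v, ξ (zP z) + p1 ξ (zP z) * w) ∈ Om σ₁ d₁) :
    (starRingEnd ℂ) (Fm S ξ z u v w) =
      Fm S ξ (cj z) ((starRingEnd ℂ) u) ((starRingEnd ℂ) v) ((starRingEnd ℂ) w) := by
  obtain ⟨m0, mM, mP, mp, mm⟩ := mems hz
  have a1 := (fd_real (oOm _ _) h.gd.hol (fun _ => Om_cj) h.gd.real k1).2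
  have a2 := (fd_real (oOm _ _) h.gd.hol (fun _ => Om_cj) h.gd.real k2).1
  unfold Fm e3
  rw [← cj_zM, ← cj_zP, ← cj_zp, ← cj_zm, h.ks.real _ m0, h.ks.real _ mM, h.ks.real _ mP,
    h.k1.pr1.real _ m0, h.k1.pr1.real _ mM, h.k1.pr1.real _ mP, h.k1.pra.real _ mp,
    h.k1.pra.real _ mm]
  simp only [map_sub, map_mul, map_add, ← a1, ← a2, cj]

theorem cpo {f : ℂ × ℂ → ℂ} {U : Set (ℂ × ℂ)} {g : ℂ × ℂ × ℂ × ℂ → ℂ × ℂ} {x : ℂ × ℂ × ℂ × ℂ}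
    (hf : DifferentiableOn ℂ f U) (hU : IsOpen U) (hx : g x ∈ U) (hg : DifferentiableAt ℂ g x) :
    DifferentiableAt ℂ (fun x => f (g x)) x :=
  (hf.differentiableAt (hU.mem_nhds hx)).comp x hg

end KMa1Aux

open KMa1Aux in
theorem ma1E : S_ma1 := by
  intro S ξ σ₁ d₁ C c₀ C' σ r ε t η ρ α h hη h0 hr hρ
  have hσ : 0 < σ := by linarith [h.ok.lo, h.gd.spos]
  have mem : ∀ s, ∀ θ ∈ St s, ((θ, α) : ℂ × ℂ) ∈ XP s 1 r := fun s θ hθ =>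
    ⟨⟨by simpa [St] using hθ, by simpa using hr⟩, by simpa using h0⟩
  have hρ' : ∀ θ : ℂ, 3 * ρ ≤ c₀ * ‖((θ, α) : ℂ × ℂ).2‖ := fun θ => by simpa using hρ
  have mR : ∀ θ : ℝ, (θ : ℂ) ∈ St σ := fun θ => by simpa [St] using hσ
  have cR : ∀ θ : ℝ, cj (θ, α) = ((θ : ℂ), (α : ℂ)) := fun θ => by simp [cj]
  refine ⟨fun x hx => DifferentiableAt.differentiableWithinAt ?_, fun θ hθ u v w hu hv hw => ?_,
    fun θ u v w hu hv hw => ?_, fun θ => ?_⟩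
  · have hb : ‖x.2‖ ≤ ρ := (mem_ball_zero_iff.1 hx.2).le
    have hz := mem σ x.1 hx.1
    obtain ⟨k1, k2, -⟩ := key h hz (hρ' _) ((norm_fst_le x.2).trans hb)
      ((norm_fst_le x.2.2).trans ((norm_snd_le x.2).trans hb))
      ((norm_snd_le x.2.2).trans ((norm_snd_le x.2).trans hb))
    obtain ⟨m0, mM, mP, mp, mm⟩ := mems hz.1
    have g0 : DifferentiableAt ℂ (fun x : ℂ × ℂ × ℂ × ℂ => ((x.1, α) : ℂ × ℂ)) x := by fun_prop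
    have gM : DifferentiableAt ℂ (fun x : ℂ × ℂ × ℂ × ℂ => zM (x.1, α)) x := by
      unfold zM; fun_prop
    have gP : DifferentiableAt ℂ (fun x : ℂ × ℂ × ℂ × ℂ => zP (x.1, α)) x := by
      unfold zP; fun_prop
    have gp : DifferentiableAt ℂ (fun x : ℂ × ℂ × ℂ × ℂ => zp (x.1, α)) x := by
      unfold zp; fun_prop
    have gm : DifferentiableAt ℂ (fun x : ℂ × ℂ × ℂ × ℂ => zm (x.1, α)) x := by
      unfold zm; fun_prop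
    have du : DifferentiableAt ℂ (fun x : ℂ × ℂ × ℂ × ℂ => x.2.1) x := by fun_prop
    have dv : DifferentiableAt ℂ (fun x : ℂ × ℂ × ℂ × ℂ => x.2.2.1) x := by fun_prop
    have dw : DifferentiableAt ℂ (fun x : ℂ × ℂ × ℂ × ℂ => x.2.2.2) x := by fun_prop
    have q0 := cpo h.k1.pr1.hol (oXX _ _ _) m0 g0
    have b0 := (cpo h.ks.hol (oXX _ _ _) m0 g0).fun_add (q0.fun_mul dv)
    have bM := (cpo h.ks.hol (oXX _ _ _) mM gM).fun_add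
      ((cpo h.k1.pr1.hol (oXX _ _ _) mM gM).fun_mul du)
    have bP := (cpo h.ks.hol (oXX _ _ _) mP gP).fun_add
      ((cpo h.k1.pr1.hol (oXX _ _ _) mP gP).fun_mul dw)
    exact (q0.fun_mul ((cpo (hol2 (oOm _ _) h.gd.hol) (oOm _ _) k1 (bM.prodMk b0)).fun_add
      (cpo (hol1 (oOm _ _) h.gd.hol) (oOm _ _) k2 (b0.prodMk bP)))).fun_sub
      (((cpo h.k1.pra.hol (oXX _ _ _) mp gp).fun_mul (dw.fun_sub dv)).fun_sub
        ((cpo h.k1.pra.hol (oXX _ _ _) mm gm).fun_mul (dv.fun_sub du)))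
  · have hz' := mem _ θ hθ
    have hz := XP_mono (sub_le_self σ hη.le) le_rfl le_rfl hz'
    obtain ⟨-, -, k3⟩ := key h hz (hρ' _) hu hv hw
    have m0 := (mems hz.1).1
    have er : ∀ y ∈ XX σ 1 r, ‖EK S ξ y‖ ≤ ε := fun y hy => (h.ks.err y hy).trans
      (mul_le_of_le_one_right h.e0 (pow_le_one₀ (norm_nonneg _) (hy.2.le.trans (r1 h))))
    have a1 : ‖MK S ξ (θ, α)‖ ≤ 11 / 10 * ε := n2 h m0 (er _ hz.1)
    have a2 : ‖p1 (EK S ξ) (θ, α)‖ ≤ ε / η := cx1 h.k2.prE.hol hη hz'.1 fun s hs => er _ hs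
    have hρ0 : 0 ≤ ρ := (norm_nonneg _).trans hu
    have a3 : ‖p1 ξ (θ, α) * v * p1 (EK S ξ) (θ, α)‖ ≤ 2 * ρ * (ε / η) := by
      rw [norm_mul]
      exact mul_le_mul ((n2 h m0 hv).trans (by linarith)) a2 (norm_nonneg _) (by linarith)
    have a4 := norm_add₃_le (a := Fm S ξ (θ, α) u v w - MK S ξ (θ, α) -
      p1 ξ (θ, α) * v * p1 (EK S ξ) (θ, α)) (b := p1 ξ (θ, α) * v * p1 (EK S ξ) (θ, α))
      (c := MK S ξ (θ, α))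
    rw [sub_add_cancel, sub_add_cancel] at a4
    rw [mul_div_assoc]
    linarith [h.e0]
  · have hz := mem σ θ (mR θ)
    obtain ⟨k1, k2, -⟩ := key h hz (hρ' _) (u := u) (v := v) (w := w) (by simpa using hu)
      (by simpa using hv) (by simpa using hw)
    have := real h hz.1 k1 k2
    rw [cR, conj_ofReal, conj_ofReal, conj_ofReal] at this
    exact conj_eq_iff_im.1 this
  · have := h.k1.pra.real _ (XX_mono le_rfl (by norm_num) le_rfl (mem σ θ (mR θ)).1)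
    rw [cR] at this
    exact conj_eq_iff_im.1 this.symm

end Vale.Agent.P097
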