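import Vale.Agent.P097.KStm

open Set NormedSpace Complex Metric

namespace Vale.Agent.P097

namespace KMel1Aux

theorem shift_mem {s : ℝ} {z : ℂ} (hz : z ∈ St s) (x : ℝ) : z + x ∈ St s := by
  simpa [St] using hz

theorem real_mem {s : ℝ} (hs : 0 < s) (x : ℝ) : (x : ℂ) ∈ St s := by
  simpa [St] using hs

theorem St_mono {s s' : ℝ} (h : s ≤ s') : St s ⊆ St s' := fun _ hz => lt_of_lt_of_le hz h

theorem avg (hfc1 : S_fc1) (g : ℂ → ℂ) (s s' A a : ℝ) (q : ℕ) (n k : ℤ) (hs' : 0 < s')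
    (hss : s' ≤ s) (hg : DifferentiableOn ℂ g (St s)) (hp : ∀ z ∈ St s, g (z + 1) = g z)
    (ha : (n:ℝ) * a = k)
    (hA : ∀ θ ∈ St s', ‖∑ j ∈ Finset.range q, g (θ + ((j * a : ℝ) : ℂ))‖ ≤ A) :
    (q:ℝ) * ‖fc (fun t => g t) n‖ ≤ A * gw (-1) n s' := by
  have hs : 0 < s := hs'.trans_le hss
  have hG : DifferentiableOn ℂ (fun θ => ∑ j ∈ Finset.range q, g (θ + ((j * a : ℝ) : ℂ)))
      (St s') := by
    refine DifferentiableOn.fun_sum fun j _ => ?_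
    refine hg.comp (f := fun θ : ℂ => θ + ((j * a : ℝ) : ℂ)) (by fun_prop) ?_
    exact fun z hz => St_mono hss (shift_mem hz _)
  have hGp : ∀ z ∈ St s', (fun θ => ∑ j ∈ Finset.range q, g (θ + ((j * a : ℝ) : ℂ))) (z + 1) =
      (fun θ => ∑ j ∈ Finset.range q, g (θ + ((j * a : ℝ) : ℂ))) z := by
    intro z hz
    refine Finset.sum_congr rfl fun j _ => ?_
    rw [add_right_comm]
    exact hp _ (St_mono hss (shift_mem hz _))
  have h2 := (hfc1 _ s' hs' hG hGp).2.1 A hA n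
  have hc : ∀ j ∈ Finset.range q, Continuous fun t : ℝ => g (t + ((j * a : ℝ) : ℂ)) := by
    intro j _
    refine hg.continuousOn.comp_continuous (f := fun t : ℝ => (t : ℂ) + ((j * a : ℝ) : ℂ))
      (by fun_prop) ?_
    exact fun t => shift_mem (real_mem hs t) _
  have h3 := fc_sum (Finset.range q) hc n
  have h4 : ∀ j ∈ Finset.range q, fc (fun t : ℝ => g (t + ((j * a : ℝ) : ℂ))) n =
      fc (fun t => g t) n := by
    intro j _
    rw [(hfc1 g s hs hg hp).1 _ (real_mem hs _) n]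
    have e : (n : ℂ) * ((j * a : ℝ) : ℂ) = ((((j * k : ℤ) : ℝ)) : ℂ) := by
      have : (n:ℝ) * (j * a) = ((j * k : ℤ) : ℝ) := by
        push_cast; rw [← ha]; ring
      rw [← this]; push_cast; ring
    rw [e, ce_real, ee_int, one_mul]
  rw [Finset.sum_congr rfl h4, Finset.sum_const, Finset.card_range, nsmul_eq_mul] at h3
  rw [h3, norm_mul, Complex.norm_natCast] at h2
  exact h2

end KMel1Aux

open KMel1Aux in
theorem mel1E (hmelg : S_melg) (hfc1 : S_fc1) : S_mel1 := by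
  intro c₀ C'
  obtain ⟨C₂, hC, H⟩ := hmelg c₀ C'
  refine ⟨C₂, hC, ?_⟩
  intro S ξ σ₁ d₁ C σ r ε t η K n k hK hη hησ hn hnK hk hr hε
  have he := hK.e0
  set q : ℕ := n.natAbs with hq
  set p : ℤ := k * n.sign with hp
  have hq1 : 1 ≤ q := Int.natAbs_pos.2 hn
  have hp0 : p ≠ 0 := mul_ne_zero hk (by simpa using hn)
  have hqK : q ≤ K := by
    have : (q : ℤ) ≤ K := by rw [hq, Int.natCast_natAbs]; exact hnK
    exact_mod_cast this
  have hqK' : (q : ℝ) ≤ K := by exact_mod_cast hqK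
  have hq0 : (0:ℝ) < q := by exact_mod_cast hq1
  have hn' : (n:ℝ) ≠ 0 := by exact_mod_cast hn
  have hpq : (p:ℝ) / q = (k:ℝ) / n := by
    rw [div_eq_div_iff hq0.ne' hn']
    have : p * n = k * (q : ℤ) := by
      rw [hp, hq, mul_assoc, Int.sign_mul_self_eq_natAbs]
    exact_mod_cast this
  have hpqc : (p:ℂ) / q = (((k:ℝ) / n : ℝ) : ℂ) := by
    rw [← hpq]; push_cast; rfl
  have hkn : (k:ℂ) / n = (((k:ℝ) / n : ℝ) : ℂ) := by push_cast; rfl
  have h6 : (q:ℝ) ^ 6 ≤ (K:ℝ) ^ 6 := pow_le_pow_left₀ hq0.le hqK' 6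
  have hε' : C₂ * (q:ℝ) ^ 6 * ε ≤ η :=
    (mul_le_mul_of_nonneg_right (mul_le_mul_of_nonneg_left h6 hC) he).trans hε
  have H1 := H S ξ σ₁ d₁ C σ r ε t η q p hK hη hησ hq1 hp0 (by rwa [hpq]) hε'
  rw [hpqc] at H1
  rw [hkn]
  generalize hal : (k:ℝ) / n = a at *
  have hmem : ∀ c : ℝ, ∀ z ∈ St σ, (z, (a:ℂ)) ∈ XX σ c r := by
    intro c z hz
    refine ⟨?_, ?_⟩
    · simpa [St] using hz
    · simpa using hr
  have hg : DifferentiableOn ℂ (fun θ => MK S ξ (θ, (a:ℂ))) (St σ) := by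
    have h1 := hK.k1.pr1.hol.comp (f := fun θ : ℂ => (θ, (a:ℂ))) (s := St σ) (by fun_prop)
      (hmem 0)
    have h2 := hK.k2.prE.hol.comp (f := fun θ : ℂ => (θ, (a:ℂ))) (s := St σ) (by fun_prop)
      (hmem 1)
    exact h1.mul h2
  have hgp : ∀ z ∈ St σ, (fun θ => MK S ξ (θ, (a:ℂ))) (z + 1) = (fun θ => MK S ξ (θ, (a:ℂ))) z := by
    intro z hz
    have h1 := hK.k1.pr1.per _ (hmem 0 z hz)
    have h2 := hK.k2.prE.per _ (hmem 1 z hz)
    simp only [MK] at h1 h2 ⊢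
    rw [h1, h2]
  have hna : (n:ℝ) * a = k := by rw [← hal]; field_simp
  have H2 := avg hfc1 _ σ (σ - η) (C₂ * (q:ℝ) ^ 7 * ε ^ 2 / η) a q n k (by linarith)
    (by linarith) hg hgp hna (fun θ hθ => by simpa using H1 θ hθ)
  have hw := gw_pos (-1) n (σ - η)
  have H3 : ‖f2 (MK S ξ) n a‖ ≤ C₂ * (q:ℝ) ^ 6 * ε ^ 2 / η * gw (-1) n (σ - η) := by
    refine le_of_mul_le_mul_left ?_ hq0
    calc (q:ℝ) * ‖f2 (MK S ξ) n a‖ ≤ _ := H2
      _ = _ := by ring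
  refine H3.trans ?_
  gcongr

end Vale.Agent.P097
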