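import Vale.Agent.P097.KStm

open Set NormedSpace Complex Metric

namespace Vale.Agent.P097

namespace KMel2Aux

theorem cont {f : ℂ → ℂ} {s : ℝ} (hs : 0 < s) (hf : DifferentiableOn ℂ f (St s)) :
    Continuous fun t : ℝ => f t :=
  hf.continuousOn.comp_continuous continuous_ofReal fun t => by simpa [St] using hs

theorem slice {f : ℂ × ℂ → ℂ} {U : Set (ℂ × ℂ)} {s : ℝ} {α : ℂ} (hf : DifferentiableOn ℂ f U)
    (h : ∀ φ ∈ St s, (φ, α) ∈ U) : DifferentiableOn ℂ (fun φ => f (φ, α)) (St s) :=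
  hf.comp (differentiable_id.prodMk (differentiable_const α)).differentiableOn h

theorem comb {h R ψ : ℝ → ℂ} (hh : Continuous h) (hR : Continuous R) (hψ : Continuous ψ)
    (c m : ℂ) {n : ℤ} (hn : n ≠ 0) : fc (fun x => -c * h x - (R x + (m * 1 + ψ x))) n =
      -c * fc h n - (fc R n + fc ψ n) := by
  rw [fc_sub (by fun_prop) (by fun_prop), fc_add hR (by fun_prop), fc_add continuous_const hψ,
    fc_mul, fc_mul, fc_one, if_neg hn, mul_zero, zero_add]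

theorem fin {K Ca D P J g x y : ℝ} (hK : 2 ≤ K) (hC : 0 ≤ Ca) (hD : 0 ≤ D) (hP : 0 ≤ P * J)
    (hg : 0 < g) (hx : 0 ≤ x) (hy : 1 ≤ 10 * K * y)
    (h : y * x ≤ Ca * K ^ 2 * D * g + D * g + J * (8 * P * K) * g) :
    x ≤ (10 * Ca + 90) * K ^ 3 * (P * J + D) * g := by
  have h1 : x ≤ 10 * K * (y * x) := by nlinarith
  have h2 := mul_le_mul_of_nonneg_left h (show 0 ≤ 10 * K by linarith)
  have k2 : K ≤ K ^ 3 := le_self_pow₀ (by linarith) (by norm_num)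
  have k3 : K ^ 2 ≤ K ^ 3 := pow_le_pow_right₀ (by linarith) (by norm_num)
  have k0 : 0 ≤ K ^ 3 := by positivity
  have a1 := mul_le_mul_of_nonneg_right k2 (mul_nonneg hD hg.le)
  have a2 := mul_le_mul_of_nonneg_right k3 (mul_nonneg hP hg.le)
  have a3 := mul_nonneg k0 (mul_nonneg hD hg.le)
  have a4 := mul_nonneg k0 (mul_nonneg hP hg.le)
  have a5 := mul_nonneg hC a4
  nlinarith

end KMel2Aux

open KMel2Aux in
theorem mel2E (hfc1 : S_fc1) (hm2a : S_m2a) (hm2b : S_m2b) : S_mel2 := by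
  obtain ⟨Ca, hCa, hm2a⟩ := hm2a
  refine ⟨10 * Ca + 90, by linarith, ?_⟩
  intro S ξ Ψ μ σ₁ d₁ C c₀ C' σ r ε t σ' r' D P J K n k hF h1 h2 h3 hK hn hnK hk hr hΨ hD hP hμ hJ
  have hK' : (2:ℝ) ≤ K := by exact_mod_cast hK
  have hr' : |(k:ℝ) / n| < r' := by
    have q1 : (0:ℝ) < 1 / K := by positivity
    have q2 : (1:ℝ) / K ≤ 1 / 2 := one_div_le_one_div_of_le (by norm_num) hK'
    have q3 := abs_nonneg ((k:ℝ) / n)
    have q4 : 0 < r' := by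
      by_contra hc
      nlinarith
    nlinarith
  have A := hm2a S ξ Ψ σ₁ d₁ C c₀ C' σ r ε t σ' r' D K n k hF h1 h2 h3 hK hn hnK hk hr hΨ hD
  have B := hm2b S ξ Ψ σ₁ d₁ C c₀ C' σ r ε t σ' r' D n k (μ (k / n)) hF h1 h2 h3 hn hk hr' hΨ hD
  have hs : 0 < σ' := hF.ok.rpos.trans_le h3
  have e : ((k:ℂ) / n) = (((k:ℝ) / n : ℝ) : ℂ) := by push_cast; rfl
  have nα : ‖(k:ℂ) / n‖ = |(k:ℝ) / n| := by rw [e, norm_real, Real.norm_eq_abs]
  have iα : ((k:ℂ) / n).im = 0 := by rw [e, ofReal_im]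
  have lα : 1 ≤ K * ‖(k:ℂ) / n‖ := by
    have q1 : (1:ℝ) ≤ |(k:ℝ)| := by exact_mod_cast Int.one_le_abs hk
    have q2 : |(n:ℝ)| ≤ K := by exact_mod_cast hnK
    have q3 : (0:ℝ) < |(n:ℝ)| := abs_pos.2 (by exact_mod_cast hn)
    rw [nα, abs_div, ← mul_div_assoc, le_div_iff₀ q3]
    nlinarith
  rw [← nα] at hr'
  generalize (k:ℂ) / n = α at *
  have α0 : 0 < ‖α‖ := by
    by_contra hc
    nlinarith [norm_nonneg α]
  have mem : ∀ c, ∀ φ ∈ St σ', (φ, α) ∈ XX σ' c r' := fun c φ hφ =>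
    ⟨by simpa [iα, St] using hφ, hr'⟩
  have mem' : ∀ φ ∈ St σ', (φ, α) ∈ XX σ (1 / 2) r := fun φ hφ => XX_mono h1 le_rfl h2 (mem _ φ hφ)
  have re : ∀ x : ℝ, (x:ℂ) ∈ St σ' := fun x => by simpa [St] using hs
  have la : ∀ φ ∈ St σ', ‖α‖ / 2 ≤ ‖ac S ξ (φ, α)‖ := fun φ hφ => by
    have q1 := hF.k1.ha _ (mem' φ hφ)
    have q2 := norm_sub_norm_le α (ac S ξ (φ, α))
    rw [norm_sub_rev] at q2
    dsimp only at q1
    linarith
  have na : ∀ φ ∈ St σ', ac S ξ (φ, α) ≠ 0 := fun φ hφ =>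
    norm_pos_iff.1 (by linarith [la φ hφ])
  have dψ := slice hΨ.hol (mem _)
  have dj := slice hF.k4.prJ.hol mem'
  have dh : DifferentiableOn ℂ (fun φ => Ph S ξ μ Ψ (φ, α)) (St σ') :=
    (dψ.const_add (μ α)).div (slice hF.k1.pra.hol mem') na
  have P0 : 0 ≤ P := (norm_nonneg _).trans (hP _ (mem _ _ (re 0)))
  have J0 : 0 ≤ J := (norm_nonneg _).trans (hJ _ (re 0))
  have D0 : 0 ≤ D := (norm_nonneg _).trans (hD _ ⟨mem _ _ (re 0), norm_pos_iff.1 α0⟩)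
  have bh : ∀ φ ∈ St σ', ‖Ph S ξ μ Ψ (φ, α)‖ ≤ 8 * P * K := fun φ hφ => by
    rw [Ph, norm_div, div_le_iff₀ (by linarith [la φ hφ])]
    have q1 := norm_add_le (μ α) (Ψ (φ, α))
    have q2 := hP _ (mem _ φ hφ)
    have q3 := mul_le_mul_of_nonneg_left (la φ hφ) (show 0 ≤ 8 * P * K by positivity)
    have q4 := mul_le_mul_of_nonneg_left lα P0
    dsimp only
    nlinarith
  have dR : DifferentiableOn ℂ
      (fun φ => (Jc S ξ (φ, α) - f2 (Jc S ξ) 0 α) * Ph S ξ μ Ψ (φ, α)) (St σ') :=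
    (dj.sub_const (f2 (Jc S ξ) 0 α)).mul dh
  have R := (hfc1 (fun φ => (Jc S ξ (φ, α) - f2 (Jc S ξ) 0 α) * Ph S ξ μ Ψ (φ, α)) σ' hs dR
    (fun φ hφ => by
      have q1 := hF.k4.prJ.per _ (mem' φ hφ)
      have q2 := hΨ.per _ (mem _ φ hφ)
      have q3 := hF.k1.pra.per _ (mem' φ hφ)
      dsimp only at q1 q2 q3
      simp only [Ph, q1, q2, q3])).2.1 (J * (8 * P * K)) (fun φ hφ => by
      rw [norm_mul]
      exact mul_le_mul (hJ φ hφ) (bh φ hφ) (norm_nonneg _) J0) n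
  have lJ : ‖f2 (Jc S ξ) 0 α + α‖ ≤ 9 / 10 * ‖α‖ := by
    have q := fc_le (f := fun x : ℝ => Jc S ξ (x, α) + α * 1) (A := 9 / 10 * ‖α‖)
      (fun x => by rw [mul_one]; exact hF.k4.hJ _ (mem' _ (re x))) 0
    rwa [fc_add (cont hs dj) continuous_const, fc_mul, fc_one, if_pos rfl, mul_one] at q
  have id : (fun x : ℝ => (μ α + Ψ (x, α)) * (gg ξ (zp (x, α)) - gg ξ (zm (x, α)))) = fun x : ℝ =>
      -f2 (Jc S ξ) 0 α * Ph S ξ μ Ψ (x, α) - ((Jc S ξ (x, α) - f2 (Jc S ξ) 0 α) *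
        Ph S ξ μ Ψ (x, α) + (μ α * 1 + Ψ (x, α))) := by
    funext x
    have q := na _ (re x)
    rw [Jc, Ph]
    field_simp
    ring
  rw [f2, id, comb (cont hs dh) (cont hs dR) (cont hs dψ) _ _ hn] at B
  refine fin hK' hCa D0 (mul_nonneg P0 J0) (gw_pos _ _ _) (norm_nonneg _)
    (y := ‖f2 (Jc S ξ) 0 α‖) ?_ ?_
  · have q := norm_sub_le (f2 (Jc S ξ) 0 α + α) (f2 (Jc S ξ) 0 α)
    rw [add_sub_cancel_left] at q
    nlinarith
  · refine le_trans (le_of_eq ?_) ((norm_add₃_le).trans (add_le_add_three A B R))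
    rw [← norm_mul]
    refine (norm_neg _).symm.trans (congrArg norm ?_)
    simp only [f2]
    ring

end Vale.Agent.P097
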