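import Vale.Agent.P097.KStm

open Set NormedSpace Complex Metric

namespace Vale.Agent.P097

namespace KMelaAux

theorem ddiv {E : Type} [NormedAddCommGroup E] [NormedSpace ℂ E] {s : Set E} {f g : E → ℂ}
    (hf : DifferentiableOn ℂ f s) (hg : DifferentiableOn ℂ g s) (h : ∀ x ∈ s, g x ≠ 0) :
    DifferentiableOn ℂ (fun x => f x / g x) s := by
  simp only [div_eq_mul_inv]
  exact hf.mul (hg.inv h)

theorem ds_diff {E : Type} [NormedAddCommGroup E] [NormedSpace ℂ E] {s : Set E} {q j : ℕ}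
    {a F : E → ℕ → ℂ} (ha : ∀ i, DifferentiableOn ℂ (fun x => a x i) s)
    (hF : ∀ i, DifferentiableOn ℂ (fun x => F x i) s) (h0 : ∀ x ∈ s, ∀ i < q, a x i ≠ 0)
    (h1 : ∀ x ∈ s, ∑ i ∈ Finset.range q, 1 / a x i ≠ 0) (hj : j ≤ q) :
    DifferentiableOn ℂ (fun x => ds q (a x) (F x) j) s := by
  have hS : ∀ i, DifferentiableOn ℂ (fun x => ∑ l ∈ Finset.Icc 1 i, F x l) s := fun i =>
    DifferentiableOn.fun_sum fun l _ => hF l
  refine DifferentiableOn.fun_sum fun i hi => ddiv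
    (DifferentiableOn.fun_sub (ddiv (DifferentiableOn.fun_sum fun l hl => ?_)
      (DifferentiableOn.fun_sum fun l hl => ?_) h1) (hS i)) (ha i) fun x hx =>
        h0 x hx i ((Finset.mem_range.1 hi).trans_le hj)
  · exact ddiv (hS l) (ha l) fun x hx => h0 x hx l (Finset.mem_range.1 hl)
  · exact ddiv (differentiableOn_const 1) (ha l) fun x hx => h0 x hx l (Finset.mem_range.1 hl)

theorem ds_real {q j : ℕ} {a F : ℕ → ℂ} (ha : ∀ i, (a i).im = 0) (hF : ∀ i, (F i).im = 0) :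
    (ds q a F j).im = 0 := by
  simp only [← conj_eq_iff_im] at ha hF ⊢
  simp only [ds, map_sum, map_div₀, map_sub, map_one, ha, hF]

theorem wx_le {q : ℕ} (w : Fin q → ℂ) (j : ℕ) : ‖wx q w j‖ ≤ ‖w‖ := by
  unfold wx
  split_ifs
  · exact norm_le_pi_norm w _
  · simp

theorem wx_im {q : ℕ} {w : Fin q → ℂ} (h : ∀ i, (w i).im = 0) (j : ℕ) : (wx q w j).im = 0 := by
  unfold wx
  split_ifs
  · exact h _
  · simp

theorem wx_diff (q j : ℕ) : Differentiable ℂ fun w : Fin q → ℂ => wx q w j := by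
  unfold wx
  split_ifs
  · exact differentiable_apply _
  · exact differentiable_const _

theorem num {c₀ C' ε η q a : ℝ} (hc : 0 < c₀) (hC : 0 ≤ C') (hε : 0 < ε) (hη : 0 < η)
    (hη1 : η ≤ 1) (hq : 1 ≤ q) (ha : 1 ≤ q * a)
    (h : (1 + 207360 * |C'| + 480 + 288 / |c₀|) * q ^ 6 * ε ≤ η) :
    3 * (3 * (32 * q ^ 3 * ε)) ≤ c₀ * a ∧
    8 * q ^ 2 * (6 / 5 * ε + 9 * C' * (3 * (32 * q ^ 3 * ε)) ^ 2 +
      2 * (3 * (32 * q ^ 3 * ε)) * ε / η) / a ≤ 32 * q ^ 3 * ε / 2 := by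
  rw [abs_of_nonneg hC, abs_of_pos hc] at h
  have hq0 : 0 < q := by linarith
  have ha0 : 0 < a := by
    by_contra hn
    nlinarith
  have h6 : 0 < q ^ 6 * ε := by positivity
  have h36 : q ^ 3 * ε ≤ q ^ 6 * ε :=
    mul_le_mul_of_nonneg_right (pow_le_pow_right₀ hq (by norm_num)) hε.le
  have h46 : q ^ 4 * ε ≤ q ^ 6 * ε :=
    mul_le_mul_of_nonneg_right (pow_le_pow_right₀ hq (by norm_num)) hε.le
  have k1 : 0 ≤ C' * (q ^ 6 * ε) := by positivity
  have k2 : 0 ≤ 288 / c₀ * (q ^ 6 * ε) := by positivity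
  have k3 : 288 * (q ^ 6 * ε) ≤ c₀ := by
    have : 288 / c₀ * (q ^ 6 * ε) ≤ 1 := by nlinarith
    rwa [div_mul_eq_mul_div, div_le_one hc] at this
  have k4 : 207360 * (C' * (q ^ 6 * ε)) ≤ 1 := by nlinarith
  have k5 : 480 * (q ^ 3 * ε) ≤ η := by nlinarith
  constructor
  · refine le_of_mul_le_mul_left ?_ hq0
    nlinarith [mul_le_mul_of_nonneg_left ha hc.le]
  · have k6 : 2 * (3 * (32 * q ^ 3 * ε)) * ε / η ≤ 2 / 5 * ε := by
      rw [div_le_iff₀ hη]
      nlinarith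
    have k7 : 9 * C' * (3 * (32 * q ^ 3 * ε)) ^ 2 ≤ 2 / 5 * ε := by
      nlinarith [mul_le_mul_of_nonneg_right k4 hε.le]
    rw [div_le_iff₀ ha0]
    have k8 : 0 < q ^ 2 * ε := by positivity
    nlinarith [mul_le_mul_of_nonneg_left ha k8.le, mul_le_mul_of_nonneg_left
      (add_le_add k6 k7) (sq_nonneg q)]

end KMelaAux

open KMelaAux in
theorem melaE (hds : S_ds) (hhfp : S_hfp) (hma1 : S_ma1) : S_mela := by
  intro c₀ C'
  refine ⟨1 + 207360 * |C'| + 480 + 288 / |c₀|, by positivity, ?_⟩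
  intro S ξ σ₁ d₁ C σ r ε t η q α h hη hησ hq hqα hr hε hs
  have hα : α ≠ 0 := by
    rintro rfl
    norm_num at hqα
  have hq' : (1 : ℝ) ≤ q := by exact_mod_cast hq
  obtain ⟨n1, n2⟩ := num h.cpos h.c0 hε hη (by linarith [h.ok.hi, h.gd.sle]) hq' hqα hs
  set R : ℝ := 32 * (q:ℝ) ^ 3 * ε with hR
  have R0 : 0 < R := by positivity
  obtain ⟨m1, m2, m3, m4⟩ := hma1 S ξ σ₁ d₁ C c₀ C' σ r ε t η (3 * R) α h hη hα hr n1
  have hna : ‖(α : ℂ)‖ = |α| := by simp
  have st : ∀ (s : ℝ) (j : ℕ), ∀ θ ∈ St s, θ + j * α ∈ St s := fun s j θ hθ => by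
    simpa [St] using hθ
  have sm : St (σ - η) ⊆ St σ := fun θ hθ => lt_trans hθ (sub_lt_self σ hη)
  have xx : ∀ (c : ℝ), ∀ θ ∈ St σ, (θ, (α : ℂ)) ∈ XX σ c r := fun c θ hθ =>
    ⟨by simpa [St] using hθ, hna ▸ hr⟩
  let a : ℂ → ℕ → ℂ := fun θ j => ac S ξ (zp (θ + j * α, α))
  let F : ℂ × (Fin q → ℂ) → ℕ → ℂ := fun x j =>
    Fm S ξ (x.1 + j * α, α) (wx q x.2 (j - 1)) (wx q x.2 j) (wx q x.2 (j + 1))
  have hz : ∀ (j : ℕ), ∀ θ ∈ St (σ - η), zp (θ + j * α, α) ∈ XX σ (1 / 2) r := fun j θ hθ => by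
    have := zp_mem (xx 1 _ (st σ j θ (sm hθ)))
    rwa [show (1 : ℝ) - 1 / 2 = 1 / 2 by norm_num] at this
  have D := fun θ (hθ : θ ∈ St (σ - η)) => hds q α (a θ) hq (ofReal_ne_zero.2 hα) fun i _ =>
    h.k1.ha _ (hz i θ hθ)
  have hb : ∀ {w : Fin q → ℂ}, w ∈ ball (0 : Fin q → ℂ) (3 * R) → ∀ j, ‖wx q w j‖ < 3 * R :=
    fun hw j => (wx_le _ j).trans_lt (mem_ball_zero_iff.1 hw)
  obtain ⟨W, W1, W2, W3⟩ := hhfp q (St (σ - η)) (range ofReal) R
    (fun x j => ds q (a x.1) (F x) j) {w | ∀ i, (w i).im = 0} (oSt _) R0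
    (differentiableOn_pi.2 fun j => ds_diff (a := fun x : ℂ × (Fin q → ℂ) => a x.1)
      (fun i => h.k1.pra.hol.comp (f := fun x : ℂ × (Fin q → ℂ) => zp (x.1 + i * α, α))
        (Differentiable.differentiableOn (by unfold zp; fun_prop)) fun x hx => hz i _ hx.1)
      (fun i => m1.comp (f := fun x : ℂ × (Fin q → ℂ) =>
          (x.1 + i * α, wx q x.2 (i - 1), wx q x.2 i, wx q x.2 (i + 1)))
        (Differentiable.differentiableOn ((differentiable_fst.add_const _).prodMk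
          (((wx_diff q _).comp differentiable_snd).prodMk
            (((wx_diff q _).comp differentiable_snd).prodMk
              ((wx_diff q _).comp differentiable_snd))))) fun x hx =>
        ⟨st σ i _ (sm hx.1), mem_ball_zero_iff.2
          (max_lt (hb hx.2 _) (max_lt (hb hx.2 _) (hb hx.2 _)))⟩)
      (fun x hx => (D _ hx.1).1) (fun x hx => (D _ hx.1).2.1) j.2.le)
    (fun x hx => (pi_norm_le_iff_of_nonneg (by positivity)).2 fun j => by
      have hC := h.c0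
      refine (((D _ hx.1).2.2 (F x)).2.2.2 _ (by positivity) (fun l _ _ => m2 _
        (st _ l _ hx.1) _ _ _ (hb hx.2 _).le (hb hx.2 _).le (hb hx.2 _).le) j j.2.le).trans ?_
      rwa [hna])
    (by
      rintro _ ⟨x, rfl⟩
      simpa [St] using hησ)
    (by
      rw [ofPred_forall]
      exact isClosed_iInter fun i => isClosed_eq (by fun_prop) continuous_const)
    (fun _ => rfl)
    (by
      rintro _ ⟨x, rfl⟩ w hw hwR j
      have e : ∀ l, wx q w l = ((wx q w l).re : ℂ) := fun l =>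
        (conj_eq_iff_re.1 (conj_eq_iff_im.2 (wx_im hw l))).symm
      have b : ∀ l, |(wx q w l).re| ≤ 3 * R := fun l =>
        (abs_re_le_norm _).trans ((wx_le w l).trans (by linarith))
      refine ds_real (fun i => ?_) fun i => ?_
      · have := m4 (x + i * α + α / 2)
        push_cast at this
        exact this
      · have := m3 (x + i * α) _ _ _ (b (i - 1)) (b i) (b (i + 1))
        rw [← e, ← e, ← e] at this
        push_cast at this
        exact this)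
  have key : ∀ θ ∈ St (σ - η), ∀ j ≤ q, wx q (W θ) j = ds q (a θ) (F (θ, W θ)) j := by
    intro θ hθ j hj
    by_cases hj' : j < q
    · rw [wx, dif_pos hj']
      exact (congrFun (W2 θ hθ).2 ⟨j, hj'⟩).symm
    · rw [wx, dif_neg hj', le_antisymm hj (not_lt.1 hj'), ((D θ hθ).2.2 _).2.1]
  refine ⟨fun j θ => wx q (W θ) j, fun j => (wx_diff q j).comp_differentiableOn W1,
    fun θ hθ => ?_, fun θ _ => dif_neg (lt_irrefl q), fun j θ hθ => (wx_le _ j).trans (W2 θ hθ).1,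
    fun j x => wx_im (W3 _ ⟨x, rfl⟩) j, fun θ hθ j j0 j1 => ?_⟩
  · rw [key θ hθ 0 (Nat.zero_le _), ((D θ hθ).2.2 _).1]
  · have e := ((D θ hθ).2.2 (F (θ, W θ))).2.2.1 j j0 j1
    rw [← key θ hθ _ j1, ← key θ hθ _ j1.le, ← key θ hθ (j - 1) (by omega)] at e
    have c1 : ((j - 1 : ℕ) : ℂ) = j - 1 := by rw [Nat.cast_sub j0, Nat.cast_one]
    have e1 : zm (θ + j * α, α) = zp (θ + (j - 1 : ℕ) * α, α) := by
      rw [c1]
      exact Prod.ext (by simp only [zm, zp]; ring) rfl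
    have e2 : zM (θ + j * α, α) = (θ + (j - 1 : ℕ) * α, (α : ℂ)) := by
      rw [c1]
      exact Prod.ext (by simp only [zM]; ring) rfl
    have e3' : zP (θ + j * α, α) = (θ + (j + 1 : ℕ) * α, (α : ℂ)) :=
      Prod.ext (by simp only [zP]; push_cast; ring) rfl
    have hp : p1 ξ (θ + j * α, α) ≠ 0 := fun hp => by
      have := h.ks.d1 _ (xx 0 _ (st σ j θ (sm hθ)))
      rw [hp, zero_sub, norm_neg, norm_one] at this
      linarith [h.ok.t1]
    simp only [F, a, Fm, e1, e2, e3'] at e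
    refine (mul_eq_zero.1 (?_ : p1 ξ (θ + j * α, α) * _ = 0)).resolve_left hp
    simp only [xw]
    linear_combination e

end Vale.Agent.P097
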