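import Vale.Agent.P097.KStm

open Set NormedSpace Complex Metric

namespace Vale.Agent.P097

namespace KMelbAux

theorem per_int {f : ℂ → ℂ} {σ : ℝ} {k : ℂ} (h : ∀ θ ∈ St σ, f (θ + 1) = f θ + k) (n : ℤ)
    {θ : ℂ} (hθ : θ ∈ St σ) : f (θ + n) = f θ + n * k := by
  induction n using Int.induction_on with
  | zero => simp
  | succ n ih =>
    have := h (θ + n) (by simpa [St] using hθ)
    push_cast at ih ⊢
    rw [← add_assoc, this, ih]; ring
  | pred n ih =>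
    have := h (θ + (-n - 1)) (by simpa [St] using hθ)
    push_cast at ih ⊢
    rw [show θ + (-n - 1) + 1 = θ + -n by ring, ih] at this
    linear_combination -this

theorem extend {q : ℕ} (hq : 1 ≤ q) (p : ℤ) (y : ℕ → ℝ) (hy : y q = y 0 + p) :
    ∃ x : ℤ → ℝ, (∀ k, x (k + q) = x k + p) ∧ (∀ j : ℕ, j ≤ q → x j = y j) ∧
      ∀ k, ∃ j : ℕ, j < q ∧ x (k + 1) - x k = y (j + 1) - y j := by
  have q0 : (0 : ℤ) < q := by exact_mod_cast hq
  obtain ⟨x, hx⟩ : ∃ x : ℤ → ℝ, ∀ k, x k = y (k % q).toNat + p * (k / q : ℤ) := ⟨_, fun _ => rfl⟩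
  have a : ∀ k m, x (k + q * m) = x k + p * m := fun k m => by
    rw [hx, hx, Int.add_mul_emod_self_left, Int.add_mul_ediv_left _ _ q0.ne']
    push_cast
    ring
  have b : ∀ j : ℕ, j < q → x j = y j := fun j hj => by
    have h : (j : ℤ) < q := by exact_mod_cast hj
    rw [hx, Int.emod_eq_of_lt (by positivity) h, Int.ediv_eq_zero_of_lt (by positivity) h]
    simp
  have c : ∀ j : ℕ, j ≤ q → x j = y j := fun j hj => by
    rcases hj.lt_or_eq with h | rfl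
    · exact b j h
    · simpa [hy, ← b 0 hq] using a 0 1
  refine ⟨x, fun k => by simpa using a k 1, c, fun k => ?_⟩
  obtain ⟨j, hj⟩ := Int.eq_ofNat_of_zero_le (Int.emod_nonneg k q0.ne')
  have h : j < q := by exact_mod_cast hj ▸ Int.emod_lt_of_pos k q0
  have e := Int.emod_add_mul_ediv k q
  refine ⟨j, h, ?_⟩
  rw [← e, add_right_comm, a, a, hj, ← c j h.le, ← c (j + 1) h]
  push_cast
  ring

end KMelbAux

theorem melbE : S_melb := by
  intro S ξ σ₁ d₁ C c₀ C' σ r ε t s R q p w h s0 sσ hq hp hr h3 h6 hw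
  have q0 : (0 : ℝ) < q := by exact_mod_cast hq
  have hα : (q : ℝ) * (p / q) = p := mul_div_cancel₀ _ q0.ne'
  generalize (p : ℝ) / q = α at *
  have hαc : (q : ℂ) * α = p := by exact_mod_cast hα
  have a1 : 1 ≤ q * |α| := by
    rw [← abs_of_pos q0, ← abs_mul, hα]
    exact_mod_cast Int.one_le_abs hp
  have α0 : α ≠ 0 := fun e => by rw [e] at a1; norm_num at a1
  have z0 : ∀ x : ℝ, (x : ℂ) ∈ St s := fun x => by simpa [St] using s0
  have R0 : 0 ≤ R := (norm_nonneg _).trans (hw.bd 0 _ (z0 0))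
  have R1 : 3 * R ≤ c₀ * |α| := by nlinarith [abs_nonneg α]
  have R2 : 6 * R ≤ |α| := by nlinarith [abs_nonneg α]
  have mx : ∀ c, ∀ θ ∈ St σ, (θ, (α : ℂ)) ∈ XX σ c r := fun c θ hθ =>
    ⟨by simpa [St] using hθ, by simpa using hr⟩
  have ms : ∀ (x : ℝ), ∀ θ ∈ St s, θ + x ∈ St σ := fun x θ hθ => by
    simpa [St] using lt_of_lt_of_le hθ sσ
  have mj : ∀ (j : ℕ), ∀ θ ∈ St s, θ + j * α ∈ St σ := fun j θ hθ => by
    exact_mod_cast ms (j * α) θ hθ
  have bd : ∀ z ∈ XX σ 0 r, ∀ j, ∀ θ ∈ St s, ‖p1 ξ z * w j θ‖ ≤ 11 / 10 * R := fun z hz j θ hθ => by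
    rw [norm_mul]
    refine mul_le_mul ?_ (hw.bd j θ hθ) (norm_nonneg _) (by norm_num)
    have := norm_le_norm_add_norm_sub' (p1 ξ z) 1
    rw [norm_one] at this
    linarith [h.ks.d1 z hz, h.ok.t1]
  have P0 : ∀ θ ∈ St σ, ξ (θ + p, α) = ξ (θ, α) + p := fun θ hθ => by
    simpa using KMelbAux.per_int (f := fun θ => ξ (θ, α))
      (fun θ hθ => h.ks.per _ (mx 0 θ hθ)) p hθ
  have P1 : ∀ θ ∈ St σ, p1 ξ (θ + p, α) = p1 ξ (θ, α) := fun θ hθ => by
    simpa using KMelbAux.per_int (f := fun θ => p1 ξ (θ, α)) (k := 0)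
      (fun θ hθ => (h.k1.pr1.per _ (mx 0 θ hθ)).trans (add_zero _).symm) p hθ
  have hx : ∀ j, DifferentiableOn ℂ (xw ξ α w j) (St s) := fun j =>
    have d : DifferentiableOn ℂ (fun θ : ℂ => (θ + j * α, (α : ℂ))) (St s) := by fun_prop
    (h.ks.hol.comp d fun θ hθ => mx 0 _ (mj j θ hθ)).add
      ((h.k1.pr1.hol.comp d fun θ hθ => mx 0 _ (mj j θ hθ)).mul (hw.hol j))
  have om : ∀ θ ∈ St s, (xw ξ α w (q - 1) θ - p, xw ξ α w 0 θ) ∈ Om σ₁ d₁ ∧
      (xw ξ α w 0 θ, xw ξ α w 1 θ) ∈ Om σ₁ d₁ := fun θ hθ => by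
    have m0 : θ ∈ St σ := lt_of_lt_of_le hθ sσ
    have mM : θ - α ∈ St σ := by simpa [St] using m0
    have b1 := bd _ (mx 0 _ mM) (q - 1) θ hθ
    have b2 := bd _ (mx 0 _ (ms α θ hθ)) 1 θ hθ
    obtain ⟨o1, o2, -⟩ := h.lf (θ, α) ⟨mx 1 θ m0, ofReal_ne_zero.2 α0⟩ (3 * R) (w (q - 1) θ) 0
      (w 1 θ) (by rw [mul_zero, zero_sub, norm_neg]; exact b1.trans (by linarith))
      (by rw [mul_zero, sub_zero]; exact b2.trans (by linarith)) (by simpa using R0)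
      (by simpa using R1)
    have e : θ + (q - 1 : ℕ) * α = θ - α + p := by
      rw [Nat.cast_pred hq]
      linear_combination hαc
    simp only [xw, e, P0 _ mM, P1 _ mM, hw.w0 θ hθ, Nat.cast_zero, Nat.cast_one, zero_mul, one_mul,
      add_zero, add_right_comm _ (p : ℂ), add_sub_cancel_right]
    exact ⟨by simpa only [zM, add_zero] using o1, by simpa only [zP, add_zero] using o2⟩
  have hol : DifferentiableOn ℂ
      (fun θ => e3 S (xw ξ α w (q - 1) θ - p) (xw ξ α w 0 θ) (xw ξ α w 1 θ)) (St s) :=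
    ((hol2 (oOm _ _) h.gd.hol).comp (((hx _).sub_const _).prodMk (hx 0)) fun θ hθ => (om θ hθ).1).add
      ((hol1 (oOm _ _) h.gd.hol).comp ((hx 0).prodMk (hx 1)) fun θ hθ => (om θ hθ).2)
  have cv : Convex ℝ (St s) :=
    (show imLm ⁻¹' Ioo (-s) s = St s from Set.ext fun _ => abs_lt.symm) ▸
      (convex_Ioo (-s) s).linear_preimage imLm
  refine (hol.analyticOnNhd (oSt s)).eqOn_zero_of_preconnected_of_frequently_eq_zero
    cv.isPreconnected (z0 0) ((continuous_ofReal.continuousWithinAt.tendsto_nhdsWithin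
      (s := {0}ᶜ) fun x hx => ofReal_injective.ne hx).frequently (.of_forall fun τ => ?_))
  have re : ∀ j, ((xw ξ α w j τ).re : ℂ) = xw ξ α w j τ := fun j => by
    have m := mx 0 _ (mj j _ (z0 τ))
    have c : cj (τ + j * α, α) = ((τ : ℂ) + j * α, (α : ℂ)) := by simp [cj]
    have i1 := conj_eq_iff_im.1 (c ▸ h.ks.real _ m).symm
    have i2 := conj_eq_iff_im.1 (c ▸ h.k1.pr1.real _ m).symm
    refine conj_eq_iff_re.1 (conj_eq_iff_im.2 ?_)
    simp [xw, i1, i2, hw.real]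
  have gp : ∀ j, |(xw ξ α w (j + 1) τ).re - (xw ξ α w j τ).re - α| ≤ |α| / 2 := fun j => by
    have m := mj j _ (z0 τ)
    have g := h.k1.gap _ (XX_mono le_rfl (by norm_num) le_rfl (zp_mem (mx 1 _ m)))
    rw [zp_zp, zm_zp] at g
    have b1 := bd _ (mx 0 _ m) j _ (z0 τ)
    have b2 := bd _ (mx 0 _ (mj (j + 1) _ (z0 τ))) (j + 1) _ (z0 τ)
    have e : xw ξ α w (j + 1) τ - xw ξ α w j τ - α =
        ξ (τ + j * α + α, α) - ξ (τ + j * α, α) - α +
          (p1 ξ (τ + (j + 1 : ℕ) * α, α) * w (j + 1) τ - p1 ξ (τ + j * α, α) * w j τ) := by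
      rw [xw, xw, show (τ : ℂ) + j * α + α = τ + (j + 1 : ℕ) * α by push_cast; ring]
      ring
    have k := (abs_re_le_norm _).trans (e ▸ (norm_add_le _ _).trans
      (add_le_add g ((norm_sub_le _ _).trans (add_le_add b2 b1))) :
        ‖xw ξ α w (j + 1) τ - xw ξ α w j τ - α‖ ≤ _)
    simp only [sub_re, ofReal_re, zp, norm_real, Real.norm_eq_abs] at k
    linarith
  obtain ⟨x, x1, x2, x3⟩ := KMelbAux.extend hq p (fun j => (xw ξ α w j τ).re) (by
    have m : (τ : ℂ) ∈ St σ := lt_of_lt_of_le (z0 τ) sσ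
    simp [xw, hαc, P0 _ m, hw.w0 _ (z0 τ), hw.wq _ (z0 τ)])
  have cr : ∃ G, Crit S G ∧ ∀ g, |g - α| ≤ |α| / 2 → g ∈ G := by
    have := h.ok.r2
    have := h.gd.dpos
    rcases α0.lt_or_gt with n | n
    · refine ⟨_, h.gd.cn, fun g hg => ?_⟩
      rw [abs_of_neg n] at hg hr
      exact ⟨by linarith [(abs_le.1 hg).1], by linarith [(abs_le.1 hg).2]⟩
    · refine ⟨_, h.gd.cp, fun g hg => ?_⟩
      rw [abs_of_pos n] at hg hr
      exact ⟨by linarith [(abs_le.1 hg).1], by linarith [(abs_le.1 hg).2]⟩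
  obtain ⟨G, g1, g2⟩ := cr
  have f := g1 q p x hq x1 (fun k => by
    obtain ⟨j, -, e⟩ := x3 k
    exact g2 _ (e ▸ gp j)) fun k k0 kq => by
    obtain ⟨j, rfl⟩ := Int.eq_ofNat_of_zero_le k0.le
    have j0 : 0 < j := by exact_mod_cast k0
    have jq : j < q := by exact_mod_cast kq
    rw [← Nat.cast_pred j0, ← Nat.cast_succ, x2 _ (by omega), x2 _ jq.le, x2 _ jq, re, re, re]
    exact hw.eq _ (z0 τ) j j0 jq
  have e1 : x (0 - 1) = (xw ξ α w (q - 1) τ).re - p := by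
    rw [← x2 _ (Nat.sub_le q 1), Nat.cast_pred hq, eq_sub_iff_add_eq, ← x1]
    exact congrArg x (by ring)
  have e0 : x 0 = _ := x2 0 (Nat.zero_le q)
  have e2 : x (0 + 1) = _ := x2 1 hq
  rw [e1, e0, e2, ofReal_sub, re, re, re, ofReal_intCast] at f
  exact f

end Vale.Agent.P097
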