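import Vale.Agent.P097.KStm

open Set NormedSpace Complex Metric

namespace Vale.Agent.P097

namespace KMelgAux

theorem memI {σ c r : ℝ} {z : ℂ × ℂ} (hz : z ∈ XX σ c r) (p : ℤ) :
    (z.1 + p, z.2) ∈ XX σ c r := by
  simpa [XX] using hz

theorem perI {σ c r : ℝ} {f : ℂ × ℂ → ℂ} {k : ℂ}
    (h : ∀ z ∈ XX σ c r, f (z.1 + 1, z.2) = f z + k) {z : ℂ × ℂ} (hz : z ∈ XX σ c r) (p : ℤ) :
    f (z.1 + p, z.2) = f z + p * k := by
  induction p using Int.induction_on with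
  | zero => simp
  | succ i ih =>
    have := h _ (memI hz i)
    push_cast at this ih ⊢
    rw [← add_assoc, this, ih]
    ring
  | pred i ih =>
    have := h _ (memI hz (-(i:ℤ) - 1))
    push_cast at this ih ⊢
    have e : z.1 + (-(i:ℂ) - 1) + 1 = z.1 + -(i:ℂ) := by ring
    rw [e, ih] at this
    linear_combination -this

theorem memR {σ c r : ℝ} {θ : ℂ} {α : ℝ} (hθ : θ ∈ St σ) (hα : |α| < r) :
    (θ, (α:ℂ)) ∈ XX σ c r := by
  refine ⟨?_, ?_⟩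
  · have : |θ.im| < σ := hθ
    simpa using this
  · simpa using hα

theorem step {S ξ : ℂ × ℂ → ℂ} {σ₁ d₁ C c₀ C' σ r ε t η R α : ℝ}
    (h : KF S σ₁ d₁ C c₀ C' σ r ε t ξ) (hη : 0 < η) (h0 : α ≠ 0) (hα : |α| < r)
    (hR : 3 * R ≤ c₀ * |α|) {θ a b c : ℂ} (hθ : θ ∈ St (σ - η)) (ha : ‖a‖ ≤ R) (hb : ‖b‖ ≤ R)
    (hc : ‖c‖ ≤ R)
    (he : e3 S (ξ (zM (θ, α)) + p1 ξ (zM (θ, α)) * a) (ξ (θ, α) + p1 ξ (θ, α) * b)
      (ξ (zP (θ, α)) + p1 ξ (zP (θ, α)) * c) = 0) :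
    ‖MK S ξ (θ, α) + (ac S ξ (zp (θ, α)) * (c - b) - ac S ξ (zm (θ, α)) * (b - a))‖
      ≤ 9 * C' * R ^ 2 + 2 * R * ε / η := by
  have hR0 : 0 ≤ R := (norm_nonneg _).trans ha
  have hz1 : (θ, (α:ℂ)) ∈ XX (σ - η) 1 r := memR hθ hα
  have hz : (θ, (α:ℂ)) ∈ XX σ 1 r := XX_mono (by linarith) le_rfl le_rfl hz1
  have hp : ∀ y ∈ XX σ 0 r, ∀ v : ℂ, ‖v‖ ≤ R → ‖p1 ξ y * v‖ ≤ 3 / 2 * R := by
    intro y hy v hv
    have h1 := h.ks.d1 y hy
    have h2 := h.ok.t1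
    have h3 : ‖p1 ξ y‖ ≤ ‖p1 ξ y - 1‖ + ‖(1:ℂ)‖ := by
      simpa using norm_add_le (p1 ξ y - 1) 1
    rw [norm_one] at h3
    rw [norm_mul]
    exact mul_le_mul (by linarith) hv (norm_nonneg _) (by norm_num)
  have m0 : (θ, (α:ℂ)) ∈ XX σ 0 r := XX_mono le_rfl (by norm_num) le_rfl hz
  have mM : zM (θ, (α:ℂ)) ∈ XX σ 0 r := by simpa using zM_mem hz
  have mP : zP (θ, (α:ℂ)) ∈ XX σ 0 r := by simpa using zP_mem hz
  have a1 : ‖(α:ℂ)‖ ≤ 1 := by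
    have := h.ok.r1
    have := h.gd.sle
    rw [Complex.norm_real, Real.norm_eq_abs]
    linarith
  have q0 := hp _ m0 b hb
  have qM := hp _ mM a ha
  have qP := hp _ mP c hc
  have hl := (h.lf (θ, α) ⟨hz, by simpa using h0⟩ (3 * R) a b c
    ((norm_sub_le _ _).trans (by linarith)) ((norm_sub_le _ _).trans (by linarith))
    ((mul_le_mul a1 q0 (norm_nonneg _) zero_le_one).trans (by linarith))
    (by simpa using hR)).2.2
  rw [he] at hl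
  have hE : ‖p1 (EK S ξ) (θ, α)‖ ≤ ε / η := by
    refine cx1 h.k2.prE.hol hη hz1 fun s hs => (h.ks.err _ hs).trans ?_
    have : ‖(α:ℂ)‖ ^ 5 ≤ 1 := pow_le_one₀ (norm_nonneg _) a1
    simpa using mul_le_of_le_one_right h.e0 (by simpa using this)
  have hT : ‖p1 ξ (θ, α) * b * p1 (EK S ξ) (θ, α)‖ ≤ 2 * R * ε / η := by
    rw [norm_mul, mul_div_assoc]
    exact mul_le_mul (by linarith) hE (norm_nonneg _) (by linarith)
  have e : MK S ξ (θ, α) + (ac S ξ (zp (θ, α)) * (c - b) - ac S ξ (zm (θ, α)) * (b - a))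
      = -(p1 ξ (θ, α) * 0 - MK S ξ (θ, α)
        - (ac S ξ (zp (θ, α)) * (c - b) - ac S ξ (zm (θ, α)) * (b - a))
        - p1 ξ (θ, α) * b * p1 (EK S ξ) (θ, α)) - p1 ξ (θ, α) * b * p1 (EK S ξ) (θ, α) := by
    ring
  rw [e]
  refine (norm_sub_le _ _).trans ?_
  rw [norm_neg]
  nlinarith

theorem tele {S ξ : ℂ × ℂ → ℂ} {σ₁ d₁ C c₀ C' σ r ε t η R α : ℝ} {m : ℕ} {p : ℤ}
    {w : ℕ → ℂ → ℂ} (h : KF S σ₁ d₁ C c₀ C' σ r ε t ξ) (hη : 0 < η) (h0 : α ≠ 0) (hα : |α| < r)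
    (hR : 3 * R ≤ c₀ * |α|) (hw : MW S ξ (σ - η) R (m + 1) α w) (hp : ((m:ℂ) + 1) * α = p)
    {θ : ℂ} (hθ : θ ∈ St (σ - η))
    (hb : e3 S (xw ξ α w m θ - p) (xw ξ α w 0 θ) (xw ξ α w 1 θ) = 0) :
    ‖∑ j ∈ Finset.range (m + 1), MK S ξ (θ + j * α, α)‖
      ≤ (m + 1) * (9 * C' * R ^ 2 + 2 * R * ε / η) := by
  set u : ℕ → ℂ := fun j => ac S ξ (zp (θ + j * α, α)) * (w (j + 1) θ - w j θ) with hu
  set v : ℕ → ℂ := fun j => if j = 0 then u m else u (j - 1) with hv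
  have hs : ∑ j ∈ Finset.range (m + 1), (u j - v j) = 0 := by
    rw [Finset.sum_sub_distrib, Finset.sum_range_succ, Finset.sum_range_succ' v]
    simp [hv]
  have hθj : ∀ j : ℕ, θ + j * α ∈ St (σ - η) := by
    intro j
    have : |θ.im| < σ - η := hθ
    simpa [St] using this
  have hb1 : ∀ j ∈ Finset.range (m + 1),
      ‖MK S ξ (θ + j * α, α) + (u j - v j)‖ ≤ 9 * C' * R ^ 2 + 2 * R * ε / η := by
    intro j hj
    rcases j with _ | j
    · have hz : (θ + ((0:ℕ):ℂ) * α, (α:ℂ)) ∈ XX σ 1 r :=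
        XX_mono (by linarith) le_rfl le_rfl (memR (hθj 0) hα)
      have mM : zM (θ + ((0:ℕ):ℂ) * α, (α:ℂ)) ∈ XX σ 0 r := by simpa using zM_mem hz
      have mm : zm (θ + ((0:ℕ):ℂ) * α, (α:ℂ)) ∈ XX σ (1 / 2) r :=
        XX_mono le_rfl (by norm_num) le_rfl (zm_mem hz)
      have i1 := perI h.ks.per mM p
      have i2 := perI (k := 0) (fun z hz => by simpa using h.k1.pr1.per z hz) mM p
      have i3 := perI (k := 0) (fun z hz => by simpa using h.k1.pra.per z hz) mm p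
      have e1 : ((zM (θ + ((0:ℕ):ℂ) * α, (α:ℂ))).1 + p, (zM (θ + ((0:ℕ):ℂ) * α, (α:ℂ))).2)
          = (θ + m * α, (α:ℂ)) := by
        simp only [zM, Prod.mk.injEq, and_true]
        push_cast
        linear_combination -hp
      have e2 : ((zm (θ + ((0:ℕ):ℂ) * α, (α:ℂ))).1 + p, (zm (θ + ((0:ℕ):ℂ) * α, (α:ℂ))).2)
          = zp (θ + m * α, (α:ℂ)) := by
        simp only [zm, zp, Prod.mk.injEq, and_true]
        push_cast
        linear_combination -hp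
      rw [e1] at i1 i2
      rw [e2] at i3
      have e3' : zP (θ + ((0:ℕ):ℂ) * α, (α:ℂ)) = (θ + ((1:ℕ):ℂ) * α, (α:ℂ)) := by
        simp [zP]
      have := step h hη h0 hα hR (hθj 0) (hw.bd m θ hθ) (hw.bd 0 θ hθ) (hw.bd 1 θ hθ) (by
        rw [e3', ← hb]
        simp only [xw, i1, i2]
        congr 1
        ring)
      have e4 : u 0 - v 0 = ac S ξ (zp (θ + ((0:ℕ):ℂ) * α, α)) * (w 1 θ - w 0 θ)
          - ac S ξ (zm (θ + ((0:ℕ):ℂ) * α, α)) * (w 0 θ - w m θ) := by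
        simp only [hv, hu, if_true, i3, hw.wq θ hθ, hw.w0 θ hθ]
        ring
      rw [e4]
      exact this
    · have hj' : j + 1 < m + 1 := Finset.mem_range.1 hj
      have he := hw.eq θ hθ (j + 1) j.succ_pos hj'
      have e1 : zM (θ + ((j + 1 : ℕ):ℂ) * α, (α:ℂ)) = (θ + (j:ℂ) * α, (α:ℂ)) := by
        simp only [zM, Prod.mk.injEq, and_true]
        push_cast
        ring
      have e2 : zP (θ + ((j + 1 : ℕ):ℂ) * α, (α:ℂ)) = (θ + ((j + 1 + 1 : ℕ):ℂ) * α, (α:ℂ)) := by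
        simp only [zP, Prod.mk.injEq, and_true]
        push_cast
        ring
      have e3' : zm (θ + ((j + 1 : ℕ):ℂ) * α, (α:ℂ)) = zp (θ + (j:ℂ) * α, (α:ℂ)) := by
        simp only [zm, zp, Prod.mk.injEq, and_true]
        push_cast
        ring
      have := step h hη h0 hα hR (hθj (j + 1)) (hw.bd j θ hθ) (hw.bd (j + 1) θ hθ)
        (hw.bd (j + 1 + 1) θ hθ) (by
          rw [e1, e2]
          simpa only [xw, Nat.add_sub_cancel] using he)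
      rw [e3'] at this
      simpa only [hv, hu, Nat.add_sub_cancel, Nat.succ_ne_zero, if_false] using this
  have e : ∑ j ∈ Finset.range (m + 1), MK S ξ (θ + j * α, α)
      = ∑ j ∈ Finset.range (m + 1), (MK S ξ (θ + j * α, α) + (u j - v j)) := by
    rw [Finset.sum_add_distrib, hs, add_zero]
  rw [e]
  refine (norm_sum_le_of_le _ hb1).trans (le_of_eq ?_)
  rw [Finset.sum_const, Finset.card_range, nsmul_eq_mul, Nat.cast_succ]

end KMelgAux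

open KMelgAux in
theorem melgE (hmela : S_mela) (hmelb : S_melb) : S_melg := by
  intro c₀ C'
  obtain ⟨Ca, hCa, ha⟩ := hmela c₀ C'
  have n1 := abs_nonneg C'
  have n2 : 0 ≤ 96 / |c₀| := by positivity
  refine ⟨Ca + 9216 * |C'| + 64 + 192 + 96 / |c₀|, by positivity, ?_⟩
  intro S ξ σ₁ d₁ C σ r ε t η q p h hη hησ hq hp hr hC θ hθ
  have ea : ((p:ℂ) / q) = (((p:ℝ) / q : ℝ) : ℂ) := by push_cast; rfl
  rw [ea]
  have hq1 : (1:ℝ) ≤ q := by exact_mod_cast hq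
  have hq0 : (0:ℝ) < q := by linarith
  have hp1 : (1:ℝ) ≤ |(p:ℝ)| := by exact_mod_cast Int.one_le_abs hp
  have hqa : 1 ≤ q * |(p:ℝ) / q| := by
    rw [abs_div, abs_of_pos hq0, mul_div_cancel₀ _ hq0.ne']
    exact hp1
  have h0 : (p:ℝ) / q ≠ 0 := div_ne_zero (by exact_mod_cast hp) hq0.ne'
  have hη1 : η ≤ 1 := by
    have := h.ok.hi
    have := h.gd.sle
    linarith
  rcases h.e0.eq_or_lt with he | he
  · subst he
    have : ∀ j ∈ Finset.range q, MK S ξ (θ + j * (((p:ℝ) / q : ℝ) : ℂ), (((p:ℝ) / q : ℝ) : ℂ))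
        = 0 := by
      intro j _
      have hm : θ + j * (((p:ℝ) / q : ℝ) : ℂ) ∈ St σ := by
        have : |θ.im| < σ - η := hθ
        have e : (θ + j * (((p:ℝ) / q : ℝ) : ℂ)).im = θ.im := by
          simp only [add_im, mul_im, natCast_re, ofReal_im, natCast_im]
          ring
        simp only [St, mem_setOf_eq, e]
        linarith
      have := h.ks.err _ (memR (c := 1) hm hr)
      rw [zero_mul, norm_le_zero_iff] at this
      rw [MK, this, mul_zero]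
    rw [Finset.sum_eq_zero this]
    simp
  rw [abs_of_pos h.cpos, abs_of_nonneg h.c0] at *
  have c0 := h.cpos
  have hX : 0 < (q:ℝ) ^ 6 * ε := by positivity
  have h46 : (q:ℝ) ^ 4 * ε ≤ (q:ℝ) ^ 6 * ε :=
    mul_le_mul_of_nonneg_right (pow_le_pow_right₀ hq1 (by norm_num)) he.le
  rw [mul_assoc] at hC
  have g1 : Ca * (q:ℝ) ^ 6 * ε ≤ η := by nlinarith [mul_nonneg n1 hX.le, mul_nonneg n2 hX.le]
  have g2 : 192 * ((q:ℝ) ^ 6 * ε) ≤ 1 := by
    nlinarith [mul_nonneg n1 hX.le, mul_nonneg n2 hX.le, mul_nonneg hCa hX.le]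
  have g3 : 96 * ((q:ℝ) ^ 6 * ε) ≤ c₀ := by
    have : 96 / c₀ * ((q:ℝ) ^ 6 * ε) ≤ 1 := by
      nlinarith [mul_nonneg n1 hX.le, mul_nonneg hCa hX.le]
    rw [div_mul_eq_mul_div, div_le_one c0] at this
    exact this
  obtain ⟨w, hw⟩ := ha S ξ σ₁ d₁ C σ r ε t η q _ h hη hησ hq hqa hr he g1
  have g4 : 3 * q * (32 * (q:ℝ) ^ 3 * ε) ≤ c₀ := by nlinarith
  have hb := hmelb S ξ σ₁ d₁ C c₀ C' σ r ε t (σ - η) _ q p w h (by linarith) (by linarith) hq hp hr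
    g4 (by nlinarith) hw θ hθ
  have g5 : 3 * (32 * (q:ℝ) ^ 3 * ε) ≤ c₀ * |(p:ℝ) / q| := by
    refine le_of_mul_le_mul_left ?_ hq0
    nlinarith
  obtain ⟨m, rfl⟩ : ∃ m, q = m + 1 := ⟨q - 1, by omega⟩
  have hm0 : ((m:ℂ) + 1) ≠ 0 := by exact_mod_cast Nat.succ_ne_zero m
  refine (tele (p := p) h hη h0 hr g5 hw (by push_cast; field_simp) hθ hb).trans ?_
  rw [← Nat.cast_succ, le_div_iff₀ hη]
  set x : ℝ := ((m + 1 : ℕ) : ℝ)
  have h47 : x ^ 4 * ε ^ 2 ≤ x ^ 7 * ε ^ 2 :=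
    mul_le_mul_of_nonneg_right (pow_le_pow_right₀ hq1 (by norm_num)) (by positivity)
  have hY : 0 ≤ x ^ 7 * ε ^ 2 := by positivity
  have e : x * (9 * C' * (32 * x ^ 3 * ε) ^ 2 + 2 * (32 * x ^ 3 * ε) * ε / η) * η
      = 9216 * (C' * (x ^ 7 * ε ^ 2) * η) + 64 * (x ^ 4 * ε ^ 2) := by
    field_simp
    ring
  rw [e]
  have := mul_le_of_le_one_right (mul_nonneg n1 hY) hη1
  nlinarith [mul_nonneg hCa hY, mul_nonneg n2 hY]

end Vale.Agent.P097
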