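import Vale.Agent.P097.KStm

open Set NormedSpace Complex Metric

namespace Vale.Agent.P097

namespace KMuAux

theorem disc {a x : ℂ} (hx : x ≠ 0) (h : ‖a - x‖ ≤ ‖x‖ / 2) :
    ‖x‖ / 2 ≤ ‖a‖ ∧ a ≠ 0 ∧ ‖x * (1 / a) - 4 / 3‖ ≤ 2 / 3 := by
  have h1 : ‖x‖ / 2 ≤ ‖a‖ := by
    have := norm_sub_norm_le x a
    rw [norm_sub_rev] at this
    linarith
  have a0 : 0 < ‖a‖ := lt_of_lt_of_le (half_pos (norm_pos_iff.2 hx)) h1
  have a1 := norm_pos_iff.1 a0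
  refine ⟨h1, a1, ?_⟩
  rw [show x * (1 / a) - 4 / 3 = (x - 4 / 3 * a) / a by field_simp, norm_div, div_le_iff₀ a0]
  refine le_of_sq_le_sq ?_ (by positivity)
  have h2 := pow_le_pow_left₀ (norm_nonneg _) h 2
  rw [div_pow, Complex.sq_norm, Complex.sq_norm, normSq_apply, normSq_apply] at h2
  rw [mul_pow, Complex.sq_norm, Complex.sq_norm, normSq_apply, normSq_apply]
  simp at h2 ⊢
  nlinarith

theorem hdiv {U : Set (ℂ × ℂ)} {f g : ℂ × ℂ → ℂ} (hf : DifferentiableOn ℂ f U)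
    (hg : DifferentiableOn ℂ g U) (h : ∀ z ∈ U, g z ≠ 0) :
    DifferentiableOn ℂ (fun z => f z / g z) U := by
  simp only [div_eq_mul_inv]
  exact hf.fun_mul (hg.fun_inv h)

variable {σ r : ℝ} {f : ℂ × ℂ → ℂ} {α : ℂ}

theorem mem (hr : r ≤ σ) (h0 : α ≠ 0) (h : ‖α‖ < r) (t : ℝ) : ((t : ℂ), α) ∈ XP σ (1 / 2) r :=
  ⟨⟨by
    have := abs_im_le_norm α
    have := norm_nonneg α
    simp only [ofReal_im, abs_zero]
    linarith, h⟩, h0⟩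

theorem cont (hr : r ≤ σ) (h0 : α ≠ 0) (h : ‖α‖ < r) (hf : PR (XP σ (1 / 2) r) f) :
    Continuous fun t : ℝ => f (t, α) :=
  hf.hol.continuousOn.comp_continuous (by fun_prop) (mem hr h0 h)

theorem f2_conj (hr : r ≤ σ) (h0 : α ≠ 0) (h : ‖α‖ < r) (hf : PR (XP σ (1 / 2) r) f) :
    f2 f 0 ((starRingEnd ℂ) α) = (starRingEnd ℂ) (f2 f 0 α) := by
  rw [f2, f2, ← fc_conj, neg_zero]
  refine congrArg (fc · 0) (funext fun t => ?_)
  rw [← hf.real _ (mem hr h0 h t), cj, conj_ofReal]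

theorem f2_hol (hpar : S_par) (hr : r ≤ σ) (hf : PR (XP σ (1 / 2) r) f) :
    DifferentiableOn ℂ (fun z : ℂ × ℂ => f2 f 0 z.2) (XP σ (1 / 2) r) := fun z hz =>
  ((hpar f _ {α | α ≠ 0 ∧ ‖α‖ < r} 0 (oXP _ _ _)
    (isOpen_ne.inter (isOpen_lt continuous_norm continuous_const)) hf.hol
    (fun _ h t _ => mem hr h.1 h.2 t) z.2 ⟨hz.2, hz.1.2⟩).differentiableAt.comp z
      differentiableAt_snd).differentiableWithinAt

end KMuAux

open KMuAux in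
theorem muE (hpar : S_par) : S_mu := by
  intro S ξ Ψ σ₁ σ r σ' r' P k1 h1 h2 hr pΨ hΨ
  have s1 : XP σ' (1 / 2) r' ⊆ XX σ (1 / 2) r := fun z hz => XX_mono h1 le_rfl h2 hz.1
  have pa := k1.pra.mono s1
  replace pΨ := pΨ.mono (V := XP σ' (1 / 2) r') fun z hz => hz.1
  have ha := fun z (hz : z ∈ XP σ' (1 / 2) r') => disc hz.2 (k1.ha z (s1 hz))
  have pF : PR (XP σ' (1 / 2) r') fun z => Ψ z / ac S ξ z :=
    ⟨hdiv pΨ.hol pa.hol fun z hz => (ha z hz).2.1, fun z hz => by rw [pΨ.per z hz, pa.per z hz],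
      fun z hz => by rw [pΨ.real z hz, pa.real z hz, map_div₀]⟩
  have pG : PR (XP σ' (1 / 2) r') fun z => 1 / ac S ξ z :=
    ⟨hdiv (differentiableOn_const _) pa.hol fun z hz => (ha z hz).2.1,
      fun z hz => by rw [pa.per z hz], fun z hz => by rw [pa.real z hz, map_div₀, map_one]⟩
  have dv : ∀ z ∈ XP σ' (1 / 2) r', ∀ (w : ℂ) (B : ℝ), ‖w‖ ≤ B * ‖z.2‖ ^ 4 →
      ‖w / ac S ξ z‖ ≤ 2 * B * ‖z.2‖ ^ 3 := fun z hz w B h => by
    have n := norm_pos_iff.2 hz.2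
    rw [norm_div]
    refine (div_le_div₀ ((norm_nonneg _).trans h) h (half_pos n) (ha z hz).1).trans (le_of_eq ?_)
    field_simp
  have lo : ∀ α : ℂ, α ≠ 0 → ‖α‖ < r' → 2 / 3 ≤ ‖α‖ * ‖f2 (fun z => 1 / ac S ξ z) 0 α‖ :=
    fun α h0 h => by
    have a := fc_le (fun t : ℝ => (ha _ (mem hr h0 h t)).2.2) 0
    have b := fc_mul (4 / 3) (fun _ => 1) 0
    simp only [mul_one, fc_one, if_true] at b
    dsimp only at a
    rw [fc_sub ((cont hr h0 h pG).const_mul α) continuous_const, fc_mul, b] at a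
    have c := norm_sub_norm_le (4 / 3 : ℂ) (α * f2 (fun z => 1 / ac S ξ z) 0 α)
    rw [norm_sub_rev, norm_mul, show ‖(4 / 3 : ℂ)‖ = 4 / 3 by simp] at c
    linarith [c.trans a]
  have ne : ∀ α : ℂ, α ≠ 0 → ‖α‖ < r' → f2 (fun z => 1 / ac S ξ z) 0 α ≠ 0 := fun α h0 h e => by
    have := lo α h0 h
    rw [e, norm_zero] at this
    linarith
  obtain ⟨μ, hμ⟩ : ∃ μ : ℂ → ℂ, μ = fun α => -f2 (fun z => Ψ z / ac S ξ z) 0 α /
    f2 (fun z => 1 / ac S ξ z) 0 α := ⟨_, rfl⟩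
  have bd : ∀ α : ℂ, α ≠ 0 → ‖α‖ < r' → ‖μ α‖ ≤ 3 * P * ‖α‖ ^ 4 := fun α h0 h => by
    have a : ‖f2 (fun z => Ψ z / ac S ξ z) 0 α‖ ≤ 2 * P * ‖α‖ ^ 3 :=
      fc_le (fun t : ℝ => dv _ (mem hr h0 h t) _ _ (hΨ _ (mem hr h0 h t).1)) 0
    rw [hμ, norm_div, norm_neg, div_le_iff₀ (norm_pos_iff.2 (ne α h0 h))]
    nlinarith [mul_le_mul_of_nonneg_left (lo α h0 h) ((norm_nonneg _).trans a)]
  refine ⟨μ, fun α h0 h => ⟨bd α h0 h, ?_⟩, ⟨?_, fun z hz => ?_, fun z hz => ?_⟩, fun z hz => ?_⟩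
  · have e : (fun t : ℝ => Ph S ξ μ Ψ (t, α)) =
        fun t : ℝ => μ α * (1 / ac S ξ (t, α)) + Ψ (t, α) / ac S ξ (t, α) :=
      funext fun t => by rw [Ph]; ring
    rw [f2, e, fc_add ((cont hr h0 h pG).const_mul _) (cont hr h0 h pF), fc_mul, hμ]
    exact (congrArg (· + _) (div_mul_cancel₀ _ (ne α h0 h))).trans (neg_add_cancel _)
  · refine hdiv (DifferentiableOn.fun_add ?_ pΨ.hol) pa.hol
      fun z hz => (ha z hz).2.1
    rw [hμ]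
    exact hdiv (f2_hol hpar hr pF).fun_neg (f2_hol hpar hr pG) fun z hz => ne _ hz.2 hz.1.2
  · rw [Ph, Ph, pΨ.per z hz, pa.per z hz]
  · rw [Ph, Ph, pΨ.real z hz, pa.real z hz, map_div₀, map_add, hμ, cj]
    simp only [f2_conj hr hz.2 hz.1.2 pF, f2_conj hr hz.2 hz.1.2 pG, map_div₀, map_neg]
  · refine (dv z hz _ (4 * P) ((norm_add_le _ _).trans ?_)).trans (le_of_eq (by ring))
    linarith [bd _ hz.2 hz.1.2, hΨ z hz.1]

end Vale.Agent.P097
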