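import Vale.Agent.P097.KStm

open Set NormedSpace Complex Metric

namespace Vale.Agent.P097

namespace KNsAux

theorem key {G X a c : ℝ} (hG : 1 ≤ G) (hX : 0 ≤ X) (ha : a ≤ 10) (h0 : 0 ≤ c) (hc : c ≤ G)
    (n : ℕ) : a * c * X ^ (n + 1) ≤ (10 * G * X) ^ (n + 1) := by
  rw [mul_pow]
  refine mul_le_mul_of_nonneg_right ?_ (by positivity)
  have h1 : a * c ≤ 10 * G := by nlinarith
  exact h1.trans (le_self_pow₀ (by linarith) (by omega))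

theorem res {K : ℕ} {n k : ℤ} (hn : n ≠ 0) (hK : |n| ≤ K) (hk : k ≠ 0) :
    1 ≤ (K:ℝ) * |(k:ℝ) / n| := by
  have h1 : (1:ℝ) ≤ |(k:ℝ)| := by exact_mod_cast Int.one_le_abs hk
  have h2 : (0:ℝ) < |(n:ℝ)| := by exact_mod_cast abs_pos.2 hn
  have h3 : |(n:ℝ)| ≤ K := by exact_mod_cast hK
  rw [abs_div, ← mul_div_assoc, le_div_iff₀ h2]
  nlinarith

theorem f2_neg (f : ℂ × ℂ → ℂ) (n : ℤ) (α : ℂ) : f2 (fun z => -f z) n α = -f2 f n α := by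
  simpa [f2] using fc_mul (-1) (fun t => f (t, α)) n

theorem prMK {S ξ : ℂ × ℂ → ℂ} {σ₁ σ r : ℝ} (h1 : K1 S σ₁ σ r ξ) (h2 : K2 S σ r ξ) :
    PR (XX σ 1 r) fun z => -MK S ξ z := by
  have a := h1.pr1.mono (XX_mono le_rfl zero_le_one le_rfl)
  have b := h2.prE
  refine ⟨(a.hol.mul b.hol).neg, fun z hz => ?_, fun z hz => ?_⟩
  · simp only [MK, a.per z hz, b.per z hz]
  · simp only [MK, a.real z hz, b.real z hz, map_neg, map_mul]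

theorem pw {z : ℂ} {A r : ℝ} (hA : 0 ≤ A) (hz : ‖z‖ < r) (hr : r ≤ 1) (m : ℕ) :
    A * ‖z‖ ^ m ≤ A :=
  mul_le_of_le_one_right hA (pow_le_one₀ (norm_nonneg _) (hz.le.trans hr))

/-- Common numerical facts. -/
structure Nm (G X Y K η r ε E e : ℝ) : Prop where
  G1 : 1 ≤ G
  K2 : 2 ≤ K
  e0 : 0 < η
  i0 : 0 ≤ η⁻¹
  Xe : X = K * η⁻¹
  KX : K ≤ X
  iX : η⁻¹ ≤ X
  XY : X ≤ Y
  ky : ∀ (a c : ℝ) (n : ℕ), a ≤ 10 → 0 ≤ c → c ≤ G → a * c * X ^ (n + 1) ≤ Y ^ (n + 1)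
  yp : ∀ m n : ℕ, m ≤ n → Y ^ m ≤ Y ^ n
  hu : ∀ m : ℕ, m ≤ 52 → Y ^ m * (r * ε) ≤ 1
  r0 : 0 < r
  r1 : r ≤ 1
  ε0 : 0 ≤ ε
  E0 : 0 ≤ E
  a0 : 0 ≤ e
  a1 : r * ε ^ 2 ≤ e
  a2 : ε * E ≤ e
  a3 : e ≤ 2 * ε

theorem nm {G K η r ε E : ℝ} (hG1 : 1 ≤ G) (hK : 2 ≤ K) (e0 : 0 < η) (e1 : η ≤ 1) (r0 : 0 < r)
    (r1 : r ≤ 1) (hε : 0 ≤ ε) (E0 : 0 ≤ E) (E1 : E ≤ 1)
    (hu : (10 * G * (K / η)) ^ 52 * r * ε ≤ 1) :
    Nm G (K / η) (10 * G * (K / η)) K η r ε E (r * ε ^ 2 + ε * E) := by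
  have hi : 1 ≤ η⁻¹ := (one_le_inv₀ e0).2 e1
  have hXe : K / η = K * η⁻¹ := div_eq_mul_inv _ _
  have hKX : K ≤ K / η := by rw [hXe]; nlinarith
  have hiX : η⁻¹ ≤ K / η := by rw [hXe]; nlinarith
  have hXY : K / η ≤ 10 * G * (K / η) := le_mul_of_one_le_left (by linarith) (by linarith)
  have yp : ∀ m n : ℕ, m ≤ n → (10 * G * (K / η)) ^ m ≤ (10 * G * (K / η)) ^ n :=
    fun m n h => pow_le_pow_right₀ (by linarith) h
  have hu' : ∀ m : ℕ, m ≤ 52 → (10 * G * (K / η)) ^ m * (r * ε) ≤ 1 := fun m h =>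
    (mul_le_mul_of_nonneg_right (yp m 52 h) (by positivity)).trans (by rwa [← mul_assoc])
  have b := hu' 0 (by omega)
  rw [pow_zero, one_mul] at b
  clear hu
  exact ⟨hG1, hK, e0, by linarith, hXe, hKX, hiX, hXY,
    fun a c n ha h0 hc => key hG1 (by linarith) ha h0 hc n, yp, hu', r0, r1, hε, E0, by positivity,
    le_add_of_nonneg_right (by positivity), le_add_of_nonneg_left (by positivity), by
      have b1 := mul_le_mul_of_nonneg_right b hε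
      have b2 := mul_le_mul_of_nonneg_left E1 hε
      linarith [show r * ε ^ 2 = r * ε * ε by ring]⟩

variable {G X Y K η r ε E e Cs C1 Cj C2 C3 : ℝ}

theorem Nm.nA (h : Nm G X Y K η r ε E e) (h1 : 0 ≤ C1) (g1 : C1 ≤ G) (hj : 0 ≤ Cj) (gj : Cj ≤ G)
    (h2 : 0 ≤ C2) (g2 : C2 ≤ G) (hKr : 1 ≤ K * r) :
    C1 * K ^ 6 * ε ≤ η ∧ C1 * K ^ 6 * ε ^ 2 / η ≤ Y ^ 8 * r * ε ^ 2 ∧
      C2 * K ^ 3 * (Y ^ 8 * ε * (Cj * K ^ 4 * ε / η ^ 3) + Y ^ 16 * e) ≤ Y ^ 19 * e := by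
  obtain ⟨-, hK, e0, i0, -, KX, iX, XY, ky, -, hu, r0, -, hε, -, a0, a1, -, -⟩ := h
  have hK0 : 0 ≤ K := by linarith
  have hX0 : 0 ≤ X := by linarith
  have hY0 : 0 ≤ Y := by linarith
  simp only [div_eq_mul_inv, ← inv_pow]
  have b1 : C1 * K ^ 6 * η⁻¹ ≤ Y ^ 8 * r := by
    calc C1 * K ^ 6 * η⁻¹ ≤ C1 * K ^ 6 * η⁻¹ * (K * r) := le_mul_of_one_le_right (by positivity) hKr
      _ ≤ C1 * X ^ 6 * X * (X * r) := by gcongr
      _ = 1 * C1 * X ^ (7 + 1) * r := by ring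
      _ ≤ Y ^ 8 * r := mul_le_mul_of_nonneg_right (ky 1 C1 7 (by norm_num) h1 g1) r0.le
  refine ⟨?_, ?_, ?_⟩
  · have b2 : C1 * K ^ 6 * η⁻¹ * ε ≤ 1 :=
      (mul_le_mul_of_nonneg_right b1 hε).trans (by rw [mul_assoc]; exact hu 8 (by omega))
    have b3 := mul_le_mul_of_nonneg_right b2 e0.le
    have b4 : C1 * K ^ 6 * η⁻¹ * ε * η = C1 * K ^ 6 * ε := by field_simp
    linarith
  · rw [mul_right_comm]
    exact mul_le_mul_of_nonneg_right b1 (sq_nonneg ε)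
  · have b2 : Y ^ 8 * ε * (Cj * K ^ 4 * ε * η⁻¹ ^ 3) ≤ Y ^ 16 * e := by
      calc Y ^ 8 * ε * (Cj * K ^ 4 * ε * η⁻¹ ^ 3)
          ≤ Y ^ 8 * ε * (Cj * K ^ 4 * ε * η⁻¹ ^ 3) * (K * r) :=
            le_mul_of_one_le_right (by positivity) hKr
        _ ≤ Y ^ 8 * ε * (Cj * X ^ 4 * ε * X ^ 3) * (X * r) := by gcongr
        _ = Y ^ 8 * (1 * Cj * X ^ (7 + 1)) * (r * ε ^ 2) := by ring
        _ ≤ Y ^ 8 * Y ^ (7 + 1) * e := by gcongr; exact ky 1 Cj 7 (by norm_num) hj gj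
        _ = Y ^ 16 * e := by ring
    calc _ ≤ C2 * X ^ 3 * (Y ^ 16 * e + Y ^ 16 * e) := by gcongr
      _ = 2 * C2 * X ^ (2 + 1) * (Y ^ 16 * e) := by ring
      _ ≤ Y ^ (2 + 1) * (Y ^ 16 * e) := by gcongr; exact ky 2 C2 2 (by norm_num) h2 g2
      _ = _ := by ring

theorem Nm.nB (h : Nm G X Y K η r ε E e) (hs : 0 ≤ Cs) (gs : Cs ≤ G) :
    Cs * X ^ 8 * (2 * ε + Y ^ 8 * r * ε ^ 2) ≤ Y ^ 8 * ε ∧
    Cs * X ^ 8 * (Y ^ 8 * r * ε ^ 2 + 2 * ε * E) ≤ Y ^ 16 * e ∧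
    Cs * X ^ 6 * (8 * (Y ^ 8 * ε) + Y ^ 19 * e) ≤ Y ^ 25 * ε ∧
    Cs * X ^ 6 * (Y ^ 19 * e + 8 * (Y ^ 8 * ε) * E) ≤ Y ^ 25 * e := by
  obtain ⟨-, hK, -, -, -, KX, -, XY, ky, yp, hu, r0, -, hε, E0, a0, a1, a2, a3⟩ := h
  have hX0 : 0 ≤ X := by linarith
  have hY1 : 1 ≤ Y := by linarith
  have hY0 : 0 ≤ Y := by linarith
  refine ⟨?_, ?_, ?_, ?_⟩
  · have b1 : Y ^ 8 * r * ε ^ 2 ≤ ε := by
      have := mul_le_mul_of_nonneg_right (hu 8 (by omega)) hε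
      linarith [show Y ^ 8 * r * ε ^ 2 = Y ^ 8 * (r * ε) * ε by ring]
    calc _ ≤ Cs * X ^ 8 * (2 * ε + ε) := by gcongr
      _ = 3 * Cs * X ^ (7 + 1) * ε := by ring
      _ ≤ _ := mul_le_mul_of_nonneg_right (ky 3 Cs 7 (by norm_num) hs gs) hε
  · have b1 : ε * E ≤ Y ^ 8 * e := a2.trans (le_mul_of_one_le_left a0 (one_le_pow₀ hY1))
    have b2 : Y ^ 8 * (r * ε ^ 2) ≤ Y ^ 8 * e := by gcongr
    calc _ ≤ Cs * X ^ 8 * (3 * (Y ^ 8 * e)) := by gcongr; linarith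
      _ = 3 * Cs * X ^ (7 + 1) * (Y ^ 8 * e) := by ring
      _ ≤ Y ^ (7 + 1) * (Y ^ 8 * e) := by gcongr; exact ky 3 Cs 7 (by norm_num) hs gs
      _ = _ := by ring
  · have b1 : Y ^ 8 * ε ≤ Y ^ 19 * ε := mul_le_mul_of_nonneg_right (yp 8 19 (by omega)) hε
    have b2 : Y ^ 19 * e ≤ Y ^ 19 * (2 * ε) := by gcongr
    calc _ ≤ Cs * X ^ 6 * (10 * (Y ^ 19 * ε)) := by gcongr; linarith
      _ = 10 * Cs * X ^ (5 + 1) * (Y ^ 19 * ε) := by ring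
      _ ≤ Y ^ (5 + 1) * (Y ^ 19 * ε) := by gcongr; exact ky 10 Cs 5 (by norm_num) hs gs
      _ = _ := by ring
  · have b1 : Y ^ 8 * (ε * E) ≤ Y ^ 19 * e :=
      mul_le_mul (yp 8 19 (by omega)) a2 (by positivity) (by positivity)
    calc _ ≤ Cs * X ^ 6 * (9 * (Y ^ 19 * e)) := by gcongr; linarith
      _ = 9 * Cs * X ^ (5 + 1) * (Y ^ 19 * e) := by ring
      _ ≤ Y ^ (5 + 1) * (Y ^ 19 * e) := by gcongr; exact ky 9 Cs 5 (by norm_num) hs gs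
      _ = _ := by ring

theorem Nm.nC (h : Nm G X Y K η r ε E e) (h3 : 0 ≤ C3) (g3 : C3 ≤ G) :
    C3 * (Y ^ 25 * ε) * r ≤ η ∧
    C3 * (Y ^ 16 * e + Y ^ 25 * e / η + Y ^ 25 * ε * r ^ 2 * ε / η
      + (Y ^ 25 * ε) ^ 2 * r / η ^ 2) ≤ Y ^ 52 * e ∧
    10 * (Y ^ 25 * ε) * r * K / η ≤ Y ^ 52 * r * ε ∧ 2 * (Y ^ 25 * ε) * r ≤ Y ^ 52 * r * ε := by
  obtain ⟨G1, hK, e0, i0, Xe, KX, iX, XY, ky, yp, hu, r0, r1, hε, -, a0, a1, -, -⟩ := h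
  have hX0 : 0 ≤ X := by linarith
  have hY0 : 0 ≤ Y := by linarith
  have y2 : Y ^ 25 * (r * ε) ≤ Y ^ 51 * (r * ε) :=
    mul_le_mul_of_nonneg_right (yp 25 51 (by omega)) (by positivity)
  simp only [div_eq_mul_inv, ← inv_pow]
  refine ⟨?_, ?_, ?_, ?_⟩
  · have b2 : C3 * (Y ^ 25 * ε) * r * η⁻¹ ≤ 1 := by
      calc _ ≤ C3 * (Y ^ 25 * ε) * r * X := by gcongr
        _ = 1 * C3 * X ^ (0 + 1) * (Y ^ 25 * (r * ε)) := by ring
        _ ≤ Y ^ (0 + 1) * (Y ^ 25 * (r * ε)) := by gcongr; exact ky 1 C3 0 (by norm_num) h3 g3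
        _ = Y ^ 26 * (r * ε) := by ring
        _ ≤ 1 := hu 26 (by omega)
    have b3 := mul_le_mul_of_nonneg_right b2 e0.le
    have b4 : C3 * (Y ^ 25 * ε) * r * η⁻¹ * η = C3 * (Y ^ 25 * ε) * r := by field_simp
    linarith
  · have x2 : X ≤ X ^ 2 := le_self_pow₀ (by linarith) two_ne_zero
    have z1 : 0 ≤ Y ^ 50 := pow_nonneg hY0 _
    have z0 : 0 ≤ Y ^ 50 * e := mul_nonneg z1 a0
    have b1 : Y ^ 16 * e ≤ X ^ 2 * (Y ^ 50 * e) :=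
      (mul_le_mul_of_nonneg_right (yp 16 50 (by omega)) a0).trans
        (le_mul_of_one_le_left z0 (by linarith))
    have b2 : Y ^ 25 * e * η⁻¹ ≤ Y ^ 50 * e * X ^ 2 :=
      mul_le_mul (mul_le_mul_of_nonneg_right (yp 25 50 (by omega)) a0) (iX.trans x2) i0 z0
    have b3 : Y ^ 25 * (r * (r * ε ^ 2)) * η⁻¹ ≤ Y ^ 50 * e * X ^ 2 :=
      mul_le_mul (mul_le_mul (yp 25 50 (by omega))
        ((mul_le_of_le_one_left (by positivity) r1).trans a1) (by positivity) z1)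
        (iX.trans x2) i0 z0
    have b4 : Y ^ 50 * (r * ε ^ 2) * η⁻¹ ^ 2 ≤ Y ^ 50 * e * X ^ 2 :=
      mul_le_mul (mul_le_mul_of_nonneg_left a1 z1) (pow_le_pow_left₀ i0 iX 2) (sq_nonneg _) z0
    calc _ ≤ C3 * (4 * (X ^ 2 * (Y ^ 50 * e))) := mul_le_mul_of_nonneg_left (by linarith) h3
      _ = 4 * C3 * X ^ (1 + 1) * (Y ^ 50 * e) := by ring
      _ ≤ Y ^ (1 + 1) * (Y ^ 50 * e) := mul_le_mul_of_nonneg_right (ky 4 C3 1 (by norm_num) h3 g3) z0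
      _ = _ := by ring
  · calc _ = 10 * 1 * X ^ (0 + 1) * (Y ^ 25 * (r * ε)) := by rw [Xe]; ring
      _ ≤ Y ^ (0 + 1) * (Y ^ 51 * (r * ε)) :=
        mul_le_mul (ky 10 1 0 le_rfl zero_le_one G1) y2 (by positivity) (by positivity)
      _ = _ := by ring
  · calc _ = 2 * (Y ^ 25 * (r * ε)) := by ring
      _ ≤ Y * (Y ^ 51 * (r * ε)) := mul_le_mul (by linarith) y2 (by positivity) hY0
      _ = _ := by ring

theorem geo {r θ : ℝ} (r0 : 0 < r) (t1 : 1 / 2 ≤ θ) (t2 : θ ≤ 1) :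
    r * θ ≤ r ∧ r * θ * θ ≤ r * θ ∧ r * θ * θ * θ ≤ r * θ * θ ∧ r / 8 ≤ r * θ * θ * θ ∧
      r * θ ^ 4 ≤ r * θ * θ * θ := by
  have p1 : r / 2 ≤ r * θ := by nlinarith
  have p2 : r / 4 ≤ r * θ * θ := by nlinarith
  have p3 : r / 8 ≤ r * θ * θ * θ := by nlinarith
  refine ⟨by nlinarith, by nlinarith, by nlinarith, p3, ?_⟩
  rw [show r * θ ^ 4 = r * θ * θ * θ * θ by ring]
  exact mul_le_of_le_one_right (by linarith) t2

end KNsAux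

open KNsAux in
theorem nsE (hsolve : S_solve) (hmel1 : S_mel1) (hjb : S_jb) (hmel2 : S_mel2) (hmu : S_mu)
    (hns3a : S_ns3a) (hns3b : S_ns3b) : S_ns := by
  intro c₀ C'
  obtain ⟨Cs, hs, solve⟩ := hsolve
  obtain ⟨C1, h1, mel1⟩ := hmel1 c₀ C'
  obtain ⟨Cj, hj, jb⟩ := hjb
  obtain ⟨C2, h2, mel2⟩ := hmel2
  obtain ⟨C3, h3, ns3a⟩ := hns3a c₀ C'
  obtain ⟨G, g0, g1, gj, g2, g3⟩ : ∃ G : ℝ, Cs ≤ G ∧ C1 ≤ G ∧ Cj ≤ G ∧ C2 ≤ G ∧ C3 ≤ G :=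
    ⟨Cs + C1 + Cj + C2 + C3, by linarith, by linarith, by linarith, by linarith, by linarith⟩
  refine ⟨(10 * G) ^ 52, 52, one_le_pow₀ (by linarith), ?_⟩
  intro S ξ σ₁ d₁ C σ r ε t η K h hK e0 e1 hu
  rw [← mul_pow] at hu ⊢
  have s0 := h.gd.spos
  have s1 := h.gd.sle
  have o1 := h.ok.lo
  have o2 := h.ok.r1
  have r0 := h.ok.rpos
  have hε := h.e0
  have hK' : (2:ℝ) ≤ K := by exact_mod_cast hK
  have e1' : η ≤ 1 := by linarith only [e1, s1]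
  have r1' : r ≤ 1 := by linarith only [o2, s1]
  have N := nm (hs.trans g0) hK' e0 e1' r0 r1'
    hε (Real.exp_pos (-(η * K))).le (Real.exp_le_one_iff.2 (neg_nonpos.2 (by positivity))) hu
  have Y0 : 0 ≤ 10 * G * (K / η) := by have := hs.trans g0; positivity
  clear hu
  generalize 10 * G * (K / η) = Y at N Y0 ⊢
  have n1 := N.nA h1 g1 hj gj h2 g2
  obtain ⟨n2, n3, n4, n5⟩ := N.nB (zero_le_one.trans hs) g0
  obtain ⟨n6, n7, n8, n9⟩ := N.nC h3 g3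
  clear N
  obtain ⟨θ, hθ⟩ : ∃ θ : ℝ, θ = 1 - 1 / K := ⟨_, rfl⟩
  obtain ⟨m1, m2, m3, p3', m5⟩ := geo (θ := θ) r0
    (by rw [hθ]; linarith only [one_div_le_one_div_of_le two_pos hK'])
    (by rw [hθ]; exact sub_le_self _ (by positivity))
  have kr : ∀ {n k : ℤ}, n ≠ 0 → |n| ≤ K → k ≠ 0 → |(k:ℝ) / n| < r → 1 ≤ (K:ℝ) * r :=
    fun a b c d => (res a b c).trans (by gcongr)
  obtain ⟨Ψ, hΨ, pΨ⟩ := solve 5 K (σ - η) 1 r η (2 * ε) (Y ^ 8 * r * ε ^ 2) (fun z => -MK S ξ z)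
    ⟨by norm_num, hK, e0, by linarith, r0, by linarith, by linarith, by norm_num, le_rfl,
      by positivity, by positivity,
      (prMK h.k1 h.k2).mono fun z hz => XX_mono (by linarith) le_rfl le_rfl hz.1, fun z hz => by
        have hz' : z ∈ XX σ 1 r := XX_mono (by linarith) le_rfl le_rfl hz.1
        have a := h.ks.d1 z (XX_mono le_rfl zero_le_one le_rfl hz')
        have b : ‖p1 ξ z‖ ≤ 2 := by
          have := norm_le_norm_add_norm_sub' (p1 ξ z) 1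
          rw [norm_one] at this
          linarith [h.ok.t1]
        rw [norm_neg, MK, norm_mul, mul_assoc]
        exact mul_le_mul b (h.ks.err z hz') (norm_nonneg _) zero_le_two,
      fun α _ hα => by rw [f2_neg, h.k3 α hα, neg_zero], fun n k a b c d => by
        obtain ⟨x1, x2, -⟩ := n1 (kr a b c d)
        rw [f2_neg, norm_neg]
        exact (mel1 S ξ σ₁ d₁ C σ r ε t η K n k h e0 (by linarith) a b c d x1).trans
          (mul_le_mul_of_nonneg_right x2 (gw_pos _ _ _).le)⟩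
  have c1 : (1:ℝ) - 1 / 2 = 1 / 2 := by norm_num
  rw [c1, ← hθ] at pΨ
  have bΨ : ∀ z ∈ XX (σ - η - η) (1 / 2) (r * θ), ‖Ψ z‖ ≤ Y ^ 8 * ε * ‖z.2‖ ^ 4 := fun z hz =>
    (hΨ.bd z (by rwa [c1, ← hθ])).trans (mul_le_mul_of_nonneg_right n2 (by positivity))
  have dΨ : ∀ z ∈ XP (σ - η - η) 1 (r * θ), ‖Ψ (zp z) - Ψ (zm z) + MK S ξ z‖
      ≤ Y ^ 16 * (r * ε ^ 2 + ε * Real.exp (-(η * K))) * ‖z.2‖ ^ 5 := fun z hz => by
    have := hΨ.df z (by rwa [← hθ])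
    rw [sub_neg_eq_add] at this
    exact this.trans (mul_le_mul_of_nonneg_right n3 (by positivity))
  obtain ⟨μ, hμ, pΦ, bΦ⟩ := hmu S ξ Ψ σ₁ σ r (σ - η - η) (r * θ) (Y ^ 8 * ε) h.k1 (by linarith) m1
    (by linarith) pΨ bΨ
  obtain ⟨w, hw, pw'⟩ := solve 3 K (σ - η - η) (1 / 2) (r * θ * θ) η (8 * (Y ^ 8 * ε))
    (Y ^ 19 * (r * ε ^ 2 + ε * Real.exp (-(η * K)))) (Ph S ξ μ Ψ)
    ⟨by norm_num, hK, e0, by linarith, by linarith, by linarith, by linarith, le_rfl, by norm_num,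
      by positivity, by positivity, pΦ.mono (XP_mono le_rfl le_rfl m2),
      fun z hz => by simpa only [mul_assoc] using bΦ z (XP_mono le_rfl le_rfl m2 hz),
      fun α a b => (hμ α a (by linarith)).2, fun n k a b c d => by
        obtain ⟨-, -, x3⟩ := n1 (kr a b c (by linarith))
        have hc : (((k:ℝ) / n : ℝ) : ℂ) = k / n := by push_cast; rfl
        have hn : ‖(k:ℂ) / n‖ < r * θ := by
          rw [← hc, Complex.norm_real, Real.norm_eq_abs]; linarith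
        have hne : (k:ℂ) / n ≠ 0 := div_ne_zero (Int.cast_ne_zero.2 c) (Int.cast_ne_zero.2 a)
        refine (mel2 S ξ Ψ μ σ₁ d₁ C c₀ C' σ r ε t (σ - η - η) (r * θ) _ (Y ^ 8 * ε)
          (Cj * K ^ 4 * ε / η ^ 3) K n k h (by linarith) m1 (by linarith) hK a b c (by rwa [← hθ])
          pΨ (fun z hz => (dΨ z hz).trans (pw (by positivity) hz.1.2 (by linarith) 5))
          (fun z hz => (bΨ z hz).trans (pw (by positivity) hz.2 (by linarith) 4))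
          ((hμ _ hne hn).1.trans ((pw (by positivity) hn (by linarith) 4).trans (by linarith)))
          fun φ hφ => ?_).trans (mul_le_mul_of_nonneg_right x3 (gw_pos _ _ _).le)
        rw [← hc]
        exact jb S ξ σ₁ d₁ C c₀ C' σ r ε t η K _ h e0 (by linarith) hK (res a b c)
          (by rw [← hθ]; linarith) φ (lt_of_lt_of_le hφ (sub_le_self _ e0.le))⟩
  have c2 : (1:ℝ) / 2 - 1 / 2 = 0 := by norm_num
  rw [c2, ← hθ] at pw'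
  have bw : ∀ z ∈ XX (σ - η - η - η) 0 (r * θ * θ * θ), ‖w z‖ ≤ Y ^ 25 * ε * ‖z.2‖ ^ 2 :=
    fun z hz => (hw.bd z (by rwa [c2, ← hθ])).trans (mul_le_mul_of_nonneg_right n4 (by positivity))
  have er := ns3a S ξ Ψ w μ σ₁ d₁ C σ r ε t (σ - η - η - η) (r * θ * θ * θ) η _
    (Y ^ 25 * (r * ε ^ 2 + ε * Real.exp (-(η * K)))) (Y ^ 25 * ε) h (by linarith) (by linarith) e0
    (by linarith) (by positivity) (by positivity) (by positivity) n6 pw'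
    (pΦ.mono (XP_mono (by linarith) le_rfl (by linarith))) bw
    (fun z hz => dΨ z (XP_mono (by linarith) le_rfl (by linarith) hz))
    fun z hz => (hw.df z (by rwa [← hθ])).trans (mul_le_mul_of_nonneg_right n5 (by positivity))
  obtain ⟨q1, q2⟩ := hns3b S ξ w σ₁ σ r ε t (σ - η - η - η) (r * θ * θ * θ) η (Y ^ 25 * ε) _ K
    h.ks h.k1 h.ok.t1 (by linarith) (by linarith) p3' r0 (by linarith) e0 (by linarith)
    (by positivity) hK pw' bw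
    fun z hz => (er z hz).trans (mul_le_mul_of_nonneg_right n7 (by positivity))
  rw [← hθ] at q1 ⊢
  have m4 : r * θ ^ 4 = r * θ * θ * θ * θ := by ring
  refine ⟨nx ξ w, q1.mono (by linarith) m4.le le_rfl (by linarith), fun z hz => ?_⟩
  exact (q2 z (XX_mono (by linarith) le_rfl m5 hz)).trans n9

end Vale.Agent.P097
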