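import Vale.Agent.P097.KStm

open Set NormedSpace Complex Metric

namespace Vale.Agent.P097

theorem ns3bE : S_ns3b := by
  intro S ξ w σ₁ σ r ε t σ' r' η W ε' K ks k1 ht hσ hr hr8 r0 r1 hη hη1 hW hK hw hb he
  have r0' : 0 < r' := by linarith
  have hK' : (2 : ℝ) ≤ K := by exact_mod_cast hK
  have K0 : (0 : ℝ) < K := by linarith
  have s0 : XX σ' 0 r' ⊆ XX σ 0 r := XX_mono hσ le_rfl hr
  have q1 : r' * (1 - 1 / K) = r' - r' / K := by ring
  have q2 : r' * (1 - 1 / K) ≤ r' := by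
    rw [q1]
    exact sub_le_self _ (by positivity)
  have s1 : XX (σ' - η) 0 (r' * (1 - 1 / K)) ⊆ XX σ' 0 r' := XX_mono (by linarith) le_rfl q2
  have hv : DifferentiableOn ℂ (fun z => p1 ξ z * w z) (XX σ' 0 r') :=
    (k1.pr1.hol.mono s0).mul hw.hol
  have hA : ∀ z ∈ XX σ' 0 r', ‖p1 ξ z * w z‖ ≤ 2 * W * r' ^ 2 := fun z hz => by
    have a1 : ‖p1 ξ z‖ ≤ 2 := by
      have := norm_le_norm_sub_add (p1 ξ z) 1
      rw [norm_one] at this
      linarith [ks.d1 z (s0 hz)]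
    have a2 : ‖w z‖ ≤ W * r' ^ 2 := (hb z hz).trans
      (mul_le_mul_of_nonneg_left (pow_le_pow_left₀ (norm_nonneg _) hz.2.le 2) hW)
    rw [norm_mul, mul_assoc]
    exact mul_le_mul a1 a2 (norm_nonneg _) zero_le_two
  have dx : ∀ z ∈ XX σ' 0 r', DifferentiableAt ℂ ξ z := fun z hz =>
    ks.hol.differentiableAt ((oXX _ _ _).mem_nhds (s0 hz))
  have dv : ∀ z ∈ XX σ' 0 r', DifferentiableAt ℂ (fun z => p1 ξ z * w z) z := fun z hz =>
    hv.differentiableAt ((oXX _ _ _).mem_nhds hz)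
  have b0 : W * r' ^ 2 ≤ W * r := mul_le_mul_of_nonneg_left (by nlinarith) hW
  have b1 : 0 ≤ W * r := by positivity
  refine ⟨⟨((ks.hol.mono s0).add hv).mono s1, fun z hz => ?_, fun z hz => ?_, fun θ hθ => ?_,
    fun z hz => ?_, fun z hz => ?_, fun z hz => he z (XX_mono le_rfl le_rfl q2 hz)⟩,
    fun z hz => ?_⟩
  · rw [nx, nx, ks.per z (s0 (s1 hz)), k1.pr1.per z (s0 (s1 hz)), hw.per z (s1 hz)]
    ring
  · rw [nx, nx, ks.real z (s0 (s1 hz)), k1.pr1.real z (s0 (s1 hz)), hw.real z (s1 hz), map_add,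
      map_mul]
  · have hθ' : |θ.im| < σ' := lt_trans hθ (sub_lt_self _ hη)
    have := hb (θ, 0) ⟨by simpa using hθ', by simpa using r0'⟩
    have h0 : w (θ, 0) = 0 := by simpa using this
    rw [nx, ks.zero θ (lt_of_lt_of_le hθ' hσ), h0, mul_zero, add_zero]
  · have e : p1 (nx ξ w) z = p1 ξ z + p1 (fun z => p1 ξ z * w z) z :=
      p1_eq ((dx z (s1 hz)).add (dv z (s1 hz))) ((hd1 (dx z (s1 hz))).add (hd1 (dv z (s1 hz))))
    have a := cx1 hv hη (XX_mono le_rfl le_rfl q2 hz) fun _ h => hA _ h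
    have c : 2 * W * r' ^ 2 / η ≤ 10 * W * r * K / η :=
      div_le_div_of_nonneg_right (by nlinarith) hη.le
    rw [e, add_sub_right_comm]
    exact (norm_add_le _ _).trans (add_le_add (ks.d1 z (s0 (s1 hz))) (a.trans c))
  · have e : p2 (nx ξ w) z = p2 ξ z + p2 (fun z => p1 ξ z * w z) z :=
      p2_eq ((dx z (s1 hz)).add (dv z (s1 hz))) ((hd2 (dx z (s1 hz))).add (hd2 (dv z (s1 hz))))
    have a := cx2 (ρ := r' / K) hv (by positivity) le_rfl
      (XX_mono (by linarith) le_rfl q1.le hz) hA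
    have c : 2 * W * r' ^ 2 / (r' / K) ≤ 10 * W * r * K / η := by
      have c1 : 2 * W * r' ^ 2 / (r' / K) = 2 * (W * r' * K) := by field_simp
      have c2 : W * r' * K ≤ W * r * K := by gcongr
      have c3 : 0 ≤ W * r' * K := by positivity
      rw [c1, le_div_iff₀ hη]
      nlinarith
    rw [e]
    exact (norm_add_le _ _).trans (add_le_add (ks.d2 z (s0 (s1 hz))) (a.trans c))
  · rw [nx, add_sub_cancel_left]
    exact (hA z hz).trans (by linarith)

end Vale.Agent.P097
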