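import Vale.Agent.P097.KStm

open Set NormedSpace Complex Metric

namespace Vale.Agent.P097

namespace KNumAux

theorem decay {K η t : ℝ} (b : ℕ) (hK : 1 ≤ K) (hη : 0 < η) (ht : 1 ≤ t) :
    (K / η * t ^ 3) ^ b * Real.exp (-(η * K * t)) ≤
      ((3 * b + 1).factorial : ℝ) / (η ^ (4 * b + 1) * K) := by
  have hK0 : 0 < K := by linarith
  have ht0 : 0 < t := by linarith
  have hy : 0 < η * K * t := by positivity
  have hF : (0 : ℝ) < (3 * b + 1).factorial := by positivity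
  have h1 := Real.pow_div_factorial_le_exp (η * K * t) hy.le (3 * b + 1)
  have h2 : Real.exp (-(η * K * t)) ≤ ((3 * b + 1).factorial : ℝ) / (η * K * t) ^ (3 * b + 1) := by
    rw [Real.exp_neg, ← inv_div]
    exact inv_anti₀ (by positivity) h1
  refine (mul_le_mul_of_nonneg_left h2 (by positivity)).trans ?_
  rw [← mul_div_assoc, div_le_div_iff₀ (by positivity) (by positivity)]
  have e1 : (K / η * t ^ 3) ^ b * ((3 * b + 1).factorial : ℝ) * (η ^ (4 * b + 1) * K) =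
      ((3 * b + 1).factorial : ℝ) * η ^ (3 * b + 1) * (K ^ (b + 1) * t ^ (3 * b)) := by
    rw [mul_pow, div_pow, ← pow_mul, show 4 * b + 1 = (3 * b + 1) + b by ring, pow_add η,
      pow_succ K]
    field_simp
  have e2 : ((3 * b + 1).factorial : ℝ) * (η * K * t) ^ (3 * b + 1) =
      ((3 * b + 1).factorial : ℝ) * η ^ (3 * b + 1) * (K ^ (3 * b + 1) * t ^ (3 * b + 1)) := by
    rw [mul_pow, mul_pow]
    ring
  rw [e1, e2]
  refine mul_le_mul_of_nonneg_left ?_ (by positivity)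
  exact mul_le_mul (pow_le_pow_right₀ hK (by omega)) (pow_le_pow_right₀ ht (by omega))
    (by positivity) (by positivity)

theorem eX {K η : ℝ} (hη : 0 < η) (j : ℕ) :
    K * 4 ^ j / (η / 2 ^ j) = K / η * ((2 : ℝ) ^ j) ^ 3 := by
  have : (4 : ℝ) ^ j = (2 ^ j) ^ 2 := by
    rw [← pow_mul, mul_comm, pow_mul]
    norm_num
  rw [this]
  field_simp

theorem eY {K η : ℝ} (j : ℕ) : η / 2 ^ j * (K * 4 ^ j) = η * K * (2 : ℝ) ^ j := by
  have : (4 : ℝ) ^ j = (2 ^ j) ^ 2 := by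
    rw [← pow_mul, mul_comm, pow_mul]
    norm_num
  rw [this]
  field_simp

theorem eZ (P : ℝ) (b j : ℕ) :
    (P * ((2 : ℝ) ^ j) ^ 3) ^ b * ((1 / 8 : ℝ) ^ b / 2) ^ j = P ^ b * (1 / 2) ^ j := by
  have h1 : (((2 : ℝ) ^ j) ^ 3) ^ b = ((8 : ℝ) ^ b) ^ j := by
    rw [← pow_mul, ← pow_mul, ← pow_mul, show (8 : ℝ) = 2 ^ 3 by norm_num, ← pow_mul]
    congr 1
    ring
  have h2 : (8 : ℝ) ^ b * ((1 / 8 : ℝ) ^ b / 2) = 1 / 2 := by
    rw [← mul_div_assoc, ← mul_pow]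
    norm_num
  rw [mul_pow, h1, mul_assoc, ← mul_pow, h2]

end KNumAux

open KNumAux in
theorem numE : S_num := by
  intro C ε₀ η₀ ρ b hC hε hη _ hρ
  set lam : ℝ := (1 / 8 : ℝ) ^ b / 2 with hlam
  have hl0 : 0 < lam := by positivity
  have hl1 : lam < 1 := by
    have : (1 / 8 : ℝ) ^ b ≤ 1 := pow_le_one₀ (by norm_num) (by norm_num)
    rw [hlam]
    linarith
  set F : ℝ := ((3 * b + 1).factorial : ℝ) with hF
  have hF0 : 0 < F := by positivity
  obtain ⟨K₁, hK₁⟩ := exists_nat_ge (2 * C * F / (η₀ ^ (4 * b + 1) * lam))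
  have hK12 : (12 : ℝ) ≤ ((K₁ + 12 : ℕ) : ℝ) := by
    push_cast
    linarith [Nat.cast_nonneg (α := ℝ) K₁]
  have hKK : 2 * C * F / (η₀ ^ (4 * b + 1) * lam) ≤ ((K₁ + 12 : ℕ) : ℝ) := by
    push_cast
    linarith
  set K : ℝ := ((K₁ + 12 : ℕ) : ℝ) with hK
  have hK0 : 0 < K := by linarith
  have hC0 : 0 < C := by linarith
  have hD : 0 < C * (K / η₀) ^ b * ε₀ := by positivity
  have hm : 0 < min (1 / 20 : ℝ) (lam / 2) := lt_min (by norm_num) (by positivity)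
  set r : ℝ := min ρ (min (1 / 20 : ℝ) (lam / 2) / (C * (K / η₀) ^ b * ε₀)) with hr
  have hr0 : 0 < r := lt_min hρ (by positivity)
  have hr1 : r * (C * (K / η₀) ^ b * ε₀) ≤ min (1 / 20 : ℝ) (lam / 2) :=
    (le_div_iff₀ hD).1 (min_le_right _ _)
  have hdec : C * (F / (η₀ ^ (4 * b + 1) * K)) ≤ lam / 2 := by
    rw [div_le_iff₀ (by positivity)] at hKK
    rw [← mul_div_assoc, div_le_iff₀ (by positivity)]
    nlinarith
  refine ⟨K₁ + 12, r, lam, by omega, hr0, min_le_left _ _, hl0, hl1, fun j => ?_⟩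
  have hcast : (((K₁ + 12) * 4 ^ j : ℕ) : ℝ) = K * 4 ^ j := by
    rw [hK]
    push_cast
    ring
  rw [hcast, eX hη, eY]
  have hZ := eZ (K / η₀) b j
  rw [← hlam] at hZ
  have hh : (0 : ℝ) < (1 / 2) ^ j := by positivity
  have hh1 : ((1 : ℝ) / 2) ^ j ≤ 1 := pow_le_one₀ (by norm_num) (by norm_num)
  set Xb : ℝ := (K / η₀ * ((2 : ℝ) ^ j) ^ 3) ^ b with hXb
  have a1 : C * Xb * r * (ε₀ * lam ^ j) = r * (C * (K / η₀) ^ b * ε₀) * (1 / 2) ^ j := by
    calc C * Xb * r * (ε₀ * lam ^ j) = r * C * ε₀ * (Xb * lam ^ j) := by ring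
      _ = _ := by rw [hZ]; ring
  have a2 : r * (C * (K / η₀) ^ b * ε₀) ≤ 1 / 20 := hr1.trans (min_le_left _ _)
  have a3 : r * (C * (K / η₀) ^ b * ε₀) ≤ lam / 2 := hr1.trans (min_le_right _ _)
  constructor
  · rw [a1]
    nlinarith
  · have a4 : C * Xb * r * (ε₀ * lam ^ j) ≤ lam / 2 := by
      rw [a1]
      have : 0 ≤ r * (C * (K / η₀) ^ b * ε₀) := by positivity
      nlinarith
    have a5 : C * (Xb * Real.exp (-(η₀ * K * 2 ^ j))) ≤ lam / 2 :=
      (mul_le_mul_of_nonneg_left (decay b (by linarith) hη (one_le_pow₀ (by norm_num)))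
        hC0.le).trans hdec
    have a6 : 0 < ε₀ * lam ^ j := by positivity
    calc C * Xb * (r * (ε₀ * lam ^ j) ^ 2 + ε₀ * lam ^ j * Real.exp (-(η₀ * K * 2 ^ j)))
        = ε₀ * lam ^ j * (C * Xb * r * (ε₀ * lam ^ j) +
            C * (Xb * Real.exp (-(η₀ * K * 2 ^ j)))) := by ring
      _ ≤ ε₀ * lam ^ j * lam := mul_le_mul_of_nonneg_left (by linarith) a6.le
      _ = ε₀ * lam ^ (j + 1) := by ring

end Vale.Agent.P097
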