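import Vale.Agent.P097.KStm

open Set NormedSpace Complex Metric

namespace Vale.Agent.P097

namespace KOrdAux

theorem lim {x A δ e : ℝ} {k : ℕ} (h : δ < e) (H : ∀ ρ, δ < ρ → ρ < e → x ≤ A * ρ ^ k) :
    x ≤ A * δ ^ k := by
  have h1 : Filter.Tendsto (fun ρ : ℝ => A * ρ ^ k) (nhdsWithin δ (Ioi δ)) (nhds (A * δ ^ k)) :=
    (Continuous.tendsto (by fun_prop) δ).mono_left nhdsWithin_le_nhds
  exact ge_of_tendsto h1 (Filter.mem_of_superset (Ioo_mem_nhdsGT h) fun ρ hρ => H ρ hρ.1 hρ.2)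

theorem eq {C ρ : ℝ} (k : ℕ) (h : 0 < ρ) : C * (2 * ρ) ^ (k + 1) / ρ = 2 ^ (k + 1) * C * ρ ^ k := by
  field_simp
  ring

end KOrdAux

theorem ordE : S_ord := by
  intro T σ d C k _ hσ hC hT hb z hz
  obtain ⟨h1, h2, h3⟩ := hz
  have key : ∀ (ρ : ℝ) (y : ℂ × ℂ), ρ < d / 2 → |y.1.im| < σ → |y.2.im| < σ →
      ‖y.2 - y.1‖ ≤ 2 * ρ → y ∈ Om σ d ∧ ‖T y‖ ≤ C * (2 * ρ) ^ (k + 1) := fun ρ y a b c e =>
    have hy : y ∈ Om σ d := ⟨b, c, by linarith⟩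
    ⟨hy, (hb y hy).trans (by gcongr)⟩
  refine ⟨KOrdAux.lim h3 fun ρ a b => ?_, KOrdAux.lim h3 fun ρ a b => ?_⟩
  · have h0 : 0 < ρ := (norm_nonneg _).trans_lt a
    rw [← KOrdAux.eq k h0]
    refine p1_le (oOm σ d) hT h0 fun t ht => key ρ _ b ?_ ?_ ?_
    · linarith [im_ball ht]
    · linarith [abs_nonneg z.2.im]
    · rw [mem_closedBall_iff_norm'] at ht
      linarith [norm_sub_le_norm_sub_add_norm_sub z.2 z.1 t]
  · have h0 : 0 < ρ := (norm_nonneg _).trans_lt a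
    rw [← KOrdAux.eq k h0]
    refine p2_le (oOm σ d) hT h0 fun t ht => key ρ _ b ?_ ?_ ?_
    · linarith [abs_nonneg z.1.im]
    · linarith [im_ball ht]
    · rw [mem_closedBall_iff_norm] at ht
      linarith [norm_sub_le_norm_sub_add_norm_sub t z.2 z.1]

end Vale.Agent.P097
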