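import Vale.Agent.P097.KStm

open Set NormedSpace Complex Metric

namespace Vale.Agent.P097

theorem KParAux.int {g : ℂ × ℂ → ℂ} {U : Set (ℂ × ℂ)} (hg : ContinuousOn g U) (n : ℤ) {α : ℂ}
    (h : ∀ t ∈ Icc (0:ℝ) 1, ((t:ℂ), α) ∈ U) :
    IntervalIntegrable (fun t : ℝ => g (t, α) * ee (-(n * t))) MeasureTheory.volume 0 1 := by
  refine ContinuousOn.intervalIntegrable_of_Icc zero_le_one (ContinuousOn.mul ?_ ?_)
  · exact hg.comp (f := fun t : ℝ => ((t:ℂ), α)) (by fun_prop) h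
  · exact (ee_cont.comp (by fun_prop)).continuousOn

theorem parE : S_par := by
  intro f U V n hU hV hf hm α hα
  obtain ⟨ρ, ρ0, hρ⟩ := nhds_basis_closedBall.mem_iff.1 (hV.mem_nhds hα)
  have c2 := (hol2 hU hf).continuousOn
  have hK : IsCompact ((fun x : ℝ × ℂ => ((x.1 : ℂ), x.2)) '' (Icc 0 1 ×ˢ closedBall α ρ)) :=
    (isCompact_Icc.prod (isCompact_closedBall α ρ)).image (by fun_prop)
  obtain ⟨C, hC⟩ := hK.exists_bound_of_continuousOn
    (c2.mono (by rintro _ ⟨x, hx, rfl⟩; exact hm _ (hρ hx.2) _ hx.1))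
  have s : ∀ {t : ℝ}, t ∈ uIoc (0:ℝ) 1 → t ∈ Icc (0:ℝ) 1 := fun h =>
    Ioc_subset_Icc_self (by rwa [uIoc_of_le zero_le_one] at h)
  refine (intervalIntegral.hasDerivAt_integral_of_dominated_loc_of_deriv_le
    (F := fun x (t : ℝ) => f (t, x) * ee (-(n * t)))
    (F' := fun x (t : ℝ) => p2 f (t, x) * ee (-(n * t))) (bound := fun _ => C)
    (closedBall_mem_nhds α ρ0) ?_ (KParAux.int hf.continuousOn n (hm α hα))
    (KParAux.int c2 n (hm α hα)).aestronglyMeasurable_restrict_uIoc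
    (Filter.Eventually.of_forall fun t ht x hx => ?_) intervalIntegrable_const
    (Filter.Eventually.of_forall fun t ht x hx => ?_)).2
  · filter_upwards [hV.mem_nhds hα] with x hx
    exact (KParAux.int hf.continuousOn n (hm x hx)).aestronglyMeasurable_restrict_uIoc
  · rw [norm_mul, norm_ee, mul_one]
    exact hC _ ⟨(t, x), ⟨s ht, hx⟩, rfl⟩
  · exact (hd2 (z := ((t:ℂ), x))
      (hf.differentiableAt (hU.mem_nhds (hm x (hρ hx) t (s ht))))).mul_const _

end Vale.Agent.P097
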