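import Vale.Agent.P097.KStm

open Set NormedSpace Complex Metric

namespace Vale.Agent.P097

open Vale.Agent.P274 in
theorem pintE : S_pint := by
  intro U F a b hU hF hd z0 hz0
  obtain ⟨ρ, hρ, hK⟩ := Metric.nhds_basis_closedBall.mem_iff.1 (hU.mem_nhds hz0)
  have hB : ball z0 ρ ⊆ U := ball_subset_closedBall.trans hK
  have hc : Continuous fun x : ℝ × closedBall z0 ρ => F x.2 x.1 :=
    hF.comp (((continuous_inclusion hK).comp continuous_snd).prodMk continuous_fst)
  let G : C(ℝ, C(closedBall z0 ρ, ℂ)) := ContinuousMap.curry ⟨_, hc⟩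
  have h1 : ∀ y, ∀ z ∈ ball z0 ρ, ‖F z y‖ ≤ ‖G y‖ := fun y z hz =>
    (G y).norm_coe_le_norm ⟨z, ball_subset_closedBall hz⟩
  have h2 : ∀ y y', ∀ z ∈ ball z0 ρ, ‖F z y - F z y'‖ ≤ ‖G y - G y'‖ := fun y y' z hz =>
    (G y - G y').norm_coe_le_norm ⟨z, ball_subset_closedBall hz⟩
  have hda : ∀ y, DifferentiableAt ℂ (fun z => F z y) z0 := fun y =>
    (hd y).differentiableAt (hU.mem_nhds hz0)
  have h3 : Continuous fun y => fderiv ℂ (fun z => F z y) z0 := by
    refine continuous_iff_continuousAt.2 fun y' => tendsto_iff_norm_sub_tendsto_zero.2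
      (squeeze_zero (g := fun y => 2 * ‖G y - G y'‖ / ρ) (fun _ => norm_nonneg _) (fun y => ?_)
        (Continuous.tendsto' (by fun_prop) _ _ (by simp)))
    rw [← fderiv_fun_sub (hda y) (hda y')]
    exact norm_fderiv_le_of_bdd hρ (((hd y).mono hB).sub ((hd y').mono hB)) (h2 y y')
  have h4 : ∀ z ∈ U, Continuous (F z) := fun z hz =>
    hF.comp (f := fun y : ℝ => ((⟨z, hz⟩ : U), y)) (by fun_prop)
  refine (intervalIntegral.hasFDerivAt_integral_of_dominated_loc_of_lip (𝕜 := ℂ)
    (μ := MeasureTheory.volume) (F := F) (F' := fun y => fderiv ℂ (fun z => F z y) z0)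
    (bound := fun y => 4 * ‖G y‖ / ρ) (ball_mem_nhds z0 (half_pos hρ))
    (Filter.eventually_of_mem (hU.mem_nhds hz0) fun z hz => (h4 z hz).aestronglyMeasurable)
    ((h4 z0 hz0).intervalIntegrable a b) h3.aestronglyMeasurable
    (Filter.Eventually.of_forall fun y _ => LipschitzOnWith.of_dist_le_mul fun z hz w hw => ?_)
    (Continuous.intervalIntegrable (by fun_prop) a b)
    (Filter.Eventually.of_forall fun y _ =>
      (hda y).hasFDerivAt)).2.differentiableAt.differentiableWithinAt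
  rw [dist_eq_norm, dist_eq_norm, Real.coe_nnabs, abs_of_nonneg (by positivity)]
  exact norm_sub_le_of_bdd hρ ((hd y).mono hB) (h1 y) hz hw

end Vale.Agent.P097
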