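import Vale.Agent.P097.KStm

open Set NormedSpace Complex Metric

namespace Vale.Agent.P097

namespace KQ3Aux

/-- second order Schwarz lemma -/
theorem sch {φ : ℂ → ℂ} {T M : ℝ} (hT : 1 ≤ T)
    (hd : ∀ t ∈ closedBall (0 : ℂ) T, DifferentiableAt ℂ φ t)
    (hM : ∀ t ∈ closedBall (0 : ℂ) T, ‖φ t‖ ≤ M) :
    ‖φ 1 - φ 0 - deriv φ 0‖ ≤ 3 * M / T ^ 2 := by
  have T0 : 0 < T := by linarith
  have hn : closedBall (0 : ℂ) T ∈ nhds (0 : ℂ) := closedBall_mem_nhds _ T0
  have h1 : DifferentiableOn ℂ (dslope (dslope φ 0) 0) (closedBall 0 T) :=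
    (differentiableOn_dslope hn).2 ((differentiableOn_dslope hn).2
      fun t ht => (hd t ht).differentiableWithinAt)
  have e : ∀ t : ℂ, t ≠ 0 →
      dslope (dslope φ 0) 0 t = ((φ t - φ 0) / t - deriv φ 0) / t := fun t ht => by
    rw [dslope_of_ne _ ht, slope_def_field, dslope_of_ne _ ht, slope_def_field, dslope_same,
      sub_zero]
  have c := cauchy T0 hd fun t ht => hM t (sphere_subset_closedBall ht)
  have k := norm_le_of_forall_mem_frontier_norm_le (U := ball (0 : ℂ) T) (C := 3 * M / T ^ 2)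
    isBounded_ball (DifferentiableOn.diffContOnCl (by rwa [closure_ball _ T0.ne'])) (z := 1)
    (fun t ht => by
      rw [frontier_ball _ T0.ne'] at ht
      have a := mem_sphere_zero_iff_norm.1 ht
      have a1 : ‖(φ t - φ 0) / t‖ ≤ (M + M) / T := by
        rw [norm_div, a]
        exact div_le_div_of_nonneg_right ((norm_sub_le _ _).trans (add_le_add
          (hM t (sphere_subset_closedBall ht)) (hM 0 (mem_closedBall_self T0.le)))) T0.le
      rw [e t (norm_pos_iff.1 (a.symm ▸ T0)), norm_div, a,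
        show 3 * M / T ^ 2 = ((M + M) / T + M / T) / T by field_simp; ring]
      exact div_le_div_of_nonneg_right ((norm_sub_le _ _).trans (add_le_add a1 c)) T0.le)
    (by rw [closure_ball _ T0.ne']; simpa using hT)
  rwa [e 1 one_ne_zero, div_one, div_one] at k

theorem im_le (a x : ℂ) : |(a + x).im| ≤ |a.im| + ‖x‖ := by
  rw [add_im]
  exact (abs_add_le _ _).trans (add_le_add le_rfl (abs_im_le_norm x))

end KQ3Aux

theorem q3E : S_q3 := by
  intro S σ d C h
  have s0 := h.spos
  have s1 := h.sle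
  have d0 := h.dpos
  have d1 := h.dle
  have C1 := h.one_le
  refine ⟨σ / 20, 54 * C / (σ / 10) ^ 2, by positivity, by positivity, ?_⟩
  intro ρ N a b c u v w r0 r1 ha hb hc g1 g2 n1 n2 n3 n4
  have N0 : 0 ≤ N := (norm_nonneg _).trans n1
  have mem : ∀ t : ℂ, ‖t‖ * N ≤ σ / 10 * ρ →
      ((a + t * u, b + t * v) ∈ Om σ d ∧ ‖b + t * v - (a + t * u)‖ ≤ 3 * ρ) ∧
      (b + t * v, c + t * w) ∈ Om σ d ∧ ‖c + t * w - (b + t * v)‖ ≤ 3 * ρ := fun t ht => by
    have t0 := norm_nonneg t
    have x1 : ‖t * v‖ ≤ σ / 10 := by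
      rw [norm_mul]
      refine le_of_mul_le_mul_right ?_ r0
      nlinarith [mul_le_mul_of_nonneg_left n3 t0]
    have x2 : ‖t * (v - u)‖ ≤ σ / 10 * ρ := by
      rw [norm_mul]
      exact (mul_le_mul_of_nonneg_left n1 t0).trans ht
    have x3 : ‖t * (w - v)‖ ≤ σ / 10 * ρ := by
      rw [norm_mul]
      exact (mul_le_mul_of_nonneg_left n2 t0).trans ht
    have y1 : σ / 10 * ρ ≤ σ / 10 := by nlinarith
    have y2 : σ / 10 * ρ ≤ ρ := by nlinarith
    have x4 := norm_sub_le (t * v) (t * (v - u))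
    have x5 := norm_add_le (t * v) (t * (w - v))
    have x6 := norm_add_le (b - a) (t * (v - u))
    have x7 := norm_add_le (c - b) (t * (w - v))
    rw [show t * v - t * (v - u) = t * u by ring] at x4
    rw [show t * v + t * (w - v) = t * w by ring] at x5
    rw [show b - a + t * (v - u) = b + t * v - (a + t * u) by ring] at x6
    rw [show c - b + t * (w - v) = c + t * w - (b + t * v) by ring] at x7
    have z1 := KQ3Aux.im_le a (t * u)
    have z2 := KQ3Aux.im_le b (t * v)
    have z3 := KQ3Aux.im_le c (t * w)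
    refine ⟨⟨⟨?_, ?_, ?_⟩, ?_⟩, ⟨?_, ?_, ?_⟩, ?_⟩ <;> (try dsimp only) <;> linarith
  have m1 := mem 1 (by rw [norm_one]; nlinarith)
  simp only [one_mul] at m1
  refine ⟨m1.1.1, m1.2.1, ?_⟩
  rcases N0.eq_or_lt with rfl | N1
  · have v0 : v = 0 := norm_le_zero_iff.1 (le_of_mul_le_mul_left (by linarith) r0)
    subst v0
    have u0 : u = 0 := by simpa using n1
    have w0 : w = 0 := by simpa using n2
    simp [u0, w0, De]
  have hd : ∀ t : ℂ, ‖t‖ * N ≤ σ / 10 * ρ →
      HasDerivAt (fun t => e3 S (a + t * u) (b + t * v) (c + t * w))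
        (De S (a + t * u) (b + t * v) (c + t * w) u v w) t := fun t ht => by
    obtain ⟨⟨k1, -⟩, k2, -⟩ := mem t ht
    have l : ∀ x y : ℂ, HasDerivAt (fun t => x + t * y) y t := fun x y =>
      (hasDerivAt_mul_const y).const_add x
    have a1 := chain (u := fun t => a + t * u) (v := fun t => b + t * v)
      ((hol2 (oOm σ d) h.hol).differentiableAt ((oOm σ d).mem_nhds k1)) (l a u) (l b v)
    have a2 := chain (u := fun t => b + t * v) (v := fun t => c + t * w)
      ((hol1 (oOm σ d) h.hol).differentiableAt ((oOm σ d).mem_nhds k2)) (l b v) (l c w)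
    refine (a1.add a2).congr_deriv ?_
    rw [p12 (oOm σ d) h.hol k1, De, HH]
    ring
  have bl : ∀ t ∈ closedBall (0 : ℂ) (σ / 10 * ρ / N), ‖t‖ * N ≤ σ / 10 * ρ := fun t ht =>
    (le_div_iff₀ N1).1 (mem_closedBall_zero_iff.1 ht)
  have k := KQ3Aux.sch (φ := fun t => e3 S (a + t * u) (b + t * v) (c + t * w))
    (T := σ / 10 * ρ / N) (M := 18 * C * ρ ^ 2) ((le_div_iff₀ N1).2 (by nlinarith))
    (fun t ht => (hd t (bl t ht)).differentiableAt) fun t ht => by
      obtain ⟨⟨k1, k2⟩, k3, k4⟩ := mem t (bl t ht)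
      have b1 := (h.hB _ k1).trans (mul_le_mul_of_nonneg_left
        (pow_le_pow_left₀ (norm_nonneg _) k2 2) (by linarith))
      have b2 := (h.hA _ k3).trans (mul_le_mul_of_nonneg_left
        (pow_le_pow_left₀ (norm_nonneg _) k4 2) (by linarith))
      exact (norm_add_le _ _).trans (by linarith)
  rw [(hd 0 (by rw [norm_zero, zero_mul]; positivity)).deriv] at k
  simp only [one_mul, zero_mul, add_zero] at k
  refine k.trans (le_of_eq ?_)
  field_simp
  ring

end Vale.Agent.P097
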