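import Vale.Agent.P097.KStm

open Set NormedSpace Complex Metric

namespace Vale.Agent.P097

theorem quotE (hsinl : S_sinl) : S_quot := by
  intro n α₀ R M h hn hR h4 hd hM
  have n0 : 0 < |(n : ℝ)| := abs_pos.2 (Int.cast_ne_zero.2 hn)
  have e0 : gw (1 / 2) n |α₀.im| = Real.exp (Real.pi * |(n * α₀ : ℂ).im|) := by
    rw [gw]
    simp only [mul_im, intCast_re, intCast_im, zero_mul, add_zero, abs_mul]
    ring_nf
  have e1 : ∀ α : ℂ, ‖n * α - n * α₀‖ = |(n : ℝ)| * ‖α - α₀‖ := fun α => by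
    rw [← mul_sub, norm_mul, norm_intCast]
  obtain ⟨ρ, hρ⟩ : ∃ ρ, ρ = |(n : ℝ)| * R := ⟨_, rfl⟩
  have ρ0 : 0 < ρ := hρ ▸ mul_pos n0 hR
  rw [← hρ] at h4 ⊢
  have M0 : 0 ≤ M / ρ := div_nonneg ((norm_nonneg _).trans (hM _ (mem_ball_self hR))) ρ0.le
  have key : ∀ α ∈ ball α₀ R, (∀ j : ℤ, ρ / 4 ≤ ‖n * α - j‖) →
      ‖h α‖ * Real.exp (Real.pi * |(n * α : ℂ).im|) ≤ 16 * (M / ρ) := fun α hα hj => by
    have a1 := mul_le_mul_of_nonneg_right (hsinl _ _ (by positivity) (by linarith) hj)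
      (norm_nonneg (h α))
    have a2 := hM α hα
    simp only [sv, norm_mul, norm_I, mul_one, Complex.norm_ofNat] at a2
    rw [← mul_div_assoc, le_div_iff₀ ρ0]
    linarith
  rw [e0, mul_div_assoc]
  by_cases hc : ∀ j : ℤ, ρ / 4 ≤ ‖n * α₀ - j‖
  · linarith [key α₀ (mem_ball_self hR) hc]
  obtain ⟨j0, hj⟩ := not_forall.1 hc
  rw [← le_div_iff₀ (Real.exp_pos _)]
  have hs : closedBall α₀ (3 * R / 4) ⊆ ball α₀ R := closedBall_subset_ball (by linarith)
  refine Complex.norm_le_of_forall_mem_frontier_norm_le (U := ball α₀ (3 * R / 4)) isBounded_ball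
    (hd.diffContOnCl_ball hs) (fun α hα => ?_) (subset_closure (mem_ball_self (by positivity)))
  rw [frontier_ball _ (by positivity)] at hα
  have a1 : ‖n * α - n * α₀‖ = 3 * ρ / 4 := by
    rw [e1, mem_sphere_iff_norm.1 hα, hρ]
    ring
  have a2 := key α (hs (sphere_subset_closedBall hα)) fun j => by
    rcases eq_or_ne j j0 with rfl | hne
    · have := norm_sub_le_norm_sub_add_norm_sub (n * α) j (n * α₀)
      rw [norm_sub_rev (j : ℂ)] at this
      linarith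
    · have b1 : 1 ≤ ‖(j0 : ℂ) - j‖ := by
        rw [← Int.cast_sub, norm_intCast]
        exact_mod_cast Int.one_le_abs (sub_ne_zero.2 hne.symm)
      have b2 := norm_sub_le_norm_sub_add_norm_sub (j0 : ℂ) (n * α₀) j
      have b3 := norm_sub_le_norm_sub_add_norm_sub (n * α₀) (n * α) (j : ℂ)
      rw [norm_sub_rev (j0 : ℂ) (n * α₀)] at b2
      rw [norm_sub_rev (n * α₀) (n * α)] at b3
      linarith
  have a3 : Real.exp (Real.pi * |(n * α₀ : ℂ).im|) ≤
      2 * Real.exp (Real.pi * |(n * α : ℂ).im|) := by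
    have b1 := (abs_im_le_norm (n * α - n * α₀)).trans_eq a1
    have b2 := abs_sub_abs_le_abs_sub (n * α₀ : ℂ).im (n * α : ℂ).im
    rw [sub_im, abs_sub_comm] at b1
    rw [← Real.exp_log two_pos, ← Real.exp_add, Real.exp_le_exp]
    nlinarith [Real.log_two_gt_d9, Real.pi_lt_d2, Real.pi_pos]
  rw [le_div_iff₀ (Real.exp_pos _)]
  nlinarith [mul_le_mul_of_nonneg_left a3 (norm_nonneg (h α))]

end Vale.Agent.P097
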