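import Vale.Agent.P097.KStm

open Set NormedSpace Complex Metric

namespace Vale.Agent.P097

namespace KRidAux

variable {σ c r a : ℝ} {f : ℂ × ℂ → ℂ}

theorem mem (c : ℝ) (ha : |a| < r) {t : ℂ} (ht : t ∈ St σ) : (t, (a : ℂ)) ∈ XX σ c r :=
  ⟨by simpa [St] using ht, by simpa using ha⟩

theorem rmem (hσ : 0 < σ) (t : ℝ) : (t : ℂ) ∈ St σ := by simpa [St] using hσ

theorem dif (hf : DifferentiableOn ℂ f (XX σ c r)) (ha : |a| < r) {t : ℂ} (ht : t ∈ St σ) :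
    HasDerivAt (fun t => f (t, a)) (p1 f (t, a)) t :=
  hd1 (z := (t, (a : ℂ))) (hf.differentiableAt ((oXX σ c r).mem_nhds (mem c ha ht)))

theorem difOn (hf : DifferentiableOn ℂ f (XX σ c r)) (ha : |a| < r) :
    DifferentiableOn ℂ (fun t => f (t, a)) (St σ) := fun _ ht =>
  (dif hf ha ht).differentiableAt.differentiableWithinAt

theorem cont (hσ : 0 < σ) (hf : DifferentiableOn ℂ f (XX σ c r)) (ha : |a| < r) (b : ℝ) :
    Continuous fun t : ℝ => f (t + b, a) :=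
  (difOn hf ha).continuousOn.comp_continuous (f := fun t : ℝ => (t : ℂ) + b) (by fun_prop)
    fun t => by simpa [St] using hσ

theorem prod {U : Set (ℂ × ℂ)} {ξ E : ℂ × ℂ → ℂ} {z : ℂ × ℂ} (hU : IsOpen U)
    (hξ : DifferentiableOn ℂ ξ U) (hE : DifferentiableOn ℂ E U) (hz : z ∈ U) :
    p2 (fun z => p1 ξ z * E z) z =
      p1 (fun z => p2 ξ z * E z) z - (p2 ξ z * p1 E z - p1 ξ z * p2 E z) := by
  have h1 := (hol1 hU hξ).differentiableAt (hU.mem_nhds hz)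
  have h2 := (hol2 hU hξ).differentiableAt (hU.mem_nhds hz)
  have h3 := hE.differentiableAt (hU.mem_nhds hz)
  rw [p2_eq (f := fun z => p1 ξ z * E z) (h1.mul h3) ((hd2 h1).mul (hd2 h3)),
    p1_eq (f := fun z => p2 ξ z * E z) (h2.mul h3) ((hd1 h2).mul (hd1 h3)), p12 hU hξ hz]
  ring

theorem core (hfc1 : S_fc1) {G J Q : ℂ × ℂ → ℂ} {n k : ℤ} (hσ : 0 < σ)
    (hG : DifferentiableOn ℂ G (XX σ 1 r)) (pG : ∀ z ∈ XX σ 1 r, G (z.1 + 1, z.2) = G z)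
    (hJ : PR (XX σ (1 / 2) r) J) (ha : |a| < r) (en : (n : ℂ) * a = k)
    (hQ : ∀ z ∈ XX σ 1 r, Q z = p1 G z - (J (zp z) - J (zm z))) :
    f2 Q n a = 2 * Real.pi * I * n * f2 G n a := by
  have h2 := (hfc1 (fun t => G (t, a)) σ hσ (difOn hG ha) fun z hz => pG _ (mem 1 ha hz)).2.2 n
  have h3 := (hfc1 (fun t => J (t, a)) σ hσ (difOn hJ.hol ha) fun z hz => hJ.per _ (mem _ ha hz)).1
  have h4 := h3 _ (rmem hσ (a / 2)) n
  have h5 := h3 _ (rmem hσ (-(a / 2))) n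
  have h6 : ce (n * ((a / 2 : ℝ) : ℂ)) = ce (n * ((-(a / 2) : ℝ) : ℂ)) := by
    have e : (n : ℂ) * ((a / 2 : ℝ) : ℂ) = n * ((-(a / 2) : ℝ) : ℂ) + ((k : ℝ) : ℂ) := by
      push_cast
      linear_combination en
    rw [e, ce_add, ce_real, ee_int, mul_one]
  have c1 := cont hσ (hol1 (oXX _ _ _) hG) ha 0
  have c2 := cont hσ hJ.hol ha (a / 2)
  have c3 := cont hσ hJ.hol ha (-(a / 2))
  have e1 : (fun t : ℝ => Q (t, a)) = fun t : ℝ => p1 G (t + (0 : ℝ), a) -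
      (J (t + (a / 2 : ℝ), a) - J (t + (-(a / 2) : ℝ), a)) := funext fun t => by
    rw [hQ _ (mem 1 ha (rmem hσ t))]
    simp only [zp, zm, ofReal_zero, add_zero, ofReal_neg, ofReal_div, ofReal_ofNat, sub_eq_add_neg]
  have e2 : (fun t : ℝ => p1 G (t + (0 : ℝ), a)) = fun t : ℝ => deriv (fun t => G (t, a)) t :=
    funext fun t => by
      rw [ofReal_zero, add_zero]
      exact (dif hG ha (rmem hσ t)).deriv.symm
  have c4 : Continuous fun t : ℝ => J (t + (a / 2 : ℝ), a) - J (t + (-(a / 2) : ℝ), a) := c2.sub c3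
  rw [f2, e1, fc_sub c1 c4, fc_sub c2 c3, h4, h5, h6, sub_self, sub_zero, e2, h2, f2]

end KRidAux

open KRidAux in
theorem ridE (hfc1 : S_fc1) (hpar : S_par) : S_rid := by
  intro S ξ σ₁ d₁ C c₀ C' σ r ε t n k h hn hk
  have hr : r ≤ σ := by linarith [h.ok.lo, h.ok.r1, h.gd.spos]
  have hσ : 0 < σ := h.ok.rpos.trans_le hr
  have sub : XX σ 1 r ⊆ XX σ 0 r := XX_mono le_rfl zero_le_one le_rfl
  have hξ := h.ks.hol.mono sub
  have hE := h.k2.prE.hol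
  obtain ⟨a, ha, ea⟩ : ∃ a : ℝ, |a| < r ∧ (k : ℂ) / n = a := ⟨_, hk, by push_cast; rfl⟩
  have en : (n : ℂ) * a = k := by
    rw [← ea, mul_div_cancel₀ _ (Int.cast_ne_zero.2 hn)]
  rw [ea]
  have hM : DifferentiableOn ℂ (fun z => p1 ξ z * EK S ξ z) (XX σ 1 r) :=
    (hol1 (oXX _ _ _) hξ).mul hE
  have hG : DifferentiableOn ℂ (fun z => p2 ξ z * EK S ξ z) (XX σ 1 r) :=
    (hol2 (oXX _ _ _) hξ).mul hE
  have h1 := hpar _ (XX σ 1 r) (ball 0 r) n (oXX _ _ _) isOpen_ball hM (fun α hα t _ => ⟨by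
      have := (Complex.abs_im_le_norm α).trans_lt (mem_ball_zero_iff.1 hα)
      simp only [ofReal_im, abs_zero]
      linarith, mem_ball_zero_iff.1 hα⟩) a (by simpa using ha)
  rw [core hfc1 hσ hG (fun z m => by rw [h.k1.pr2.per _ (sub m), h.k2.prE.per _ m]) h.k4.prJ ha en
    fun z m => (prod (oXX _ _ _) hξ hE m).trans (by rw [h.k4.idJ _ m])] at h1
  exact h1

end Vale.Agent.P097
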