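import Vale.Agent.P097.KStm

open Set NormedSpace Complex Metric

namespace Vale.Agent.P097

namespace KRxAux

theorem mem {σ c r : ℝ} (hσ : 0 < σ) (θ : ℝ) {a : ℝ} (ha : |a| < r) :
    ((θ : ℂ), (a : ℂ)) ∈ XX σ c r := by
  refine ⟨?_, ?_⟩
  · simpa using hσ
  · simpa using ha

theorem emb (x : ℝ × ℝ) : AnalyticAt ℝ (fun x : ℝ × ℝ => ((x.1 : ℂ), (x.2 : ℂ))) x :=
  ((ofRealCLM.analyticAt x.1).comp analyticAt_fst).prod
    ((ofRealCLM.analyticAt x.2).comp analyticAt_snd)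

variable {S ξ : ℂ × ℂ → ℂ} {σ r ε t : ℝ}

theorem real (h : KS S σ r ε t ξ) (hσ : 0 < σ) (θ : ℝ) {a : ℝ} (ha : |a| < r) :
    ((ξ (θ, a)).re : ℂ) = ξ (θ, a) := by
  have := h.real _ (mem hσ θ ha)
  simp only [cj, conj_ofReal] at this
  exact Complex.conj_eq_iff_re.1 this.symm

theorem der (h : KS S σ r ε t ξ) (hσ : 0 < σ) (θ : ℝ) {a : ℝ} (ha : |a| < r) :
    HasDerivAt (fun x : ℝ => (ξ (x, a)).re) (p1 ξ (θ, a)).re θ :=
  (hd1 (h.hol.differentiableAt ((oXX σ 0 r).mem_nhds (mem hσ θ ha)))).real_of_complex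

theorem der_le (h : KS S σ r ε t ξ) (hσ : 0 < σ) (θ : ℝ) {a : ℝ} (ha : |a| < r) :
    |(p1 ξ (θ, a)).re - 1| ≤ t := by
  have := (abs_re_le_norm _).trans (h.d1 _ (mem hσ θ ha))
  simpa using this

theorem gap (h : KS S σ r ε t ξ) (hσ : 0 < σ) (x y : ℝ) {a : ℝ} (ha : |a| < r) :
    |(ξ (y, a)).re - (ξ (x, a)).re - (y - x)| ≤ t * |y - x| := by
  have := (convex_univ (𝕜 := ℝ) (E := ℝ)).norm_image_sub_le_of_norm_hasDerivWithin_le
    (f := fun s : ℝ => (ξ (s, a)).re - s) (f' := fun s => (p1 ξ (s, a)).re - 1) (C := t)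
    (fun s _ => ((der h hσ s ha).sub (hasDerivAt_id s)).hasDerivWithinAt)
    (fun s _ => der_le h hσ s ha) (mem_univ x) (mem_univ y)
  rw [Real.norm_eq_abs, Real.norm_eq_abs] at this
  rwa [show (ξ (y, a)).re - (ξ (x, a)).re - (y - x) =
    (ξ (y, a)).re - y - ((ξ (x, a)).re - x) by ring]

end KRxAux

theorem rxE : S_rx := by
  intro β S ξ σ r d' hr hrσ hd h hE
  have hσ : 0 < σ := hr.trans_le hrσ
  have hlt : ∀ {a : ℝ}, |a| < min r (d' / 2) → |a| < r := fun ha => ha.trans_le (min_le_left _ _)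
  refine ⟨min r (d' / 2), fun x => (ξ (x.1, x.2)).re, lt_min hr (by linarith), fun x hx => ?_,
    fun θ a ha => ?_, fun θ => ?_, fun θ a ha => ?_, fun θ a h0 ha => ?_⟩
  · have h1 : AnalyticAt ℂ ξ ((x.1 : ℂ), (x.2 : ℂ)) :=
      P274.analyticOnNhd_of_differentiableOn (oXX σ 0 r) h.hol _
        (KRxAux.mem hσ x.1 (hlt (abs_lt.2 hx.2)))
    have h2 : AnalyticAt ℝ (fun x : ℝ × ℝ => ξ ((x.1 : ℂ), (x.2 : ℂ))) x :=
      AnalyticAt.comp (f := fun x : ℝ × ℝ => ((x.1 : ℂ), (x.2 : ℂ))) h1.restrictScalars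
        (KRxAux.emb x)
    exact (reCLM.analyticAt _).comp h2
  · have := h.per _ (KRxAux.mem hσ θ (hlt ha))
    dsimp only at this ⊢
    rw [ofReal_add, ofReal_one, this, add_re, one_re]
  · have := h.zero θ (by simpa [St] using hσ)
    dsimp only
    rw [ofReal_zero, this, ofReal_re]
  · dsimp only
    rw [(KRxAux.der h hσ θ (hlt ha)).deriv]
    exact KRxAux.der_le h hσ θ (hlt ha)
  · have ha1 : |a| < r := by rw [abs_of_pos h0]; exact ha.trans_le (min_le_left _ _)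
    have ha2 : a < d' / 2 := ha.trans_le (min_le_right _ _)
    have g1 := KRxAux.gap h hσ θ (θ + a) ha1
    have g2 := KRxAux.gap h hσ (θ - a) θ ha1
    rw [add_sub_cancel_left, abs_of_pos h0] at g1
    rw [sub_sub_cancel, abs_of_pos h0] at g2
    obtain ⟨g11, g12⟩ := abs_le.1 g1
    obtain ⟨g21, g22⟩ := abs_le.1 g2
    dsimp only
    refine hE _ _ _ (by linarith) (by linarith) (by linarith) (by linarith) ?_
    rw [KRxAux.real h hσ _ ha1, KRxAux.real h hσ _ ha1, KRxAux.real h hσ _ ha1]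
    have e := h.err _ (KRxAux.mem hσ θ ha1)
    rw [zero_mul, norm_le_zero_iff] at e
    simpa only [EK, zM, zP, ofReal_add, ofReal_sub] using e

end Vale.Agent.P097
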