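import Vale.Agent.P097.KStm

open Set NormedSpace Complex Metric

namespace Vale.Agent.P097

theorem KSag1Aux.cp_eq {β : ℝ → ℝ} {b : ℂ → ℂ} {s M : ℝ} (h : EX β b s M) (x y : ℝ) :
    ∀ u ∈ Icc (0:ℝ) 1, cp b (x, y) u = pth β x (y - x) u := fun u hu => by
  rw [cp, pth, cl_eq hu, ← h.ext]
  push_cast
  rfl

theorem KSag1Aux.Gc_eq {β : ℝ → ℝ} {b : ℂ → ℂ} {s M : ℝ} (h : EX β b s M) (j : ℂ) (x y : ℝ) :
    Gc j b (x, y) = GG j (pth β x (y - x)) ((y - x : ℝ) : ℂ) := by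
  rw [Gc, GG_congr (KSag1Aux.cp_eq h x y), ofReal_sub]

theorem sag1E : S_sag1 := by
  intro β b s M h
  refine ⟨fun x y => KSag1Aux.Gc_eq h I x y, fun d C hR x y hxy => ?_⟩
  have n : ‖(y:ℂ) - x‖ = |y - x| := by rw [← ofReal_sub, norm_real, Real.norm_eq_abs]
  have m : ((x:ℂ), (y:ℂ)) ∈ Om (s / 2) d := by
    have := h.pos
    refine ⟨by simpa, by simpa, ?_⟩
    rwa [n]
  have h2 := hR.h2 _ m
  have h3 := hR.h3 _ m
  rw [KSag1Aux.Gc_eq h, KSag1Aux.Gc_eq h, GG_conj, ← Gr, mul_conj, normSq_eq_norm_sq,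
    ofReal_pow] at h2
  simp only [n, h.ext] at h3
  have h4 : C * |y - x| ≤ 1 / 4 := by
    rcases le_total 0 C with c | c
    · exact (mul_le_mul_of_nonneg_left hxy.le c).trans hR.small
    · linarith [mul_nonpos_of_nonpos_of_nonneg c (abs_nonneg (y - x))]
  have h5 : ∀ t : ℝ, Rc b (x, y) = t → 0 < t := fun t ht => by
    have e : Complex.exp (2 * β x) * t - 1 = ((Real.exp (2 * β x) * t - 1 : ℝ) : ℂ) := by
      push_cast
      rfl
    rw [ht, e, norm_real, Real.norm_eq_abs, abs_le] at h3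
    exact (mul_pos_iff_of_pos_left (Real.exp_pos (2 * β x))).1 (by linarith [h3.1])
  have h6 : Rc b (x, y) = (‖Gr β x (y - x)‖ : ℝ) := by
    refine (sq_eq_sq_iff_eq_or_eq_neg.1 h2).resolve_right fun e => ?_
    have := h5 (-‖Gr β x (y - x)‖) (by rw [e, ofReal_neg])
    linarith [norm_nonneg (Gr β x (y - x))]
  refine ⟨norm_pos_iff.1 (h5 _ h6), ?_⟩
  rw [Sc, h6, LA_congr (KSag1Aux.cp_eq h x y), ← LA_real, ofReal_sub]

end Vale.Agent.P097
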