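import Vale.Agent.P097.KStm

open Set NormedSpace Complex Metric

namespace Vale.Agent.P097

namespace KSag2Aux

theorem uniq {f : ℂ → ℂ} {g : ℝ → ℝ} {c : ℂ} {r t : ℝ} (hf : HasDerivAt f c t)
    (hg : HasDerivAt g r t) (h : ∀ᶠ u : ℝ in nhds t, f u = 4 * (g u : ℂ)) : c = 4 * r :=
  hf.comp_ofReal.unique ((hg.ofReal_comp.const_mul 4).congr_of_eventuallyEq h)

theorem mem {s d x y : ℝ} (hs : 0 < s) (h : |y - x| < d) : ((x : ℂ), (y : ℂ)) ∈ Om (s / 2) d :=
  ⟨by simpa using hs, by simpa using hs, by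
    dsimp only
    rwa [← ofReal_sub, norm_real, Real.norm_eq_abs]⟩

end KSag2Aux

open KSag2Aux in
theorem sag2E (hder : S_der) (hshol : S_shol) (hsag1 : S_sag1) : S_sag2 := by
  intro β b s M d C hβ hE hR x y z hxy hyz h1 h2
  have hS := (hsag1 β b s M hE).2 d C hR
  have hd := ((hshol β b s M hE).2 d C hR).2
  have a1 : |y - x| < d := by rwa [abs_of_pos (sub_pos.2 hxy)]
  have a2 : |z - y| < d := by rwa [abs_of_pos (sub_pos.2 hyz)]
  have e1 := uniq (hd2 (hd.differentiableAt ((oOm _ _).mem_nhds (mem hE.pos a1))))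
    (hder β hβ (fun _ => x) id 0 1 y (hasDerivAt_const _ _) (hasDerivAt_id _) hxy (hS x y a1).1)
    (((by fun_prop : Continuous fun u : ℝ => |u - x|).continuousAt.eventually_lt
      continuousAt_const a1).mono fun u hu => (hS x u hu).2)
  have e2 := uniq (hd1 (hd.differentiableAt ((oOm _ _).mem_nhds (mem hE.pos a2))))
    (hder β hβ id (fun _ => z) 1 0 y (hasDerivAt_id _) (hasDerivAt_const _ _) hyz (hS y z a2).1)
    (((by fun_prop : Continuous fun u : ℝ => |z - u|).continuousAt.eventually_lt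
      continuousAt_const a2).mono fun u hu => (hS u z hu).2)
  rw [e3, e1, e2]
  simp only [id]
  norm_cast
  ring

end Vale.Agent.P097
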