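import Vale.Agent.P097.KStm

open Set NormedSpace Complex Metric

namespace Vale.Agent.P097

namespace KSantiAux

theorem kk_rev {p : ℝ → ℂ} (hp : Continuous p) (y : ℝ) :
    kk (fun t => p (1 - t)) y = kk p 1 - kk p (1 - y) := by
  have hc : Continuous fun t => NormedSpace.exp (p t) := by
    simp only [← Complex.exp_eq_exp_ℂ]; fun_prop
  have h := intervalIntegral.integral_comp_sub_left (a := 0) (b := y)
    (fun t => NormedSpace.exp (p t)) 1
  rw [kk, h, kk, kk, sub_zero,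
    intervalIntegral.integral_interval_sub_left (hc.intervalIntegrable _ _)
      (hc.intervalIntegrable _ _)]

theorem GG_rev {p : ℝ → ℂ} (hp : Continuous p) (j d : ℂ) :
    GG j (fun t => p (1 - t)) (-d) = Complex.exp (-(j * (d * kk p 1))) * GG j p d := by
  have h := intervalIntegral.integral_comp_sub_left (a := 0) (b := 1)
    (fun t => Complex.exp (-(j * (d * kk p 1))) * (em p t * ph j p d t)) 1
  rw [sub_self, sub_zero] at h
  rw [GG, GG, ← intervalIntegral.integral_const_mul, ← h]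
  refine intervalIntegral.integral_congr fun y _ => ?_
  simp only [em, ph, kk_rev hp, ← Complex.exp_eq_exp_ℂ, smul_eq_mul, ← Complex.exp_add]
  congr 1
  ring

theorem LA_rev (p : ℝ → ℂ) (d R : ℂ) : LA (fun t => p (1 - t)) (-d) R = -LA p d R := by
  have h := intervalIntegral.integral_comp_sub_left (a := 0) (b := 1) (fun t => em p t) 1
  rw [sub_self, sub_zero] at h
  have e : ∫ y in (0:ℝ)..1, em (fun t => p (1 - t)) y = ∫ y in (0:ℝ)..1, em p y := h
  rw [LA, LA, e]
  ring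

theorem cp_swap (b : ℂ → ℂ) (z : ℂ × ℂ) (y : ℝ) (hy : y ∈ Icc (0:ℝ) 1) :
    cp b (z.2, z.1) y = cp b z (1 - y) := by
  have hy' : 1 - y ∈ Icc (0:ℝ) 1 := ⟨by linarith [hy.2], by linarith [hy.1]⟩
  simp only [cp, cl_eq hy, cl_eq hy']
  congr 1
  push_cast
  ring

theorem cp_cont {b : ℂ → ℂ} {s : ℝ} (hb : DifferentiableOn ℂ b (St s)) {z : ℂ × ℂ}
    (h1 : |z.1.im| < s) (h2 : |z.2.im| < s) : Continuous (cp b z) := by
  have hc : Continuous fun y : ℝ => z.1 + cl y * (z.2 - z.1) := by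
    have := cl_cont
    fun_prop
  exact hb.continuousOn.comp_continuous hc (seg_mem h1 h2)

theorem swap_mem {σ d : ℝ} {z : ℂ × ℂ} (hz : z ∈ Om σ d) : (z.2, z.1) ∈ Om σ d :=
  ⟨hz.2.1, hz.1, by rw [norm_sub_rev]; exact hz.2.2⟩

theorem cvx (σ d : ℝ) : Convex ℝ (Om σ d) := by
  have h1 : Convex ℝ {z : ℂ × ℂ | |z.1.im| < σ} := by
    have := (convex_ball (0:ℝ) σ).linear_preimage
      (Complex.imLm.comp (LinearMap.fst ℝ ℂ ℂ))
    simpa [Set.preimage] using this
  have h2 : Convex ℝ {z : ℂ × ℂ | |z.2.im| < σ} := by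
    have := (convex_ball (0:ℝ) σ).linear_preimage
      (Complex.imLm.comp (LinearMap.snd ℝ ℂ ℂ))
    simpa [Set.preimage] using this
  have h3 : Convex ℝ {z : ℂ × ℂ | ‖z.2 - z.1‖ < d} := by
    have := (convex_ball (0:ℂ) d).linear_preimage
      (LinearMap.snd ℝ ℂ ℂ - LinearMap.fst ℝ ℂ ℂ)
    simpa [Set.preimage] using this
  exact h1.inter (h2.inter h3)

end KSantiAux

open KSantiAux in
theorem santiE (hshol : S_shol) : S_santi := by
  intro β b s M d C hE hR
  have hs := hE.pos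
  have hG : ∀ z ∈ Om (s / 2) d, ∀ j : ℂ, Gc j b (z.2, z.1) =
      Complex.exp (-(j * ((z.2 - z.1) * kk (cp b z) 1))) * Gc j b z := by
    intro z hz j
    have hc := cp_cont hE.hol (z := z) (by linarith [hz.1]) (by linarith [hz.2.1])
    rw [Gc, Gc, GG_congr (cp_swap b z), ← GG_rev hc, neg_sub]
  have hRc := ((hshol β b s M hE).2 d C hR).1.continuousOn
  have hsw : ContinuousOn (fun z : ℂ × ℂ => Rc b (z.2, z.1)) (Om (s / 2) d) :=
    hRc.comp (f := fun z : ℂ × ℂ => (z.2, z.1)) (by fun_prop) fun z hz => swap_mem hz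
  have h0 : ((0, 0) : ℂ × ℂ) ∈ Om (s / 2) d := ⟨by simpa using hs, by simpa using hs, by
    simpa using hR.dpos⟩
  have key : EqOn (fun z : ℂ × ℂ => Rc b (z.2, z.1)) (Rc b) (Om (s / 2) d) := by
    refine (cvx _ _).isPreconnected.eq_of_sq_eq hsw hRc (fun z hz => ?_)
      (fun _ => mul_ne_zero (Complex.exp_ne_zero _) (Complex.exp_ne_zero _)) h0 rfl
    simp only [Pi.pow_apply]
    rw [hR.h2 z hz, hR.h2 _ (swap_mem hz), hG z hz, hG z hz, mul_mul_mul_comm,
      ← Complex.exp_add]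
    have : -(I * ((z.2 - z.1) * kk (cp b z) 1)) + -(-I * ((z.2 - z.1) * kk (cp b z) 1)) = 0 := by
      ring
    rw [this, Complex.exp_zero, one_mul]
  intro z hz
  have k : Rc b (z.2, z.1) = Rc b z := key hz
  rw [Sc, Sc, k, LA_congr (cp_swap b z), ← mul_neg, ← LA_rev, neg_sub]

end Vale.Agent.P097
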