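import Vale.Agent.P097.KStm
import Vale.Agent.P097.Geo2

open Set NormedSpace Complex Metric

namespace Vale.Agent.P097

namespace KScritAux

theorem cos_iff {p m : ℂ} (h1 : 0 < p.re) (h2 : 0 < p.im) (h3 : 0 < m.re) (h4 : m.im < 0) :
    m.re / ‖m‖ - p.re / ‖p‖ = 0 ↔ arg p = -arg m := by
  have hp : p ≠ 0 := fun h => h1.ne' (by simp [h])
  have hm : m ≠ 0 := fun h => h3.ne' (by simp [h])
  obtain ⟨a1, a2⟩ := Geo2Aux.arg_pos h1 h2
  obtain ⟨b1, b2⟩ := Geo2Aux.arg_neg h3 h4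
  have := Real.pi_pos
  rw [← Complex.cos_arg hp, ← Complex.cos_arg hm, ← Real.cos_neg (arg m), sub_eq_zero]
  exact ⟨fun h => (Real.injOn_cos ⟨b1.le, by linarith⟩ ⟨a1.le, by linarith⟩ h).symm,
    fun h => by rw [h]⟩

end KScritAux

theorem scritE (hsag2 : S_sag2) (hGB : S_GB) : S_scrit := by
  intro β b s M d C hβ hb hR
  obtain ⟨M', hM⟩ := bdd_of_per hβ.1.continuous hβ.2
  obtain ⟨c, d₀, hG⟩ := hGB M'
  refine ⟨min d d₀, lt_min hR.dpos hG.dpos, fun x y z h1 h2 h3 h4 => ?_⟩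
  rw [lt_min_iff] at h3 h4
  obtain ⟨p1, -, -, p2, -⟩ := hG.h β hβ.1.continuous hM y (z - y)
    (by rw [abs_of_pos (by linarith)]; exact h4.2.le)
  obtain ⟨m1, -, -, -, m2⟩ := hG.h β hβ.1.continuous hM y (-(y - x))
    (by rw [abs_neg, abs_of_pos (by linarith)]; exact h3.2.le)
  have p3 := hG.cpos.trans_le p1
  have m3 := hG.cpos.trans_le m1
  rw [hsag2 β b s M d C hβ.1.continuous hb hR x y z h1 h2 h3.1 h4.1, Complex.ofReal_eq_zero,
    mul_eq_zero, or_iff_right (by positivity), Geo2Aux.Ee_zero_iff p3 m3]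
  exact KScritAux.cos_iff p3 (p2 (by linarith)) m3 (m2 (by linarith))

end Vale.Agent.P097
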