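import Vale.Agent.P097.KStm

open Set NormedSpace Complex Metric

namespace Vale.Agent.P097

theorem scubE (hsph : S_sph) (hexpl : S_expl) : S_scub := by
  intro β b s M d C hb hR
  obtain ⟨M', hM⟩ := hsph β b s M hb
  obtain ⟨C', hC⟩ := hexpl (max M' C)
  refine ⟨4 * C', fun z hz => ?_⟩
  by_cases h0 : z.2 - z.1 = 0
  · simp [Sc, LA, h0]
  have hω : 0 < ‖z.2 - z.1‖ := norm_pos_iff.2 h0
  have h1 := (hM z ⟨hz.1, hz.2.1, hz.2.2.trans_le hR.dls⟩ _ le_rfl).mono (le_max_left _ C) hω.le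
  have h3 : ‖NormedSpace.exp ((2 : ℂ) • b z.1) * Rc b z - 1‖ ≤ max M' C * ‖z.2 - z.1‖ := by
    rw [← Complex.exp_eq_exp_ℂ, smul_eq_mul]
    exact (hR.h3 z hz).trans (mul_le_mul_of_nonneg_right (le_max_right _ _) hω.le)
  have h4 := hC ℂ _ _ _ _ _ (Rc b z) _ hω (hz.2.2.le.trans hR.dle) h1 (hR.h2 z hz) h3
  have e : Sc b z + (z.2 - z.1) ^ 3 / 6 =
      4 * (LA (cp b z) (z.2 - z.1) (Rc b z) + (1 / 24 : ℂ) • (z.2 - z.1) ^ 3) := by
    rw [Sc, smul_eq_mul]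
    ring
  rw [e, norm_mul, mul_assoc, Complex.norm_ofNat]
  exact mul_le_mul_of_nonneg_left h4 (by norm_num)

end Vale.Agent.P097
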