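import Vale.Agent.P097.KStm

open Set NormedSpace Complex Metric

namespace Vale.Agent.P097

theorem sgfE (hsr : S_sr) (hshol : S_shol) (hspr : S_spr) (hsanti : S_santi) (hscub : S_scub) (hscrit : S_scrit) : S_sgf := by
  intro β b s M hβ hb ⟨η, hη, hP⟩
  obtain ⟨d, C, hR⟩ := hsr β b s M hb
  obtain ⟨C', hC⟩ := hscub β b s M d C hb hR
  obtain ⟨d', hd', hcr⟩ := hscrit β b s M d C hβ hb hR
  have hsub : Om (s / 2) (min d (min d' η)) ⊆ Om (s / 2) d :=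
    fun z hz => ⟨hz.1, hz.2.1, hz.2.2.trans_le (min_le_left _ _)⟩
  refine ⟨s / 2, min d (min d' η), C', half_pos hb.pos, lt_min hR.dpos (lt_min hd' hη),
    (((hshol β b s M hb).2 d C hR).2).mono hsub,
    fun z hz => (hspr β b s M d C hb hR z (hsub hz)).1,
    fun z hz => (hspr β b s M d C hb hR z (hsub hz)).2,
    fun z hz => hsanti β b s M d C hb hR z (hsub hz), fun z hz => hC z (hsub hz), ?_⟩
  intro q p x hq hx hG he
  have h1 : ∀ k, 0 < x (k + 1) - x k ∧ x (k + 1) - x k < d' ∧ x (k + 1) - x k < η := fun k =>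
    ⟨(hG k).1, (lt_min_iff.1 (lt_min_iff.1 (hG k).2).2).1,
      (lt_min_iff.1 (lt_min_iff.1 (hG k).2).2).2⟩
  have key : ∀ k : ℤ, e3 (Sc b) (x (k - 1)) (x k) (x (k + 1)) = 0 ↔ EE β x k = 0 := fun k => by
    have h2 := h1 (k - 1)
    rw [sub_add_cancel] at h2
    exact hcr _ _ _ (sub_pos.1 h2.1) (sub_pos.1 (h1 k).1) h2.2.1 (h1 k).2.1
  exact (key 0).2 (hP q p x hq hx (fun k => ⟨(h1 k).1, (h1 k).2.2⟩)
    fun k h3 h4 => (key k).1 (he k h3 h4))

end Vale.Agent.P097
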