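import Vale.Agent.P097.KStm

open Set NormedSpace Complex Metric

namespace Vale.Agent.P097

namespace KSholAux

variable {β : ℝ → ℝ} {b : ℂ → ℂ} {s M d : ℝ}

theorem mem (h : EX β b s M) {z : ℂ × ℂ} (hz : z ∈ Om (s / 2) d) (y : ℝ) :
    z.1 + cl y * (z.2 - z.1) ∈ St s :=
  seg_mem (hz.1.trans (half_lt_self h.pos)) (hz.2.1.trans (half_lt_self h.pos)) y

theorem cont (h : EX β b s M) : Continuous fun x : Om (s / 2) d × ℝ => cp b x.1 x.2 := by
  have := cl_cont
  exact h.hol.continuousOn.comp_continuous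
    (f := fun x : Om (s / 2) d × ℝ => x.1.1.1 + cl x.2 * (x.1.1.2 - x.1.1.1)) (by fun_prop)
    fun x => mem h x.1.2 x.2

theorem hol (h : EX β b s M) (y : ℝ) : DifferentiableOn ℂ (fun z => cp b z y) (Om (s / 2) d) :=
  h.hol.comp (f := fun z : ℂ × ℂ => z.1 + cl y * (z.2 - z.1)) (by fun_prop) fun _ hz => mem h hz y

theorem ex {U : Set (ℂ × ℂ)} {f : ℂ × ℂ → ℂ} (hf : DifferentiableOn ℂ f U) :
    DifferentiableOn ℂ (fun z => NormedSpace.exp (f z)) U := by
  rw [← Complex.exp_eq_exp_ℂ]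
  exact hf.cexp

theorem hem (h : EX β b s M) (y : ℝ) :
    DifferentiableOn ℂ (fun z => em (cp b z) y) (Om (s / 2) d) := ex ((hol h y).const_mul (-2))

theorem hkk (hp : S_pint) (h : EX β b s M) (y : ℝ) :
    DifferentiableOn ℂ (fun z => kk (cp b z) y) (Om (s / 2) d) :=
  hp _ (fun z t => NormedSpace.exp (cp b z t)) 0 y (oOm _ _) (ex_cont.comp (cont h))
    fun t => ex (hol h t)

theorem hG (hp : S_pint) (h : EX β b s M) (j : ℂ) : DifferentiableOn ℂ (Gc j b) (Om (s / 2) d) := by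
  have hd : DifferentiableOn ℂ (fun z : ℂ × ℂ => z.2 - z.1) (Om (s / 2) d) := by fun_prop
  have cd : Continuous fun z : Om (s / 2) d => z.1.2 - z.1.1 := by fun_prop
  exact hp _ (fun z y => em (cp b z) y * ph j (cp b z) (z.2 - z.1) y) 0 1 (oOm _ _)
    ((em_cont2 (b := fun z : Om (s / 2) d => cp b z) (cont h)).mul
      (ph_cont2 (b := fun z : Om (s / 2) d => cp b z) j (cont h) cd))
    fun y => (hem h y).mul (ex ((hd.mul (hkk hp h y)).const_smul j))

theorem hb (h : EX β b s M) : DifferentiableOn ℂ (fun z : ℂ × ℂ => b z.1) (Om (s / 2) d) :=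
  h.hol.comp differentiableOn_fst fun _ hz => hz.1.trans (half_lt_self h.pos)

end KSholAux

open KSholAux in
theorem sholE (hpint : S_pint) : S_shol := by
  intro β b s M h
  refine ⟨fun j d => hG hpint h j, fun d C r => ?_⟩
  have hR : DifferentiableOn ℂ (Rc b) (Om (s / 2) d) := by
    have k : DifferentiableOn ℂ (fun z : ℂ × ℂ => Complex.exp (4 * b z.1) *
        (Gc I b z * Gc (-I) b z)) (Om (s / 2) d) :=
      ((hb h).const_mul 4).cexp.mul ((hG hpint h I).mul (hG hpint h (-I)))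
    suffices k' : DifferentiableOn ℂ (fun z : ℂ × ℂ => Complex.log (Complex.exp (4 * b z.1) *
        (Gc I b z * Gc (-I) b z))) (Om (s / 2) d) by
      refine (((hb h).const_mul (-2)).cexp.mul (k'.mul_const (2⁻¹ : ℂ)).cexp).congr fun z _ => ?_
      rw [Rc, div_eq_mul_inv]
      rfl
    refine fun z hz => (Complex.differentiableAt_log ?_).comp_differentiableWithinAt z (k z hz)
    have h1 := r.h1 z hz
    have h2 : C * ‖z.2 - z.1‖ < 1 := by
      rcases le_or_gt C 0 with c | c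
      · exact (mul_nonpos_of_nonpos_of_nonneg c (norm_nonneg _)).trans_lt one_pos
      · linarith [mul_lt_mul_of_pos_left hz.2.2 c, r.small]
    have h3 := Complex.mem_slitPlane_of_norm_lt_one (h1.trans_lt h2)
    rwa [add_sub_cancel] at h3
  refine ⟨hR, ?_⟩
  have hd : DifferentiableOn ℂ (fun z : ℂ × ℂ => z.2 - z.1) (Om (s / 2) d) := by fun_prop
  exact (hd.mul (hR.sub (hpint _ (fun z y => em (cp b z) y) 0 1 (oOm _ _)
    (em_cont2 (b := fun z : Om (s / 2) d => cp b z) (cont h)) (hem h)))).const_mul 4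

end Vale.Agent.P097
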