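import Vale.Agent.P097.KStm

open Set NormedSpace Complex Metric

namespace Vale.Agent.P097

namespace KSinlAux

theorem nsq (x y : ℝ) :
    ‖Complex.sin ((x : ℂ) + (y : ℂ) * I)‖ ^ 2 = Real.sin x ^ 2 + Real.sinh |y| ^ 2 := by
  rw [Complex.sin_add_mul_I, ← ofReal_sin, ← ofReal_cos, ← ofReal_cosh, ← ofReal_sinh,
    ← ofReal_mul, ← ofReal_mul, Complex.sq_norm, normSq_add_mul_I, ← Real.abs_sinh, sq_abs,
    mul_pow, mul_pow, Real.cosh_sq, Real.cos_sq']
  ring

theorem sinb (x : ℝ) : 4 * (x - round x) ^ 2 ≤ Real.sin (Real.pi * x) ^ 2 := by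
  have p := Real.pi_pos
  have e : Real.sin (Real.pi * (x - round x)) ^ 2 = Real.sin (Real.pi * x) ^ 2 := by
    rw [mul_sub, mul_comm Real.pi (round x : ℝ), Real.sin_sub_int_mul_pi, mul_pow, sq ((-1 : ℝ) ^ _),
      ← mul_zpow]
    simp
  have h := Real.mul_abs_le_abs_sin (x := Real.pi * (x - round x)) (by
    rw [abs_mul, abs_of_pos p]
    nlinarith [abs_sub_round x])
  rw [abs_mul, abs_of_pos p, ← mul_assoc, div_mul_cancel₀ _ p.ne'] at h
  rw [← e, ← sq_abs (Real.sin _), ← sq_abs (x - round x)]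
  nlinarith [abs_nonneg (x - round x)]

end KSinlAux

theorem sinlE : S_sinl := by
  intro ρ z h0 h1 h
  have p3 := Real.pi_gt_three
  have p4 := Real.pi_le_four
  have e : (Real.pi : ℂ) * z = ((Real.pi * z.re : ℝ) : ℂ) + ((Real.pi * z.im : ℝ) : ℂ) * I := by
    conv_lhs => rw [← re_add_im z]
    push_cast
    ring
  have hN := KSinlAux.nsq (Real.pi * z.re) (Real.pi * z.im)
  rw [← e, abs_mul, abs_of_pos Real.pi_pos] at hN
  have hs := KSinlAux.sinb z.re
  have hρ : ρ ^ 2 ≤ (z.re - round z.re) ^ 2 + |z.im| ^ 2 := by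
    have := pow_le_pow_left₀ h0 (h (round z.re)) 2
    rw [Complex.sq_norm, normSq_apply] at this
    simp only [sub_re, sub_im, intCast_re, intCast_im, sub_zero] at this
    rw [sq_abs]
    linarith
  have n0 := norm_nonneg (Complex.sin (Real.pi * z))
  generalize ‖Complex.sin (Real.pi * z)‖ = N at *
  have y0 := abs_nonneg z.im
  generalize |z.im| = y at *
  have t0 : 0 ≤ Real.pi * y := by positivity
  have s1 : Real.pi * y ≤ Real.sinh (Real.pi * y) := Real.self_le_sinh_iff.2 t0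
  rcases le_total y (1 / 2) with hy | hy
  · have a1 : Real.exp (Real.pi * y) ≤ 16 := by
      have b1 : Real.exp (Real.pi * y) ≤ Real.exp (1 + 1) := Real.exp_le_exp.2 (by nlinarith)
      rw [Real.exp_add] at b1
      nlinarith [Real.exp_one_lt_d9, Real.exp_pos 1]
    have a2 : 2 * y ≤ Real.sinh (Real.pi * y) := by nlinarith
    have a3 : 2 * ρ ≤ N := abs_le_of_sq_le_sq' (by nlinarith) n0 |>.2
    nlinarith
  · have a1 : Real.sinh (Real.pi * y) ≤ N :=
      abs_le_of_sq_le_sq' (by nlinarith [sq_nonneg (Real.sin (Real.pi * z.re))]) n0 |>.2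
    have a2 := Real.add_one_le_exp (Real.pi * y)
    have a3 : Real.exp (-(Real.pi * y)) ≤ 1 := Real.exp_le_one_iff.2 (by linarith)
    have a4 : 1 ≤ Real.pi * y := by nlinarith
    rw [Real.sinh_eq] at a1
    nlinarith

end Vale.Agent.P097
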