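import Vale.Agent.P097.KStm

open Set NormedSpace Complex Metric

namespace Vale.Agent.P097

theorem KSolveAux.avg {a b : ℂ} {B : ℝ} (ha : ‖a‖ ≤ B) (hb : ‖b‖ ≤ B) :
    ‖(a + (starRingEnd ℂ) b) / 2‖ ≤ B := by
  have := norm_add_le a ((starRingEnd ℂ) b)
  rw [norm_conj] at this
  rw [norm_div, Complex.norm_ofNat]
  linarith

theorem solveE (hsolve0 : S_solve0) : S_solve := by
  obtain ⟨C, hC, h⟩ := hsolve0
  refine ⟨C, hC, fun m K σ c r η A δ f hf => ?_⟩
  obtain ⟨g, hg⟩ := h m K σ c r η A δ f hf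
  have n : ∀ z : ℂ × ℂ, ‖(cj z).2‖ = ‖z.2‖ := fun z => norm_conj _
  have h1 : DifferentiableOn ℂ (fun z => (g z + (starRingEnd ℂ) (g (cj z))) / 2)
      (XX (σ - η) (c - 1 / 2) (r * (1 - 1 / K))) := by
    simp only [div_eq_mul_inv _ (2 : ℂ)]
    refine (hg.hol.fun_add fun z hz => DifferentiableAt.differentiableWithinAt ?_).mul_const _
    have := (hg.hol.differentiableAt ((oXX _ _ _).mem_nhds (XX_cj hz))).star_star
    rwa [show star (cj z) = z from cj_cj z] at this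
  have h2 : ∀ z ∈ XX (σ - η) (c - 1 / 2) (r * (1 - 1 / K)),
      (g (z.1 + 1, z.2) + (starRingEnd ℂ) (g (cj (z.1 + 1, z.2)))) / 2 =
        (g z + (starRingEnd ℂ) (g (cj z))) / 2 := fun z hz => by
    rw [hg.per z hz, ← hg.per _ (XX_cj hz)]
    simp only [cj, map_add, map_one]
  refine ⟨fun z => (g z + (starRingEnd ℂ) (g (cj z))) / 2, ⟨h1, h2, fun z hz =>
    KSolveAux.avg (hg.bd z hz) (n z ▸ hg.bd _ (XX_cj hz)), fun z hz => ?_⟩, h1, h2, fun z _ => ?_⟩
  · have a := KSolveAux.avg (hg.df z hz) (n z ▸ hg.df _ (XP_cj hz))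
    have b := hf.pr.real z (XP_mono (by linarith [hf.e0]) le_rfl
      (mul_le_of_le_one_right hf.r0.le (sub_le_self _ (by positivity))) hz)
    rw [b, ← cj_zp, ← cj_zm, map_sub, map_sub, conj_conj] at a
    refine le_of_eq_of_le (congrArg _ ?_) a
    ring
  · simp only [cj_cj, map_div₀, map_add, conj_conj, conj_ofNat, add_comm]

end Vale.Agent.P097
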