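import Vale.Agent.P097.KStm

open Set NormedSpace Complex Metric

namespace Vale.Agent.P097

namespace KSolve0Aux

theorem wt1 (n : ℤ) {c σ : ℝ} {a θ : ℂ} (h : |θ.im| + c * |a.im| ≤ σ) :
    gw (-1) n σ * gw c n |a.im| * ‖ce (n * θ)‖ ≤ 1 := by
  rw [norm_ce, gw, gw, ← Real.exp_add, ← Real.exp_add, Real.exp_le_one_iff]
  have e : ((n : ℂ) * θ).im = (n : ℝ) * θ.im := by simp
  have h1 : -((n : ℝ) * θ.im) ≤ |(n : ℝ)| * |θ.im| := by
    rw [← abs_mul]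
    exact neg_le_abs _
  have h2 : |(n : ℝ)| * (|θ.im| + c * |a.im|) ≤ |(n : ℝ)| * σ :=
    mul_le_mul_of_nonneg_left h (abs_nonneg _)
  have h3 : -(|(n : ℝ)| * σ) + c * |(n : ℝ)| * |a.im| - (n : ℝ) * θ.im ≤ 0 := by linarith
  rw [e]
  nlinarith [Real.pi_pos]

theorem gw_split (n : ℤ) (c σ t : ℝ) : gw (-1) n (σ - c * t) = gw (-1) n σ * gw c n t := by
  rw [gw, gw, gw, ← Real.exp_add]
  congr 1
  ring

theorem ce_per (n : ℤ) (θ : ℂ) : ce (n * (θ + 1)) = ce (n * θ) := by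
  have h : ce (n : ℂ) = 1 := by
    have := ce_real (n : ℝ)
    rw [ee_int] at this
    simpa using this
  rw [mul_add, ce_add, mul_one, h, mul_one]

theorem sum_le (K : ℕ) (F : ℤ → ℂ) {B : ℝ}
    (h : ∀ n : ℤ, n ≠ 0 → |n| ≤ K → ‖F n‖ ≤ B) :
    ‖∑ n ∈ (Finset.Icc (-(K:ℤ)) K).erase 0, F n‖ ≤ 2 * K * B := by
  have hc : ((Finset.Icc (-(K:ℤ)) K).erase 0).card = 2 * K := by
    rw [Finset.card_erase_of_mem (by simp), Int.card_Icc]
    omega
  refine (norm_sum_le _ _).trans ((Finset.sum_le_card_nsmul _ _ B fun n hn => ?_).trans ?_)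
  · rw [Finset.mem_erase, Finset.mem_Icc] at hn
    exact h n hn.1 (abs_le.2 hn.2)
  · rw [hc, nsmul_eq_mul]
    push_cast
    exact le_rfl

variable {m K : ℕ} {σ c r η A δ : ℝ} {f : ℂ × ℂ → ℂ}

theorem sl_mem {α : ℂ} (h0 : α ≠ 0) (hα : ‖α‖ < r) {t : ℂ} (ht : t ∈ St (σ - c * |α.im|)) :
    (t, α) ∈ XP σ c r := by
  have h : |t.im| < σ - c * |α.im| := ht
  exact ⟨⟨by dsimp only; linarith, hα⟩, h0⟩

theorem sl_pos (H : SH m K σ c r η A δ f) {α : ℂ} (hα : ‖α‖ < r) : 0 < σ - c * |α.im| := by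
  have h1 := Complex.abs_im_le_norm α
  have h2 : c * |α.im| ≤ 1 * |α.im| := mul_le_mul_of_nonneg_right H.c1 (abs_nonneg _)
  linarith [H.r2, H.e0]

theorem sl_hol (H : SH m K σ c r η A δ f) {α : ℂ} (h0 : α ≠ 0) (hα : ‖α‖ < r) :
    DifferentiableOn ℂ (fun t => f (t, α)) (St (σ - c * |α.im|)) :=
  H.pr.hol.comp (differentiableOn_id.prodMk (differentiableOn_const α))
    fun _ ht => sl_mem h0 hα ht

theorem sl_fc (hfc1 : S_fc1) (H : SH m K σ c r η A δ f) {α : ℂ} (h0 : α ≠ 0) (hα : ‖α‖ < r)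
    (n : ℤ) : ‖f2 f n α‖ ≤ A * ‖α‖ ^ m * gw (-1) n (σ - c * |α.im|) :=
  (hfc1 (fun t => f (t, α)) _ (sl_pos H hα) (sl_hol H h0 hα)
    fun _ ht => H.pr.per _ (sl_mem h0 hα ht)).2.1 _ (fun _ ht => H.bd _ (sl_mem h0 hα ht)) n

end KSolve0Aux

open KSolve0Aux in
theorem solve0E (hfc1 : S_fc1) (hfc2 : S_fc2) (hpar : S_par) (hdiv : S_div) : S_solve0 := by
  obtain ⟨C0, hC0, hd⟩ := hdiv
  refine ⟨2 * C0 + 3, by linarith, fun m K σ c r η A δ f H => ?_⟩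
  have hK : (2 : ℝ) ≤ K := by exact_mod_cast H.K2
  have he0 := H.e0
  have hA := H.A0
  have hδ := H.d0
  have hG : ∀ n : ℤ, ‖((gw (-1) n σ : ℝ) : ℂ)‖ = gw (-1) n σ := fun n => by
    rw [Complex.norm_real, Real.norm_of_nonneg (gw_pos _ _ _).le]
  have hG0 : ∀ n : ℤ, ((gw (-1) n σ : ℝ) : ℂ) ≠ 0 := fun n => by
    exact_mod_cast (gw_pos _ _ _).ne'
  have key := fun (n : ℤ) (hn : n ≠ 0) (hnK : |n| ≤ K) =>
    hd m K n r c A δ (fun α => f2 f n α / ((gw (-1) n σ : ℝ) : ℂ)) H.m1 H.K2 hn hnK H.r0 H.r1 H.c0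
      H.c1 hA hδ
      (fun α hα => ((hpar f (XP σ c r) (ball 0 r \ {0}) n (oXP _ _ _)
        (isOpen_ball.sdiff isClosed_singleton) H.pr.hol (fun β hβ t _ =>
          sl_mem hβ.2 (mem_ball_zero_iff.1 hβ.1) (by
            change |(t : ℂ).im| < _
            rw [Complex.ofReal_im, abs_zero]
            exact sl_pos H (mem_ball_zero_iff.1 hβ.1))) α hα).differentiableAt.div_const
              _).differentiableWithinAt)
      (fun α hα h0 => by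
        have := sl_fc hfc1 H h0 (mem_ball_zero_iff.1 hα) n
        rw [gw_split] at this
        rw [norm_div, hG, div_le_iff₀ (gw_pos _ _ _)]
        linarith)
      (fun k hk hkr => by
        rw [norm_div, hG, div_le_iff₀ (gw_pos _ _ _)]
        exact H.res n k hn hnK hk hkr)
  choose! g hg1 hg2 hg3 using key
  have hr : r * (1 - 1 / (K : ℝ)) ≤ r := by
    have : (0 : ℝ) ≤ 1 / (K : ℝ) := by positivity
    nlinarith [H.r0]
  have hQ1 : (K : ℝ) ≤ K / η := by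
    rw [le_div_iff₀ he0]
    nlinarith [H.e1]
  have hQ2 : (K : ℝ) ^ (m + 3) ≤ (K / η) ^ (m + 3) := pow_le_pow_left₀ (by linarith) hQ1 _
  have hQ3 : 1 / η ≤ (K / η) ^ (m + 3) :=
    (div_le_div_of_nonneg_right (by linarith) he0.le).trans
      (le_self_pow₀ (by linarith) (by omega))
  refine ⟨fun z => ∑ n ∈ (Finset.Icc (-(K:ℤ)) K).erase 0,
    ((gw (-1) n σ : ℝ) : ℂ) * g n z.2 * ce (n * z.1), ?_, ?_, ?_, ?_⟩
  · refine DifferentiableOn.fun_sum fun n hn => ?_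
    rw [Finset.mem_erase, Finset.mem_Icc] at hn
    refine DifferentiableOn.mul (DifferentiableOn.const_mul ?_ _) ?_
    · exact (hg1 n hn.1 (abs_le.2 hn.2)).comp differentiableOn_snd
        fun z hz => mem_ball_zero_iff.2 (hz.2.trans_le hr)
    · unfold ce
      fun_prop
  · intro z _
    simp only [ce_per]
  · intro z hz
    have hB : 0 ≤ (A + δ) * ‖z.2‖ ^ (m - 1) := by positivity
    refine (sum_le K _ (B := C0 * (K:ℝ) ^ (m + 2) * (A + δ) * ‖z.2‖ ^ (m - 1))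
      fun n hn hnK => ?_).trans ?_
    · have h1 := hg2 n hn hnK z.2 (mem_ball_zero_iff.2 hz.2)
      have h2 := wt1 n (c := c - 1 / 2) (σ := σ) (a := z.2) (θ := z.1) (by linarith [hz.1])
      have h3 : 0 ≤ C0 * (K:ℝ) ^ (m + 2) * (A + δ) * ‖z.2‖ ^ (m - 1) := by positivity
      rw [norm_mul, norm_mul, hG]
      calc _ ≤ gw (-1) n σ * (C0 * (K:ℝ) ^ (m + 2) * (A + δ) * ‖z.2‖ ^ (m - 1) *
            gw (c - 1 / 2) n |z.2.im|) * ‖ce (n * z.1)‖ := by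
            have := gw_pos (-1) n σ
            gcongr
        _ = C0 * (K:ℝ) ^ (m + 2) * (A + δ) * ‖z.2‖ ^ (m - 1) *
            (gw (-1) n σ * gw (c - 1 / 2) n |z.2.im| * ‖ce (n * z.1)‖) := by ring
        _ ≤ _ := mul_le_of_le_one_right h3 h2
    · calc _ = 2 * C0 * (K:ℝ) ^ (m + 3) * ((A + δ) * ‖z.2‖ ^ (m - 1)) := by ring
        _ ≤ (2 * C0 + 3) * (K / η) ^ (m + 3) * ((A + δ) * ‖z.2‖ ^ (m - 1)) := by
            gcongr
            linarith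
        _ = _ := by ring
  · rintro ⟨θ, α⟩ hz
    have h0 : α ≠ 0 := hz.2
    have hα : ‖α‖ < r := hz.1.2.trans_le hr
    have hz1 : |θ.im| + c * |α.im| < σ - η := hz.1.1
    have hT := hfc2 (fun t => f (t, α)) _ _ η (A * ‖α‖ ^ m) K he0 le_rfl (by positivity)
      (sl_hol H h0 hα) (fun _ ht => H.pr.per _ (sl_mem h0 hα ht))
      (fun n _ => sl_fc hfc1 H h0 hα n) θ (by change |θ.im| < _; linarith)
    change ‖f (θ, α) - ∑ n ∈ Finset.Icc (-(K:ℤ)) K, f2 f n α * ce (n * θ)‖ ≤ _ at hT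
    rw [← Finset.add_sum_erase _ _ (a := 0) (by simp), H.mean α h0 hα, zero_mul, zero_add] at hT
    have hS := sum_le K (fun n => ((gw (-1) n σ : ℝ) : ℂ) *
        (sv n α * g n α - f2 f n α / ((gw (-1) n σ : ℝ) : ℂ)) * ce (n * θ))
        (B := (K:ℝ) ^ (m + 1) * δ * ‖α‖ ^ m) fun n hn hnK => by
      have h1 := hg3 n hn hnK α (mem_ball_zero_iff.2 hα) h0
      have h4 : 1 / 2 * |α.im| ≤ c * |α.im| := mul_le_mul_of_nonneg_right H.c0 (abs_nonneg _)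
      have h2 := wt1 n (c := 1 / 2) (σ := σ) (a := α) (θ := θ) (by linarith)
      have h3 : 0 ≤ (K:ℝ) ^ (m + 1) * δ * ‖α‖ ^ m := by positivity
      rw [norm_mul, norm_mul, hG]
      calc _ ≤ gw (-1) n σ * ((K:ℝ) ^ (m + 1) * δ * ‖α‖ ^ m * gw (1 / 2) n |α.im|) *
            ‖ce (n * θ)‖ := by
            have := gw_pos (-1) n σ
            gcongr
        _ = (K:ℝ) ^ (m + 1) * δ * ‖α‖ ^ m *
            (gw (-1) n σ * gw (1 / 2) n |α.im| * ‖ce (n * θ)‖) := by ring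
        _ ≤ _ := mul_le_of_le_one_right h3 h2
    have e : (∑ n ∈ (Finset.Icc (-(K:ℤ)) K).erase 0,
        ((gw (-1) n σ : ℝ) : ℂ) * g n α * ce (n * (θ + α / 2))) -
        (∑ n ∈ (Finset.Icc (-(K:ℤ)) K).erase 0,
        ((gw (-1) n σ : ℝ) : ℂ) * g n α * ce (n * (θ - α / 2))) - f (θ, α) =
        (∑ n ∈ (Finset.Icc (-(K:ℤ)) K).erase 0, ((gw (-1) n σ : ℝ) : ℂ) *
          (sv n α * g n α - f2 f n α / ((gw (-1) n σ : ℝ) : ℂ)) * ce (n * θ)) -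
        (f (θ, α) - ∑ n ∈ (Finset.Icc (-(K:ℤ)) K).erase 0, f2 f n α * ce (n * θ)) := by
      rw [← sub_add, sub_add_eq_add_sub, ← Finset.sum_sub_distrib, ← Finset.sum_add_distrib]
      congr 1
      refine Finset.sum_congr rfl fun n _ => ?_
      have e1 : (n : ℂ) * (θ - α / 2) = n * θ + n * (-(α / 2)) := by ring
      rw [e1, mul_add, ce_add, ce_add, sv_eq, mul_sub, mul_div_cancel₀ _ (hG0 n)]
      ring
    change ‖(∑ n ∈ (Finset.Icc (-(K:ℤ)) K).erase 0,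
        ((gw (-1) n σ : ℝ) : ℂ) * g n α * ce (n * (θ + α / 2))) -
        (∑ n ∈ (Finset.Icc (-(K:ℤ)) K).erase 0,
        ((gw (-1) n σ : ℝ) : ℂ) * g n α * ce (n * (θ - α / 2))) - f (θ, α)‖ ≤
        (2 * C0 + 3) * (K / η) ^ (m + 3) * (δ + A * Real.exp (-(η * K))) * ‖α‖ ^ m
    rw [e]
    refine (norm_sub_le _ _).trans ((add_le_add hS hT).trans ?_)
    have hQ0 : (0 : ℝ) ≤ (K / η) ^ (m + 3) := by positivity
    have a1 : 2 * (K : ℝ) * (K:ℝ) ^ (m + 1) ≤ (2 * C0 + 3) * (K / η) ^ (m + 3) := by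
      have b1 : (K : ℝ) ^ (m + 2) ≤ (K : ℝ) ^ (m + 3) := pow_le_pow_right₀ (by linarith) (by omega)
      have b2 : 2 * (K : ℝ) * (K:ℝ) ^ (m + 1) = 2 * (K : ℝ) ^ (m + 2) := by ring
      nlinarith [mul_nonneg hC0 hQ0]
    have a2 : 1 / η ≤ (2 * C0 + 3) * (K / η) ^ (m + 3) := by nlinarith [mul_nonneg hC0 hQ0]
    calc _ = 2 * (K : ℝ) * (K:ℝ) ^ (m + 1) * (δ * ‖α‖ ^ m) +
          1 / η * (A * Real.exp (-(η * K)) * ‖α‖ ^ m) := by ring
      _ ≤ (2 * C0 + 3) * (K / η) ^ (m + 3) * (δ * ‖α‖ ^ m) +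
          (2 * C0 + 3) * (K / η) ^ (m + 3) * (A * Real.exp (-(η * K)) * ‖α‖ ^ m) := by gcongr
      _ = _ := by ring

end Vale.Agent.P097
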