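import Vale.Agent.P097.KStm

open Set NormedSpace Complex Metric

namespace Vale.Agent.P097

namespace KSphAux

theorem st_mono {σ σ' : ℝ} (h : σ ≤ σ') : St σ ⊆ St σ' := fun _ hz => lt_of_lt_of_le hz h

theorem step {g : ℂ → ℂ} {σ σ' ρ A : ℝ} (hρ : 0 < ρ) (hσ : σ' + ρ ≤ σ)
    (hg : DifferentiableOn ℂ g (St σ)) (hA : ∀ z ∈ St σ, ‖g z‖ ≤ A) :
    DifferentiableOn ℂ (deriv g) (St σ') ∧ ∀ z ∈ St σ', ‖deriv g z‖ ≤ A / ρ := by
  refine ⟨(hg.deriv (oSt σ)).mono (st_mono (by linarith)), fun z hz => ?_⟩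
  have k : ∀ t ∈ closedBall z ρ, t ∈ St σ := fun t ht => by
    have h1 := im_ball ht
    have h2 : |z.im| < σ' := hz
    change |t.im| < σ
    linarith
  exact cauchy hρ (fun t ht => hg.differentiableAt ((oSt σ).mem_nhds (k t ht)))
    fun t ht => hA t (k t (sphere_subset_closedBall ht))

theorem cvx (σ : ℝ) : Convex ℝ (St σ) := by
  have e : St σ = {z : ℂ | -σ < z.im} ∩ {z : ℂ | z.im < σ} :=
    Set.ext fun z => abs_lt (a := z.im) (b := σ)
  rw [e]
  exact (convex_halfSpace_im_gt _).inter (convex_halfSpace_im_lt _)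

theorem tay {U : Set ℂ} (hU : Convex ℝ U) {a : ℂ} (ha : a ∈ U) {g g' : ℂ → ℂ} {A : ℝ} (k : ℕ)
    (hA : 0 ≤ A) (h : ∀ t ∈ U, HasDerivAt g (g' t) t) (h' : ∀ t ∈ U, ‖g' t‖ ≤ A * ‖t - a‖ ^ k)
    (h0 : g a = 0) : ∀ t ∈ U, ‖g t‖ ≤ A * ‖t - a‖ ^ (k + 1) := fun w hw => by
  have := mvt (g := g) (g' := g') (a := a) (b := w) (M := A * ‖w - a‖ ^ k) fun t ht => by
    have h1 := hU.segment_subset ha hw ht
    have h2 := (convex_closedBall a ‖w - a‖).segment_subset
      (mem_closedBall_self (norm_nonneg _)) (mem_closedBall_iff_norm.2 le_rfl) ht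
    exact ⟨h t h1, (h' t h1).trans (mul_le_mul_of_nonneg_left
      (pow_le_pow_left₀ (norm_nonneg _) (mem_closedBall_iff_norm.1 h2) k) hA)⟩
  rwa [h0, sub_zero, mul_assoc, ← pow_succ] at this

end KSphAux

open KSphAux

theorem sphE : S_sph := by
  intro β b s M h
  have hs := h.pos
  have hρ : 0 < s / 6 := by positivity
  have hM : 0 ≤ M := (norm_nonneg _).trans (h.bd 0 (by simpa [St] using hs))
  obtain ⟨d1, b1⟩ := step (σ' := 5 * s / 6) hρ (by linarith) h.hol h.bd
  obtain ⟨d2, b2⟩ := step (σ' := 4 * s / 6) hρ (by linarith) d1 b1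
  obtain ⟨-, b3⟩ := step (σ' := s / 2) hρ (by linarith) d2 b2
  have n1 : 0 ≤ M / (s / 6) := by positivity
  have n2 : 0 ≤ M / (s / 6) / (s / 6) := by positivity
  have n3 : 0 ≤ M / (s / 6) / (s / 6) / (s / 6) := by positivity
  generalize M / (s / 6) / (s / 6) / (s / 6) = M3 at b3 n3
  generalize M / (s / 6) / (s / 6) = M2 at b2 n2
  generalize M / (s / 6) = M1 at b1 n1
  refine ⟨1 + M + M1 + M2 + M3, fun z hz ω hω => ?_⟩
  have ha : z.1 ∈ St (s / 2) := hz.1
  have h0 : 0 ≤ ω := (norm_nonneg _).trans hω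
  have e : ∀ {g : ℂ → ℂ} {σ : ℝ}, s / 2 ≤ σ → DifferentiableOn ℂ g (St σ) → ∀ t ∈ St (s / 2),
      HasDerivAt g (deriv g t) t := fun k hg t ht =>
    (hg.differentiableAt ((oSt _).mem_nhds (st_mono k ht))).hasDerivAt
  have t2 := tay (cvx _) ha (g := fun t => deriv (deriv b) t - deriv (deriv b) z.1) 0 n3
    (fun t ht => (e (by linarith) d2 t ht).sub_const _) (by simpa using b3) (sub_self _)
  have t1 := tay (cvx _) ha
    (g := fun t => deriv b t - deriv b z.1 - deriv (deriv b) z.1 * (t - z.1)) 1 n3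
    (fun t ht => (((e (by linarith) d1 t ht).sub_const _).fun_sub
      (((hasDerivAt_id' t).sub_const z.1).const_mul _)).congr_deriv (by rw [mul_one])) t2 (by simp)
  have t0 := tay (cvx _) ha (g := fun t => b t - b z.1 - deriv b z.1 * (t - z.1) -
      deriv (deriv b) z.1 / 2 * (t - z.1) ^ 2) 2 n3
    (fun t ht => ((((e (by linarith) h.hol t ht).sub_const _).fun_sub
      (((hasDerivAt_id' t).sub_const z.1).const_mul _)).fun_sub
      ((((hasDerivAt_id' t).sub_const z.1).fun_pow 2).const_mul _)).congr_deriv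
        (by push_cast; ring)) t1 (by simp)
  refine ⟨h.hol.continuousOn.comp_continuous (by have := cl_cont; fun_prop)
    fun y => st_mono (by linarith) (seg_mem hz.1 hz.2.1 y), ?_, ?_, ?_, ?_, fun y hy => ?_⟩
  · linarith [h.bd _ (st_mono (by linarith) ha)]
  · linarith [b1 _ (st_mono (by linarith) ha)]
  · rw [norm_div, Complex.norm_two]
    linarith [b2 _ (st_mono (by linarith) ha)]
  · exact hω.trans (le_mul_of_one_le_left h0 (by linarith))
  · have k := t0 _ (seg_mem hz.1 hz.2.1 y)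
    have k2 : ‖(y : ℂ) * (z.2 - z.1)‖ ≤ ω := by
      rw [norm_mul, Complex.norm_real, Real.norm_of_nonneg hy.1]
      exact (mul_le_of_le_one_left (norm_nonneg _) hy.2).trans hω
    rw [cp]
    rw [cl_eq hy] at k ⊢
    rw [add_sub_cancel_left] at k
    refine le_of_eq_of_le (congrArg norm ?_) (k.trans (mul_le_mul (by linarith)
      (pow_le_pow_left₀ (norm_nonneg _) k2 3) (by positivity) (by linarith)))
    simp only [smul_eq_mul]
    ring

end Vale.Agent.P097
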