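import Vale.Agent.P097.KStm

open Set NormedSpace Complex Metric

namespace Vale.Agent.P097

namespace KSprAux

theorem int_conj (f : ℝ → ℂ) (a c : ℝ) :
    ∫ y in a..c, (starRingEnd ℂ) (f y) = (starRingEnd ℂ) (∫ y in a..c, f y) := by
  simp only [intervalIntegral, integral_conj, map_sub]

theorem ex_conj (x : ℂ) :
    NormedSpace.exp ((starRingEnd ℂ) x) = (starRingEnd ℂ) (NormedSpace.exp x) := by
  rw [← Complex.exp_eq_exp_ℂ, Complex.exp_conj]

theorem kk_conj (f : ℝ → ℂ) (y : ℝ) :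
    kk (fun y => (starRingEnd ℂ) (f y)) y = (starRingEnd ℂ) (kk f y) := by
  unfold kk
  rw [← int_conj]
  simp only [ex_conj]

theorem em_conj (f : ℝ → ℂ) (y : ℝ) :
    em (fun y => (starRingEnd ℂ) (f y)) y = (starRingEnd ℂ) (em f y) := by
  unfold em
  rw [← ex_conj, smul_eq_mul, smul_eq_mul, map_mul, map_neg, conj_ofNat]

theorem ph_conj' (j : ℂ) (f : ℝ → ℂ) (d : ℂ) (y : ℝ) :
    ph ((starRingEnd ℂ) j) (fun y => (starRingEnd ℂ) (f y)) ((starRingEnd ℂ) d) y =
      (starRingEnd ℂ) (ph j f d y) := by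
  unfold ph
  rw [← ex_conj, smul_eq_mul, smul_eq_mul, map_mul, map_mul, kk_conj]

theorem GG_conj' (j : ℂ) (f : ℝ → ℂ) (d : ℂ) :
    GG ((starRingEnd ℂ) j) (fun y => (starRingEnd ℂ) (f y)) ((starRingEnd ℂ) d) =
      (starRingEnd ℂ) (GG j f d) := by
  unfold GG
  rw [← int_conj]
  simp only [em_conj, ph_conj', map_mul]

theorem LA_conj (f : ℝ → ℂ) (d R : ℂ) :
    LA (fun y => (starRingEnd ℂ) (f y)) ((starRingEnd ℂ) d) ((starRingEnd ℂ) R) =
      (starRingEnd ℂ) (LA f d R) := by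
  unfold LA
  rw [map_mul, map_sub, ← int_conj]
  simp only [em_conj]

theorem log_conj' {u : ℂ} (h : ‖u - 1‖ ≤ 1 / 4) :
    Complex.log ((starRingEnd ℂ) u) = (starRingEnd ℂ) (Complex.log u) := by
  refine Complex.log_conj u fun hπ => ?_
  have h1 := (Complex.arg_eq_pi_iff.1 hπ).1
  have h2 := (Complex.abs_re_le_norm (u - 1)).trans h
  rw [sub_re, one_re, abs_le] at h2
  linarith [h2.1]

end KSprAux

open KSprAux in
theorem sprE : S_spr := by
  intro β b s M d C hb hR z hz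
  have hs := hb.pos
  have h1 : |z.1.im| < s := by linarith [hz.1]
  have h2 : |z.2.im| < s := by linarith [hz.2.1]
  constructor
  · have e1 : cp b (z.1 + 1, z.2 + 1) = cp b z := by
      funext y
      have := hb.per _ (seg_mem h1 h2 y)
      rw [cp, cp, ← this]
      congr 1
      ring
    have e2 : z.2 + 1 - (z.1 + 1) = z.2 - z.1 := by ring
    have e3 : b (z.1 + 1) = b z.1 := hb.per _ h1
    simp only [Sc, Rc, Gc, e1, e2, e3]
  · have e1 : cp b (cj z) = fun y => (starRingEnd ℂ) (cp b z y) := by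
      funext y
      rw [cp, cp, ← hb.real _ (seg_mem h1 h2 y)]
      simp only [cj, map_add, map_mul, map_sub, conj_ofReal]
    have e2 : (cj z).2 - (cj z).1 = (starRingEnd ℂ) (z.2 - z.1) := by
      simp only [cj, map_sub]
    have e3 : b (cj z).1 = (starRingEnd ℂ) (b z.1) := hb.real _ h1
    have e4 : Gc I b (cj z) = (starRingEnd ℂ) (Gc (-I) b z) := by
      rw [Gc, Gc, e1, e2, ← GG_conj', map_neg, conj_I, neg_neg]
    have e5 : Gc (-I) b (cj z) = (starRingEnd ℂ) (Gc I b z) := by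
      rw [Gc, Gc, e1, e2, ← GG_conj', conj_I]
    have hu : ‖Complex.exp (4 * b z.1) * (Gc I b z * Gc (-I) b z) - 1‖ ≤ 1 / 4 := by
      have k1 := hR.h1 z hz
      have k2 := hR.small
      have k3 : ‖z.2 - z.1‖ < d := hz.2.2
      rcases le_or_gt 0 C with hC | hC
      · nlinarith
      · nlinarith [norm_nonneg (z.2 - z.1)]
    have e6 : Complex.exp (4 * b (cj z).1) * (Gc I b (cj z) * Gc (-I) b (cj z)) =
        (starRingEnd ℂ) (Complex.exp (4 * b z.1) * (Gc I b z * Gc (-I) b z)) := by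
      rw [e3, e4, e5, map_mul, map_mul, ← Complex.exp_conj, map_mul, conj_ofNat, mul_comm
        ((starRingEnd ℂ) (Gc (-I) b z))]
    have e7 : Rc b (cj z) = (starRingEnd ℂ) (Rc b z) := by
      rw [Rc, Rc, e6, log_conj' hu, e3, map_mul, ← Complex.exp_conj, ← Complex.exp_conj, map_mul,
        map_neg, conj_ofNat, map_div₀, conj_ofNat]
    rw [Sc, Sc, e1, e2, e7, LA_conj, map_mul, conj_ofNat]

end Vale.Agent.P097
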