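import Vale.Agent.P097.KStm

open Set NormedSpace Complex Metric

namespace Vale.Agent.P097

namespace KSrAux

theorem key (hA : S_expA) (hS : S_expS) (M : ℝ) : ∃ C : ℝ, 0 < C ∧
    ∀ (ω : ℝ) (b0 b1 b2 d : ℂ) (b : ℝ → ℂ), 0 < ω → ω ≤ 1 → PH M ω b0 b1 b2 d b →
      ‖Complex.exp (4 * b0) * (GG I b d * GG (-I) b d) - 1‖ ≤ C * ω := by
  obtain ⟨CA, hA⟩ := hA M
  obtain ⟨CS, hS⟩ := hS M
  obtain ⟨K, K1, K2, K3, K4, K5⟩ : ∃ K, 1 ≤ K ∧ M ≤ K ∧ Real.exp M ≤ K ∧ CA ≤ K ∧ CS ≤ K := by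
    have := Real.exp_pos M
    have := abs_nonneg M
    have := abs_nonneg CA
    have := abs_nonneg CS
    exact ⟨1 + |M| + Real.exp M + |CA| + |CS|, by linarith, by linarith [le_abs_self M],
      by linarith, by linarith [le_abs_self CA], by linarith [le_abs_self CS]⟩
  obtain ⟨c, hc⟩ : ∃ c, c = K + K + K * K ^ 2 + 3 * K ^ 2 * K ^ 3 := ⟨_, rfl⟩
  have c0 : 0 < c := by rw [hc]; positivity
  refine ⟨c * (c + 2) + K ^ 2 * c ^ 2, by positivity, fun ω b0 b1 b2 d b h0 h1 h => ?_⟩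
  have a := hA ℂ ω b0 b1 b2 d b h0 h1 h
  have s := hS ℂ ω b0 b1 b2 d b h0 h1 h
  have e2 : NormedSpace.exp ((2 : ℂ) • b0) = NormedSpace.exp b0 ^ 2 := by
    rw [two_smul, ex_add, sq]
  have e4 : Complex.exp (4 * b0) = NormedSpace.exp b0 ^ 4 := by
    rw [← Complex.exp_eq_exp_ℂ, ← Complex.exp_nat_mul]; norm_num
  have nE : ‖NormedSpace.exp b0‖ ≤ K := (ex_le b0).trans ((Real.exp_le_exp.2 h.h0).trans K3)
  have n1 := h.h1.trans K2
  have n2 := h.h2.trans K2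
  have nd : ‖d‖ ≤ K * ω := h.hd.trans (by gcongr)
  have nd' : ‖d‖ ≤ K := nd.trans (mul_le_of_le_one_right (by linarith) h1)
  have KK : K ≤ K ^ 2 := by nlinarith
  have q1 : ‖b1 ^ 2‖ ≤ K ^ 2 := by rw [norm_pow]; gcongr
  have q2 : ‖NormedSpace.exp b0 ^ 2‖ ≤ K ^ 2 := by rw [norm_pow]; gcongr
  have na : ‖a2 b0 b1 b2‖ ≤ 3 * K ^ 2 := by
    refine (norm_sub_le _ _).trans ?_
    rw [norm_smul, norm_smul]
    have := norm_sub_le (b1 ^ 2) b2
    norm_num at this q1 q2 ⊢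
    nlinarith
  have nb : ‖b3 b0 b1 b2‖ ≤ 3 * K ^ 2 := by
    refine (norm_sub_le _ _).trans ((add_le_add_left (norm_sub_le _ _) _).trans ?_)
    rw [norm_smul, norm_smul, norm_smul]
    norm_num at q1 q2 ⊢
    nlinarith
  have w3 : ω ^ 3 ≤ ω := pow_le_of_le_one h0.le h1 (by norm_num)
  have w4 : ω ^ 4 ≤ ω := pow_le_of_le_one h0.le h1 (by norm_num)
  have a' := a.trans (show CA * ω ^ 3 ≤ K * ω from
    (mul_le_mul_of_nonneg_right K4 (by positivity)).trans (by gcongr))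
  have s' := s.trans (show CS * ω ^ 4 ≤ K * ω from
    (mul_le_mul_of_nonneg_right K5 (by positivity)).trans (by gcongr))
  rw [e2] at a'
  rw [e4]
  generalize NormedSpace.exp b0 = E at *
  have t1 : ‖b1 * d‖ ≤ K * (K * ω) := by rw [norm_mul]; gcongr
  have t2 : ‖a2 b0 b1 b2 * d ^ 2‖ ≤ 3 * K ^ 2 * (K * (K * ω)) := by
    rw [norm_mul, sq d, norm_mul]; gcongr
  have t3 : ‖b1 * d ^ 2‖ ≤ K * (K * (K * ω)) := by rw [norm_mul, sq d, norm_mul]; gcongr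
  have t4 : ‖b3 b0 b1 b2 * d ^ 3‖ ≤ 3 * K ^ 2 * (K ^ 2 * (K * ω)) := by
    rw [norm_mul, pow_succ d, norm_mul, norm_pow]; gcongr
  set A := E ^ 2 * ((1 / 2 : ℂ) • (GG I b d + GG (-I) b d)) with hA'
  set S := E * ((-I / 2) • (GG I b d - GG (-I) b d)) with hS'
  have p1 : 0 ≤ K ^ 2 * ω * (K - 1) := by have := sub_nonneg.2 K1; positivity
  have p2 : 0 ≤ K ^ 4 * ω * (K - 1) := by have := sub_nonneg.2 K1; positivity
  have p3 : 0 ≤ K * ω := by positivity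
  have p4 : 0 ≤ K ^ 3 * ω := by positivity
  have hA1 : ‖A - 1‖ ≤ c * ω := by
    have e : A - 1 = A - (1 - b1 * d + a2 b0 b1 b2 * d ^ 2) - b1 * d + a2 b0 b1 b2 * d ^ 2 := by
      ring
    rw [e, hc]
    refine (norm_add_le _ _).trans ((add_le_add_left (norm_sub_le _ _) _).trans ?_)
    nlinarith
  have hS1 : ‖S‖ ≤ c * ω := by
    have := norm_sub_norm_le S ((1 / 2 : ℂ) • d - (1 / 2 : ℂ) • (b1 * d ^ 2) + b3 b0 b1 b2 * d ^ 3)
    have h2 := norm_add_le ((1 / 2 : ℂ) • d - (1 / 2 : ℂ) • (b1 * d ^ 2)) (b3 b0 b1 b2 * d ^ 3)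
    have h3 := norm_sub_le ((1 / 2 : ℂ) • d) ((1 / 2 : ℂ) • (b1 * d ^ 2))
    rw [norm_smul, norm_smul, show ‖(1 / 2 : ℂ)‖ = 1 / 2 by norm_num] at h3
    rw [hc]
    nlinarith
  have e : E ^ 4 * (GG I b d * GG (-I) b d) - 1 = (A - 1) * (A - 1 + 2) + E ^ 2 * (S * S) := by
    rw [hA', hS']
    simp only [smul_eq_mul]
    linear_combination (-(E ^ 4 * (GG I b d - GG (-I) b d) ^ 2 / 4)) * I_mul_I
  have cw : c * ω ≤ c := mul_le_of_le_one_right c0.le h1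
  have hA2 : ‖A - 1 + 2‖ ≤ c + 2 := (norm_add_le _ _).trans (by norm_num; linarith)
  rw [e]
  refine (norm_add_le _ _).trans ?_
  rw [norm_mul, norm_mul, norm_mul]
  calc _ ≤ c * ω * (c + 2) + K ^ 2 * (c * ω * c) := by
        gcongr
        exact hS1.trans cw
    _ = _ := by ring

theorem root {u : ℂ} (hu : u ≠ 0) :
    Complex.exp (log u / 2) ^ 2 = u ∧ ‖Complex.exp (log u / 2) - 1‖ ≤ ‖u - 1‖ := by
  have h1 : Complex.exp (log u / 2) ^ 2 = u := by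
    rw [← Complex.exp_nat_mul]
    push_cast
    rw [mul_div_cancel₀ _ two_ne_zero, exp_log hu]
  refine ⟨h1, ?_⟩
  have h2 : 0 ≤ (Complex.exp (log u / 2)).re := by
    rw [exp_re]
    refine mul_nonneg (Real.exp_pos _).le (Real.cos_nonneg_of_neg_pi_div_two_le_of_le ?_ ?_)
    · rw [div_ofNat_im, log_im]; linarith [neg_pi_lt_arg u]
    · rw [div_ofNat_im, log_im]; linarith [arg_le_pi u]
  generalize Complex.exp (log u / 2) = v at h1 h2
  have h3 : 1 ≤ ‖v + 1‖ := le_trans (by simpa using h2) (re_le_norm (v + 1))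
  rw [← h1, show v ^ 2 - 1 = (v - 1) * (v + 1) by ring, norm_mul]
  exact le_mul_of_one_le_right (norm_nonneg _) h3

end KSrAux

theorem srE (hsph : S_sph) (hexpA : S_expA) (hexpS : S_expS) : S_sr := by
  intro β b s M hb
  obtain ⟨M', hM⟩ := hsph β b s M hb
  obtain ⟨C, hC, key⟩ := KSrAux.key hexpA hexpS M'
  have hs := hb.pos
  obtain ⟨d, d0, d1, d2, d3⟩ : ∃ d : ℝ, 0 < d ∧ d ≤ 1 ∧ d ≤ s / 4 ∧ d ≤ 1 / (4 * C) :=
    ⟨min 1 (min (s / 4) (1 / (4 * C))), by positivity, min_le_left _ _,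
      (min_le_right _ _).trans (min_le_left _ _), (min_le_right _ _).trans (min_le_right _ _)⟩
  have d4 : C * d ≤ 1 / 4 := by
    rw [le_div_iff₀ (by positivity)] at d3
    linarith
  have h1 : ∀ z ∈ Om (s / 2) d,
      ‖Complex.exp (4 * b z.1) * (Gc I b z * Gc (-I) b z) - 1‖ ≤ C * ‖z.2 - z.1‖ := by
    intro z hz
    refine le_of_forall_gt_imp_ge_of_dense fun a ha => ?_
    have a0 : 0 < a := lt_of_le_of_lt (by positivity) ha
    refine (key (min 1 (a / C)) _ _ _ _ _ (by positivity) (min_le_left _ _)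
      (hM z ⟨hz.1, hz.2.1, hz.2.2.trans_le d2⟩ _ (le_min (hz.2.2.le.trans d1) ?_))).trans ?_
    · rw [le_div_iff₀ hC]; linarith
    · rw [mul_comm, ← le_div_iff₀ hC]; exact min_le_right _ _
  have h0 : ∀ z ∈ Om (s / 2) d, Complex.exp (4 * b z.1) * (Gc I b z * Gc (-I) b z) ≠ 0 := by
    intro z hz e
    have := h1 z hz
    rw [e] at this
    have h2 := mul_le_mul_of_nonneg_left hz.2.2.le hC.le
    norm_num at this
    linarith
  refine ⟨d, C, d0, d1, d2, d4, h1, fun z hz => ?_, fun z hz => ?_⟩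
  · rw [Rc, mul_pow, (KSrAux.root (h0 z hz)).1, ← mul_assoc, ← Complex.exp_nat_mul,
      ← Complex.exp_add, show ((2 : ℕ) : ℂ) * (-2 * b z.1) + 4 * b z.1 = 0 by push_cast; ring,
      Complex.exp_zero, one_mul]
  · rw [Rc, ← mul_assoc, ← Complex.exp_add, show 2 * b z.1 + -2 * b z.1 = 0 by ring,
      Complex.exp_zero, one_mul]
    exact (KSrAux.root (h0 z hz)).2.trans (h1 z hz)

end Vale.Agent.P097
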