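import Vale.Agent.P097.Main
import Vale.Agent.P097.KFc1
import Vale.Agent.P097.KFc2
import Vale.Agent.P097.KPar
import Vale.Agent.P097.KPint
import Vale.Agent.P097.KSinl
import Vale.Agent.P097.KQuot
import Vale.Agent.P097.KDiva
import Vale.Agent.P097.KDivb
import Vale.Agent.P097.KDiv
import Vale.Agent.P097.KSolve0
import Vale.Agent.P097.KSolve
import Vale.Agent.P097.KOrd
import Vale.Agent.P097.KGd5
import Vale.Agent.P097.KGdc
import Vale.Agent.P097.KGd
import Vale.Agent.P097.KQ3
import Vale.Agent.P097.KK1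
import Vale.Agent.P097.KK2
import Vale.Agent.P097.KK3
import Vale.Agent.P097.KK4
import Vale.Agent.P097.KLf
import Vale.Agent.P097.KDs
import Vale.Agent.P097.KHfp
import Vale.Agent.P097.KMa1
import Vale.Agent.P097.KMela
import Vale.Agent.P097.KMelb
import Vale.Agent.P097.KMelg
import Vale.Agent.P097.KMel1
import Vale.Agent.P097.KJb
import Vale.Agent.P097.KRid
import Vale.Agent.P097.KM2a
import Vale.Agent.P097.KM2b
import Vale.Agent.P097.KMel2
import Vale.Agent.P097.KMu
import Vale.Agent.P097.KNs3a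
import Vale.Agent.P097.KNs3b
import Vale.Agent.P097.KNs
import Vale.Agent.P097.KNum
import Vale.Agent.P097.KLim
import Vale.Agent.P097.KKam
import Vale.Agent.P097.KExt
import Vale.Agent.P097.KSph
import Vale.Agent.P097.KSr
import Vale.Agent.P097.KShol
import Vale.Agent.P097.KSpr
import Vale.Agent.P097.KSanti
import Vale.Agent.P097.KExpl
import Vale.Agent.P097.KScub
import Vale.Agent.P097.KSag1
import Vale.Agent.P097.KSag2
import Vale.Agent.P097.KScrit
import Vale.Agent.P097.KGeo2p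
import Vale.Agent.P097.KSgf
import Vale.Agent.P097.KRx
import Vale.Agent.P097.KGb2
import Vale.Agent.P097.KAgr
import Vale.Agent.P097.KFin
import Vale.Agent.P097.KCov

namespace Vale.Agent.P097

theorem p_fc1 : S_fc1 := fc1E

theorem p_fc2 : S_fc2 := fc2E p_fc1 p_fs

theorem p_par : S_par := parE

theorem p_pint : S_pint := pintE

theorem p_sinl : S_sinl := sinlE

theorem p_quot : S_quot := quotE p_sinl

theorem p_diva : S_diva := divaE

theorem p_divb : S_divb := divbE

theorem p_div : S_div := divE p_quot p_diva p_divb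

theorem p_solve0 : S_solve0 := solve0E p_fc1 p_fc2 p_par p_div

theorem p_solve : S_solve := solveE p_solve0

theorem p_ord : S_ord := ordE

theorem p_gd5 : S_gd5 := gd5E p_ord

theorem p_gdc : S_gdc := gdcE

theorem p_gd : S_gd := gdE p_ord p_gd5 p_gdc

theorem p_q3 : S_q3 := q3E

theorem p_k1 : S_k1 := k1E

theorem p_k2 : S_k2 := k2E

theorem p_k3 : S_k3 := k3E p_fc1

theorem p_k4 : S_k4 := k4E

theorem p_lf : S_lf := lfE

theorem p_ds : S_ds := dsE

theorem p_hfp : S_hfp := hfpE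

theorem p_ma1 : S_ma1 := ma1E

theorem p_mela : S_mela := melaE p_ds p_hfp p_ma1

theorem p_melb : S_melb := melbE

theorem p_melg : S_melg := melgE p_mela p_melb

theorem p_mel1 : S_mel1 := mel1E p_melg p_fc1

theorem p_jb : S_jb := jbE p_fc1 p_fc2 p_par p_quot

theorem p_rid : S_rid := ridE p_fc1 p_par

theorem p_m2a : S_m2a := m2aE p_fc1 p_par p_rid

theorem p_m2b : S_m2b := m2bE p_fc1

theorem p_mel2 : S_mel2 := mel2E p_fc1 p_m2a p_m2b

theorem p_mu : S_mu := muE p_par

theorem p_ns3a : S_ns3a := ns3aE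

theorem p_ns3b : S_ns3b := ns3bE

theorem p_ns : S_ns := nsE p_solve p_mel1 p_jb p_mel2 p_mu p_ns3a p_ns3b

theorem p_num : S_num := numE

theorem p_lim : S_lim := limE p_k1

theorem p_kf : S_kf := kfE p_q3 p_k1 p_k2 p_k3 p_k4 p_lf

theorem p_kam : S_kam := kamE p_kf p_ns p_num p_lim

theorem p_ext : S_ext := extE p_fs

theorem p_sph : S_sph := sphE

theorem p_sr : S_sr := srE p_sph p_expA p_expS

theorem p_shol : S_shol := sholE p_pint

theorem p_spr : S_spr := sprE

theorem p_santi : S_santi := santiE p_shol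

theorem p_expl : S_expl := explE p_expA p_expS

theorem p_scub : S_scub := scubE p_sph p_expl

theorem p_sag1 : S_sag1 := sag1E

theorem p_sag2 : S_sag2 := sag2E p_der p_shol p_sag1

theorem p_scrit : S_scrit := scritE p_sag2 p_GB

theorem p_geo2p : S_geo2p := geo2pE p_chord p_GB

theorem p_sgf : S_sgf := sgfE p_sr p_shol p_spr p_santi p_scub p_scrit

theorem p_rx : S_rx := rxE

theorem p_gb2 : S_gb2 := gb2E p_GB

theorem p_agr : S_agr := agrE p_shol p_sag1 p_GB

theorem p_fin : S_fin := finE p_chord p_GB p_gb2 p_prim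

theorem p_cov : S_cov := covE

theorem mainK (γ : ℝ → ℂ) (L : ℝ) (h : Table γ L) (hg : Graphs γ L) :
    AnalyticOnNhd ℝ γ Set.univ ∧ ∃ (r : ℝ) (σ d : ℝ × ℝ → ℝ), AAng γ L r σ d ∧
      ∃ η : ℝ, 0 < η ∧ ∀ s δ : ℝ, 0 < δ → δ < η →
        ∃ θ a : ℝ, 0 < a ∧ a < r ∧ σ (θ, a) = s ∧ d (θ, a) = δ :=
  finalK p_geo1 p_geo2 p_geo3 p_RM p_ap p_fd p_ind p_an p_ext p_geo2p p_sgf p_gd p_kam p_sr p_scrit
    p_rx p_agr p_fin p_cov γ L h hg

end Vale.Agent.P097
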