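import Vale.Agent.P097.KStm

open Set NormedSpace Complex Metric

namespace Vale.Agent.P097

namespace KNs3aAux

theorem lip {f : ℂ × ℂ → ℂ} {σ c r η A : ℝ} {α a b : ℂ} (hf : DifferentiableOn ℂ f (XP σ c r))
    (hη : 0 < η) (ha : (a, α) ∈ XP (σ - η) c r) (hb : (b, α) ∈ XP (σ - η) c r)
    (hA : ∀ t : ℂ, (t, α) ∈ XP σ c r → ‖f (t, α)‖ ≤ A) :
    ‖f (b, α) - f (a, α)‖ ≤ A / η * ‖b - a‖ := by
  refine mvt (g := fun t => f (t, α)) (g' := fun t => p1 f (t, α)) fun t ht => ?_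
  have h1 := abs_lt.1 (lt_sub_iff_add_lt.2 ha.1.1)
  have h2 := abs_lt.1 (lt_sub_iff_add_lt.2 hb.1.1)
  have h3 : (t, α) ∈ XP (σ - η) c r := ⟨⟨lt_sub_iff_add_lt.1 (abs_lt.2
    ⟨(convex_halfSpace_im_gt _).segment_subset h1.1 h2.1 ht,
      (convex_halfSpace_im_lt _).segment_subset h1.2 h2.2 ht⟩), ha.1.2⟩, ha.2⟩
  exact ⟨hd1 (z := (t, α)) (hf.differentiableAt ((oXP _ _ _).mem_nhds
    (XP_mono (by linarith) le_rfl le_rfl h3))), cx1' hf hη h3 hA⟩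

theorem num {x ρ r η W D₁ D₂ ε C' C : ℝ} (hρ : 0 < ρ) (hr : ρ ≤ r) (hη : 0 < η) (hW : 0 ≤ W)
    (h1 : 0 ≤ D₁) (h2 : 0 ≤ D₂) (hε : 0 ≤ ε) (hC' : 0 ≤ C') (hC : 10 + 5 * C' ≤ C)
    (h : 9 / 10 * x ≤ C' * (2 * W * ρ ^ 3 / η) ^ 2 + D₁ * ρ ^ 5 + 3 / 2 * ρ * (D₂ * ρ ^ 3) / η * ρ +
      11 / 10 * (W * ρ ^ 2) * (ε * ρ ^ 5 / η)) :
    x ≤ C * (D₁ + D₂ / η + W * r ^ 2 * ε / η + W ^ 2 * r / η ^ 2) * ρ ^ 5 := by
  have hr0 : 0 < r := hρ.trans_le hr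
  have a1 : C' * (2 * W * ρ ^ 3 / η) ^ 2 ≤ 4 * (C' * (W ^ 2 * r / η ^ 2 * ρ ^ 5)) := by
    calc _ = 4 * (C' * (W ^ 2 * ρ / η ^ 2 * ρ ^ 5)) := by ring
      _ ≤ _ := by gcongr
  have a2 : W * ρ ^ 2 * (ε * ρ ^ 5 / η) ≤ W * r ^ 2 * ε / η * ρ ^ 5 := by
    calc _ = W * ρ ^ 2 * ε / η * ρ ^ 5 := by ring
      _ ≤ _ := by gcongr
  have a3 : 3 / 2 * ρ * (D₂ * ρ ^ 3) / η * ρ = 3 / 2 * (D₂ / η * ρ ^ 5) := by ring
  have a4 : C * (D₁ + D₂ / η + W * r ^ 2 * ε / η + W ^ 2 * r / η ^ 2) * ρ ^ 5 =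
      C * (D₁ * ρ ^ 5 + D₂ / η * ρ ^ 5 + W * r ^ 2 * ε / η * ρ ^ 5 +
        W ^ 2 * r / η ^ 2 * ρ ^ 5) := by ring
  have b1 : 0 ≤ D₁ * ρ ^ 5 := by positivity
  have b2 : 0 ≤ D₂ / η * ρ ^ 5 := by positivity
  have b3 : 0 ≤ W * r ^ 2 * ε / η * ρ ^ 5 := by positivity
  have b4 : 0 ≤ W ^ 2 * r / η ^ 2 * ρ ^ 5 := by positivity
  rw [a3, mul_assoc (11 / 10)] at h
  rw [a4]
  generalize D₁ * ρ ^ 5 = y1 at *
  generalize D₂ / η * ρ ^ 5 = y2 at *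
  generalize W * r ^ 2 * ε / η * ρ ^ 5 = y3 at *
  generalize W ^ 2 * r / η ^ 2 * ρ ^ 5 = y4 at *
  have c1 := mul_le_mul_of_nonneg_right hC (show 0 ≤ y1 + y2 + y3 + y4 by positivity)
  have c2 := mul_nonneg hC' (show 0 ≤ y1 + y2 + y3 by positivity)
  have c3 := mul_nonneg hC' b4
  linarith

theorem small {ρ r η W c C : ℝ} (hρ : 0 < ρ) (hr : ρ ≤ r) (h1 : r ≤ 1) (hη : 0 < η) (hW : 0 ≤ W)
    (hc : 0 < c) (hC : 2 / c ≤ C) (h : C * W * r ≤ η) : 2 * W * ρ ^ 3 / η ≤ c * ρ := by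
  have hr0 : 0 < r := hρ.trans_le hr
  rw [div_le_iff₀ hη]
  rw [div_le_iff₀ hc] at hC
  have h2 : ρ ^ 2 ≤ r := by nlinarith
  calc 2 * W * ρ ^ 3 = 2 * W * ρ ^ 2 * ρ := by ring
    _ ≤ C * c * W * r * ρ := by gcongr
    _ = c * ρ * (C * W * r) := by ring
    _ ≤ _ := by gcongr

theorem near {x : ℂ} {t : ℝ} (h : ‖x - 1‖ ≤ t) (ht : t ≤ 1 / 10) :
    9 / 10 ≤ ‖x‖ ∧ ‖x‖ ≤ 11 / 10 := by
  have h1 := abs_le.1 ((abs_norm_sub_norm_le x 1).trans h)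
  rw [norm_one] at h1
  constructor <;> linarith [h1.1, h1.2]

end KNs3aAux

open KNs3aAux in
theorem ns3aE : S_ns3a := by
  intro c₀ C'
  refine ⟨10 + 5 * |C'| + 2 / |c₀|, by positivity, ?_⟩
  rintro S ξ Ψ w μ σ₁ d₁ C σ r ε t σ' r' η D₁ D₂ W K hσ hr hη hη1 h1 h2 hW hs pw pP bw bΨ bP
    ⟨θ, α⟩ hz
  have hc := K.cpos
  have hC := K.c0
  rw [abs_of_pos hc, abs_of_nonneg hC] at hs ⊢
  have s0 : XX σ' 0 r' ⊆ XX σ 0 r := XX_mono hσ le_rfl hr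
  have s1 : XX σ' (1 / 2) r' ⊆ XX σ (1 / 2) r := XX_mono hσ le_rfl hr
  have z0 : (θ, α) ∈ XX (σ' - η) 0 r' := XX_mono le_rfl zero_le_one le_rfl hz
  have s2 : XX (σ' - η) 0 r' ⊆ XX σ' 0 r' := XX_mono (by linarith) le_rfl le_rfl
  by_cases hα : α = 0
  · subst hα
    have e1 : w (θ, 0) = 0 := by simpa using bw _ (s2 z0)
    have e2 : |θ.im| < σ := by simpa using (s0 (s2 z0)).1
    have e3' : (θ, θ) ∈ Om σ₁ d₁ := by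
      have := K.ok.hi
      have := K.gd.spos
      exact ⟨by linarith, by linarith, by simpa using K.gd.dpos⟩
    have e4 := K.gd.h5 θ 0 (by simpa using e3') (by simpa using e3')
    simpa [EK, nx, zM, zP, e1, K.ks.zero θ e2] using e4
  have hρ : 0 < ‖α‖ := norm_pos_iff.2 hα
  have hρr : ‖α‖ ≤ r := (hz.2.trans_le hr).le
  have bv : ∀ t : ℂ, (t, α) ∈ XP σ' 0 r' →
      ‖p1 ξ (t, α) * w (t, α)‖ ≤ 11 / 10 * (W * ‖α‖ ^ 2) := fun t ht => by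
    rw [norm_mul]
    exact mul_le_mul (near (K.ks.d1 _ (s0 ht.1)) K.ok.t1).2 (bw _ ht.1) (norm_nonneg _)
      (by norm_num)
  have hv : DifferentiableOn ℂ (fun y => p1 ξ y * w y) (XP σ' 0 r') :=
    ((K.k1.pr1.hol.mono s0).mul pw.hol).mono fun _ h => h.1
  have zM0 := zM_mem hz
  have zP0 := zP_mem hz
  rw [sub_self] at zM0 zP0
  have n0 : 11 / 10 * (W * ‖α‖ ^ 2) / η * ‖α‖ ≤ 2 * W * ‖α‖ ^ 3 / η := by
    rw [div_mul_eq_mul_div]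
    refine div_le_div_of_nonneg_right ?_ hη.le
    have : 0 ≤ W * ‖α‖ ^ 3 := by positivity
    linarith
  have n1 := lip hv hη (a := θ - α) ⟨zM0, hα⟩ ⟨z0, hα⟩ bv
  have n2 := lip hv hη (b := θ + α) ⟨z0, hα⟩ ⟨zP0, hα⟩ bv
  rw [sub_sub_cancel] at n1
  rw [add_sub_cancel_left] at n2
  have n3 := bv θ ⟨s2 z0, hα⟩
  have n4 : ‖α‖ * ‖p1 ξ (θ, α) * w (θ, α)‖ ≤ 2 * W * ‖α‖ ^ 3 / η := by
    refine le_trans ?_ n0
    rw [mul_comm]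
    exact mul_le_mul_of_nonneg_right (n3.trans (le_div_self (by positivity) hη hη1)) hρ.le
  have hz1 : (θ, α) ∈ XX (σ - η) 1 r := XX_mono (by linarith) le_rfl hr hz
  have L := (K.lf (θ, α) ⟨XX_mono (by linarith) le_rfl le_rfl hz1, hα⟩ _ (w (zM (θ, α)))
    (w (θ, α)) (w (zP (θ, α))) (n1.trans n0) (n2.trans n0) n4
    (small hρ hρr (by linarith [K.ok.r1, K.gd.sle]) hη hW hc
      (le_add_of_nonneg_left (by positivity)) hs)).2.2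
  have m1 : ∀ y ∈ XP σ' (1 / 2) r', zp y ∈ XX σ' 0 r' := fun y hy => by
    simpa using zp_mem hy.1
  have m2 : ∀ y ∈ XP σ' (1 / 2) r', zm y ∈ XX σ' 0 r' := fun y hy => by
    simpa using zm_mem hy.1
  have he : DifferentiableOn ℂ (fun y => ac S ξ y * (w (zp y) - w (zm y) - Ph S ξ μ Ψ y))
      (XP σ' (1 / 2) r') :=
    (K.k1.pra.hol.mono fun _ h => s1 h.1).mul
      (((pw.hol.comp (by unfold zp; fun_prop) m1).sub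
        (pw.hol.comp (by unfold zm; fun_prop) m2)).sub pP.hol)
  have zp0 : zp (θ, α) ∈ XX (σ' - η) (1 / 2) r' := XX_mono le_rfl (by norm_num) le_rfl (zp_mem hz)
  have zm0 : zm (θ, α) ∈ XX (σ' - η) (1 / 2) r' := XX_mono le_rfl (by norm_num) le_rfl (zm_mem hz)
  have ba : ∀ t : ℂ, (t, α) ∈ XX σ' (1 / 2) r' →
      ‖ac S ξ (t, α)‖ ≤ 3 / 2 * ‖α‖ ∧ ac S ξ (t, α) ≠ 0 := fun t ht => by
    have h := abs_le.1 ((abs_norm_sub_norm_le _ _).trans (K.k1.ha _ (s1 ht)))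
    exact ⟨by linarith [h.2], norm_pos_iff.1 (by linarith [h.1])⟩
  have n5 := lip he hη (a := θ - α / 2) (b := θ + α / 2) ⟨zm0, hα⟩ ⟨zp0, hα⟩
    (A := 3 / 2 * ‖α‖ * (D₂ * ‖α‖ ^ 3)) fun t ht => by
      rw [norm_mul]
      exact mul_le_mul (ba t ht.1).1 (bP _ ht) (norm_nonneg _) (by positivity)
  rw [add_sub_sub_cancel, add_halves] at n5
  change ‖ac S ξ (zp (θ, α)) * (w (zp (zp (θ, α))) - w (zm (zp (θ, α))) - Ph S ξ μ Ψ (zp (θ, α))) -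
    ac S ξ (zm (θ, α)) * (w (zp (zm (θ, α))) - w (zm (zm (θ, α))) - Ph S ξ μ Ψ (zm (θ, α)))‖
      ≤ _ at n5
  rw [zp_zp, zm_zm, zp_zm, zm_zp] at n5
  have s3 : XX (σ' - η) (1 / 2) r' ⊆ XX σ' (1 / 2) r' := XX_mono (by linarith) le_rfl le_rfl
  have e1 : ac S ξ (zp (θ, α)) * Ph S ξ μ Ψ (zp (θ, α)) = μ α + Ψ (zp (θ, α)) :=
    mul_div_cancel₀ _ (ba _ (s3 zp0)).2
  have e2 : ac S ξ (zm (θ, α)) * Ph S ξ μ Ψ (zm (θ, α)) = μ α + Ψ (zm (θ, α)) :=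
    mul_div_cancel₀ _ (ba _ (s3 zm0)).2
  have n6 := bΨ (θ, α) ⟨XX_mono (by linarith) le_rfl le_rfl hz, hα⟩
  have n7 := cx1 (A := ε * ‖α‖ ^ 5) K.k2.prE.hol hη hz1 fun t ht => K.ks.err _ ht
  have n8 := (norm_mul_le _ _).trans (mul_le_mul n3 n7 (norm_nonneg _) (by positivity))
  refine num hρ hρr hη hW h1 h2 K.e0 hC (le_add_of_nonneg_right (by positivity)) ?_
  refine (mul_le_mul_of_nonneg_right (near (K.ks.d1 _ (s0 (s2 z0))) K.ok.t1).1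
    (norm_nonneg _)).trans ?_
  rw [← norm_mul]
  refine le_of_eq_of_le (congrArg norm ?_) (norm_add_le_of_le (norm_add_le_of_le
    (norm_add_le_of_le L n6) n5) n8)
  simp only [EK, nx]
  linear_combination e1 - e2

end Vale.Agent.P097
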