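import Vale.Agent.P097.Defs

/-! P097: statements of the steps. -/

open Set NormedSpace Complex

namespace Vale.Agent.P097

/-! ### Abstract expansions -/

def S_expA : Prop := ∀ M : ℝ, ∃ C : ℝ, ∀ (B : Type) [NormedCommRing B] [NormedAlgebra ℂ B]
  [CompleteSpace B] [NormOneClass B] (ω : ℝ) (b0 b1 b2 d : B) (b : ℝ → B), 0 < ω → ω ≤ 1 →
  PH M ω b0 b1 b2 d b →
  ‖exp ((2 : ℂ) • b0) * ((1 / 2 : ℂ) • (GG I b d + GG (-I) b d))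
    - (1 - b1 * d + a2 b0 b1 b2 * d ^ 2)‖ ≤ C * ω ^ 3

def S_expS : Prop := ∀ M : ℝ, ∃ C : ℝ, ∀ (B : Type) [NormedCommRing B] [NormedAlgebra ℂ B]
  [CompleteSpace B] [NormOneClass B] (ω : ℝ) (b0 b1 b2 d : B) (b : ℝ → B), 0 < ω → ω ≤ 1 →
  PH M ω b0 b1 b2 d b →
  ‖exp b0 * ((-I / 2) • (GG I b d - GG (-I) b d))
    - ((1 / 2 : ℂ) • d - (1 / 2 : ℂ) • (b1 * d ^ 2) + b3 b0 b1 b2 * d ^ 3)‖ ≤ C * ω ^ 4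

def S_expE : Prop := ∀ M : ℝ, ∃ C : ℝ, 0 ≤ C ∧ ∀ (B : Type) [NormedCommRing B]
  [NormedAlgebra ℂ B] [CompleteSpace B] [NormOneClass B] (ω : ℝ) (b0 b1 b2 p n : B)
  (bp bn : ℝ → B), 0 < ω → ω ≤ 1 → PH M ω b0 b1 b2 p bp → PH M ω b0 b1 b2 (-n) bn →
  ‖EA b0 bp p bn n - (p - n)‖ ≤ C * (ω ^ 4 + ω * ‖p - n‖)

def S_R : Prop := ∀ M : ℝ, ∃ C ω₀ : ℝ, 0 < ω₀ ∧ C * ω₀ ≤ 1 / 2 ∧ ∀ (B : Type) [NormedCommRing B]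
  [NormedAlgebra ℂ B] [CompleteSpace B] [NormOneClass B] (ω : ℝ) (b0 b1 b2 d : B) (b : ℝ → B),
  0 < ω → ω ≤ 1 → ω ≤ ω₀ → PH M ω b0 b1 b2 d b →
  ∃ R Ri : B, R ^ 2 = GG I b d * GG (-I) b d ∧ R * Ri = 1 ∧
    ‖exp ((2 : ℂ) • b0) * R - 1‖ ≤ C * ω ∧ ‖Ri‖ ≤ C ∧ ‖LA b d R‖ ≤ C

def S_lin : Prop := ∀ M : ℝ, ∃ C : ℝ, ∀ (B : Type) [NormedCommRing B] [NormedAlgebra ℂ B]
  [CompleteSpace B] [NormOneClass B] (ω : ℝ) (b0 b1 b2 d R Ri : B) (b h : ℝ → B), 0 < ω → ω ≤ 1 →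
  PH M ω b0 b1 b2 d b → R ^ 2 = GG I b d * GG (-I) b d → R * Ri = 1 →
  ‖exp ((2 : ℂ) • b0) * R - 1‖ ≤ M * ω → ‖Ri‖ ≤ M → Continuous h →
  (∀ y ∈ Icc (0:ℝ) 1, ‖h y‖ ≤ M) → ‖lin b d Ri h - d ^ 3 * lead h‖ ≤ C * ω ^ 4

/-- Facts on `lead`. -/
def S_lead : Prop :=
  lead (fun y : ℝ => ee y) = (3 / (4 * Real.pi ^ 2) : ℂ) ∧
  ∀ (B : Type) [NormedCommRing B] [NormedAlgebra ℂ B] [CompleteSpace B] [NormOneClass B],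
    (∀ (h : ℝ → B) (A : ℝ), Continuous h → (∀ y ∈ Icc (0:ℝ) 1, ‖h y‖ ≤ A) → ‖lead h‖ ≤ A) ∧
    (∀ h g : ℝ → B, Continuous h → Continuous g → lead (fun y => h y - g y) = lead h - lead g) ∧
    (∀ g : ℝ → ℂ, Continuous g → lead (fun y => g y • (1 : B)) = lead g • (1 : B)) ∧
    (∀ (b h : ℝ → B) (d Ri x : B), Continuous b → Continuous h →
      lin b d Ri (fun y => x * h y) = x * lin b d Ri h)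

/-- Taylor expansion of a composed trigonometric polynomial. -/
def S_cmp : Prop := ∀ M : ℝ, ∃ C : ℝ, ∀ (B : Type) [NormedCommRing B] [NormedAlgebra ℂ B]
  [CompleteSpace B] [NormOneClass B] (ω : ℝ) (s : Finset ℤ) (a : ℤ → B) (u d : B),
  0 < ω → ω ≤ 1 → (∀ n ∈ s, |(n:ℝ)| * ω ≤ 1) →
  ∑ n ∈ s, (1 + |(n:ℝ)|) ^ 3 * ‖a n‖ ≤ M → ‖u‖ ≤ ω → ‖d‖ ≤ 2 * ω →
  PH C ω (cmp s a u) (cmp s (fun n => (2 * Real.pi * I * n : ℂ) • a n) u)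
    (cmp s (fun n => ((2 * Real.pi * I * n : ℂ) ^ 2 / 2) • a n) u) d
    (fun y => cmp s a (u + (y:ℂ) • d))

/-! ### Real estimates -/

def S_pr : Prop := ∀ lam : ℝ, 0 ≤ lam → Nonempty (Pr lam)

def S_tay : Prop := ∀ β : ℝ → ℝ, SP β → ∃ M : ℝ, 0 ≤ M ∧
  (∀ x, |β x| ≤ M ∧ |deriv β x| ≤ M ∧ |deriv (deriv β) x| ≤ M) ∧
  (∀ x y, |β x - β y| ≤ M * |x - y| ∧ |deriv β x - deriv β y| ≤ M * |x - y| ∧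
    |deriv (deriv β) x - deriv (deriv β) y| ≤ M * |x - y|) ∧
  (∀ x s, |β (x + s) - (β x + deriv β x * s + deriv (deriv β) x / 2 * s ^ 2)| ≤ M * |s| ^ 3) ∧
  ∀ a x s x' s' : ℝ, |s| ≤ a → |s'| ≤ a →
    |(β (x + s) - (β x + deriv β x * s + deriv (deriv β) x / 2 * s ^ 2))
      - (β (x' + s') - (β x' + deriv β x' * s' + deriv (deriv β) x' / 2 * s' ^ 2))|
      ≤ M * (a ^ 3 * |x - x'| + a ^ 2 * |s - s'|)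

def S_RL : Prop := ∀ β : ℝ → ℝ, SP β → ∃ C : ℝ, RL β C

def S_GB : Prop := ∀ M : ℝ, ∃ c d₀ : ℝ, GB M c d₀

def S_chord : Prop := ∀ β : ℝ → ℝ, Continuous β →
  (∀ ξ, ‖TT β ξ‖ = 1) ∧ (∀ ξ, HasDerivAt (Gam β) ((Real.exp (-2 * β ξ) : ℂ) * TT β ξ) ξ) ∧
  ∀ ξ d : ℝ, Gam β (ξ + d) - Gam β ξ = d * Gr β ξ d * TT β ξ

def S_der : Prop := ∀ β : ℝ → ℝ, Continuous β → ∀ (a a' : ℝ → ℝ) (α α' τ : ℝ),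
  HasDerivAt a α τ → HasDerivAt a' α' τ → a τ < a' τ → Gr β (a τ) (a' τ - a τ) ≠ 0 →
  HasDerivAt (fun σ => ll β (a σ) (a' σ - a σ))
    (α' * Real.exp (-2 * β (a' τ)) *
        ((Gr β (a' τ) (-(a' τ - a τ))).re / ‖Gr β (a' τ) (-(a' τ - a τ))‖ - 1)
      - α * Real.exp (-2 * β (a τ)) *
        ((Gr β (a τ) (a' τ - a τ)).re / ‖Gr β (a τ) (a' τ - a τ)‖ - 1)) τ

/-- Discrete estimates. -/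
def S_gap : Prop := ∀ q : ℕ, 1 ≤ q →
  (∀ x, Reg q x → ∀ k, 1 / (2 * (q:ℝ)) ≤ x (k + 1) - x k ∧ x (k + 1) - x k ≤ 3 / (2 * (q:ℝ))) ∧
  ∀ (v : ℤ → ℝ) (m : ℝ), (∀ k, v (k + q) = v k) → v 0 = 0 →
    (∀ k, |v (k + 1) - 2 * v k + v (k - 1)| ≤ m) →
    ∀ k, |v (k + 1) - v k| ≤ q * m ∧ |v k| ≤ (q:ℝ) ^ 2 * m

def S_stab : Prop := ∀ (β : ℝ → ℝ) (C : ℝ), RL β C → ∃ q₀ : ℕ, ∀ q : ℕ, q₀ ≤ q →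
  ∀ x y, Reg q x → Reg q y → x 0 = y 0 → ∀ lam ε : ℝ,
    (∀ k, |EE β x k - EE β y k - lam| ≤ ε) → ∀ k, |x k - y k| ≤ 4 * (q:ℝ) ^ 2 * ε

def S_exist : Prop := ∀ (β : ℝ → ℝ) (C : ℝ), SP β → RL β C → PP β → ∃ q₀ : ℕ, ∀ q : ℕ, q₀ ≤ q →
  ∀ t : ℝ, ∃ y, Reg q y ∧ y 0 = t ∧ ∀ k, EE β y k = 0

def S_tayA : Prop := ∀ (β : ℝ → ℝ) (C : ℝ), SP β → RL β C → ∃ (C' : ℝ) (q₀ : ℕ), 0 ≤ C' ∧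
  ∀ q : ℕ, q₀ ≤ q → ∀ x y, Reg q x → Reg q y → (∀ k, EE β y k = 0) → ∀ a : ℝ,
    (∀ k, |x k - y k| ≤ a) → |AA β q x - AA β q y| ≤ C' * q * a ^ 2

def S_RM : Prop := ∀ β : ℝ → ℝ, SP β → PP β → RM β

/-- Second order expansion of the real chord integrals in the function `β`. -/
def S_rl1 : Prop := ∀ M : ℝ, ∃ C : ℝ, ∀ β h : ℝ → ℝ, Continuous β → Continuous h →
  (∀ x, |β x| ≤ M) → ∀ η : ℝ, η ≤ 1 → (∀ x, |h x| ≤ η) → ∀ ξ d : ℝ, |d| ≤ 1 →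
  ‖Gr (fun x => β x + h x) ξ d - Gr β ξ d‖ ≤ C * η ∧
  ‖Gr (fun x => β x + h x) ξ d - Gr β ξ d
    - ∫ y in (0:ℝ)..1, em (pth β ξ d) y * ph I (pth β ξ d) d y *
      (-2 * pth h ξ d y + I * d * JJ (pth β ξ d) (pth h ξ d) y)‖ ≤ C * η ^ 2 ∧
  |(∫ y in (0:ℝ)..1, Real.exp (-2 * (β (ξ + y * d) + h (ξ + y * d))))
    - (∫ y in (0:ℝ)..1, Real.exp (-2 * β (ξ + y * d)))
    - ∫ y in (0:ℝ)..1, Real.exp (-2 * β (ξ + y * d)) * (-2 * h (ξ + y * d))| ≤ C * η ^ 2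

def S_rl2 : Prop := ∀ M : ℝ, ∃ C d₀ : ℝ, 0 < d₀ ∧ ∀ β h : ℝ → ℝ, Continuous β → Continuous h →
  (∀ x, |β x| ≤ M) → ∀ η : ℝ, η ≤ 1 → (∀ x, |h x| ≤ η) → ∀ ξ d : ℝ, |d| ≤ d₀ →
  ‖((ll (fun x => β x + h x) ξ d - ll β ξ d : ℝ) : ℂ) - lr β ξ d (fun x => (h x : ℂ))‖
    ≤ C * η ^ 2

def S_rl3 : Prop := ∀ M : ℝ, ∃ C d₀ : ℝ, 0 < d₀ ∧ ∀ β : ℝ → ℝ, Continuous β →
  (∀ x, |β x| ≤ M) →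
  (∀ h : ℝ → ℝ, Continuous h → ∀ η : ℝ, η ≤ 1 → (∀ x, |h x| ≤ η) → ∀ ξ p n : ℝ,
    |p| ≤ d₀ → |n| ≤ d₀ → |Ee (fun x => β x + h x) ξ p n - Ee β ξ p n| ≤ C * η) ∧
  (∀ g : ℝ → ℂ, Continuous g → ∀ η : ℝ, (∀ x, ‖g x‖ ≤ η) → ∀ ξ d : ℝ, |d| ≤ d₀ →
    ‖lr β ξ d g‖ ≤ C * η) ∧
  (∀ (s : Finset ℤ) (c : ℤ → ℂ) (g : ℤ → ℝ → ℂ) (g₀ : ℝ → ℂ), (∀ n, Continuous (g n)) →
    Continuous g₀ → ∀ ξ d : ℝ,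
    lr β ξ d (fun x => ∑ n ∈ s, c n * g n x + g₀ x) = ∑ n ∈ s, c n * lr β ξ d (g n) + lr β ξ d g₀) ∧
  (∀ X D : ℝ → ℝ, Continuous X → Continuous D → (∀ t, |D t| ≤ d₀) →
    (Continuous fun t => ll β (X t) (D t)) ∧
    ∀ g : ℝ → ℂ, Continuous g → Continuous fun t => lr β (X t) (D t) g)

/-! ### Fourier series -/

def S_fs : Prop := ∀ f : ℝ → ℂ, Continuous f → Function.Periodic f 1 →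
  (∀ (n : ℤ) (a : ℝ), fc (fun t => f (t + a)) n = ee (n * a) * fc f n) ∧
  (Summable (fun n => ‖fc f n‖) → ∀ t : ℝ, HasSum (fun n : ℤ => fc f n * ee (n * t)) (f t))

def S_fd : Prop := ∀ β : ℝ → ℝ, SP β → ∃ M : ℝ, 1 ≤ M ∧ ∀ q : ℕ, HC M 0 q (fr β)

def S_an : Prop := ∀ β : ℝ → ℝ, Continuous β → Function.Periodic β 1 → ∀ M σ : ℝ, 0 < σ →
  (∀ n : ℤ, ‖fr β n‖ ≤ M * Real.exp (-(σ * |(n:ℝ)|))) → AnalyticOnNhd ℝ β univ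

def S_tail : Prop := ∀ M : ℝ, ∃ C : ℝ, ∀ β : ℝ → ℝ, Continuous β → Function.Periodic β 1 →
  ∀ (q : ℕ) (τ : ℝ), 3 ≤ q → 0 ≤ τ → HC M τ q (fr β) → ∀ t : ℝ,
    |low (fr β) (NN q) t| ≤ C ∧
    |β t - low (fr β) (NN q) t| ≤ C * Real.exp (-(τ * q / 2)) / (q:ℝ) ^ 29 ∧
    ‖((β t - low (fr β) (NN q) t : ℝ) : ℂ)
      - ∑ n ∈ (Finset.Icc (-(q:ℤ) ^ 2) (q ^ 2)).filter (fun n => (NN q : ℤ) < |n|),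
        fr β n * ee (n * t)‖ ≤ C * Real.exp (-(τ * q)) / (q:ℝ) ^ 58

def S_ind : Prop := ∀ (c : ℤ → ℂ) (M : ℝ), 1 ≤ M → (∀ q : ℕ, HC M 0 q c) → AP c →
  ∃ M' σ : ℝ, 0 < σ ∧ ∀ n : ℤ, ‖c n‖ ≤ M' * Real.exp (-(σ * |(n:ℝ)|))

/-! ### Wiener algebra -/

def S_W : Prop := ∀ ρ : ℝ, 0 ≤ ρ → Nonempty (Wn ρ)

def S_wt : Prop := ∀ M : ℝ, ∃ C : ℝ, ∀ (q : ℕ) (τ : ℝ) (c : ℤ → ℂ), 3 ≤ q → 0 ≤ τ →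
  HC M τ q c → 0 ≤ rho τ q ∧ (∀ n, wt τ n ≤ wt (rho τ q) n) ∧
    (∀ n : ℤ, (q:ℤ) ≤ |n| → Real.exp (τ * q) * (q:ℝ) ^ 36 ≤ wt (rho τ q) n) ∧
    ∑ n ∈ Finset.Icc (-(NN q : ℤ)) (NN q), (1 + |(n:ℝ)|) ^ 3 * (‖c n‖ * wt (rho τ q) n) ≤ C

def S_fp : Prop := ∀ (ρ : ℝ) (w : Wn ρ) (q : ℕ) (δ : ℝ) (F : w.B → w.B → w.B → w.B),
  0 ≤ ρ → 1 ≤ q → δ ≤ 1 / (q:ℝ) ^ 3 → (Continuous fun z : w.B × w.B × w.B => F z.1 z.2.1 z.2.2) →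
  (∀ u Dp Dn, w.Re u → w.Re Dp → w.Re Dn → ‖u‖ ≤ 1 / q → ‖Dp‖ ≤ 1 / (q:ℝ) ^ 2 →
    ‖Dn‖ ≤ 1 / (q:ℝ) ^ 2 → ‖Dp - Dn‖ ≤ 1 / (q:ℝ) ^ 3 →
    w.Re (F u Dp Dn) ∧ ‖F u Dp Dn - (Dp - Dn)‖ ≤ δ) →
  ∃ u Dp Dn, w.Sol q δ F u Dp Dn

/-- Evaluation of the compositions. -/
def S_ev : Prop := ∀ (ρ : ℝ) (w : Wn ρ) (c : ℤ → ℂ) (q : ℕ),
  (∀ n, c (-n) = (starRingEnd ℂ) (c n)) → Continuous (low c (NN q)) ∧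
  (Continuous fun z : w.B × w.B × w.B => w.EW c q z.1 z.2.1 z.2.2) ∧
  (∀ (v : w.B) (t x : ℝ), w.ev t v = x → w.ev t (w.bb c q v) = low c (NN q) (t + x)) ∧
  ∀ (u Dp Dn : w.B) (t x p n : ℝ), w.ev t u = x → w.ev t (w.gp q Dp) = p →
    w.ev t (w.gp q Dn) = n → w.ev t (w.EW c q u Dp Dn) = Ee (low c (NN q)) (t + x) p n

/-- The approximate invariant curve. -/
def S_sol : Prop := ∀ M : ℝ, ∃ (C : ℝ) (q₀ : ℕ), 0 ≤ C ∧ ∀ (q : ℕ) (τ : ℝ) (c : ℤ → ℂ),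
  q₀ ≤ q → 0 ≤ τ → HC M τ q c → ∀ w : Wn (rho τ q), ∃ u Dp Dn b1 b2 : w.B,
    w.Sol q (C / (q:ℝ) ^ 4) (w.EW c q) u Dp Dn ∧ ‖w.EW c q u Dp Dn‖ ≤ C ∧
    PH C (1 / q) (w.bb c q u) b1 b2 (w.gp q Dp) (fun y => w.bb c q (u + (y:ℂ) • w.gp q Dp))

/-- The linear term in the Wiener algebra. -/
def S_wod : Prop := ∀ M : ℝ, ∃ C : ℝ, ∀ (ρ : ℝ) (w : Wn ρ) (q : ℕ) (u D b0 b1 b2 R Ri : w.B)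
  (b : ℝ → w.B), 1 ≤ q → ‖u‖ ≤ M / (q:ℝ) ^ 2 → ‖D‖ ≤ M / (q:ℝ) ^ 3 →
  PH M (1 / q) b0 b1 b2 (w.gp q D) b → R ^ 2 = GG I b (w.gp q D) * GG (-I) b (w.gp q D) →
  R * Ri = 1 → ‖exp ((2 : ℂ) • b0) * R - 1‖ ≤ M * (1 / q) → ‖Ri‖ ≤ M →
  ∀ n : ℤ, (q:ℤ) ≤ 2 * |n| → |n| ≤ (q:ℤ) ^ 2 →
    ‖fc (fun t => w.ev t (lin b (w.gp q D) Ri
        (fun y => w.e n * exp ((2 * Real.pi * I * n : ℂ) • (u + (y:ℂ) • w.gp q D))))) q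
      - (if n = q then (3 / (4 * Real.pi ^ 2) / (q:ℂ) ^ 3 : ℂ) else 0)‖
      ≤ C * |(n:ℝ)| / (q:ℝ) ^ 5 / wt ρ (q - n)

def S_wo : Prop := ∀ M : ℝ, ∃ (C : ℝ) (q₀ : ℕ), ∀ (q : ℕ) (τ : ℝ) (c : ℤ → ℂ),
  q₀ ≤ q → 0 ≤ τ → HC M τ q c → ∃ u lam, WO C τ q c u lam

/-! ### The a priori estimate -/

def S_ap1 : Prop := ∀ β : ℝ → ℝ, SP β → RM β → ∀ M C : ℝ, ∃ (C' : ℝ) (q₀ : ℕ), ∀ (q : ℕ) (τ : ℝ),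
  q₀ ≤ q → 0 ≤ τ → HC M τ q (fr β) → ∀ u lam, WO C τ q (fr β) u lam →
  ‖fr (fun t => ll β (t + u t) (gap q u t)) q‖ ≤ C' * Real.exp (-(τ * q)) / (q:ℝ) ^ 36

def S_ap2 : Prop := ∀ M C : ℝ, ∃ C' : ℝ, ∀ (q : ℕ) (τ : ℝ) (c r : ℤ → ℂ), 3 ≤ q → 0 ≤ τ →
  HC M τ q c →
  (∀ n : ℤ, (NN q : ℤ) < |n| → |n| ≤ (q:ℤ) ^ 2 →
    ‖r n‖ ≤ C * |(n:ℝ)| / (q:ℝ) ^ 5 / wt τ (q - n)) →
  ‖∑ n ∈ (Finset.Icc (-(q:ℤ) ^ 2) (q ^ 2)).filter (fun n => (NN q : ℤ) < |n|), c n * r n‖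
    ≤ C' * Real.exp (-(τ * q)) / (q:ℝ) ^ 35

def S_ap : Prop := ∀ β : ℝ → ℝ, SP β → RM β → AP (fr β)

/-! ### Geometry -/

def S_geo1 : Prop := ∀ (γ : ℝ → ℂ) (L : ℝ), Table γ L →
  ∃ (β : ℝ → ℝ) (c : ℝ) (s : ℝ ≃ₜ ℝ), SP β ∧ Laz γ L β c s

def S_geo2 : Prop := ∀ (γ : ℝ → ℂ) (L : ℝ) (β : ℝ → ℝ) (c : ℝ) (s : ℝ ≃ₜ ℝ), Table γ L → SP β →
  Laz γ L β c s → Graphs γ L → PP β

def S_prim : Prop := ∀ f F : ℝ → ℂ, AnalyticOnNhd ℝ f univ → (∀ x, HasDerivAt F (f x) x) →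
  AnalyticOnNhd ℝ F univ

def S_geo3 : Prop := ∀ (γ : ℝ → ℂ) (L : ℝ) (β : ℝ → ℝ) (c : ℝ) (s : ℝ ≃ₜ ℝ), Table γ L →
  Laz γ L β c s → AnalyticOnNhd ℝ β univ → AnalyticOnNhd ℝ γ univ

theorem final (geo1 : S_geo1) (geo2 : S_geo2) (geo3 : S_geo3) (rm : S_RM) (ap : S_ap) (fd : S_fd)
    (ind : S_ind) (an : S_an) (γ : ℝ → ℂ) (L : ℝ) (h : Table γ L) (hg : Graphs γ L) :
    AnalyticOnNhd ℝ γ univ := by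
  obtain ⟨β, c, s, hβ, hl⟩ := geo1 γ L h
  obtain ⟨M, hM, hc⟩ := fd β hβ
  obtain ⟨M', σ, hσ, hd⟩ := ind _ M hM hc (ap β hβ (rm β hβ (geo2 γ L β c s h hβ hl hg)))
  exact geo3 γ L β c s h hl (an β hβ.1.continuous hβ.2 M' σ hσ hd)

end Vale.Agent.P097
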