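import Vale.Agent.P097.KBase
import Vale.Agent.P097.Stm

/-! P097, part K: statements of the steps. -/

open Set NormedSpace Complex Metric

namespace Vale.Agent.P097

/-! ### Fourier analysis on strips -/

def S_fc1 : Prop := ∀ (f : ℂ → ℂ) (s : ℝ), 0 < s → DifferentiableOn ℂ f (St s) →
  (∀ z ∈ St s, f (z + 1) = f z) →
  (∀ z ∈ St s, ∀ n : ℤ, fc (fun t => f (t + z)) n = ce (n * z) * fc (fun t => f t) n) ∧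
  (∀ A : ℝ, (∀ z ∈ St s, ‖f z‖ ≤ A) → ∀ n : ℤ, ‖fc (fun t => f t) n‖ ≤ A * gw (-1) n s) ∧
  ∀ n : ℤ, fc (fun t => deriv f t) n = 2 * Real.pi * I * n * fc (fun t => f t) n

def S_fc2 : Prop := ∀ (f : ℂ → ℂ) (s s' η A : ℝ) (K : ℕ), 0 < η → s' ≤ s → 0 ≤ A →
  DifferentiableOn ℂ f (St s) → (∀ z ∈ St s, f (z + 1) = f z) →
  (∀ n : ℤ, (K:ℤ) < |n| → ‖fc (fun t => f t) n‖ ≤ A * gw (-1) n s') → ∀ θ ∈ St (s' - η),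
  ‖f θ - ∑ n ∈ Finset.Icc (-(K:ℤ)) K, fc (fun t => f t) n * ce (n * θ)‖
    ≤ A * Real.exp (-(η * K)) / η

def S_par : Prop := ∀ (f : ℂ × ℂ → ℂ) (U : Set (ℂ × ℂ)) (V : Set ℂ) (n : ℤ), IsOpen U → IsOpen V →
  DifferentiableOn ℂ f U → (∀ α ∈ V, ∀ t ∈ Icc (0:ℝ) 1, ((t:ℂ), α) ∈ U) →
  ∀ α ∈ V, HasDerivAt (f2 f n) (f2 (p2 f) n α) α

def S_pint : Prop := ∀ (U : Set (ℂ × ℂ)) (F : ℂ × ℂ → ℝ → ℂ) (a b : ℝ), IsOpen U →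
  (Continuous fun x : U × ℝ => F x.1 x.2) → (∀ y, DifferentiableOn ℂ (fun z => F z y) U) →
  DifferentiableOn ℂ (fun z => ∫ y in a..b, F z y) U

/-! ### Division by the small divisors -/

def S_sinl : Prop := ∀ (ρ : ℝ) (z : ℂ), 0 ≤ ρ → ρ ≤ 1 / 2 → (∀ j : ℤ, ρ ≤ ‖z - j‖) →
  ρ * Real.exp (Real.pi * |z.im|) / 8 ≤ ‖Complex.sin (Real.pi * z)‖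

def S_quot : Prop := ∀ (n : ℤ) (α₀ : ℂ) (R M : ℝ) (h : ℂ → ℂ), n ≠ 0 → 0 < R →
  |(n:ℝ)| * R ≤ 1 / 4 → DifferentiableOn ℂ h (ball α₀ R) →
  (∀ α ∈ ball α₀ R, ‖sv n α * h α‖ ≤ M) →
  ‖h α₀‖ * gw (1 / 2) n |α₀.im| ≤ 32 * M / (|(n:ℝ)| * R)

def S_diva : Prop := ∀ (m K : ℕ) (n : ℤ) (r δ : ℝ) (N : ℂ → ℂ), n ≠ 0 → |n| ≤ K → r ≤ 1 / 4 →
  0 ≤ δ → (∀ k : ℤ, k ≠ 0 → |(k:ℝ) / n| < r → ‖N (k / n)‖ ≤ δ) →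
  ∃ d : ℂ → ℂ, Differentiable ℂ d ∧ (∀ k : ℤ, k ≠ 0 → |(k:ℝ) / n| < r → d (k / n) = N (k / n)) ∧
    ∀ α, ‖d α‖ ≤ (K:ℝ) ^ (m + 1) * δ * ‖α‖ ^ m * gw (1 / 2) n |α.im|

def S_divb : Prop := ∀ (n : ℤ) (r : ℝ) (N : ℂ → ℂ), n ≠ 0 → DifferentiableOn ℂ N (ball 0 r) →
  (∀ k : ℤ, |(k:ℝ) / n| < r → N (k / n) = 0) →
  ∃ g : ℂ → ℂ, DifferentiableOn ℂ g (ball 0 r) ∧ ∀ α ∈ ball (0:ℂ) r, N α = sv n α * g α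

def S_div : Prop := ∃ C : ℝ, 0 ≤ C ∧ ∀ (m K : ℕ) (n : ℤ) (r c A δ : ℝ) (N : ℂ → ℂ), 1 ≤ m →
  2 ≤ K → n ≠ 0 → |n| ≤ K → 0 < r → r ≤ 1 / 4 → 1 / 2 ≤ c → c ≤ 1 → 0 ≤ A → 0 ≤ δ →
  DifferentiableOn ℂ N (ball 0 r \ {0}) →
  (∀ α ∈ ball (0:ℂ) r, α ≠ 0 → ‖N α‖ ≤ A * ‖α‖ ^ m * gw c n |α.im|) →
  (∀ k : ℤ, k ≠ 0 → |(k:ℝ) / n| < r → ‖N (k / n)‖ ≤ δ) →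
  ∃ g : ℂ → ℂ, DifferentiableOn ℂ g (ball 0 r) ∧
    (∀ α ∈ ball (0:ℂ) (r * (1 - 1 / K)),
      ‖g α‖ ≤ C * (K:ℝ) ^ (m + 2) * (A + δ) * ‖α‖ ^ (m - 1) * gw (c - 1 / 2) n |α.im|) ∧
    ∀ α ∈ ball (0:ℂ) r, α ≠ 0 →
      ‖sv n α * g α - N α‖ ≤ (K:ℝ) ^ (m + 1) * δ * ‖α‖ ^ m * gw (1 / 2) n |α.im|

def S_solve0 : Prop := ∃ C : ℝ, 1 ≤ C ∧ ∀ (m K : ℕ) (σ c r η A δ : ℝ) (f : ℂ × ℂ → ℂ),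
  SH m K σ c r η A δ f → ∃ g, SC C m K σ c r η A δ f g

def S_solve : Prop := ∃ C : ℝ, 1 ≤ C ∧ ∀ (m K : ℕ) (σ c r η A δ : ℝ) (f : ℂ × ℂ → ℂ),
  SH m K σ c r η A δ f →
  ∃ g, SC C m K σ c r η A δ f g ∧ PR (XX (σ - η) (c - 1 / 2) (r * (1 - 1 / K))) g

/-! ### The generating function -/

def S_ord : Prop := ∀ (T : ℂ × ℂ → ℂ) (σ d C : ℝ) (k : ℕ), 0 < d → d ≤ σ → 0 ≤ C →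
  DifferentiableOn ℂ T (Om σ d) → (∀ z ∈ Om σ d, ‖T z‖ ≤ C * ‖z.2 - z.1‖ ^ (k + 1)) →
  ∀ z ∈ Om (σ / 2) (d / 2), ‖p1 T z‖ ≤ 2 ^ (k + 1) * C * ‖z.2 - z.1‖ ^ k ∧
    ‖p2 T z‖ ≤ 2 ^ (k + 1) * C * ‖z.2 - z.1‖ ^ k

def S_gd5 : Prop := ∀ (S : ℂ × ℂ → ℂ) (σ d C : ℝ), GF S σ d C → ∃ σ₁ d₁ C₁ : ℝ, 0 < σ₁ ∧ 0 < d₁ ∧
  ∀ θ α : ℂ, |θ.im| < σ₁ → ‖α‖ < d₁ → ‖e3 S (θ - α) θ (θ + α)‖ ≤ C₁ * ‖α‖ ^ 5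

def S_gdc : Prop := ∀ (S : ℂ × ℂ → ℂ) (σ d C : ℝ), GF S σ d C → Crit S (Ioo (-d) 0)

def S_gd : Prop := ∀ (S : ℂ × ℂ → ℂ) (σ d C : ℝ), GF S σ d C → ∃ σ₁ d₁ C₁ : ℝ, GD S σ₁ d₁ C₁

def S_q3 : Prop := ∀ (S : ℂ × ℂ → ℂ) (σ₁ d₁ C : ℝ), GD S σ₁ d₁ C →
  ∃ c₀ C' : ℝ, 0 < c₀ ∧ 0 ≤ C' ∧ QF S σ₁ d₁ c₀ C'

def S_k1 : Prop := ∀ (S ξ : ℂ × ℂ → ℂ) (σ₁ d₁ C σ r ε t : ℝ), GD S σ₁ d₁ C → OK σ₁ d₁ C σ r t →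
  KS S σ r ε t ξ → K1 S σ₁ σ r ξ

def S_k2 : Prop := ∀ (S ξ : ℂ × ℂ → ℂ) (σ₁ d₁ C σ r ε t : ℝ), GD S σ₁ d₁ C → OK σ₁ d₁ C σ r t →
  KS S σ r ε t ξ → K1 S σ₁ σ r ξ → K2 S σ r ξ

def S_k3 : Prop := ∀ (S ξ : ℂ × ℂ → ℂ) (σ₁ d₁ C σ r ε t : ℝ), GD S σ₁ d₁ C → OK σ₁ d₁ C σ r t →
  KS S σ r ε t ξ → K1 S σ₁ σ r ξ → ∀ α : ℂ, ‖α‖ < r → f2 (MK S ξ) 0 α = 0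

def S_k4 : Prop := ∀ (S ξ : ℂ × ℂ → ℂ) (σ₁ d₁ C σ r ε t : ℝ), OK σ₁ d₁ C σ r t →
  KS S σ r ε t ξ → K1 S σ₁ σ r ξ → K2 S σ r ξ → K4 S σ r ξ

def S_lf : Prop := ∀ (S ξ : ℂ × ℂ → ℂ) (σ₁ d₁ C σ r ε t c₀ C' : ℝ), OK σ₁ d₁ C σ r t →
  KS S σ r ε t ξ → K1 S σ₁ σ r ξ → K2 S σ r ξ → 0 ≤ C' → QF S σ₁ d₁ c₀ C' →
  LF S ξ σ₁ d₁ σ r c₀ (2 * C')

def S_kf : Prop := ∀ (S : ℂ × ℂ → ℂ) (σ₁ d₁ C : ℝ), GD S σ₁ d₁ C → ∃ c₀ C' : ℝ,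
  ∀ (σ r ε t : ℝ) (ξ : ℂ × ℂ → ℂ), OK σ₁ d₁ C σ r t → 0 ≤ ε → KS S σ r ε t ξ →
    KF S σ₁ d₁ C c₀ C' σ r ε t ξ

/-! ### Melnikov estimates -/

def S_ds : Prop := ∀ (q : ℕ) (α : ℂ) (a : ℕ → ℂ), 1 ≤ q → α ≠ 0 →
  (∀ i < q, ‖a i - α‖ ≤ ‖α‖ / 2) →
  (∀ i < q, a i ≠ 0) ∧ (∑ i ∈ Finset.range q, 1 / a i ≠ 0) ∧ ∀ F : ℕ → ℂ,
    ds q a F 0 = 0 ∧ ds q a F q = 0 ∧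
    (∀ j, 0 < j → j < q → a j * (ds q a F (j + 1) - ds q a F j)
      - a (j - 1) * (ds q a F j - ds q a F (j - 1)) = -F j) ∧
    ∀ B : ℝ, 0 ≤ B → (∀ l, 0 < l → l < q → ‖F l‖ ≤ B) →
      ∀ j ≤ q, ‖ds q a F j‖ ≤ 8 * (q:ℝ) ^ 2 * B / ‖α‖

def S_hfp : Prop := ∀ (q : ℕ) (U V : Set ℂ) (R : ℝ) (T : ℂ × (Fin q → ℂ) → Fin q → ℂ)
  (Rl : Set (Fin q → ℂ)), IsOpen U → 0 < R → DifferentiableOn ℂ T (U ×ˢ ball 0 (3 * R)) →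
  (∀ x ∈ U ×ˢ ball (0 : Fin q → ℂ) (3 * R), ‖T x‖ ≤ R / 2) → V ⊆ U → IsClosed Rl → 0 ∈ Rl →
  (∀ θ ∈ V, ∀ w ∈ Rl, ‖w‖ ≤ R → T (θ, w) ∈ Rl) →
  ∃ w : ℂ → Fin q → ℂ, DifferentiableOn ℂ w U ∧ (∀ θ ∈ U, ‖w θ‖ ≤ R ∧ T (θ, w θ) = w θ) ∧
    ∀ θ ∈ V, w θ ∈ Rl

def S_ma1 : Prop := ∀ (S ξ : ℂ × ℂ → ℂ) (σ₁ d₁ C c₀ C' σ r ε t η ρ : ℝ) (α : ℝ),
  KF S σ₁ d₁ C c₀ C' σ r ε t ξ → 0 < η → α ≠ 0 → |α| < r → 3 * ρ ≤ c₀ * |α| →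
  DifferentiableOn ℂ (fun x : ℂ × ℂ × ℂ × ℂ => Fm S ξ (x.1, α) x.2.1 x.2.2.1 x.2.2.2)
    (St σ ×ˢ ball 0 ρ) ∧
  (∀ θ ∈ St (σ - η), ∀ u v w : ℂ, ‖u‖ ≤ ρ → ‖v‖ ≤ ρ → ‖w‖ ≤ ρ →
    ‖Fm S ξ (θ, α) u v w‖ ≤ 6 / 5 * ε + 9 * C' * ρ ^ 2 + 2 * ρ * ε / η) ∧
  (∀ θ u v w : ℝ, |u| ≤ ρ → |v| ≤ ρ → |w| ≤ ρ → (Fm S ξ (θ, α) u v w).im = 0) ∧
  ∀ θ : ℝ, (ac S ξ (θ, α)).im = 0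

def S_mela : Prop := ∀ c₀ C' : ℝ, ∃ C₂ : ℝ, 0 ≤ C₂ ∧ ∀ (S ξ : ℂ × ℂ → ℂ) (σ₁ d₁ C σ r ε t η : ℝ)
  (q : ℕ) (α : ℝ), KF S σ₁ d₁ C c₀ C' σ r ε t ξ → 0 < η → η < σ → 1 ≤ q → 1 ≤ q * |α| → |α| < r →
  0 < ε → C₂ * (q:ℝ) ^ 6 * ε ≤ η → ∃ w, MW S ξ (σ - η) (32 * (q:ℝ) ^ 3 * ε) q α w

def S_melb : Prop := ∀ (S ξ : ℂ × ℂ → ℂ) (σ₁ d₁ C c₀ C' σ r ε t s R : ℝ) (q : ℕ) (p : ℤ)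
  (w : ℕ → ℂ → ℂ), KF S σ₁ d₁ C c₀ C' σ r ε t ξ → 0 < s → s ≤ σ → 1 ≤ q → p ≠ 0 →
  |(p:ℝ) / q| < r → 3 * q * R ≤ c₀ → 6 * q * R ≤ 1 → MW S ξ s R q (p / q) w →
  ∀ θ ∈ St s, e3 S (xw ξ (p / q) w (q - 1) θ - p) (xw ξ (p / q) w 0 θ) (xw ξ (p / q) w 1 θ) = 0

def S_melg : Prop := ∀ c₀ C' : ℝ, ∃ C₂ : ℝ, 0 ≤ C₂ ∧ ∀ (S ξ : ℂ × ℂ → ℂ) (σ₁ d₁ C σ r ε t η : ℝ)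
  (q : ℕ) (p : ℤ), KF S σ₁ d₁ C c₀ C' σ r ε t ξ → 0 < η → η < σ → 1 ≤ q → p ≠ 0 →
  |(p:ℝ) / q| < r → C₂ * (q:ℝ) ^ 6 * ε ≤ η → ∀ θ ∈ St (σ - η),
  ‖∑ j ∈ Finset.range q, MK S ξ (θ + j * (p / q), p / q)‖ ≤ C₂ * (q:ℝ) ^ 7 * ε ^ 2 / η

def S_mel1 : Prop := ∀ c₀ C' : ℝ, ∃ C₂ : ℝ, 0 ≤ C₂ ∧ ∀ (S ξ : ℂ × ℂ → ℂ) (σ₁ d₁ C σ r ε t η : ℝ)
  (K : ℕ) (n k : ℤ), KF S σ₁ d₁ C c₀ C' σ r ε t ξ → 0 < η → η < σ → n ≠ 0 → |n| ≤ K → k ≠ 0 →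
  |(k:ℝ) / n| < r → C₂ * (K:ℝ) ^ 6 * ε ≤ η →
  ‖f2 (MK S ξ) n (k / n)‖ ≤ C₂ * (K:ℝ) ^ 6 * ε ^ 2 / η * gw (-1) n (σ - η)

def S_jb : Prop := ∃ C₂ : ℝ, 0 ≤ C₂ ∧ ∀ (S ξ : ℂ × ℂ → ℂ) (σ₁ d₁ C c₀ C' σ r ε t η : ℝ)
  (K : ℕ) (α : ℝ), KF S σ₁ d₁ C c₀ C' σ r ε t ξ → 0 < η → η ≤ σ / 2 → 2 ≤ K → 1 ≤ K * |α| →
  |α| < r * (1 - 1 / K) → ∀ φ ∈ St (σ - η),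
  ‖Jc S ξ (φ, α) - f2 (Jc S ξ) 0 α‖ ≤ C₂ * (K:ℝ) ^ 4 * ε / η ^ 3

def S_rid : Prop := ∀ (S ξ : ℂ × ℂ → ℂ) (σ₁ d₁ C c₀ C' σ r ε t : ℝ) (n k : ℤ),
  KF S σ₁ d₁ C c₀ C' σ r ε t ξ → n ≠ 0 → |(k:ℝ) / n| < r →
  HasDerivAt (f2 (MK S ξ) n)
    (2 * Real.pi * I * n * f2 (fun z => p2 ξ z * EK S ξ z) n (k / n)) (k / n)

def S_m2a : Prop := ∃ C₂ : ℝ, 0 ≤ C₂ ∧ ∀ (S ξ Ψ : ℂ × ℂ → ℂ) (σ₁ d₁ C c₀ C' σ r ε t σ' r' D : ℝ)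
  (K : ℕ) (n k : ℤ), KF S σ₁ d₁ C c₀ C' σ r ε t ξ → σ' ≤ σ → r' ≤ r → r ≤ σ' → 2 ≤ K → n ≠ 0 →
  |n| ≤ K → k ≠ 0 → |(k:ℝ) / n| < r' * (1 - 1 / K) → PR (XX σ' (1 / 2) r') Ψ →
  (∀ z ∈ XP σ' 1 r', ‖Ψ (zp z) - Ψ (zm z) + MK S ξ z‖ ≤ D) →
  ‖f2 Ψ n (k / n) + ce (k / 2) * f2 (fun z => p2 ξ z * EK S ξ z) n (k / n)‖
    ≤ C₂ * (K:ℝ) ^ 2 * D * gw (-1) n σ'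

def S_m2b : Prop := ∀ (S ξ Ψ : ℂ × ℂ → ℂ) (σ₁ d₁ C c₀ C' σ r ε t σ' r' D : ℝ) (n k : ℤ) (μ : ℂ),
  KF S σ₁ d₁ C c₀ C' σ r ε t ξ → σ' ≤ σ → r' ≤ r → r ≤ σ' → n ≠ 0 → k ≠ 0 →
  |(k:ℝ) / n| < r' → PR (XX σ' (1 / 2) r') Ψ →
  (∀ z ∈ XP σ' 1 r', ‖Ψ (zp z) - Ψ (zm z) + MK S ξ z‖ ≤ D) →
  ‖f2 (fun z => (μ + Ψ z) * (gg ξ (zp z) - gg ξ (zm z))) n (k / n)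
    - ce (k / 2) * f2 (fun z => p2 ξ z * EK S ξ z) n (k / n)‖ ≤ D * gw (-1) n σ'

def S_mel2 : Prop := ∃ C₂ : ℝ, 0 ≤ C₂ ∧ ∀ (S ξ Ψ : ℂ × ℂ → ℂ) (μ : ℂ → ℂ)
  (σ₁ d₁ C c₀ C' σ r ε t σ' r' D P J : ℝ) (K : ℕ) (n k : ℤ), KF S σ₁ d₁ C c₀ C' σ r ε t ξ →
  σ' ≤ σ → r' ≤ r → r ≤ σ' → 2 ≤ K → n ≠ 0 → |n| ≤ K → k ≠ 0 →
  |(k:ℝ) / n| < r' * (1 - 1 / K) → PR (XX σ' (1 / 2) r') Ψ →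
  (∀ z ∈ XP σ' 1 r', ‖Ψ (zp z) - Ψ (zm z) + MK S ξ z‖ ≤ D) →
  (∀ z ∈ XX σ' (1 / 2) r', ‖Ψ z‖ ≤ P) → ‖μ (k / n)‖ ≤ 3 * P →
  (∀ φ ∈ St σ', ‖Jc S ξ (φ, k / n) - f2 (Jc S ξ) 0 (k / n)‖ ≤ J) →
  ‖f2 (Ph S ξ μ Ψ) n (k / n)‖ ≤ C₂ * (K:ℝ) ^ 3 * (P * J + D) * gw (-1) n σ'

def S_mu : Prop := ∀ (S ξ Ψ : ℂ × ℂ → ℂ) (σ₁ σ r σ' r' P : ℝ), K1 S σ₁ σ r ξ → σ' ≤ σ → r' ≤ r →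
  r' ≤ σ' → PR (XX σ' (1 / 2) r') Ψ → (∀ z ∈ XX σ' (1 / 2) r', ‖Ψ z‖ ≤ P * ‖z.2‖ ^ 4) →
  ∃ μ : ℂ → ℂ, (∀ α : ℂ, α ≠ 0 → ‖α‖ < r' → ‖μ α‖ ≤ 3 * P * ‖α‖ ^ 4 ∧ f2 (Ph S ξ μ Ψ) 0 α = 0) ∧
    PR (XP σ' (1 / 2) r') (Ph S ξ μ Ψ) ∧
    ∀ z ∈ XP σ' (1 / 2) r', ‖Ph S ξ μ Ψ z‖ ≤ 8 * P * ‖z.2‖ ^ 3

/-! ### The Newton step and the iteration -/

def S_ns3a : Prop := ∀ c₀ C' : ℝ, ∃ C₃ : ℝ, 0 ≤ C₃ ∧ ∀ (S ξ Ψ w : ℂ × ℂ → ℂ) (μ : ℂ → ℂ)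
  (σ₁ d₁ C σ r ε t σ' r' η D₁ D₂ W : ℝ), KF S σ₁ d₁ C c₀ C' σ r ε t ξ → σ' ≤ σ → r' ≤ r →
  0 < η → η ≤ 1 → 0 ≤ D₁ → 0 ≤ D₂ → 0 ≤ W → C₃ * W * r ≤ η →
  PR (XX σ' 0 r') w → PR (XP σ' (1 / 2) r') (Ph S ξ μ Ψ) →
  (∀ z ∈ XX σ' 0 r', ‖w z‖ ≤ W * ‖z.2‖ ^ 2) →
  (∀ z ∈ XP σ' 1 r', ‖Ψ (zp z) - Ψ (zm z) + MK S ξ z‖ ≤ D₁ * ‖z.2‖ ^ 5) →
  (∀ z ∈ XP σ' (1 / 2) r', ‖w (zp z) - w (zm z) - Ph S ξ μ Ψ z‖ ≤ D₂ * ‖z.2‖ ^ 3) →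
  ∀ z ∈ XX (σ' - η) 1 r', ‖EK S (nx ξ w) z‖
    ≤ C₃ * (D₁ + D₂ / η + W * r ^ 2 * ε / η + W ^ 2 * r / η ^ 2) * ‖z.2‖ ^ 5

def S_ns3b : Prop := ∀ (S ξ w : ℂ × ℂ → ℂ) (σ₁ σ r ε t σ' r' η W ε' : ℝ) (K : ℕ),
  KS S σ r ε t ξ → K1 S σ₁ σ r ξ → t ≤ 1 / 10 → σ' ≤ σ → r' ≤ r → r / 8 ≤ r' → 0 < r → r ≤ 1 →
  0 < η → η ≤ 1 → 0 ≤ W → 2 ≤ K → PR (XX σ' 0 r') w → (∀ z ∈ XX σ' 0 r', ‖w z‖ ≤ W * ‖z.2‖ ^ 2) →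
  (∀ z ∈ XX (σ' - η) 1 r', ‖EK S (nx ξ w) z‖ ≤ ε' * ‖z.2‖ ^ 5) →
  KS S (σ' - η) (r' * (1 - 1 / K)) ε' (t + 10 * W * r * K / η) (nx ξ w) ∧
    ∀ z ∈ XX σ' 0 r', ‖nx ξ w z - ξ z‖ ≤ 2 * W * r

def S_ns : Prop := ∀ c₀ C' : ℝ, ∃ (C₄ : ℝ) (b : ℕ), 1 ≤ C₄ ∧ ∀ (S ξ : ℂ × ℂ → ℂ)
  (σ₁ d₁ C σ r ε t η : ℝ) (K : ℕ), KF S σ₁ d₁ C c₀ C' σ r ε t ξ → 2 ≤ K → 0 < η → η ≤ σ₁ / 64 →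
  C₄ * (K / η) ^ b * r * ε ≤ 1 →
  ∃ ξ', KS S (σ - 4 * η) (r * (1 - 1 / K) ^ 4)
      (C₄ * (K / η) ^ b * (r * ε ^ 2 + ε * Real.exp (-(η * K)))) (t + C₄ * (K / η) ^ b * r * ε) ξ' ∧
    ∀ z ∈ XX (σ - 4 * η) 0 (r * (1 - 1 / K) ^ 4), ‖ξ' z - ξ z‖ ≤ C₄ * (K / η) ^ b * r * ε

def S_num : Prop := ∀ (C ε₀ η₀ ρ : ℝ) (b : ℕ), 1 ≤ C → 0 < ε₀ → 0 < η₀ → η₀ ≤ 1 → 0 < ρ →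
  ∃ (K₀ : ℕ) (r₀ lam : ℝ), 12 ≤ K₀ ∧ 0 < r₀ ∧ r₀ ≤ ρ ∧ 0 < lam ∧ lam < 1 ∧ ∀ j : ℕ,
    C * (((K₀ * 4 ^ j : ℕ) : ℝ) / (η₀ / 2 ^ j)) ^ b * r₀ * (ε₀ * lam ^ j) ≤ (1 / 2) ^ j / 20 ∧
    C * (((K₀ * 4 ^ j : ℕ) : ℝ) / (η₀ / 2 ^ j)) ^ b * (r₀ * (ε₀ * lam ^ j) ^ 2
      + ε₀ * lam ^ j * Real.exp (-(η₀ / 2 ^ j * ((K₀ * 4 ^ j : ℕ) : ℝ)))) ≤ ε₀ * lam ^ (j + 1)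

def S_lim : Prop := ∀ (S : ℂ × ℂ → ℂ) (σ₁ d₁ C σ r : ℝ) (ε : ℕ → ℝ) (ξ : ℕ → ℂ × ℂ → ℂ),
  GD S σ₁ d₁ C → OK σ₁ d₁ C σ r (1 / 10) → (∀ j, KS S σ r (ε j) (1 / 10) (ξ j)) →
  Filter.Tendsto ε Filter.atTop (nhds 0) →
  (∀ j, ∀ z ∈ XX σ 0 r, ‖ξ (j + 1) z - ξ j z‖ ≤ (1 / 2) ^ j) → ∃ ζ, KS S σ r 0 (1 / 10) ζ

def S_kam : Prop := ∀ (S : ℂ × ℂ → ℂ) (σ₁ d₁ C : ℝ), GD S σ₁ d₁ C →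
  ∃ (σ r : ℝ) (ξ : ℂ × ℂ → ℂ), OK σ₁ d₁ C σ r (1 / 10) ∧ KS S σ r 0 (1 / 10) ξ

/-! ### The billiard generating function -/

def S_ext : Prop := ∀ β : ℝ → ℝ, Continuous β → Function.Periodic β 1 → ∀ M σ : ℝ, 0 < σ →
  (∀ n : ℤ, ‖fr β n‖ ≤ M * Real.exp (-(σ * |(n:ℝ)|))) → ∃ (b : ℂ → ℂ) (s M' : ℝ), EX β b s M'

def S_sph : Prop := ∀ (β : ℝ → ℝ) (b : ℂ → ℂ) (s M : ℝ), EX β b s M → ∃ M' : ℝ,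
  ∀ z ∈ Om (s / 2) (s / 4), ∀ ω : ℝ, ‖z.2 - z.1‖ ≤ ω →
    PH M' ω (b z.1) (deriv b z.1) (deriv (deriv b) z.1 / 2) (z.2 - z.1) (cp b z)

def S_sr : Prop := ∀ (β : ℝ → ℝ) (b : ℂ → ℂ) (s M : ℝ), EX β b s M → ∃ d C : ℝ, RC b s d C

def S_shol : Prop := ∀ (β : ℝ → ℝ) (b : ℂ → ℂ) (s M : ℝ), EX β b s M →
  (∀ (j : ℂ) (d : ℝ), DifferentiableOn ℂ (Gc j b) (Om (s / 2) d)) ∧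
  ∀ d C : ℝ, RC b s d C →
    DifferentiableOn ℂ (Rc b) (Om (s / 2) d) ∧ DifferentiableOn ℂ (Sc b) (Om (s / 2) d)

def S_spr : Prop := ∀ (β : ℝ → ℝ) (b : ℂ → ℂ) (s M d C : ℝ), EX β b s M → RC b s d C →
  ∀ z ∈ Om (s / 2) d,
    Sc b (z.1 + 1, z.2 + 1) = Sc b z ∧ Sc b (cj z) = (starRingEnd ℂ) (Sc b z)

def S_santi : Prop := ∀ (β : ℝ → ℝ) (b : ℂ → ℂ) (s M d C : ℝ), EX β b s M → RC b s d C →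
  ∀ z ∈ Om (s / 2) d, Sc b (z.2, z.1) = -Sc b z

def S_expl : Prop := ∀ M : ℝ, ∃ C : ℝ, ∀ (B : Type) [NormedCommRing B] [NormedAlgebra ℂ B]
  [CompleteSpace B] [NormOneClass B] (ω : ℝ) (b0 b1 b2 d R : B) (b : ℝ → B), 0 < ω → ω ≤ 1 →
  PH M ω b0 b1 b2 d b → R ^ 2 = GG I b d * GG (-I) b d →
  ‖exp ((2 : ℂ) • b0) * R - 1‖ ≤ M * ω → ‖LA b d R + (1 / 24 : ℂ) • d ^ 3‖ ≤ C * ω ^ 4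

def S_scub : Prop := ∀ (β : ℝ → ℝ) (b : ℂ → ℂ) (s M d C : ℝ), EX β b s M → RC b s d C →
  ∃ C' : ℝ, ∀ z ∈ Om (s / 2) d, ‖Sc b z + (z.2 - z.1) ^ 3 / 6‖ ≤ C' * ‖z.2 - z.1‖ ^ 4

def S_sag1 : Prop := ∀ (β : ℝ → ℝ) (b : ℂ → ℂ) (s M : ℝ), EX β b s M →
  (∀ x y : ℝ, Gc I b (x, y) = Gr β x (y - x)) ∧
  ∀ d C : ℝ, RC b s d C → ∀ x y : ℝ, |y - x| < d →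
    Gr β x (y - x) ≠ 0 ∧ Sc b (x, y) = 4 * (ll β x (y - x) : ℂ)

def S_sag2 : Prop := ∀ (β : ℝ → ℝ) (b : ℂ → ℂ) (s M d C : ℝ), Continuous β → EX β b s M →
  RC b s d C → ∀ x y z : ℝ, x < y → y < z → y - x < d → z - y < d →
  e3 (Sc b) x y z = ((4 * Real.exp (-2 * β y) *
    ((Gr β y (-(y - x))).re / ‖Gr β y (-(y - x))‖ - (Gr β y (z - y)).re / ‖Gr β y (z - y)‖) : ℝ) : ℂ)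

def S_scrit : Prop := ∀ (β : ℝ → ℝ) (b : ℂ → ℂ) (s M d C : ℝ), SP β → EX β b s M →
  RC b s d C → ∃ d' : ℝ, 0 < d' ∧ ∀ x y z : ℝ, x < y → y < z → y - x < d' → z - y < d' →
    (e3 (Sc b) x y z = 0 ↔ Ee β y (z - y) (y - x) = 0)

def S_geo2p : Prop := ∀ (γ : ℝ → ℂ) (L : ℝ) (β : ℝ → ℝ) (c : ℝ) (s : ℝ ≃ₜ ℝ), Table γ L → SP β →
  Laz γ L β c s → Graphs γ L → PQ β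

def S_sgf : Prop := ∀ (β : ℝ → ℝ) (b : ℂ → ℂ) (s M : ℝ), SP β → EX β b s M → PQ β →
  ∃ σ d C : ℝ, GF (Sc b) σ d C

def S_rx : Prop := ∀ (β : ℝ → ℝ) (S ξ : ℂ × ℂ → ℂ) (σ r d' : ℝ), 0 < r → r ≤ σ → 0 < d' →
  KS S σ r 0 (1 / 10) ξ → (∀ x y z : ℝ, x < y → y < z → y - x < d' → z - y < d' →
    e3 S x y z = 0 → Ee β y (z - y) (y - x) = 0) →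
  ∃ (r' : ℝ) (X : ℝ × ℝ → ℝ), RX β r' X

def S_gb2 : Prop := ∀ β : ℝ → ℝ, SP β → ∃ κ d₀ : ℝ, 0 < κ ∧ 0 < d₀ ∧
  ∀ ξ d : ℝ, 0 ≤ d → d ≤ d₀ → κ * d ≤ arg (Gr β ξ d)

def S_agr : Prop := ∀ (β : ℝ → ℝ) (b : ℂ → ℂ) (s M : ℝ), SP β → EX β b s M → ∃ d : ℝ, 0 < d ∧
  AnalyticOnNhd ℝ (fun x : ℝ × ℝ => arg (Gr β x.1 x.2)) (univ ×ˢ Ioo (-d) d)

def S_fin : Prop := ∀ (γ : ℝ → ℂ) (L : ℝ) (β : ℝ → ℝ) (c : ℝ) (s : ℝ ≃ₜ ℝ) (r d : ℝ)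
  (X : ℝ × ℝ → ℝ), Table γ L → SP β → Laz γ L β c s → AnalyticOnNhd ℝ β univ → RX β r X → 0 < d →
  AnalyticOnNhd ℝ (fun x : ℝ × ℝ => arg (Gr β x.1 x.2)) (univ ×ˢ Ioo (-d) d) →
  ∃ (r' : ℝ) (σ δ : ℝ × ℝ → ℝ), AAng γ L r' σ δ

def S_cov : Prop := ∀ (γ : ℝ → ℂ) (L r : ℝ) (σ d : ℝ × ℝ → ℝ), 0 < L → AAng γ L r σ d →
  ∃ η : ℝ, 0 < η ∧ ∀ s δ : ℝ, 0 < δ → δ < η →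
    ∃ θ a : ℝ, 0 < a ∧ a < r ∧ σ (θ, a) = s ∧ d (θ, a) = δ

theorem kfE (q3 : S_q3) (k1 : S_k1) (k2 : S_k2) (k3 : S_k3) (k4 : S_k4) (lf : S_lf) : S_kf := by
  intro S σ₁ d₁ C hG
  obtain ⟨c₀, C', h0, h1, hq⟩ := q3 S σ₁ d₁ C hG
  refine ⟨c₀, 2 * C', fun σ r ε t ξ ho he hk => ?_⟩
  have a1 := k1 S ξ σ₁ d₁ C σ r ε t hG ho hk
  have a2 := k2 S ξ σ₁ d₁ C σ r ε t hG ho hk a1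
  exact ⟨hG, ho, h0, by linarith, he, hk, a1, a2, k3 S ξ σ₁ d₁ C σ r ε t hG ho hk a1,
    k4 S ξ σ₁ d₁ C σ r ε t ho hk a1 a2, lf S ξ σ₁ d₁ C σ r ε t c₀ C' ho hk a1 a2 h1 hq⟩

theorem finalK (geo1 : S_geo1) (geo2 : S_geo2) (geo3 : S_geo3) (rm : S_RM) (ap : S_ap) (fd : S_fd)
    (ind : S_ind) (an : S_an) (ext : S_ext) (geo2p : S_geo2p) (sgf : S_sgf) (gd : S_gd)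
    (kam : S_kam) (sr : S_sr) (scrit : S_scrit) (rx : S_rx) (agr : S_agr) (fin : S_fin)
    (cov : S_cov) (γ : ℝ → ℂ) (L : ℝ) (h : Table γ L) (hg : Graphs γ L) :
    AnalyticOnNhd ℝ γ univ ∧ ∃ (r : ℝ) (σ d : ℝ × ℝ → ℝ), AAng γ L r σ d ∧
      ∃ η : ℝ, 0 < η ∧ ∀ s δ : ℝ, 0 < δ → δ < η →
        ∃ θ a : ℝ, 0 < a ∧ a < r ∧ σ (θ, a) = s ∧ d (θ, a) = δ := by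
  obtain ⟨β, c, s, hβ, hl⟩ := geo1 γ L h
  obtain ⟨M, hM, hc⟩ := fd β hβ
  obtain ⟨M', σ, hσ, hd⟩ := ind _ M hM hc (ap β hβ (rm β hβ (geo2 γ L β c s h hβ hl hg)))
  have ha := an β hβ.1.continuous hβ.2 M' σ hσ hd
  refine ⟨geo3 γ L β c s h hl ha, ?_⟩
  obtain ⟨b, s₀, M₀, hb⟩ := ext β hβ.1.continuous hβ.2 M' σ hσ hd
  obtain ⟨σ₀, d₀, C₀, hF⟩ := sgf β b s₀ M₀ hβ hb (geo2p γ L β c s h hβ hl hg)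
  obtain ⟨σ₁, d₁, C₁, hD⟩ := gd _ _ _ _ hF
  obtain ⟨σ₂, r₂, ξ, ho, hk⟩ := kam _ _ _ _ hD
  obtain ⟨d₃, C₃, hR⟩ := sr β b s₀ M₀ hb
  obtain ⟨d₄, h4, hcr⟩ := scrit β b s₀ M₀ d₃ C₃ hβ hb hR
  obtain ⟨r₅, X, hX⟩ := rx β _ ξ σ₂ r₂ d₄ ho.rpos (by linarith [ho.lo, ho.r1, hD.spos]) h4 hk
    fun x y z a1 a2 a3 a4 => (hcr x y z a1 a2 a3 a4).1
  obtain ⟨d₆, h6, hA⟩ := agr β b s₀ M₀ hβ hb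
  obtain ⟨r₇, σ₇, δ₇, h7⟩ := fin γ L β c s r₅ d₆ X h hβ hl ha hX h6 hA
  exact ⟨r₇, σ₇, δ₇, h7, cov γ L r₇ σ₇ δ₇ h.pos h7⟩

end Vale.Agent.P097
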