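import Vale.Agent.P097.Base

open Set NormedSpace Complex

namespace Vale.Agent.P097

namespace LeadAux

theorem dexp (a : ℂ) (y : ℝ) :
    HasDerivAt (fun y : ℝ => Complex.exp (a * y)) (a * Complex.exp (a * y)) y := by
  have h : HasDerivAt (fun z : ℂ => Complex.exp (a * z)) (Complex.exp (a * y) * (a * 1)) (y : ℂ) :=
    ((hasDerivAt_id (y : ℂ)).const_mul a).cexp
  have := h.comp_ofReal
  rwa [mul_one, mul_comm] at this

theorem prim {a : ℂ} (ha : a ≠ 0) (y : ℝ) :
    ∫ z in (0:ℝ)..y, Complex.exp (a * z) = (Complex.exp (a * y) - 1) / a := by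
  rw [integral_exp_mul_complex ha]
  simp

theorem val {a : ℂ} (ha : a ≠ 0) (h1 : Complex.exp a = 1) :
    lead (fun y : ℝ => Complex.exp (a * y)) = -3 / a ^ 2 := by
  unfold lead
  simp only [prim ha, smul_eq_mul]
  have hu : ∀ y : ℝ, HasDerivAt (fun y : ℝ => (y : ℂ) - 1 / 2) 1 y := fun y =>
    ((hasDerivAt_id (y : ℂ)).sub_const (1 / 2)).comp_ofReal
  have hF : ∀ y : ℝ, HasDerivAt (fun y : ℝ =>
      (((y : ℂ) - 1 / 2) * ((y : ℂ) - 1 / 2) / a - 3 * ((y : ℂ) - 1 / 2) / a ^ 2 + 3 / a ^ 3) *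
        Complex.exp (a * y) + ((y : ℂ) - 1 / 2) * ((y : ℂ) - 1 / 2) / (2 * a))
      (((y : ℂ) - 1 / 2) ^ 2 * Complex.exp (a * y) -
        ((y : ℂ) - 1 / 2) * ((Complex.exp (a * y) - 1) / a)) y := fun y => by
    refine (((((((hu y).mul (hu y)).div_const a).sub (((hu y).const_mul 3).div_const
      (a ^ 2))).add_const (3 / a ^ 3)).mul (dexp a y)).add
      (((hu y).mul (hu y)).div_const (2 * a))).congr_deriv ?_
    simp only [Pi.mul_apply, Pi.sub_apply]
    field_simp
    ring
  rw [intervalIntegral.integral_eq_sub_of_hasDerivAt (fun y _ => hF y)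
    (Continuous.intervalIntegrable (by fun_prop) _ _)]
  simp only [ofReal_one, ofReal_zero, mul_one, mul_zero, h1, Complex.exp_zero]
  field_simp
  ring

variable {B : Type} [NormedCommRing B] [NormedAlgebra ℂ B]

theorem pc {h : ℝ → B} (hh : Continuous h) : Continuous fun y => ∫ z in (0:ℝ)..y, h z :=
  intervalIntegral.continuous_primitive (fun _ _ => hh.intervalIntegrable _ _) 0

theorem ic {h : ℝ → B} (hh : Continuous h) : Continuous fun y : ℝ =>
    ((y:ℂ) - 1 / 2) ^ 2 • h y - ((y:ℂ) - 1 / 2) • ∫ z in (0:ℝ)..y, h z :=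
  (Continuous.smul (by fun_prop) hh).sub (Continuous.smul (by fun_prop) (pc hh))

theorem bnd {h : ℝ → B} {A : ℝ} (hA : ∀ y ∈ Icc (0:ℝ) 1, ‖h y‖ ≤ A) : ‖lead h‖ ≤ A := by
  have A0 : 0 ≤ A := (norm_nonneg _).trans (hA 0 ⟨le_rfl, zero_le_one⟩)
  unfold lead
  refine (intervalIntegral.norm_integral_le_of_norm_le_const (C := A) fun y hy => ?_).trans
    (by simp)
  rw [uIoc_of_le zero_le_one] at hy
  have e : ‖(y:ℂ) - 1 / 2‖ ≤ 1 / 2 := by
    have : (y:ℂ) - 1 / 2 = ((y - 1 / 2 : ℝ) : ℂ) := by push_cast; ring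
    rw [this, norm_real, Real.norm_eq_abs, abs_le]
    constructor <;> linarith [hy.1, hy.2]
  have p : ‖∫ z in (0:ℝ)..y, h z‖ ≤ A := by
    refine (intervalIntegral.norm_integral_le_of_norm_le_const (C := A) fun z hz => ?_).trans ?_
    · rw [uIoc_of_le hy.1.le] at hz
      exact hA z ⟨hz.1.le, hz.2.trans hy.2⟩
    · rw [sub_zero, abs_of_pos hy.1]
      exact mul_le_of_le_one_right A0 hy.2
  refine (norm_sub_le _ _).trans ?_
  rw [norm_smul, norm_smul, norm_pow]
  have a1 : ‖(y:ℂ) - 1 / 2‖ ^ 2 * ‖h y‖ ≤ (1 / 2) ^ 2 * A :=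
    mul_le_mul (pow_le_pow_left₀ (norm_nonneg _) e 2) (hA y ⟨hy.1.le, hy.2⟩) (norm_nonneg _)
      (by positivity)
  have a2 : ‖(y:ℂ) - 1 / 2‖ * ‖∫ z in (0:ℝ)..y, h z‖ ≤ 1 / 2 * A :=
    mul_le_mul e p (norm_nonneg _) (by positivity)
  linarith

end LeadAux

theorem leadE : S_lead := by
  refine ⟨?_, fun B _ _ _ _ => ⟨fun h A _ hA => LeadAux.bnd hA, fun h g hh hg => ?_,
    fun g hg => ?_, fun b h d Ri x hb hh => ?_⟩⟩
  · have hp : (Real.pi : ℂ) ≠ 0 := ofReal_ne_zero.2 Real.pi_ne_zero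
    unfold ee
    rw [LeadAux.val (a := 2 * Real.pi * I) two_pi_I_ne_zero Complex.exp_two_pi_mul_I, mul_pow, I_sq]
    field_simp
    ring
  · unfold lead
    rw [← intervalIntegral.integral_sub ((LeadAux.ic hh).intervalIntegrable _ _)
      ((LeadAux.ic hg).intervalIntegrable _ _)]
    refine intervalIntegral.integral_congr fun y _ => ?_
    simp only
    rw [intervalIntegral.integral_sub (hh.intervalIntegrable _ _) (hg.intervalIntegrable _ _),
      smul_sub, smul_sub]
    abel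
  · unfold lead
    rw [← intervalIntegral.integral_smul_const]
    refine intervalIntegral.integral_congr fun y _ => ?_
    simp only
    rw [intervalIntegral.integral_smul_const, ← smul_assoc, ← smul_assoc, ← sub_smul]
  · unfold lin
    have c : Continuous fun y => em b y * ((-2 : ℂ) • (h y * (cs b d Ri y - 1)) -
        d * JJ b h y * sn b d Ri y) :=
      (em_cont hb).mul (((hh.mul ((cs_cont hb d Ri).sub continuous_const)).const_smul _).sub
        ((continuous_const.mul (JJ_cont hb hh)).mul (sn_cont hb d Ri)))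
    have e : ∀ y, JJ b (fun y => x * h y) y = x * JJ b h y := fun y => by
      unfold JJ
      rw [← int_mul x (h := fun z => exp (b z) * h z) ((ex_cont.comp hb).mul hh)]
      exact intervalIntegral.integral_congr fun z _ => mul_left_comm _ _ _
    rw [mul_left_comm, ← int_mul x c]
    congr 1
    refine intervalIntegral.integral_congr fun y _ => ?_
    simp only [e, Algebra.smul_def]
    ring

end Vale.Agent.P097
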