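import Vale.Agent.P097.Base

open Set NormedSpace Complex

namespace Vale.Agent.P097

namespace PrAux

/-- Pairs of complex numbers, with a norm depending on the parameter. -/
def P (_lam : NNReal) : Type := ℂ × ℂ

variable {lam : NNReal}

noncomputable instance : CommRing (P lam) := inferInstanceAs (CommRing (ℂ × ℂ))

noncomputable instance : Algebra ℂ (P lam) := inferInstanceAs (Algebra ℂ (ℂ × ℂ))

instance : FiniteDimensional ℂ (P lam) := inferInstanceAs (FiniteDimensional ℂ (ℂ × ℂ))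

/-- The norm on pairs. -/
noncomputable def N (l : ℝ) (x : ℂ × ℂ) : ℝ := max ‖x.1‖ ‖x.2‖ + l * ‖x.1 - x.2‖

theorem N_add {l : ℝ} (hl : 0 ≤ l) (x y : ℂ × ℂ) : N l (x + y) ≤ N l x + N l y := by
  unfold N
  have h1 : max ‖(x + y).1‖ ‖(x + y).2‖ ≤ max ‖x.1‖ ‖x.2‖ + max ‖y.1‖ ‖y.2‖ :=
    max_le ((norm_add_le x.1 y.1).trans (add_le_add (le_max_left _ _) (le_max_left _ _)))
      ((norm_add_le x.2 y.2).trans (add_le_add (le_max_right _ _) (le_max_right _ _)))
  have h2 : ‖(x + y).1 - (x + y).2‖ ≤ ‖x.1 - x.2‖ + ‖y.1 - y.2‖ := by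
    have e : (x + y).1 - (x + y).2 = (x.1 - x.2) + (y.1 - y.2) := by
      rw [Prod.fst_add, Prod.snd_add]; ring
    rw [e]
    exact norm_add_le _ _
  have h3 := mul_le_mul_of_nonneg_left h2 hl
  linarith

theorem N_neg (l : ℝ) (x : ℂ × ℂ) : N l (-x) = N l x := by
  unfold N
  have e : (-x).1 - (-x).2 = -(x.1 - x.2) := by
    rw [Prod.fst_neg, Prod.snd_neg]; ring
  rw [e, norm_neg, Prod.fst_neg, Prod.snd_neg, norm_neg, norm_neg]

theorem N_mul {l : ℝ} (hl : 0 ≤ l) (x y : ℂ × ℂ) : N l (x * y) ≤ N l x * N l y := by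
  unfold N
  have a1 := le_max_left ‖x.1‖ ‖x.2‖
  have a2 := le_max_right ‖x.1‖ ‖x.2‖
  have b1 := le_max_left ‖y.1‖ ‖y.2‖
  have b2 := le_max_right ‖y.1‖ ‖y.2‖
  have a0 := (norm_nonneg _).trans a1
  have h1 : max ‖(x * y).1‖ ‖(x * y).2‖ ≤ max ‖x.1‖ ‖x.2‖ * max ‖y.1‖ ‖y.2‖ :=
    max_le ((norm_mul_le x.1 y.1).trans (mul_le_mul a1 b1 (norm_nonneg _) a0))
      ((norm_mul_le x.2 y.2).trans (mul_le_mul a2 b2 (norm_nonneg _) a0))
  have h2 : ‖(x * y).1 - (x * y).2‖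
      ≤ max ‖x.1‖ ‖x.2‖ * ‖y.1 - y.2‖ + ‖x.1 - x.2‖ * max ‖y.1‖ ‖y.2‖ := by
    have e : (x * y).1 - (x * y).2 = x.1 * (y.1 - y.2) + (x.1 - x.2) * y.2 := by
      rw [Prod.fst_mul, Prod.snd_mul]; ring
    rw [e]
    refine (norm_add_le _ _).trans (add_le_add ?_ ?_)
    · exact (norm_mul_le _ _).trans (mul_le_mul_of_nonneg_right a1 (norm_nonneg _))
    · exact (norm_mul_le _ _).trans (mul_le_mul_of_nonneg_left b2 (norm_nonneg _))
  have h3 := mul_le_mul_of_nonneg_left h2 hl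
  have h4 : 0 ≤ l * ‖x.1 - x.2‖ * (l * ‖y.1 - y.2‖) := by positivity
  nlinarith

theorem N_smul (l : ℝ) (c : ℂ) (x : ℂ × ℂ) : N l (c • x) = ‖c‖ * N l x := by
  unfold N
  have e : (c • x).1 - (c • x).2 = c • (x.1 - x.2) := by
    rw [Prod.smul_fst, Prod.smul_snd, smul_sub]
  rw [e, Prod.smul_fst, Prod.smul_snd, norm_smul, norm_smul, norm_smul,
    ← mul_max_of_nonneg _ _ (norm_nonneg c)]
  ring

theorem N_eq {l : ℝ} (hl : 0 ≤ l) (x : ℂ × ℂ) (h : N l x = 0) : x = 0 := by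
  unfold N at h
  have a1 := le_max_left ‖x.1‖ ‖x.2‖
  have a2 := le_max_right ‖x.1‖ ‖x.2‖
  have h4 : 0 ≤ l * ‖x.1 - x.2‖ := by positivity
  exact Prod.ext (norm_le_zero_iff.1 (by linarith)) (norm_le_zero_iff.1 (by linarith))

/-- The norm as a ring norm. -/
noncomputable def nrm (lam : NNReal) : RingNorm (P lam) where
  toFun a := N lam a
  map_zero' := by
    show N lam (0 : ℂ × ℂ) = 0
    simp [N]
  add_le' a b := N_add lam.2 a b
  neg' a := N_neg lam a
  mul_le' a b := N_mul lam.2 a b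
  eq_zero_of_map_eq_zero' a h := N_eq lam.2 a h

noncomputable instance : NormedCommRing (P lam) :=
  { (nrm lam).toNormedRing with mul_comm := mul_comm }

theorem norm_def (a : P lam) : ‖a‖ = N lam a := rfl

noncomputable instance : NormedAlgebra ℂ (P lam) where
  norm_smul_le r a := (N_smul lam r a).le

instance : CompleteSpace (P lam) := FiniteDimensional.complete ℂ (P lam)

instance : NormOneClass (P lam) where
  norm_one := by
    show N lam (1 : ℂ × ℂ) = 1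
    simp [N]

/-- The identity map. -/
noncomputable def idm (lam : NNReal) : (ℂ × ℂ) →ₗ[ℂ] P lam where
  toFun x := x
  map_add' _ _ := rfl
  map_smul' _ _ := rfl

end PrAux

theorem prE : S_pr := by
  intro lam hl
  lift lam to NNReal using hl
  exact ⟨{
    B := PrAux.P lam
    f1 := AlgHom.fst ℂ ℂ ℂ
    f2 := AlgHom.snd ℂ ℂ ℂ
    mk2 := fun a b => (a, b)
    f1_mk := fun _ _ => rfl
    f2_mk := fun _ _ => rfl
    cont := (PrAux.idm lam).continuous_of_finiteDimensional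
    nrm := fun _ => rfl }⟩

end Vale.Agent.P097
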