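import Vale.Agent.P097.Base

open Set NormedSpace Complex

namespace Vale.Agent.P097

namespace PrimAux

theorem cxify {f : ℝ → ℂ} {x : ℝ} (hf : AnalyticAt ℝ f x) :
    ∃ (r : ℝ) (g : ℂ → ℂ), 0 < r ∧ DifferentiableOn ℂ g (Metric.ball 0 r) ∧
      ∀ t : ℝ, |t| < r → g t = f (x + t) := by
  obtain ⟨p, R, hp⟩ := hf
  obtain ⟨r, hr0, hr⟩ := ENNReal.lt_iff_exists_nnreal_btwn.1 hp.r_pos
  have hs := p.summable_norm_mul_pow (hr.trans_le hp.r_le)
  refine ⟨r, fun z => ∑' n, z ^ n * p.coeff n, by exact_mod_cast hr0, ?_, ?_⟩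
  · refine differentiableOn_tsum_of_summable_norm hs (fun n => by fun_prop) Metric.isOpen_ball
      (fun n z hz => ?_)
    rw [mem_ball_zero_iff] at hz
    rw [norm_mul, norm_pow, FormalMultilinearSeries.norm_apply_eq_norm_coef, mul_comm]
    gcongr
  · intro t ht
    have hm : t ∈ Metric.eball (0:ℝ) R := by
      rw [mem_eball_zero_iff]
      refine lt_trans ?_ hr
      rw [← ofReal_norm, Real.norm_eq_abs, ← ENNReal.ofReal_coe_nnreal]
      exact (ENNReal.ofReal_lt_ofReal_iff (by exact_mod_cast hr0)).2 ht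
    have h := hp.hasSum hm
    simp only [FormalMultilinearSeries.apply_eq_pow_smul_coeff, Complex.real_smul,
      Complex.ofReal_pow] at h
    exact h.tsum_eq

end PrimAux

theorem primE : S_prim := by
  intro f F hf hF x _
  obtain ⟨r, g, hr, hg, hfg⟩ := PrimAux.cxify (hf x trivial)
  obtain ⟨H, hH⟩ := hg.isExactOn_ball
  have hHd : DifferentiableOn ℂ H (Metric.ball 0 r) := fun z hz =>
    (hH z hz).differentiableAt.differentiableWithinAt
  have hHa : AnalyticAt ℂ H 0 := hHd.analyticAt (Metric.ball_mem_nhds 0 hr)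
  have hd : ∀ t ∈ Metric.ball (0:ℝ) r, HasDerivAt (fun t : ℝ => F (x + t) - H t) 0 t := by
    intro t ht
    rw [mem_ball_zero_iff, Real.norm_eq_abs] at ht
    have h1 : HasDerivAt (fun t : ℝ => F (x + t)) (f (x + t)) t := (hF (x + t)).comp_const_add x t
    have h2 : HasDerivAt (fun t : ℝ => H t) (g t) t :=
      (hH t (by rw [mem_ball_zero_iff, Complex.norm_real, Real.norm_eq_abs]; exact ht)).comp_ofReal
    have h3 := h1.sub h2
    rw [hfg t ht, sub_self] at h3
    exact h3
  have hc : ∀ t ∈ Metric.ball (0:ℝ) r, F (x + t) - H t = F (x + 0) - H (0:ℝ) := by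
    intro t ht
    refine Metric.isOpen_ball.is_const_of_deriv_eq_zero (convex_ball (0:ℝ) r).isPreconnected
      (fun s hs => (hd s hs).differentiableAt.differentiableWithinAt)
      (fun s hs => (hd s hs).deriv) ht (Metric.mem_ball_self hr)
  have ha : AnalyticAt ℝ (fun t : ℝ => H ((t - x : ℝ) : ℂ) + (F (x + 0) - H (0:ℝ))) x := by
    refine AnalyticAt.add ?_ analyticAt_const
    have h1 : AnalyticAt ℝ (fun t : ℝ => ((t - x : ℝ) : ℂ)) x :=
      (Complex.ofRealCLM.analyticAt _).comp (analyticAt_id.sub analyticAt_const)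
    refine AnalyticAt.comp (g := H) ?_ h1
    rw [sub_self, Complex.ofReal_zero]
    exact hHa.restrictScalars
  refine ha.congr ?_
  filter_upwards [Metric.ball_mem_nhds x hr] with t ht
  have h := hc (t - x) (by rw [mem_ball_zero_iff]; rwa [mem_ball_iff_norm] at ht)
  rw [add_sub_cancel] at h
  rw [← h]; ring

end Vale.Agent.P097
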