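import Vale.Agent.P097.Base

open Set NormedSpace Complex

namespace Vale.Agent.P097

namespace RLAux

variable {lam : ℝ} (P : Pr lam)

theorem nrm {x : P.B} {a b : ℝ} (h1 : P.f1 x = a) (h2 : P.f2 x = b) :
    ‖x‖ = max |a| |b| + lam * |a - b| := by
  rw [P.nrm, h1, h2, ← ofReal_sub, norm_real, norm_real, norm_real]
  rfl

theorem nrm_le {x : P.B} {a b A B : ℝ} (h1 : P.f1 x = a) (h2 : P.f2 x = b) (ha : |a| ≤ A)
    (hb : |b| ≤ A) (h : lam * |a - b| ≤ B) : ‖x‖ ≤ A + B :=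
  (nrm P h1 h2).trans_le (add_le_add (max_le ha hb) h)

theorem cont (hl : 0 ≤ lam) : Continuous P.f1 ∧ Continuous P.f2 := by
  constructor <;> refine AddMonoidHomClass.continuous_of_bound _ 1 fun x => ?_ <;>
    rw [one_mul, P.nrm]
  · exact le_add_of_le_of_nonneg (le_max_left _ _) (by positivity)
  · exact le_add_of_le_of_nonneg (le_max_right _ _) (by positivity)

theorem key (hexpE : S_expE) (hpr : S_pr) (htay : S_tay) {β : ℝ → ℝ} (hβ : SP β) :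
    ∃ C : ℝ, 0 ≤ C ∧ ∀ lam ω ξ p n ξ' p' n' : ℝ, 0 ≤ lam → 0 < ω → ω ≤ 1 → |p| ≤ 2 * ω →
      |n| ≤ 2 * ω → |p'| ≤ 2 * ω → |n'| ≤ 2 * ω → lam * |ξ - ξ'| ≤ 1 → lam * |p - p'| ≤ ω →
      lam * |n - n'| ≤ ω →
      max |Ee β ξ p n - (p - n)| |Ee β ξ' p' n' - (p' - n')| +
        lam * |(Ee β ξ p n - (p - n)) - (Ee β ξ' p' n' - (p' - n'))| ≤
      C * (ω ^ 4 + ω * (max |p - n| |p' - n'| + lam * |(p - n) - (p' - n')|)) := by
  obtain ⟨M, M0, t1, t2, t3, t4⟩ := htay β hβ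
  obtain ⟨C, C0, hC⟩ := hexpE (20 * M + 3)
  refine ⟨C, C0, fun lam ω ξ p n ξ' p' n' l0 ω0 ω1 hp hn hp' hn' hξ dp dn => ?_⟩
  obtain ⟨P⟩ := hpr lam l0
  have c := hβ.1.continuous
  have cb : ∀ d d' : ℝ, Continuous fun y => P.mk2 (pth β ξ d y) (pth β ξ' d' y) := fun d d' =>
    P.cont.comp ((pth_cont c ξ d).prodMk (pth_cont c ξ' d'))
  have lp : ∀ {a : ℝ}, a ≤ M * |ξ - ξ'| → lam * a ≤ M := fun h =>
    (mul_le_mul_of_nonneg_left h l0).trans (by nlinarith)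
  have ph : ∀ (d d' : ℝ) (D : P.B), P.f1 D = d → P.f2 D = d' → |d| ≤ 2 * ω → |d'| ≤ 2 * ω →
      lam * |d - d'| ≤ ω → PH (20 * M + 3) ω (P.mk2 (β ξ) (β ξ'))
        (P.mk2 (deriv β ξ : ℝ) (deriv β ξ' : ℝ))
        (P.mk2 (deriv (deriv β) ξ / 2 : ℝ) (deriv (deriv β) ξ' / 2 : ℝ)) D
        fun y => P.mk2 (pth β ξ d y) (pth β ξ' d' y) := by
    intro d d' D e1 e2 h1 h2 h3
    refine ⟨cb d d', (nrm_le P (P.f1_mk _ _) (P.f2_mk _ _) (t1 ξ).1 (t1 ξ').1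
      (lp (t2 ξ ξ').1)).trans (by linarith), (nrm_le P (P.f1_mk _ _) (P.f2_mk _ _) (t1 ξ).2.1
      (t1 ξ').2.1 (lp (t2 ξ ξ').2.1)).trans (by linarith), ?_,
      (nrm_le P e1 e2 h1 h2 h3).trans (by nlinarith), fun y hy => ?_⟩
    · have q : ∀ x : ℝ, |x / 2| ≤ |x| := fun x => by
        rw [abs_div, abs_two]
        exact half_le_self (abs_nonneg x)
      exact (nrm_le P (P.f1_mk _ _) (P.f2_mk _ _) ((q _).trans (t1 ξ).2.2) ((q _).trans (t1 ξ').2.2)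
        (lp ((sub_div _ _ (2 : ℝ) ▸ q _).trans (t2 ξ ξ').2.2))).trans (by linarith)
    · have q : ∀ x : ℝ, |y * x| ≤ |x| := fun x => by
        rw [abs_mul, abs_of_nonneg hy.1]
        exact mul_le_of_le_one_left (abs_nonneg x) hy.2
      have r : ∀ x s : ℝ, |s| ≤ 2 * ω → |β (x + y * s) - (β x + deriv β x * (y * s) +
          deriv (deriv β) x / 2 * (y * s) ^ 2)| ≤ M * (2 * ω) ^ 3 := fun x s hs =>
        (t3 x _).trans (by have := (q s).trans hs; gcongr)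
      have k := mul_le_mul_of_nonneg_left (t4 _ ξ _ ξ' _ ((q d).trans h1) ((q d').trans h2)) l0
      have k1 : lam * |y * d - y * d'| ≤ ω :=
        (mul_le_mul_of_nonneg_left (mul_sub y d d' ▸ q _) l0).trans h3
      have k2 : M * ((2 * ω) ^ 3 * (lam * |ξ - ξ'|) + (2 * ω) ^ 2 * (lam * |y * d - y * d'|)) ≤
          M * ((2 * ω) ^ 3 * 1 + (2 * ω) ^ 2 * ω) := by gcongr
      refine (nrm_le P ?_ ?_ (r ξ d h1) (r ξ' d' h2) (k.trans ((le_of_eq (by ring)).trans k2))).trans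
        (by nlinarith [pow_pos ω0 3])
      · simp only [map_sub, map_add, map_smul, map_mul, map_pow, P.f1_mk, e1, pth, smul_eq_mul]
        push_cast
        ring
      · simp only [map_sub, map_add, map_smul, map_mul, map_pow, P.f2_mk, e2, pth, smul_eq_mul]
        push_cast
        ring
  have h := hC P.B ω _ _ _ (P.mk2 p p') (P.mk2 n n') _ _ ω0 ω1
    (ph p p' _ (P.f1_mk _ _) (P.f2_mk _ _) hp hp' dp)
    (ph (-n) (-n') _ (by rw [map_neg, P.f1_mk, ofReal_neg]) (by rw [map_neg, P.f2_mk, ofReal_neg])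
      (by rwa [abs_neg]) (by rwa [abs_neg]) (by rwa [neg_sub_neg, abs_sub_comm]))
  rwa [nrm P (a := Ee β ξ p n - (p - n)) (b := Ee β ξ' p' n' - (p' - n')),
    nrm P (a := p - n) (b := p' - n')] at h
  · rw [map_sub, P.f1_mk, P.f1_mk, ofReal_sub]
  · rw [map_sub, P.f2_mk, P.f2_mk, ofReal_sub]
  · simp only [map_sub, map_EA _ (cont P l0).1 (cb _ _) (cb _ _), P.f1_mk, ofReal_sub, ← EA_real]
  · simp only [map_sub, map_EA _ (cont P l0).2 (cb _ _) (cb _ _), P.f2_mk, ofReal_sub, ← EA_real]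

end RLAux

theorem rlE (hexpE : S_expE) (hpr : S_pr) (htay : S_tay) : S_RL := by
  intro β hβ
  obtain ⟨C, C0, h⟩ := RLAux.key hexpE hpr htay hβ
  refine ⟨3 * C, by positivity, fun ω ξ p n ω0 ω1 hp hn => ?_,
    fun ω m ξ p n ξ' p' n' ω0 ω1 hp hn hp' hn' a1 a2 b1 b2 b3 b4 => ?_⟩
  · have := h 0 ω ξ p n ξ p n le_rfl ω0 ω1 hp hn hp hn (by simp) (by simp [ω0.le]) (by simp [ω0.le])
    simp only [max_self, zero_mul, add_zero] at this
    exact this.trans (mul_le_mul_of_nonneg_right (by linarith) (by positivity))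
  rcases ((abs_nonneg _).trans b4).eq_or_lt with rfl | m0
  · have z : ∀ {a x y : ℝ}, 0 < a → a * |x - y| ≤ 0 → x = y := fun a0 k =>
      sub_eq_zero.1 (abs_nonpos_iff.1 (nonpos_of_mul_nonpos_right k a0))
    rw [z (pow_pos ω0 2) b1, z ω0 b2, z ω0 b3]
    simp
  have l0 : 0 ≤ ω ^ 2 / m := by positivity
  have d : ∀ {a b : ℝ}, ω ^ 2 * a ≤ b * m → ω ^ 2 / m * a ≤ b := fun k => by
    rwa [div_mul_eq_mul_div, div_le_iff₀ m0]
  have k := (le_add_of_nonneg_left (le_max_of_le_left (abs_nonneg _))).trans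
    (h _ ω ξ p n ξ' p' n' l0 ω0 ω1 hp hn hp' hn' (d (by linarith)) (d (by nlinarith))
      (d (by nlinarith)))
  have k1 : C * (ω ^ 4 + ω * (max |p - n| |p' - n'| + ω ^ 2 / m * |p - n - (p' - n')|)) ≤
      C * (ω ^ 3 + ω * (ω ^ 2 + ω ^ 2)) := by
    have := max_le a1 a2
    have := d (mul_le_mul_of_nonneg_left b4 (sq_nonneg ω))
    have := pow_le_pow_of_le_one ω0.le ω1 (show 3 ≤ 4 by norm_num)
    gcongr
  have k2 := k.trans k1
  rw [div_mul_eq_mul_div, div_le_iff₀ m0] at k2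
  exact le_of_mul_le_mul_left (k2.trans_eq (by ring)) (pow_pos ω0 2)

end Vale.Agent.P097
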