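import Vale.Agent.P097.Base

open Set NormedSpace Complex

namespace Vale.Agent.P097

namespace RMAux

open Filter Topology Asymptotics

theorem const_of_sq {f : ℝ → ℝ} {K : ℝ} (h : ∀ s t, |f s - f t| ≤ K * |s - t| ^ 2) (s t : ℝ) :
    f s = f t := by
  have hd : ∀ x, HasDerivAt f 0 x := by
    intro x
    rw [hasDerivAt_iff_isLittleO]
    have h1 : (fun x' => f x' - f x - (x' - x) • (0 : ℝ)) =O[𝓝 x] fun x' => ‖x' - x‖ ^ 2 := by
      refine IsBigO.of_bound K (Eventually.of_forall fun x' => ?_)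
      rw [smul_zero, sub_zero, Real.norm_eq_abs, Real.norm_eq_abs, Real.norm_eq_abs,
        abs_of_nonneg (by positivity : (0 : ℝ) ≤ |x' - x| ^ 2)]
      exact h x' x
    exact h1.trans_isLittleO (isLittleO_pow_sub_sub x one_lt_two)
  exact is_const_of_deriv_eq_zero (fun x => (hd x).differentiableAt) (fun x => (hd x).deriv) s t

theorem reg_shift {q : ℕ} {x : ℤ → ℝ} (hx : Reg q x) (h : ℝ) : Reg q fun k => x k + h := by
  refine ⟨fun k => ?_, fun k => ?_⟩
  · show x (k + q) + h = x k + h + 1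
    rw [hx.1 k]; ring
  · show |x (k + 1) + h - 2 * (x k + h) + (x (k - 1) + h)| ≤ _
    have e : x (k + 1) + h - 2 * (x k + h) + (x (k - 1) + h) = x (k + 1) - 2 * x k + x (k - 1) := by
      ring
    rw [e]
    exact hx.2 k

theorem ee_shift (hgap : S_gap) {β : ℝ → ℝ} {C : ℝ} (hC : RL β C) {q : ℕ} (hq : 1 ≤ q)
    {x : ℤ → ℝ} (hx : Reg q x) (h : ℝ) (k : ℤ) :
    |EE β (fun k => x k + h) k - EE β x k| ≤ C * |h| := by
  have hq' : (1 : ℝ) ≤ q := by exact_mod_cast hq
  have hq0 : (0 : ℝ) < q := by linarith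
  have hg : ∀ k, |x (k + 1) - x k| ≤ 2 * (1 / (q : ℝ)) := by
    intro k
    obtain ⟨h1, h2⟩ := (hgap q hq).1 x hx k
    have h3 : (0 : ℝ) < 1 / (2 * (q : ℝ)) := by positivity
    have h4 : 3 / (2 * (q : ℝ)) = 3 / 2 * (1 / (q : ℝ)) := by field_simp
    have h5 : (0 : ℝ) < 1 / (q : ℝ) := by positivity
    rw [abs_of_pos (by linarith)]
    linarith
  have hp := hg k
  have hn : |x k - x (k - 1)| ≤ 2 * (1 / (q : ℝ)) := by
    have := hg (k - 1)
    rwa [sub_add_cancel] at this
  have hpn : |x (k + 1) - x k - (x k - x (k - 1))| ≤ (1 / (q : ℝ)) ^ 2 := by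
    have e : x (k + 1) - x k - (x k - x (k - 1)) = x (k + 1) - 2 * x k + x (k - 1) := by ring
    rw [e]
    refine (hx.2 k).trans ?_
    rw [one_div_pow]
    apply one_div_le_one_div_of_le (by positivity)
    nlinarith [sq_nonneg (q : ℝ)]
  have hω : (0 : ℝ) < 1 / (q : ℝ) := by positivity
  have hω1 : 1 / (q : ℝ) ≤ 1 := by rw [div_le_one hq0]; exact hq'
  have hm : 0 ≤ |h| := abs_nonneg h
  have key := hC.lip (1 / q) |h| (x k + h) _ _ (x k) _ _ hω hω1 hp hn hp hn hpn hpn
    (by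
      rw [add_sub_cancel_left]
      exact mul_le_of_le_one_left hm (pow_le_one₀ hω.le hω1))
    (by rw [sub_self, abs_zero, mul_zero]; exact hm)
    (by rw [sub_self, abs_zero, mul_zero]; exact hm)
    (by rw [sub_self, abs_zero]; exact hm)
  have e1 : EE β (fun k => x k + h) k
      = Ee β (x k + h) (x (k + 1) - x k) (x k - x (k - 1)) := by
    unfold EE
    rw [add_sub_add_right_eq_sub, add_sub_add_right_eq_sub]
  rw [e1]
  unfold EE
  rw [sub_sub_sub_cancel_right] at key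
  refine key.trans (mul_le_mul_of_nonneg_right ?_ hm)
  exact mul_le_of_le_one_right hC.pos hω1

end RMAux

theorem rmE (hRL : S_RL) (hstab : S_stab) (hexist : S_exist) (htayA : S_tayA) (hgap : S_gap) : S_RM := by
  intro β hβ hP
  obtain ⟨C, hC⟩ := hRL β hβ
  obtain ⟨q1, h1⟩ := hstab β C hC
  obtain ⟨q2, h2⟩ := hexist β C hβ hC hP
  obtain ⟨C', q3, -, h3⟩ := htayA β C hβ hC
  refine ⟨16 * C', max (max q1 q2) (max q3 1), fun q hq => ?_⟩
  have hq1 : q1 ≤ q := le_trans (le_trans (le_max_left _ _) (le_max_left _ _)) hq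
  have hq2 : q2 ≤ q := le_trans (le_trans (le_max_right _ _) (le_max_left _ _)) hq
  have hq3 : q3 ≤ q := le_trans (le_trans (le_max_left _ _) (le_max_right _ _)) hq
  have hq4 : 1 ≤ q := le_trans (le_trans (le_max_right _ _) (le_max_right _ _)) hq
  choose y yr y0 ye using h2 q hq2
  have hc : ∀ s t, AA β q (y s) = AA β q (y t) := by
    apply RMAux.const_of_sq (K := C' * q * (1 + 4 * (q : ℝ) ^ 2 * C) ^ 2)
    intro s t
    have hz := h1 q hq1 _ (y t) (RMAux.reg_shift (yr s) (t - s)) (yr t)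
      (by show y s 0 + (t - s) = y t 0; rw [y0, y0]; ring) 0 (C * |t - s|) (fun k => by
        have := RMAux.ee_shift hgap hC hq4 (yr s) (t - s) k
        rw [ye s k] at this
        rw [ye t k, sub_zero]
        exact this)
    have hy : ∀ k, |y s k - y t k| ≤ (1 + 4 * (q : ℝ) ^ 2 * C) * |s - t| := by
      intro k
      have a1 : |y s k + (t - s) - y t k| ≤ 4 * (q : ℝ) ^ 2 * (C * |t - s|) := hz k
      have a2 : y s k - y t k = (y s k + (t - s) - y t k) + (s - t) := by ring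
      rw [abs_sub_comm t s] at a1
      rw [a2]
      refine (abs_add_le _ _).trans ?_
      linarith
    refine (h3 q hq3 _ _ (yr s) (yr t) (ye t) _ hy).trans (le_of_eq ?_)
    ring
  refine ⟨AA β q (y 0), fun x hx lam ε hε => ?_⟩
  have hz := h1 q hq1 x (y (x 0)) hx (yr _) (y0 _).symm lam ε (fun k => by
    rw [ye _ k, sub_zero]
    exact hε k)
  rw [hc 0 (x 0)]
  refine (h3 q hq3 _ _ hx (yr _) (ye _) _ hz).trans (le_of_eq ?_)
  ring

end Vale.Agent.P097
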