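import Vale.Agent.P097.Base

open Set NormedSpace Complex

namespace Vale.Agent.P097

namespace Rl2Aux

theorem nrm {G e : ℂ} (hG : 0 < ‖G‖) :
    |‖G + e‖ - ‖G‖ - ‖G‖⁻¹ * ((starRingEnd ℂ) G * e).re| ≤ ‖G‖⁻¹ * ‖e‖ ^ 2 := by
  have h1 : ‖G + e‖ ^ 2 = ‖G‖ ^ 2 + 2 * ((starRingEnd ℂ) G * e).re + ‖e‖ ^ 2 := by
    simp only [Complex.sq_norm, normSq_apply, add_re, add_im, mul_re, conj_re, conj_im]
    ring
  have h2 : ‖G‖ ^ 2 + ((starRingEnd ℂ) G * e).re ≤ ‖G‖ * ‖G + e‖ := by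
    have h3 := re_le_norm ((starRingEnd ℂ) G * (G + e))
    rw [norm_mul, RCLike.norm_conj, mul_add, add_re, conj_mul', ← ofReal_pow, ofReal_re] at h3
    exact h3
  have h4 : ‖G + e‖ - ‖G‖ - ‖G‖⁻¹ * ((starRingEnd ℂ) G * e).re =
      ‖G‖⁻¹ * (‖G‖ * ‖G + e‖ - ‖G‖ ^ 2 - ((starRingEnd ℂ) G * e).re) := by
    field_simp
  rw [h4, abs_mul, abs_of_pos (inv_pos.2 hG)]
  refine mul_le_mul_of_nonneg_left (abs_le.2 ⟨?_, ?_⟩) (inv_pos.2 hG).le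
  · nlinarith [sq_nonneg ‖e‖]
  · nlinarith [sq_nonneg ‖e‖, sq_nonneg (‖G + e‖ - ‖G‖)]

theorem JJ_pth (β h : ℝ → ℝ) (ξ d y : ℝ) : JJ (pth β ξ d) (pth h ξ d) y =
    ((∫ z in (0:ℝ)..y, Real.exp (β (ξ + z * d)) * h (ξ + z * d) : ℝ) : ℂ) := by
  rw [← intervalIntegral.integral_ofReal]
  simp only [JJ, pth, ← Complex.exp_eq_exp_ℂ, ofReal_mul, ofReal_exp]

theorem pt (G P : ℂ) (e a J R d : ℝ) :
    (e : ℂ) * ((-2 : ℂ) • ((a : ℂ) * ((1 / 2 : ℂ) • ((R : ℂ) * (P * (starRingEnd ℂ) G +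
      (starRingEnd ℂ) P * G)) - 1)) - d * J * ((-I / 2) • ((R : ℂ) * (P * (starRingEnd ℂ) G -
      (starRingEnd ℂ) P * G)))) =
    ((R * ((starRingEnd ℂ) G * (e * P * (-2 * a + I * d * J))).re - e * (-2 * a) : ℝ) : ℂ) := by
  rw [ofReal_sub, ofReal_mul, re_eq_add_conj]
  simp only [smul_eq_mul, map_mul, map_add, map_neg, conj_conj, conj_ofReal, conj_I, map_ofNat]
  push_cast
  ring

theorem lr_eq {β h : ℝ → ℝ} (hβ : Continuous β) (hh : Continuous h) (ξ d : ℝ) :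
    lr β ξ d (fun x => (h x : ℂ)) = ((d * (‖Gr β ξ d‖⁻¹ * ((starRingEnd ℂ) (Gr β ξ d) *
      ∫ y in (0:ℝ)..1, em (pth β ξ d) y * ph I (pth β ξ d) d y *
        (-2 * pth h ξ d y + I * d * JJ (pth β ξ d) (pth h ξ d) y)).re -
      ∫ y in (0:ℝ)..1, Real.exp (-2 * β (ξ + y * d)) * (-2 * h (ξ + y * d))) : ℝ) : ℂ) := by
  have h1 := pth_cont hβ ξ d
  have h2 := pth_cont hh ξ d
  have h3 : Continuous fun y => (starRingEnd ℂ) (Gr β ξ d) * (em (pth β ξ d) y *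
      ph I (pth β ξ d) d y * (-2 * pth h ξ d y + I * d * JJ (pth β ξ d) (pth h ξ d) y)) :=
    (((em_cont h1).mul (ph_cont _ h1 _)).mul
      ((h2.const_mul _).add ((JJ_cont h1 h2).const_mul _))).const_mul _
  rw [← intervalIntegral.integral_const_mul, ← reCLM_apply,
    ← reCLM.intervalIntegral_comp_comm (h3.intervalIntegrable _ _),
    ← intervalIntegral.integral_const_mul, ← intervalIntegral.integral_sub
      (((reCLM.continuous.comp' h3).const_mul _).intervalIntegrable _ _)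
      (Continuous.intervalIntegrable (by fun_prop) _ _), ofReal_mul,
    ← intervalIntegral.integral_ofReal]
  refine congrArg ((d : ℂ) * ·) (intervalIntegral.integral_congr fun y _ => ?_)
  have h4 := pt (Gr β ξ d) (ph I (pth β ξ d) d y) (Real.exp (-2 * β (ξ + y * d))) (h (ξ + y * d))
    (∫ z in (0:ℝ)..y, Real.exp (β (ξ + z * d)) * h (ξ + z * d)) ‖Gr β ξ d‖⁻¹ d
  rw [← JJ_pth, ← GG_conj, ← ph_conj] at h4
  simp only [reCLM_apply, em_pth, ← GG_conj]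
  exact h4

end Rl2Aux

theorem rl2E (hrl1 : S_rl1) (hGB : S_GB) : S_rl2 := by
  intro M
  obtain ⟨C, hC⟩ := hrl1 M
  obtain ⟨c, d₀, hG⟩ := hGB M
  refine ⟨c⁻¹ * C ^ 2 + |C| + |C|, min 1 d₀, lt_min one_pos hG.dpos,
    fun β h hβ hh hM η hη hhη ξ d hd => ?_⟩
  have hd1 : |d| ≤ 1 := hd.trans (min_le_left _ _)
  obtain ⟨k1, k2, k3⟩ := hC β h hβ hh hM η hη hhη ξ d hd1
  have hc : c ≤ ‖Gr β ξ d‖ :=
    (hG.h β hβ hM ξ d (hd.trans (min_le_right _ _))).1.trans (re_le_norm _)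
  have hG0 : 0 < ‖Gr β ξ d‖ := hG.cpos.trans_le hc
  rw [Rl2Aux.lr_eq hβ hh, ← ofReal_sub, norm_real, Real.norm_eq_abs]
  unfold ll
  generalize Gr β ξ d = G at *
  generalize Gr (fun x => β x + h x) ξ d = G' at *
  generalize (∫ y in (0:ℝ)..1, em (pth β ξ d) y * ph I (pth β ξ d) d y *
    (-2 * pth h ξ d y + I * d * JJ (pth β ξ d) (pth h ξ d) y)) = D at *
  generalize (∫ y in (0:ℝ)..1, Real.exp (-2 * (β (ξ + y * d) + h (ξ + y * d)))) = A' at *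
  generalize (∫ y in (0:ℝ)..1, Real.exp (-2 * β (ξ + y * d))) = A at *
  generalize (∫ y in (0:ℝ)..1, Real.exp (-2 * β (ξ + y * d)) * (-2 * h (ξ + y * d))) = B at *
  have h1 := Rl2Aux.nrm (e := G' - G) hG0
  rw [add_sub_cancel] at h1
  have h2 : ‖G‖⁻¹ * ‖G' - G‖ ^ 2 ≤ c⁻¹ * C ^ 2 * η ^ 2 := by
    rw [mul_assoc, ← mul_pow]
    have := hG.cpos
    gcongr
  have h3 : |‖G‖⁻¹ * ((starRingEnd ℂ) G * (G' - G - D)).re| ≤ C * η ^ 2 := by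
    rw [abs_mul, abs_of_pos (inv_pos.2 hG0), inv_mul_le_iff₀ hG0]
    refine (abs_re_le_norm _).trans ?_
    rw [norm_mul, RCLike.norm_conj]
    gcongr
  have h4 : d * (‖G'‖ - A') - d * (‖G‖ - A) - d * (‖G‖⁻¹ * ((starRingEnd ℂ) G * D).re - B) =
      d * (‖G'‖ - ‖G‖ - ‖G‖⁻¹ * ((starRingEnd ℂ) G * (G' - G)).re +
        ‖G‖⁻¹ * ((starRingEnd ℂ) G * (G' - G - D)).re - (A' - A - B)) := by
    rw [mul_sub _ (G' - G) D, sub_re]
    ring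
  have h5 : C * η ^ 2 ≤ |C| * η ^ 2 := mul_le_mul_of_nonneg_right (le_abs_self C) (sq_nonneg η)
  rw [h4, abs_mul]
  refine (mul_le_of_le_one_left (abs_nonneg _) hd1).trans ?_
  refine (abs_sub _ _).trans ((add_le_add_left (abs_add_le _ _) _).trans ?_)
  linarith

end Vale.Agent.P097
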