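import Vale.Agent.P097.Base

open Set NormedSpace Complex

namespace Vale.Agent.P097

namespace Rl3Aux

theorem prod_sub {E : Type} [NormedRing E] {a a' b b' : E} {A B u v : ℝ} (ha : ‖a'‖ ≤ A)
    (hb : ‖b‖ ≤ B) (hu : ‖a' - a‖ ≤ u) (hv : ‖b' - b‖ ≤ v) :
    ‖a' * b' - a * b‖ ≤ A * v + u * B := by
  rw [show a' * b' - a * b = a' * (b' - b) + (a' - a) * b by noncomm_ring]
  exact (norm_add_le _ _).trans (add_le_add
    ((norm_mul_le _ _).trans (mul_le_mul ha hv (norm_nonneg _) ((norm_nonneg _).trans ha)))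
    ((norm_mul_le _ _).trans (mul_le_mul hu hb (norm_nonneg _) ((norm_nonneg _).trans hu))))

theorem exp_sub {x y K : ℝ} (hx : x ≤ K) (hy : y ≤ K) :
    |Real.exp x - Real.exp y| ≤ |x - y| * Real.exp K := by
  wlog h : y ≤ x generalizing x y
  · rw [abs_sub_comm, abs_sub_comm x]
    exact this hy hx (not_le.1 h).le
  have h1 := Real.add_one_le_exp (y - x)
  have h2 : Real.exp y = Real.exp (y - x) * Real.exp x := by rw [← Real.exp_add, sub_add_cancel]
  have h3 := Real.exp_pos x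
  have h4 := Real.exp_le_exp.2 hx
  rw [abs_of_nonneg (sub_nonneg.2 (Real.exp_le_exp.2 h)), abs_of_nonneg (sub_nonneg.2 h)]
  nlinarith

theorem ph_norm (β : ℝ → ℝ) (ξ d y : ℝ) : ‖ph I (pth β ξ d) d y‖ = 1 := by
  rw [ph_pth, mul_comm, Complex.norm_exp_ofReal_mul_I]

theorem half_le {G x y z : ℂ} (hz : ‖z‖ = 1 / 2) (hx : ‖x‖ = ‖G‖) (hy : ‖y‖ = ‖G‖) :
    ‖z • (((‖G‖⁻¹ : ℝ) : ℂ) * (x + y))‖ ≤ 1 := by
  have h1 := norm_add_le x y
  have h2 := inv_mul_le_one_of_le₀ (le_refl ‖G‖) (norm_nonneg G)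
  have h3 := mul_le_mul_of_nonneg_left h1 (inv_nonneg.2 (norm_nonneg G))
  rw [norm_smul, norm_mul, hz, Complex.norm_real, norm_inv, norm_norm]
  rw [hx, hy] at h3
  linarith

theorem cs_le (β : ℝ → ℝ) (ξ d y : ℝ) :
    ‖cs (pth β ξ d) d ((‖Gr β ξ d‖⁻¹ : ℝ) : ℂ) y‖ ≤ 1 :=
  half_le (by simp) (by rw [norm_mul, ph_norm, GG_conj, one_mul, Complex.norm_conj])
    (by rw [norm_mul, ph_conj, Complex.norm_conj, ph_norm, one_mul, Gr])

theorem sn_le (β : ℝ → ℝ) (ξ d y : ℝ) :
    ‖sn (pth β ξ d) d ((‖Gr β ξ d‖⁻¹ : ℝ) : ℂ) y‖ ≤ 1 := by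
  rw [sn, sub_eq_add_neg]
  exact half_le (by simp) (by rw [norm_mul, ph_norm, GG_conj, one_mul, Complex.norm_conj])
    (by rw [norm_neg, norm_mul, ph_conj, Complex.norm_conj, ph_norm, one_mul, Gr])

theorem lr_le {β : ℝ → ℝ} {M η ξ d : ℝ} (hM : ∀ x, |β x| ≤ M) {g : ℝ → ℂ} (hg : ∀ x, ‖g x‖ ≤ η)
    (hd : |d| ≤ 1) : ‖lr β ξ d g‖ ≤ Real.exp (2 * M) * (4 + Real.exp M) * η := by
  have h0 : 0 ≤ η := (norm_nonneg _).trans (hg 0)
  have hJ : ∀ y ∈ uIoc (0:ℝ) 1, ‖JJ (pth β ξ d) (fun y => g (ξ + y * d)) y‖ ≤ Real.exp M * η := by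
    intro y hy
    rw [uIoc_of_le zero_le_one] at hy
    refine (intervalIntegral.norm_integral_le_of_norm_le_const (C := Real.exp M * η)
      fun z _ => ?_).trans ?_
    · rw [norm_mul]
      refine mul_le_mul ((ex_le _).trans (Real.exp_le_exp.2 ?_)) (hg _) (norm_nonneg _)
        (Real.exp_pos _).le
      rw [pth, Complex.norm_real]
      exact hM _
    · rw [sub_zero, abs_of_pos hy.1]
      exact mul_le_of_le_one_right (by positivity) hy.2
  have hd' : ‖(d : ℂ)‖ ≤ 1 := by rwa [Complex.norm_real]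
  rw [lr, lin, norm_mul]
  refine (mul_le_of_le_one_left (norm_nonneg _) hd').trans
    ((intervalIntegral.norm_integral_le_of_norm_le_const
      (C := Real.exp (2 * M) * (4 + Real.exp M) * η) fun y hy => ?_).trans (by simp))
  rw [norm_mul, mul_assoc (Real.exp _)]
  refine mul_le_mul ?_ ((norm_sub_le _ _).trans ?_) (norm_nonneg _) (Real.exp_pos _).le
  · rw [em_pth, Complex.norm_real, Real.norm_of_nonneg (Real.exp_pos _).le]
    exact Real.exp_le_exp.2 (by linarith [(abs_le.1 (hM (ξ + y * d))).1])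
  · have h1 : ‖cs (pth β ξ d) d ((‖Gr β ξ d‖⁻¹ : ℝ) : ℂ) y - 1‖ ≤ 2 :=
      (norm_sub_le _ _).trans (by rw [norm_one]; linarith [cs_le β ξ d y])
    have h2 := mul_le_mul (hg (ξ + y * d)) h1 (norm_nonneg _) h0
    have h3 := mul_le_mul (mul_le_mul hd' (hJ y hy) (norm_nonneg _) zero_le_one) (sn_le β ξ d y)
      (norm_nonneg _) (by positivity)
    rw [norm_smul, norm_mul, norm_mul, norm_mul, norm_neg, Complex.norm_ofNat]
    linarith

theorem lin_add {b h g : ℝ → ℂ} (hb : Continuous b) (hh : Continuous h) (hg : Continuous g)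
    (d Ri x : ℂ) : lin b d Ri (fun y => x * h y + g y) = x * lin b d Ri h + lin b d Ri g := by
  have he : Continuous fun z => NormedSpace.exp (b z) := ex_cont.comp hb
  have hJ : ∀ y, JJ b (fun y => x * h y + g y) y = x * JJ b h y + JJ b g y := fun y => by
    rw [JJ, JJ, JJ, ← intervalIntegral.integral_const_mul, ← intervalIntegral.integral_add
      (Continuous.intervalIntegrable (by fun_prop) _ _)
      (Continuous.intervalIntegrable (by fun_prop) _ _)]
    exact intervalIntegral.integral_congr fun z _ => by ring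
  have hc : ∀ {h : ℝ → ℂ}, Continuous h → Continuous fun y => em b y *
      ((-2 : ℂ) • (h y * (cs b d Ri y - 1)) - d * JJ b h y * sn b d Ri y) := fun hh => by
    have h1 := em_cont hb
    have h2 := cs_cont hb d Ri
    have h3 := sn_cont hb d Ri
    have h4 := JJ_cont hb hh
    fun_prop
  rw [lin, lin, lin, mul_left_comm, ← mul_add, ← intervalIntegral.integral_const_mul x,
    ← intervalIntegral.integral_add (((hc hh).intervalIntegrable _ _).const_mul x)
      ((hc hg).intervalIntegrable _ _)]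
  refine congrArg (fun f => d * ∫ z in (0:ℝ)..1, f z) (funext fun y => ?_)
  simp only [hJ, smul_eq_mul]
  ring

end Rl3Aux

open Rl3Aux in
theorem rl3E (hrl1 : S_rl1) (hGB : S_GB) : S_rl3 := by
  intro M
  obtain ⟨C, hC⟩ := hrl1 M
  obtain ⟨c, d₀, hG⟩ := hGB M
  have c0 := inv_pos.2 hG.cpos
  refine ⟨max (2 * Real.exp (3 * M + 3) * ((c⁻¹ + |C|) * |C| + |C| * c⁻¹) +
    6 * Real.exp (3 * M + 3) * (c⁻¹ * c⁻¹)) (Real.exp (2 * M) * (4 + Real.exp M)), min d₀ 1,
    lt_min hG.dpos one_pos, fun β hβ hM => ⟨fun h hh η η1 hη ξ p n hp hn => ?_,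
      fun g _ η hη ξ d hd => ?_, fun s c g g₀ hg hg₀ ξ d => ?_, fun X D hX hD hd => ?_⟩⟩
  · have h0 : 0 ≤ η := (abs_nonneg _).trans (hη 0)
    have h1 : ∀ d, |d| ≤ min d₀ 1 → ‖Gr β ξ d‖ ≤ c⁻¹ ∧
        ‖Gr (fun x => β x + h x) ξ d - Gr β ξ d‖ ≤ |C| * η := fun d hd =>
      ⟨(hG.h β hβ hM ξ d (hd.trans (min_le_left _ _))).2.1,
        (hC β h hβ hh hM η η1 hη ξ d (hd.trans (min_le_right _ _))).1.trans
          (mul_le_mul_of_nonneg_right (le_abs_self C) h0)⟩
    have h2 := h1 p hp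
    have h3 := h1 (-n) (by rwa [abs_neg])
    have h4 : ‖Gr (fun x => β x + h x) ξ p‖ ≤ c⁻¹ + |C| := by
      have := norm_le_norm_add_norm_sub' (Gr (fun x => β x + h x) ξ p) (Gr β ξ p)
      have := mul_le_of_le_one_right (abs_nonneg C) η1
      linarith [h2.1, h2.2]
    have h5 := prod_sub h4 h3.1 h2.2 h3.2
    have h6 := abs_le.1 (hM ξ)
    have h7 := abs_le.1 ((hη ξ).trans η1)
    have h8 := exp_sub (x := 3 * (β ξ + h ξ)) (y := 3 * β ξ) (K := 3 * M + 3) (by linarith)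
      (by linarith)
    rw [show 3 * (β ξ + h ξ) - 3 * β ξ = 3 * h ξ by ring, abs_mul, abs_of_pos (three_pos (α := ℝ))] at h8
    have h9 := prod_sub (a' := 2 * Real.exp (3 * (β ξ + h ξ))) (a := 2 * Real.exp (3 * β ξ))
      (b' := (Gr (fun x => β x + h x) ξ p * Gr (fun x => β x + h x) ξ (-n)).im)
      (b := (Gr β ξ p * Gr β ξ (-n)).im) (A := 2 * Real.exp (3 * M + 3)) (B := c⁻¹ * c⁻¹)
      (u := 2 * (3 * η * Real.exp (3 * M + 3))) (v := (c⁻¹ + |C|) * (|C| * η) + |C| * η * c⁻¹) (by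
        rw [Real.norm_of_nonneg (by positivity)]
        exact mul_le_mul_of_nonneg_left (Real.exp_le_exp.2 (by linarith)) zero_le_two)
      ((abs_im_le_norm _).trans ((norm_mul_le _ _).trans
        (mul_le_mul h2.1 h3.1 (norm_nonneg _) c0.le))) (by
        rw [← mul_sub, norm_mul, Real.norm_two]
        have := hη ξ
        exact mul_le_mul_of_nonneg_left (h8.trans (by gcongr)) zero_le_two)
      (by rw [← sub_im]; exact (abs_im_le_norm _).trans h5)
    exact (h9.trans_eq (by ring)).trans (mul_le_mul_of_nonneg_right (le_max_left _ _) h0)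
  · exact (lr_le hM hη (hd.trans (min_le_right _ _))).trans
      (mul_le_mul_of_nonneg_right (le_max_right _ _) ((norm_nonneg _).trans (hη 0)))
  · induction s using Finset.induction_on with
    | empty => simp
    | insert a s ha ih =>
      simp only [Finset.sum_insert ha, add_assoc]
      rw [← ih]
      exact lin_add (g := fun y => ∑ n ∈ s, c n * g n (ξ + y * d) + g₀ (ξ + y * d))
        (h := fun y => g a (ξ + y * d)) (pth_cont hβ ξ d) (by fun_prop) (by fun_prop) _ _ _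
  · have h1 := Gr_cont hβ hX hD
    refine ⟨hD.mul (h1.norm.sub
      (intervalIntegral.continuous_parametric_intervalIntegral_of_continuous'
        (f := fun t y => Real.exp (-2 * β (X t + y * D t))) (by fun_prop) _ _)), fun g hg => ?_⟩
    refine lin_cont (b := fun t => pth β (X t) (D t)) (h := fun t y => g (X t + y * D t))
      (pth_cont2 hβ hX hD) (continuous_ofReal.comp hD)
      (continuous_ofReal.comp (h1.norm.inv₀ fun t => norm_ne_zero_iff.2 fun h => ?_)) (by fun_prop)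
    have := (hG.h β hβ hM (X t) (D t) ((hd t).trans (min_le_left _ _))).1
    rw [h, zero_re] at this
    linarith [hG.cpos]

end Vale.Agent.P097
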