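import Vale.Agent.P097.Ob

open Set NormedSpace Complex

namespace Vale.Agent.P097

namespace RtAux

theorem root {B : Type} [NormedCommRing B] [NormedAlgebra ℂ B] [CompleteSpace B] [NormOneClass B]
    {x : B} (hx : ‖x‖ ≤ 1 / 4) :
    ∃ z w : B, (1 + z) ^ 2 = 1 + x ∧ (1 + z) * w = 1 ∧ ‖z‖ ≤ ‖x‖ ∧ ‖w‖ ≤ 2 := by
  have h0 := norm_nonneg x
  have hh : ‖(1 / 2 : ℂ)‖ = 1 / 2 := by simp
  have hm : MapsTo (fun z : B => (1 / 2 : ℂ) • (x - z * z)) (Metric.closedBall 0 ‖x‖)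
      (Metric.closedBall 0 ‖x‖) := fun z hz => by
    rw [mem_closedBall_zero_iff] at hz ⊢
    have h1 := (norm_sub_le x (z * z)).trans (add_le_add_right (norm_mul_le z z) _)
    rw [norm_smul, hh]
    nlinarith [norm_nonneg z]
  have hc : ContractingWith (1 / 2) (hm.restrict _ _ _) := by
    refine ⟨by norm_num, LipschitzWith.of_dist_le_mul fun z w => ?_⟩
    have hz := mem_closedBall_zero_iff.1 z.2
    have hw := mem_closedBall_zero_iff.1 w.2
    have e : (x - z * z) - (x - w * w) = -((z : B) + w) * (z - w) := by ring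
    have h1 := norm_mul_le (-((z : B) + w)) (z - w)
    have h2 := norm_add_le (z : B) w
    rw [norm_neg] at h1
    rw [Subtype.dist_eq, Subtype.dist_eq, MapsTo.val_restrict_apply, MapsTo.val_restrict_apply,
      dist_eq_norm, dist_eq_norm, ← smul_sub, e, norm_smul, hh]
    push_cast
    nlinarith [norm_nonneg ((z : B) - w)]
  obtain ⟨z, hz, hf, -⟩ := hc.exists_fixedPoint' Metric.isClosed_closedBall.isComplete hm
    (Metric.mem_closedBall_self h0) (edist_ne_top _ _)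
  rw [mem_closedBall_zero_iff] at hz
  have h2 : z + z = x - z * z := by
    have h3 : (1 / 2 : ℂ) • (x - z * z) = z := hf
    rw [← h3, ← add_smul, h3]
    norm_num
  obtain ⟨u, hu⟩ := (isUnit_one_sub_of_norm_lt_one (x := -z)
    (by rw [norm_neg]; linarith)).exists_right_inv
  rw [sub_neg_eq_add] at hu
  refine ⟨z, u, by linear_combination h2, hu, hz, ?_⟩
  have h4 := (norm_sub_le 1 (z * u)).trans (add_le_add_right (norm_mul_le z u) _)
  rw [show 1 - z * u = u by linear_combination -hu, norm_one] at h4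
  nlinarith [norm_nonneg u]

theorem gg {M : ℝ} (j : ℂ) : Ob Dat.ω 1 fun (D : Dat M) (_ : ℝ) =>
    exp ((2 : ℂ) • D.b0) * GG j D.b D.d - 1 := by
  have h1 : Ob Dat.ω 1 fun (D : Dat M) (y : ℝ) =>
      (-2 : ℂ) • (D.b y - D.b0) + j • (D.d * kk D.b y) :=
    (Dat.oc.smul _).add ((Dat.od.mul (Dat.ob.exp0 Dat.sm).prim).smul j)
  refine (h1.exp1 Dat.sm).int.congr fun D _ _ => ?_
  have hc : Continuous fun y => em D.b y * ph j D.b D.d y :=
    (em_cont D.h.cont).mul (ph_cont j D.h.cont D.d)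
  have e : ∀ y, exp ((-2 : ℂ) • (D.b y - D.b0) + j • (D.d * kk D.b y)) =
      exp ((2 : ℂ) • D.b0) * (em D.b y * ph j D.b D.d y) := fun y => by
    rw [em, ph, ← ex_add, ← ex_add]
    congr 1
    module
  simp only [e]
  rw [intervalIntegral.integral_sub ((hc.const_mul _).intervalIntegrable _ _)
    (continuous_const.intervalIntegrable _ _), int_mul _ hc]
  simp [GG]

end RtAux

theorem rt (_hexpA : S_expA) (_hexpS : S_expS) : S_R := by
  intro M
  obtain ⟨A, A0, hA⟩ := Dat.out (M := M) (((((RtAux.gg I).mul (RtAux.gg (-I))).mono Dat.sm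
    (by norm_num)).add (RtAux.gg I)).add (RtAux.gg (-I)))
  obtain ⟨E, E0, hE⟩ := Dat.out (M := M) ((Dat.o0.smul 2).exp0 Dat.sm)
  obtain ⟨F, F0, hF⟩ := Dat.out (M := M) ((Dat.o0.smul 2).neg.exp0 Dat.sm)
  obtain ⟨G, G0, hG⟩ := Dat.out (M := M) ((Dat.ob.smul (-2)).exp0 Dat.sm).int
  obtain ⟨H, H0, hH⟩ := Dat.out (M := M) (Dat.od.mono Dat.sm (l := 0) (by norm_num))
  have C0 : 0 ≤ H * (F * 2 + G) := by positivity
  have C1 : 0 < A + E * 2 + H * (F * 2 + G) + 1 := by positivity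
  refine ⟨A + E * 2 + H * (F * 2 + G) + 1, 1 / (4 * (A + E * 2 + H * (F * 2 + G) + 1)),
    by positivity, by field_simp; norm_num, fun B _ _ _ _ ω b0 b1 b2 d b h0 h1 h2 h => ?_⟩
  have a := hA ⟨B, ω, b0, b1, b2, d, b, h0, h1, h⟩
  have e := hE ⟨B, ω, b0, b1, b2, d, b, h0, h1, h⟩
  have f := hF ⟨B, ω, b0, b1, b2, d, b, h0, h1, h⟩
  have g := hG ⟨B, ω, b0, b1, b2, d, b, h0, h1, h⟩
  have k := hH ⟨B, ω, b0, b1, b2, d, b, h0, h1, h⟩
  simp only [pow_zero, pow_one, mul_one] at a e f g k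
  have h3 : A * ω ≤ (A + E * 2 + H * (F * 2 + G) + 1) * ω := by nlinarith
  rw [le_div_iff₀ (by positivity)] at h2
  obtain ⟨z, w, z1, z2, z3, z4⟩ := RtAux.root (a.trans (by linarith))
  have hn := ex_neg ((2 : ℂ) • b0)
  have hz : ‖1 + z‖ ≤ 2 := (norm_add_le _ _).trans (by rw [norm_one]; linarith)
  refine ⟨exp (-((2 : ℂ) • b0)) * (1 + z), exp ((2 : ℂ) • b0) * w, ?_, ?_, ?_, ?_, ?_⟩
  · rw [mul_pow, z1]
    linear_combination (GG I b d * GG (-I) b d) *
      (exp ((2 : ℂ) • b0) * exp (-((2 : ℂ) • b0)) + 1) * hn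
  · linear_combination (1 + z) * w * hn + z2
  · rw [← mul_assoc, hn, one_mul, add_sub_cancel_left]
    linarith
  · have := (norm_mul_le _ _).trans (mul_le_mul e z4 (norm_nonneg _) E0)
    linarith
  · have h4 := (norm_sub_le _ _).trans (add_le_add
      ((norm_mul_le _ _).trans (mul_le_mul f hz (norm_nonneg _) F0)) g)
    have := (norm_mul_le _ _).trans (mul_le_mul k h4 (norm_nonneg _) H0)
    exact this.trans (by linarith)

end Vale.Agent.P097
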