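import Vale.Agent.P097.Base

open Set NormedSpace Complex

namespace Vale.Agent.P097

namespace SolAux

variable {ρ : ℝ} (w : Wn ρ) {q : ℕ}

theorem gp_le (hq : 1 ≤ q) {D : w.B} (h : ‖D‖ ≤ 1 / (q : ℝ) ^ 2) : ‖w.gp q D‖ ≤ 2 * (1 / q) := by
  have q1 : (1 : ℝ) ≤ q := by exact_mod_cast hq
  have h1 : ‖(1 / q : ℂ) • (1 : w.B)‖ = 1 / q := by simp [norm_smul]
  have h2 : 1 / (q : ℝ) ^ 2 ≤ 1 / q :=
    one_div_le_one_div_of_le (by linarith) (le_self_pow₀ q1 two_ne_zero)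
  have := norm_add_le ((1 / q : ℂ) • (1 : w.B)) D
  rw [Wn.gp]
  linarith

theorem re_eq {x : w.B} (h : w.Re x) (t : ℝ) : w.ev t x = (w.ev t x).re :=
  Complex.ext rfl (h t)

theorem gp_re {D : w.B} (h : w.Re D) : w.Re (w.gp q D) := fun t => by
  have e : (1 / q : ℂ) = ((1 / q : ℝ) : ℂ) := by simp
  rw [Wn.gp, map_add, map_smul, map_one, smul_eq_mul, mul_one, add_im, h t, e, ofReal_im, add_zero]

end SolAux

open SolAux in
theorem solE (hexpE : S_expE) (hcmp : S_cmp) (hwt : S_wt) (hfp : S_fp) (hev : S_ev) : S_sol := by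
  intro M
  obtain ⟨C1, h1⟩ := hwt M
  obtain ⟨C2, h2⟩ := hcmp C1
  obtain ⟨C3, c3, h3⟩ := hexpE C2
  obtain ⟨C, k2, k3⟩ : ∃ C, C2 ≤ C ∧ 2 * C3 + 1 ≤ C := ⟨max _ _, le_max_left _ _, le_max_right _ _⟩
  refine ⟨C, max 3 ⌈C⌉₊, by linarith, fun q τ c hq hτ hc w => ?_⟩
  rw [max_le_iff] at hq
  have q1 : 1 ≤ q := by omega
  have r1 : (1 : ℝ) ≤ q := by exact_mod_cast q1
  have r0 : (0 : ℝ) < q := by linarith
  have Cq : C ≤ q := Nat.ceil_le.1 hq.2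
  have w0 : (0 : ℝ) < 1 / q := by positivity
  have w1 : (1 : ℝ) / q ≤ 1 := (div_le_one r0).2 r1
  obtain ⟨ρ0, -, -, hs⟩ := h1 q τ c hq.1 hτ hc
  obtain ⟨-, cE, -, eE⟩ := hev _ w c q hc.1
  have ph := fun u d : w.B => h2 w.B (1 / q) (Finset.Icc (-(NN q : ℤ)) (NN q)) (w.cf c) u d w0 w1
    (fun n hn => by
      have a : |n| ≤ q := by
        rw [Finset.mem_Icc, NN] at hn
        rw [abs_le]
        omega
      rw [mul_one_div, div_le_one r0]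
      exact_mod_cast a)
    (le_trans (Finset.sum_le_sum fun n _ => mul_le_mul_of_nonneg_left
      ((norm_smul_le _ _).trans (mul_le_mul_of_nonneg_left (w.e_le n) (norm_nonneg _)))
      (by positivity)) hs)
  have key : ∀ u Dp Dn : w.B, ‖u‖ ≤ 1 / q → ‖Dp‖ ≤ 1 / (q : ℝ) ^ 2 → ‖Dn‖ ≤ 1 / (q : ℝ) ^ 2 →
      ‖Dp - Dn‖ ≤ 1 / (q : ℝ) ^ 3 → ‖w.EW c q u Dp Dn - (Dp - Dn)‖ ≤ 2 * C3 / (q : ℝ) ^ 4 := by
    intro u Dp Dn hu hp hn hd
    have e : w.gp q Dp - w.gp q Dn = Dp - Dn := add_sub_add_left_eq_sub _ _ _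
    have := h3 w.B (1 / q) _ _ _ _ _ _ _ w0 w1 (ph u _ hu (gp_le w q1 hp))
      (ph u _ hu ((norm_neg _).trans_le (gp_le w q1 hn)))
    rw [e] at this
    calc _ ≤ C3 * ((1 / q) ^ 4 + 1 / q * ‖Dp - Dn‖) := this
      _ ≤ C3 * ((1 / q) ^ 4 + 1 / q * (1 / (q : ℝ) ^ 3)) := by gcongr
      _ = 2 * C3 / (q : ℝ) ^ 4 := by field_simp; ring
  have hδ : C / (q : ℝ) ^ 4 ≤ 1 / (q : ℝ) ^ 3 :=
    (div_le_div_of_nonneg_right Cq (by positivity)).trans (le_of_eq (by field_simp))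
  obtain ⟨u, Dp, Dn, sol⟩ := hfp _ w q _ (w.EW c q) ρ0 q1 hδ cE
    fun u Dp Dn ru rp rn hu hp hn hd => ⟨fun t => by
      rw [eE u Dp Dn t _ _ _ (re_eq w ru t) (re_eq w (gp_re w rp) t) (re_eq w (gp_re w rn) t),
        ofReal_im], (key u Dp Dn hu hp hn hd).trans
          (div_le_div_of_nonneg_right (by linarith) (by positivity))⟩
  have hu : ‖u‖ ≤ 1 / q := sol.hu.trans
    ((mul_le_mul_of_nonneg_left hδ (by positivity)).trans (le_of_eq (by field_simp)))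
  have hD : (q : ℝ) * (C / (q : ℝ) ^ 4) ≤ 1 / (q : ℝ) ^ 2 :=
    (mul_le_mul_of_nonneg_left hδ r0.le).trans (le_of_eq (by field_simp))
  refine ⟨u, Dp, Dn, _, _, sol, ?_, (ph u _ hu (gp_le w q1 (sol.hp.trans hD))).mono k2 w0.le⟩
  have a1 := key u Dp Dn hu (sol.hp.trans hD) (sol.hn.trans hD) (sol.hf.trans hδ)
  have a2 : 2 * C3 / (q : ℝ) ^ 4 ≤ 2 * C3 := div_le_self (by positivity) (one_le_pow₀ r1)
  have a3 : 1 / (q : ℝ) ^ 3 ≤ 1 := div_le_self zero_le_one (one_le_pow₀ r1)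
  have a4 := norm_le_norm_sub_add (w.EW c q u Dp Dn) (Dp - Dn)
  linarith [sol.hf]

end Vale.Agent.P097
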