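import Vale.Agent.P097.Base

open Set NormedSpace Complex

namespace Vale.Agent.P097

namespace StabAux

theorem tele {q : ℕ} {v : ℤ → ℝ} (h : ∀ k, v (k + q) = v k) :
    ∑ j ∈ Finset.range q, (v ((j : ℤ) + 1) - 2 * v j + v ((j : ℤ) - 1)) = 0 := by
  have h1 := Finset.sum_range_sub (fun j : ℕ => v j - v ((j : ℤ) - 1)) q
  have h2 : v (q : ℤ) = v 0 := by rw [← h 0, zero_add]
  have h3 : v ((q : ℤ) - 1) = v (0 - 1) := by rw [← h (0 - 1), show (0 : ℤ) - 1 + q = q - 1 by ring]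
  simp only [Nat.cast_add, Nat.cast_one, add_sub_cancel_right, Nat.cast_zero] at h1
  rw [h2, h3, sub_self] at h1
  rw [← h1]
  exact Finset.sum_congr rfl fun j _ => by ring

theorem mean {q : ℕ} (hq : 1 ≤ q) {D : ℤ → ℝ} {lam η : ℝ} (h0 : ∑ j ∈ Finset.range q, D j = 0)
    (h : ∀ k, |D k - lam| ≤ η) (k : ℤ) : |D k| ≤ 2 * η := by
  have hq' : (0 : ℝ) < q := by exact_mod_cast hq
  have h1 : |∑ j ∈ Finset.range q, (D j - lam)| ≤ ∑ _j ∈ Finset.range q, η :=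
    (Finset.abs_sum_le_sum_abs _ _).trans (Finset.sum_le_sum fun j _ => h j)
  rw [Finset.sum_sub_distrib, h0, Finset.sum_const, Finset.sum_const, Finset.card_range,
    nsmul_eq_mul, nsmul_eq_mul, zero_sub, abs_neg, abs_mul, abs_of_pos hq'] at h1
  have h2 : |lam| ≤ η := le_of_mul_le_mul_left h1 hq'
  have h3 := abs_add_le (D k - lam) lam
  rw [sub_add_cancel] at h3
  linarith [h k]

theorem gaps (hgap : S_gap) {q : ℕ} (hq : 1 ≤ q) {x : ℤ → ℝ} (hx : Reg q x) (k : ℤ) :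
    |x (k + 1) - x k| ≤ 2 * (1 / (q : ℝ)) ∧ |x k - x (k - 1)| ≤ 2 * (1 / (q : ℝ)) ∧
      |x (k + 1) - x k - (x k - x (k - 1))| ≤ (1 / (q : ℝ)) ^ 2 := by
  have hq' : (0 : ℝ) < q := by exact_mod_cast hq
  have g : ∀ k, |x (k + 1) - x k| ≤ 2 * (1 / (q : ℝ)) := fun k => by
    obtain ⟨h1, h2⟩ := (hgap q hq).1 x hx k
    have e1 : 3 / (2 * (q : ℝ)) = 3 / 2 * (1 / (q : ℝ)) := by field_simp
    have e2 : 0 < 1 / (2 * (q : ℝ)) := by positivity
    have e3 : 0 < 1 / (q : ℝ) := by positivity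
    rw [abs_of_nonneg (by linarith)]
    linarith
  refine ⟨g k, by simpa using g (k - 1), ?_⟩
  have h1 := hx.2 k
  have e1 : 1 / (2 * (q : ℝ) ^ 2) = 1 / 2 * (1 / (q : ℝ)) ^ 2 := by field_simp
  have e2 : x (k + 1) - x k - (x k - x (k - 1)) = x (k + 1) - 2 * x k + x (k - 1) := by ring
  have e3 : 0 ≤ (1 / (q : ℝ)) ^ 2 := by positivity
  rw [e2]
  linarith

theorem step (hgap : S_gap) {β : ℝ → ℝ} {C : ℝ} (hR : RL β C) {q : ℕ} (hq : 1 ≤ q)
    {x y v : ℤ → ℝ} (hx : Reg q x) (hy : Reg q y) (hv : ∀ k, v k = x k - y k)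
    (hp : ∀ k, v (k + q) = v k) (h0 : v 0 = 0) {lam ε m : ℝ}
    (h : ∀ k, |EE β x k - EE β y k - lam| ≤ ε)
    (hm : ∀ k, |v (k + 1) - 2 * v k + v (k - 1)| ≤ m) (k : ℤ) :
    |v (k + 1) - 2 * v k + v (k - 1) - lam| ≤ ε + C * (1 / (q : ℝ)) * m := by
  have hq' : (0 : ℝ) < q := by exact_mod_cast hq
  have hq1 : (1 : ℝ) ≤ q := by exact_mod_cast hq
  have g := (hgap q hq).2 v m hp h0 hm
  obtain ⟨a1, a2, a3⟩ := gaps hgap hq hx k
  obtain ⟨b1, b2, b3⟩ := gaps hgap hq hy k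
  have c1 : (1 / (q : ℝ)) ^ 2 * |x k - y k| ≤ m := by
    rw [← hv, div_pow, one_pow, one_div, inv_mul_le_iff₀ (by positivity)]
    exact (g k).2
  have c2 : 1 / (q : ℝ) * |x (k + 1) - x k - (y (k + 1) - y k)| ≤ m := by
    rw [one_div, inv_mul_le_iff₀ hq',
      show x (k + 1) - x k - (y (k + 1) - y k) = v (k + 1) - v k by rw [hv, hv]; ring]
    exact (g k).1
  have c3 : 1 / (q : ℝ) * |x k - x (k - 1) - (y k - y (k - 1))| ≤ m := by
    rw [one_div, inv_mul_le_iff₀ hq',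
      show x k - x (k - 1) - (y k - y (k - 1)) = v (k - 1 + 1) - v (k - 1) by
        rw [sub_add_cancel, hv, hv]; ring]
    exact (g (k - 1)).1
  have e : x (k + 1) - x k - (x k - x (k - 1)) - (y (k + 1) - y k - (y k - y (k - 1))) =
      v (k + 1) - 2 * v k + v (k - 1) := by rw [hv, hv, hv]; ring
  have l := hR.lip (1 / (q : ℝ)) m (x k) _ _ (y k) _ _ (by positivity)
    ((div_le_one hq').2 hq1) a1 a2 b1 b2 a3 b3 c1 c2 c3 (by rw [e]; exact hm k)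
  have hk := h k
  unfold EE at hk
  rw [← e, abs_le]
  obtain ⟨l1, l2⟩ := abs_le.1 l
  obtain ⟨k1, k2⟩ := abs_le.1 hk
  constructor <;> linarith

end StabAux

theorem stabE (hgap : S_gap) : S_stab := by
  intro β C hR
  refine ⟨⌈4 * C⌉₊ + 1, fun q hq x y hx hy h0 lam ε h k => ?_⟩
  have hq1 : 1 ≤ q := by omega
  have hq' : (0 : ℝ) < q := by exact_mod_cast hq1
  have hC : 4 * C ≤ q := (Nat.le_ceil _).trans (by exact_mod_cast (by omega : ⌈4 * C⌉₊ ≤ q))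
  obtain ⟨v, hv⟩ : ∃ v : ℤ → ℝ, ∀ k, v k = x k - y k := ⟨_, fun _ => rfl⟩
  have hp : ∀ k, v (k + q) = v k := fun k => by rw [hv, hv, hx.1, hy.1]; ring
  have hv0 : v 0 = 0 := by rw [hv, h0, sub_self]
  have hb : BddAbove (range fun k => |v (k + 1) - 2 * v k + v (k - 1)|) := by
    refine ⟨1 / (2 * (q : ℝ) ^ 2) + 1 / (2 * (q : ℝ) ^ 2), ?_⟩
    rintro _ ⟨k, rfl⟩
    have e : v (k + 1) - 2 * v k + v (k - 1) =
        (x (k + 1) - 2 * x k + x (k - 1)) - (y (k + 1) - 2 * y k + y (k - 1)) := by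
      rw [hv, hv, hv]; ring
    beta_reduce
    rw [e]
    exact (abs_sub _ _).trans (add_le_add (hx.2 k) (hy.2 k))
  obtain ⟨m, hmd⟩ : ∃ m, m = ⨆ k, |v (k + 1) - 2 * v k + v (k - 1)| := ⟨_, rfl⟩
  have hm : ∀ k, |v (k + 1) - 2 * v k + v (k - 1)| ≤ m := fun k => hmd ▸ le_ciSup hb k
  have hm0 : 0 ≤ m := (abs_nonneg _).trans (hm 0)
  have h1 : m ≤ 2 * (ε + C * (1 / (q : ℝ)) * m) := by
    refine hmd.le.trans (ciSup_le fun k => ?_)
    exact StabAux.mean (D := fun k => v (k + 1) - 2 * v k + v (k - 1)) hq1 (StabAux.tele hp)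
      (StabAux.step hgap hR hq1 hx hy hv hp hv0 h hm) k
  have h2 : C * (1 / (q : ℝ)) ≤ 1 / 4 := by
    rw [mul_one_div, div_le_iff₀ hq']
    linarith
  have h3 : m ≤ 4 * ε := by nlinarith
  rw [← hv]
  refine ((hgap q hq1).2 v m hp hv0 hm k).2.trans ?_
  nlinarith [mul_le_mul_of_nonneg_left h3 (sq_nonneg (q : ℝ))]

end Vale.Agent.P097
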