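import Vale.Agent.P097.Base

open Set NormedSpace Complex

namespace Vale.Agent.P097

namespace TailAux

noncomputable def ZZ : ℝ := ∑' n : ℤ, 1 / (n:ℝ) ^ 2

theorem hZ : HasSum (fun n : ℤ => 1 / (n:ℝ) ^ 2) ZZ :=
  (Real.summable_one_div_int_pow.2 one_lt_two).hasSum

theorem ZZ_nonneg : 0 ≤ ZZ := tsum_nonneg fun n => by positivity

theorem coef {M τ K r : ℝ} {q : ℕ} {c : ℤ → ℂ} (hτ : 0 ≤ τ) (h : HC M τ q c) (hK : 0 < K)
    {n : ℤ} (h1 : K ≤ |(n:ℝ)|) (h2 : r ≤ min |(n:ℝ)| q) :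
    ‖c n‖ ≤ M * Real.exp (-(τ * r)) / K ^ 29 * (1 / (n:ℝ) ^ 2) := by
  have hM : 0 ≤ M := (norm_nonneg _).trans h.2.1
  have h3 : 0 < |(n:ℝ)| := hK.trans_le h1
  have h4 : n ≠ 0 := by
    rintro rfl
    simp at h3
  refine (h.2.2 n h4).trans ?_
  have e : M * Real.exp (-(τ * min |(n:ℝ)| q)) / |(n:ℝ)| ^ 31
      = M * Real.exp (-(τ * min |(n:ℝ)| q)) / |(n:ℝ)| ^ 29 * (1 / (n:ℝ) ^ 2) := by
    rw [← sq_abs (n:ℝ)]
    field_simp
  rw [e]
  have h5 : Real.exp (-(τ * min |(n:ℝ)| q)) ≤ Real.exp (-(τ * r)) :=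
    Real.exp_le_exp.2 (neg_le_neg (mul_le_mul_of_nonneg_left h2 hτ))
  gcongr

theorem one_le {n : ℤ} (h : n ≠ 0) : (1:ℝ) ≤ |(n:ℝ)| := by
  exact_mod_cast Int.one_le_abs h

theorem key (hfs : S_fs) {M τ : ℝ} {β : ℝ → ℝ} {q : ℕ} (hβ : Continuous β)
    (hp : Function.Periodic β 1) (hτ : 0 ≤ τ) (h : HC M τ q (fr β)) (s : Finset ℤ) (K r : ℝ)
    (hK : 0 < K) (hs : ∀ n, n ∉ s → K ≤ |(n:ℝ)| ∧ r ≤ min |(n:ℝ)| q) (t : ℝ) :
    ‖(β t : ℂ) - ∑ n ∈ s, fr β n * ee (n * t)‖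
      ≤ M * Real.exp (-(τ * r)) / K ^ 29 * ZZ := by
  have hM : 0 ≤ M := (norm_nonneg _).trans h.2.1
  have h1 : Summable fun n => ‖fr β n‖ := by
    refine Summable.of_norm_bounded_eventually
      (hZ.summable.mul_left (M * Real.exp (-(τ * 0)) / 1 ^ 29)) ?_
    filter_upwards [(Set.finite_singleton (0:ℤ)).compl_mem_cofinite] with n hn
    rw [norm_norm]
    exact coef hτ h one_pos (one_le hn) (le_min (abs_nonneg _) (Nat.cast_nonneg _))
  have h2 : HasSum (fun n : ℤ => fr β n * ee (n * t)) (β t : ℂ) :=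
    (hfs (fun t => (β t : ℂ)) (continuous_ofReal.comp hβ) (fun x => by simp only [hp x])).2 h1 t
  have h3 : HasSum (fun n : ℤ => if n ∈ s then fr β n * ee (n * t) else 0)
      (∑ n ∈ s, fr β n * ee (n * t)) := by
    have h4 := hasSum_sum_of_ne_finset_zero (L := SummationFilter.unconditional ℤ)
      (f := fun n : ℤ => if n ∈ s then fr β n * ee (n * t) else 0) (s := s)
      fun n hn => if_neg hn
    rwa [Finset.sum_congr rfl fun n hn => if_pos hn] at h4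
  refine (h2.sub h3).norm_le_of_bounded (hZ.mul_left _) fun n => ?_
  by_cases hn : n ∈ s
  · rw [if_pos hn, sub_self, norm_zero]
    positivity
  · rw [if_neg hn, sub_zero, norm_mul, norm_ee, mul_one]
    exact coef hτ h hK (hs n hn).1 (hs n hn).2

theorem out {a : ℤ} {n : ℤ} (h : n ∉ Finset.Icc (-a) a) : (a:ℝ) + 1 ≤ |(n:ℝ)| := by
  have h1 : a + 1 ≤ |n| := by
    rw [Finset.mem_Icc, ← abs_le, not_le] at h
    exact h
  exact_mod_cast h1

theorem split (q : ℕ) (g : ℤ → ℂ) :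
    ∑ n ∈ Finset.Icc (-(q:ℤ) ^ 2) (q ^ 2), g n = ∑ n ∈ Finset.Icc (-(NN q : ℤ)) (NN q), g n
      + ∑ n ∈ (Finset.Icc (-(q:ℤ) ^ 2) (q ^ 2)).filter (fun n => (NN q : ℤ) < |n|), g n := by
  rw [← Finset.sum_filter_add_sum_filter_not (Finset.Icc (-(q:ℤ) ^ 2) (q ^ 2))
    (fun n => (NN q : ℤ) < |n|), add_comm]
  congr 2
  ext n
  have h1 : NN q ≤ q ^ 2 := by
    have := Nat.le_self_pow two_ne_zero q
    unfold NN
    omega
  have h2 : (NN q : ℤ) ≤ (q:ℤ) ^ 2 := by exact_mod_cast h1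
  simp only [Finset.mem_filter, Finset.mem_Icc, ← abs_le, not_lt]
  exact ⟨fun h => h.2, fun h => ⟨h.trans h2, h⟩⟩

end TailAux

open TailAux in
theorem tailE (hfs : S_fs) : S_tail := by
  intro M
  refine ⟨M + 2 ^ 29 * (M * ZZ), fun β hβ hp q τ hq hτ h t => ?_⟩
  have hM : 0 ≤ M := (norm_nonneg _).trans h.2.1
  have hMZ : 0 ≤ M * ZZ := mul_nonneg hM ZZ_nonneg
  have hq' : (3:ℝ) ≤ q := by exact_mod_cast hq
  have hN : (q:ℝ) / 2 ≤ ((NN q : ℤ) : ℝ) + 1 := by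
    have h1 : q ≤ 2 * NN q := by
      unfold NN
      omega
    have h2 : (q:ℝ) ≤ 2 * NN q := by exact_mod_cast h1
    push_cast
    linarith
  have e : ‖(β t : ℂ) - ∑ n ∈ Finset.Icc (-(NN q : ℤ)) (NN q), fr β n * ee (n * t)‖
      = |β t - low (fr β) (NN q) t| := by
    rw [← low_eq h.1, ← Complex.ofReal_sub, Complex.norm_real, Real.norm_eq_abs]
  refine ⟨?_, ?_, ?_⟩
  · have h1 := key hfs hβ hp hτ h {0} 1 0 one_pos (fun n hn =>
      ⟨one_le (by simpa using hn), le_min (abs_nonneg _) (Nat.cast_nonneg _)⟩) t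
    have h2 := key hfs hβ hp hτ h (Finset.Icc (-(NN q : ℤ)) (NN q)) 1 0 one_pos (fun n hn =>
      ⟨by linarith [out hn], le_min (abs_nonneg _) (Nat.cast_nonneg _)⟩) t
    rw [e] at h2
    simp only [mul_zero, neg_zero, Real.exp_zero, mul_one, one_pow, div_one, Finset.sum_singleton,
      Int.cast_zero, zero_mul, ee_zero] at h1 h2
    have h3 : |β t| ≤ M * ZZ + M := by
      rw [← Real.norm_eq_abs, ← Complex.norm_real]
      exact (norm_le_norm_sub_add _ _).trans (add_le_add h1 h.2.1)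
    have h4 := abs_sub_abs_le_abs_sub (low (fr β) (NN q) t) (β t)
    rw [abs_sub_comm] at h4
    linarith
  · have h2 := key hfs hβ hp hτ h (Finset.Icc (-(NN q : ℤ)) (NN q)) (q / 2) (q / 2)
      (by positivity) (fun n hn => ⟨hN.trans (out hn), le_min (hN.trans (out hn)) (by linarith)⟩) t
    rw [e] at h2
    refine h2.trans ?_
    have e2 : M * Real.exp (-(τ * (q / 2))) / ((q:ℝ) / 2) ^ 29 * ZZ
        = 2 ^ 29 * (M * ZZ) * Real.exp (-(τ * q / 2)) / (q:ℝ) ^ 29 := by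
      rw [mul_div_assoc τ]
      field_simp
    rw [e2]
    gcongr
    linarith
  · have h0 : ∀ n : ℤ, n ∉ Finset.Icc (-(q:ℤ) ^ 2) (q ^ 2) → (q:ℝ) ^ 2 ≤ |(n:ℝ)| := fun n hn => by
      have h1 := out hn
      push_cast at h1
      linarith
    have h2 := key hfs hβ hp hτ h (Finset.Icc (-(q:ℤ) ^ 2) (q ^ 2)) (q ^ 2) q (by positivity)
      (fun n hn => ⟨h0 n hn, le_min (by nlinarith [h0 n hn]) le_rfl⟩) t
    rw [split, ← low_eq h.1, ← sub_sub, ← Complex.ofReal_sub] at h2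
    refine h2.trans ?_
    have e2 : M * Real.exp (-(τ * q)) / ((q:ℝ) ^ 2) ^ 29 * ZZ
        = M * ZZ * Real.exp (-(τ * q)) / (q:ℝ) ^ 58 := by ring
    rw [e2]
    gcongr
    linarith

end Vale.Agent.P097
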