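import Vale.Agent.P097.Base

open Set NormedSpace Complex

namespace Vale.Agent.P097

namespace TayAux

variable {f f1 f2 f3 g g' : ℝ → ℝ} {M C a s s' : ℝ}

theorem sp_deriv (h : SP f) : SP (deriv f) :=
  ⟨(contDiff_infty_iff_deriv.1 h.1).2, fun x => by
    rw [← deriv_comp_add_const, funext h.2]⟩

theorem sp_der (h : SP f) (x : ℝ) : HasDerivAt f (deriv f x) x :=
  ((contDiff_infty_iff_deriv.1 h.1).1 x).hasDerivAt

theorem mv (hd : ∀ t, HasDerivAt g (g' t) t) (hb : ∀ t, |t| ≤ a → |g' t| ≤ C) (hs : |s| ≤ a)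
    (hs' : |s'| ≤ a) : |g s - g s'| ≤ C * |s - s'| :=
  (convex_Icc (-a) a).norm_image_sub_le_of_norm_hasDerivWithin_le
    (fun z _ => (hd z).hasDerivWithinAt) (fun z hz => hb z (abs_le.2 hz)) (abs_le.1 hs')
    (abs_le.1 hs)

theorem lip (hd : ∀ t, HasDerivAt g (g' t) t) (hb : ∀ t, |g' t| ≤ C) (x y : ℝ) :
    |g x - g y| ≤ C * |x - y| :=
  mv hd (fun t _ => hb t) (le_max_left _ _) (le_max_right _ _)

theorem r0 (h3 : ∀ t, HasDerivAt f2 (f3 t) t) (hb : ∀ t, |f3 t| ≤ M) (x : ℝ) (hs : |s| ≤ a) :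
    |f2 (x + s) - f2 x| ≤ M * a := by
  have := lip h3 hb (x + s) x
  rw [add_sub_cancel_left] at this
  exact this.trans (mul_le_mul_of_nonneg_left hs ((abs_nonneg _).trans (hb 0)))

theorem r1 (h2 : ∀ t, HasDerivAt f1 (f2 t) t) (h3 : ∀ t, HasDerivAt f2 (f3 t) t)
    (hb : ∀ t, |f3 t| ≤ M) (x : ℝ) (hs : |s| ≤ a) :
    |f1 (x + s) - (f1 x + f2 x * s)| ≤ M * a ^ 2 := by
  have a0 : 0 ≤ a := (abs_nonneg s).trans hs
  have := mv (g := fun t => f1 (x + t) - (f1 x + f2 x * t)) (g' := fun t => f2 (x + t) - f2 x)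
    (fun t => (((h2 (x + t)).comp_const_add x t).sub
      (((hasDerivAt_id t).const_mul (f2 x)).const_add (f1 x))).congr_deriv (by rw [mul_one]))
    (fun t ht => r0 h3 hb x ht) hs (abs_zero.le.trans a0)
  simp only [add_zero, mul_zero, sub_self, sub_zero] at this
  refine this.trans ((mul_le_mul_of_nonneg_left hs
    (mul_nonneg ((abs_nonneg _).trans (hb 0)) a0)).trans (le_of_eq ?_))
  ring

theorem ds (h1 : ∀ t, HasDerivAt f (f1 t) t) (h2 : ∀ t, HasDerivAt f1 (f2 t) t)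
    (h3 : ∀ t, HasDerivAt f2 (f3 t) t) (hb : ∀ t, |f3 t| ≤ M) (x : ℝ) (hs : |s| ≤ a)
    (hs' : |s'| ≤ a) : |(f (x + s) - (f x + f1 x * s + f2 x / 2 * s ^ 2))
      - (f (x + s') - (f x + f1 x * s' + f2 x / 2 * s' ^ 2))| ≤ M * a ^ 2 * |s - s'| :=
  mv (g := fun t => f (x + t) - (f x + f1 x * t + f2 x / 2 * t ^ 2))
    (g' := fun t => f1 (x + t) - (f1 x + f2 x * t))
    (fun t => (((h1 (x + t)).comp_const_add x t).sub
      ((((hasDerivAt_id t).const_mul (f1 x)).const_add (f x)).add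
        ((hasDerivAt_pow 2 t).const_mul (f2 x / 2)))).congr_deriv (by norm_num; ring))
    (fun t ht => r1 h2 h3 hb x ht) hs hs'

theorem r2 (h1 : ∀ t, HasDerivAt f (f1 t) t) (h2 : ∀ t, HasDerivAt f1 (f2 t) t)
    (h3 : ∀ t, HasDerivAt f2 (f3 t) t) (hb : ∀ t, |f3 t| ≤ M) (x : ℝ) (hs : |s| ≤ a) :
    |f (x + s) - (f x + f1 x * s + f2 x / 2 * s ^ 2)| ≤ M * a ^ 3 := by
  have a0 : 0 ≤ a := (abs_nonneg s).trans hs
  have := ds h1 h2 h3 hb x hs (abs_zero.le.trans a0)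
  simp only [add_zero, mul_zero, sub_self, sub_zero, zero_pow two_ne_zero] at this
  refine this.trans ((mul_le_mul_of_nonneg_left hs
    (mul_nonneg ((abs_nonneg _).trans (hb 0)) (sq_nonneg a))).trans (le_of_eq ?_))
  ring

end TayAux

open TayAux in
theorem tayE : S_tay := by
  intro β h0
  have h1 := sp_deriv h0
  have h2 := sp_deriv h1
  have h3 := sp_deriv h2
  have h4 := sp_deriv h3
  obtain ⟨M0, b0⟩ := bdd_of_per h0.1.continuous h0.2
  obtain ⟨M1, b1⟩ := bdd_of_per h1.1.continuous h1.2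
  obtain ⟨M2, b2⟩ := bdd_of_per h2.1.continuous h2.2
  obtain ⟨M3, b3⟩ := bdd_of_per h3.1.continuous h3.2
  obtain ⟨M4, b4⟩ := bdd_of_per h4.1.continuous h4.2
  have p0 := (abs_nonneg _).trans (b0 0)
  have p1 := (abs_nonneg _).trans (b1 0)
  have p2 := (abs_nonneg _).trans (b2 0)
  have p3 := (abs_nonneg _).trans (b3 0)
  have p4 := (abs_nonneg _).trans (b4 0)
  obtain ⟨M, hM⟩ : ∃ M, M = M0 + M1 + M2 + M3 + M4 := ⟨_, rfl⟩
  have c0 := fun x => (b0 x).trans (show M0 ≤ M by linarith)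
  have c1 := fun x => (b1 x).trans (show M1 ≤ M by linarith)
  have c2 := fun x => (b2 x).trans (show M2 ≤ M by linarith)
  have c3 := fun x => (b3 x).trans (show M3 ≤ M by linarith)
  have c4 := fun x => (b4 x).trans (show M4 ≤ M by linarith)
  refine ⟨M, by linarith, fun x => ⟨c0 x, c1 x, c2 x⟩, fun x y => ⟨lip (sp_der h0) c1 x y,
    lip (sp_der h1) c2 x y, lip (sp_der h2) c3 x y⟩,
    fun x s => r2 (sp_der h0) (sp_der h1) (sp_der h2) c3 x le_rfl, fun a x s x' s' hs hs' => ?_⟩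
  have k1 := lip (g := fun t => β (t + s) - (β t + deriv β t * s + deriv (deriv β) t / 2 * s ^ 2))
    (fun t => ((sp_der h0 (t + s)).comp_add_const t s).sub
      (((sp_der h0 t).add ((sp_der h1 t).mul_const s)).add
        (((sp_der h2 t).div_const 2).mul_const (s ^ 2))))
    (fun t => r2 (sp_der h1) (sp_der h2) (sp_der h3) c4 t hs) x x'
  have k2 := ds (sp_der h0) (sp_der h1) (sp_der h2) c3 x' hs hs'
  refine (abs_sub_le _ _ _).trans ((add_le_add k1 k2).trans (le_of_eq ?_))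
  ring

end Vale.Agent.P097
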