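import Vale.Agent.P097.Base

open Set NormedSpace Complex

namespace Vale.Agent.P097

namespace TayAAux

theorem unit_est {a1 a2 b1 b2 : ℝ} (ha : a1 ^ 2 + a2 ^ 2 = 1) (hb : b1 ^ 2 + b2 ^ 2 = 1)
    (hP : 0 ≤ a1 * b1 - a2 * b2) : |a1 - b1| ≤ 2 * |a1 * b2 + a2 * b1| := by
  have h1 : (a1 * b1 - a2 * b2) ^ 2 + (a1 * b2 + a2 * b1) ^ 2 = 1 := by
    have : (a1 * b1 - a2 * b2) ^ 2 + (a1 * b2 + a2 * b1) ^ 2
        = (a1 ^ 2 + a2 ^ 2) * (b1 ^ 2 + b2 ^ 2) := by ring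
    rw [this, ha, hb]; norm_num
  have h2 : a1 * b1 - a2 * b2 ≤ 1 := by nlinarith [sq_nonneg (a1 * b2 + a2 * b1)]
  have h3 : (a1 - b1) ^ 2 ≤ (2 * |a1 * b2 + a2 * b1|) ^ 2 := by
    rw [mul_pow, sq_abs]
    nlinarith [sq_nonneg (a2 + b2), mul_nonneg hP (sub_nonneg.2 h2),
      sq_nonneg (a1 * b2 + a2 * b1)]
  exact abs_le_of_sq_le_sq' h3 (by positivity) |>.elim fun h h' => abs_le.2 ⟨h, h'⟩

theorem cx_est {u w : ℂ} {c : ℝ} (hc : 0 < c) (hu : c ≤ ‖u‖) (hw : c ≤ ‖w‖)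
    (hP : 0 ≤ (w * u).re) : |u.re / ‖u‖ - w.re / ‖w‖| ≤ 2 * |(w * u).im| / c ^ 2 := by
  have hu0 : 0 < ‖u‖ := hc.trans_le hu
  have hw0 : 0 < ‖w‖ := hc.trans_le hw
  have ha : (u.re / ‖u‖) ^ 2 + (u.im / ‖u‖) ^ 2 = 1 := by
    have := Complex.sq_norm u
    rw [Complex.normSq_apply] at this
    field_simp
    nlinarith
  have hb : (w.re / ‖w‖) ^ 2 + (w.im / ‖w‖) ^ 2 = 1 := by
    have := Complex.sq_norm w
    rw [Complex.normSq_apply] at this
    field_simp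
    nlinarith
  have e1 : u.re / ‖u‖ * (w.re / ‖w‖) - u.im / ‖u‖ * (w.im / ‖w‖)
      = (w * u).re / (‖u‖ * ‖w‖) := by
    rw [Complex.mul_re]; field_simp
  have e2 : u.re / ‖u‖ * (w.im / ‖w‖) + u.im / ‖u‖ * (w.re / ‖w‖)
      = (w * u).im / (‖u‖ * ‖w‖) := by
    rw [Complex.mul_im]; field_simp; ring
  have h := unit_est ha hb (by rw [e1]; positivity)
  rw [e2, abs_div, abs_of_pos (mul_pos hu0 hw0)] at h
  refine h.trans ?_
  rw [mul_div_assoc]
  have hcc : c ^ 2 ≤ ‖u‖ * ‖w‖ := by nlinarith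
  gcongr

/-- Backward factor. -/
noncomputable def Am (β : ℝ → ℝ) (z : ℤ → ℝ) (j : ℤ) : ℝ :=
  Real.exp (-2 * β (z j)) *
    ((Gr β (z j) (-(z j - z (j - 1)))).re / ‖Gr β (z j) (-(z j - z (j - 1)))‖ - 1)

/-- Forward factor. -/
noncomputable def Bp (β : ℝ → ℝ) (z : ℤ → ℝ) (j : ℤ) : ℝ :=
  Real.exp (-2 * β (z j)) *
    ((Gr β (z j) (z (j + 1) - z j)).re / ‖Gr β (z j) (z (j + 1) - z j)‖ - 1)

theorem AB_est {β : ℝ → ℝ} {M c d₀ : ℝ} (hβ : Continuous β) (hM : ∀ x, |β x| ≤ M)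
    (hG : GB M c d₀) (z : ℤ → ℝ) (j : ℤ) {d : ℝ} (hd : d ≤ d₀) (hdc : d ≤ c ^ 2)
    (hp : |z (j + 1) - z j| ≤ d) (hn : |z j - z (j - 1)| ≤ d) :
    |Am β z j - Bp β z j| ≤ Real.exp (5 * M) / c ^ 2 * |EE β z j| := by
  have hc := hG.cpos
  obtain ⟨p1, -, p3, -, -⟩ := hG.h β hβ hM (z j) (z (j + 1) - z j) (hp.trans hd)
  obtain ⟨n1, -, n3, -, -⟩ := hG.h β hβ hM (z j) (-(z j - z (j - 1))) (by rw [abs_neg]; exact hn.trans hd)
  rw [abs_neg] at n3
  set w := Gr β (z j) (z (j + 1) - z j) with hw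
  set u := Gr β (z j) (-(z j - z (j - 1))) with hu
  have hwi : |w.im| ≤ c := by
    refine p3.trans ?_
    rw [inv_mul_le_iff₀ hc]; nlinarith
  have hui : |u.im| ≤ c := by
    refine n3.trans ?_
    rw [inv_mul_le_iff₀ hc]; nlinarith
  have hP : 0 ≤ (w * u).re := by
    rw [Complex.mul_re]
    have h1 : w.im * u.im ≤ c * c := by
      calc w.im * u.im ≤ |w.im * u.im| := le_abs_self _
        _ = |w.im| * |u.im| := abs_mul _ _
        _ ≤ c * c := mul_le_mul hwi hui (abs_nonneg _) hc.le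
    have h2 : c * c ≤ w.re * u.re := mul_le_mul p1 n1 hc.le (hc.le.trans p1)
    linarith
  have h := cx_est hc (n1.trans (Complex.re_le_norm u)) (p1.trans (Complex.re_le_norm w)) hP
  have hE : EE β z j = 2 * Real.exp (3 * β (z j)) * (w * u).im := rfl
  have e : Am β z j - Bp β z j = Real.exp (-2 * β (z j)) * (u.re / ‖u‖ - w.re / ‖w‖) := by
    simp only [Am, Bp, ← hu, ← hw]; ring
  rw [e, hE, abs_mul, abs_mul, abs_mul, abs_of_pos (Real.exp_pos _), abs_of_pos (Real.exp_pos _),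
    abs_two]
  have hb := abs_le.1 (hM (z j))
  have hx : Real.exp (-2 * β (z j)) ≤ Real.exp (5 * M) * Real.exp (3 * β (z j)) := by
    rw [← Real.exp_add]; apply Real.exp_le_exp.2; linarith [hb.1, hb.2]
  calc Real.exp (-2 * β (z j)) * |u.re / ‖u‖ - w.re / ‖w‖|
      ≤ (Real.exp (5 * M) * Real.exp (3 * β (z j))) * (2 * |(w * u).im| / c ^ 2) := by
        gcongr
    _ = Real.exp (5 * M) / c ^ 2 * (2 * Real.exp (3 * β (z j)) * |(w * u).im|) := by ring

theorem sum_shift (F : ℤ → ℝ) (q : ℕ) (h : F q = F 0) :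
    ∑ k ∈ Finset.range q, F ((k:ℤ) + 1) = ∑ k ∈ Finset.range q, F k := by
  have h1 := Finset.sum_range_succ' (fun k : ℕ => F k) q
  have h2 := Finset.sum_range_succ (fun k : ℕ => F k) q
  simp only [Nat.cast_add, Nat.cast_one, Nat.cast_zero] at h1 h2
  linarith

theorem reg_seg {q : ℕ} {x y : ℤ → ℝ} (hx : Reg q x) (hy : Reg q y) {s : ℝ}
    (hs : s ∈ Icc (0:ℝ) 1) : Reg q (fun k => y k + s * (x k - y k)) := by
  refine ⟨fun k => ?_, fun k => ?_⟩
  · simp only [hx.1, hy.1]; ring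
  · have h1 := abs_le.1 (hx.2 k)
    have h2 := abs_le.1 (hy.2 k)
    have h3 := hs.1
    have h4 := sub_nonneg.2 hs.2
    refine abs_le.2 ⟨?_, ?_⟩
    · nlinarith [mul_nonneg h3 (sub_nonneg.2 h1.1), mul_nonneg h4 (sub_nonneg.2 h2.1)]
    · nlinarith [mul_nonneg h3 (sub_nonneg.2 h1.2), mul_nonneg h4 (sub_nonneg.2 h2.2)]

theorem EE_est (hgap : S_gap) {β : ℝ → ℝ} {C : ℝ} (hR : RL β C) {q : ℕ} (hq : 1 ≤ q)
    {z y : ℤ → ℝ} (hz : Reg q z) (hy : Reg q y) (h0 : ∀ k, EE β y k = 0) {a : ℝ}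
    (ha : ∀ k, |z k - y k| ≤ a) (k : ℤ) : |EE β z k| ≤ (4 + 4 * C) * a := by
  have hq1 : (1:ℝ) ≤ q := by exact_mod_cast hq
  have hq0 : (0:ℝ) < q := by linarith
  have hω0 : (0:ℝ) < 1 / q := by positivity
  have hω1 : (1:ℝ) / q ≤ 1 := by rw [div_le_one hq0]; exact hq1
  have ha0 : 0 ≤ a := (abs_nonneg _).trans (ha 0)
  have gp : ∀ w : ℤ → ℝ, Reg q w → ∀ j, |w (j + 1) - w j| ≤ 2 * (1 / (q:ℝ)) := by
    intro w hw j
    obtain ⟨g1, g2⟩ := (hgap q hq).1 w hw j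
    have : (0:ℝ) < 1 / (2 * q) := by positivity
    rw [abs_of_pos (by linarith)]
    refine g2.trans ?_
    rw [div_le_iff₀ (by positivity)]; field_simp; norm_num
  have gn : ∀ w : ℤ → ℝ, Reg q w → |w k - w (k - 1)| ≤ 2 * (1 / (q:ℝ)) := by
    intro w hw
    have := gp w hw (k - 1)
    rwa [sub_add_cancel] at this
  have g2 : ∀ w : ℤ → ℝ, Reg q w → |w (k + 1) - w k - (w k - w (k - 1))| ≤ (1 / (q:ℝ)) ^ 2 := by
    intro w hw
    have := hw.2 k
    have e : w (k + 1) - w k - (w k - w (k - 1)) = w (k + 1) - 2 * w k + w (k - 1) := by ring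
    rw [e]
    refine this.trans ?_
    rw [div_pow, one_pow]
    gcongr
    nlinarith
  have a1 := abs_le.1 (ha (k + 1))
  have a2 := abs_le.1 (ha k)
  have a3 := abs_le.1 (ha (k - 1))
  have d1 : |z (k + 1) - z k - (y (k + 1) - y k)| ≤ 2 * a := abs_le.2 ⟨by linarith, by linarith⟩
  have d2 : |z k - z (k - 1) - (y k - y (k - 1))| ≤ 2 * a := abs_le.2 ⟨by linarith, by linarith⟩
  have d3 : |z (k + 1) - z k - (z k - z (k - 1)) - (y (k + 1) - y k - (y k - y (k - 1)))|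
      ≤ 4 * a := abs_le.2 ⟨by linarith, by linarith⟩
  have h := hR.lip (1 / q) (4 * a) (z k) (z (k + 1) - z k) (z k - z (k - 1)) (y k)
    (y (k + 1) - y k) (y k - y (k - 1)) hω0 hω1 (gp z hz k) (gn z hz) (gp y hy k) (gn y hy)
    (g2 z hz) (g2 y hy)
    (by
      have : (1 / (q:ℝ)) ^ 2 ≤ 1 := pow_le_one₀ hω0.le hω1
      nlinarith [abs_nonneg (z k - y k), ha k])
    (by nlinarith [abs_nonneg (z (k + 1) - z k - (y (k + 1) - y k))])
    (by nlinarith [abs_nonneg (z k - z (k - 1) - (y k - y (k - 1)))]) d3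
  have e0 : Ee β (y k) (y (k + 1) - y k) (y k - y (k - 1)) = 0 := h0 k
  rw [e0] at h
  have hC := hR.pos
  have h5 : C * (1 / q) * (4 * a) ≤ 4 * C * a := by
    have : 0 ≤ C * a := mul_nonneg hC ha0
    nlinarith
  have h6 := abs_le.1 (h.trans h5)
  have h7 := abs_le.1 d3
  change |Ee β (z k) (z (k + 1) - z k) (z k - z (k - 1))| ≤ _
  exact abs_le.2 ⟨by linarith, by linarith⟩

end TayAAux

open TayAAux in
theorem tayAE (hgap : S_gap) (hGB : S_GB) (hder : S_der) : S_tayA := by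
  intro β C hβ hR
  have hc : Continuous β := hβ.1.continuous
  obtain ⟨M, hM⟩ := bdd_of_per hc hβ.2
  obtain ⟨c, d₀, hG⟩ := hGB M
  have hcp := hG.cpos
  have hdp := hG.dpos
  have hC := hR.pos
  obtain ⟨q₀, hq₀⟩ := exists_nat_ge (max 1 (3 / (2 * min d₀ (c ^ 2))))
  refine ⟨Real.exp (5 * M) / c ^ 2 * (4 + 4 * C), q₀, by positivity, ?_⟩
  intro q hq x y hx hy h0 a ha
  have hqq : (q₀:ℝ) ≤ q := by exact_mod_cast hq
  have hq1r : (1:ℝ) ≤ q := (le_max_left _ _).trans (hq₀.trans hqq)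
  have hq1 : 1 ≤ q := by exact_mod_cast hq1r
  have hmin : 0 < min d₀ (c ^ 2) := lt_min hdp (by positivity)
  have hqd : 3 / (2 * (q:ℝ)) ≤ min d₀ (c ^ 2) := by
    have := (le_max_right _ _).trans (hq₀.trans hqq)
    rw [div_le_iff₀ (by positivity)] at this ⊢
    linarith
  have ha0 : 0 ≤ a := (abs_nonneg _).trans (ha 0)
  set z : ℝ → ℤ → ℝ := fun s k => y k + s * (x k - y k) with hz
  have hzr : ∀ s ∈ Icc (0:ℝ) 1, Reg q (z s) := fun s hs => reg_seg hx hy hs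
  have hgp : ∀ s ∈ Icc (0:ℝ) 1, ∀ j, 0 < z s (j + 1) - z s j ∧
      |z s (j + 1) - z s j| ≤ 3 / (2 * (q:ℝ)) := by
    intro s hs j
    obtain ⟨g1, g2⟩ := (hgap q hq1).1 _ (hzr s hs) j
    have : (0:ℝ) < 1 / (2 * q) := by positivity
    refine ⟨by linarith, ?_⟩
    rw [abs_of_pos (by linarith)]; exact g2
  have hzd : ∀ (j : ℤ) (s : ℝ), HasDerivAt (fun σ => z σ j) (x j - y j) s := by
    intro j s
    have := ((hasDerivAt_id' s).mul_const (x j - y j)).const_add (y j)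
    rw [one_mul] at this
    exact this
  have hD : ∀ s ∈ Icc (0:ℝ) 1, HasDerivAt (fun σ => AA β q (z σ))
      (∑ k ∈ Finset.range q, (x k - y k) * (Am β (z s) k - Bp β (z s) k)) s := by
    intro s hs
    have h1 : HasDerivAt (fun σ => AA β q (z σ))
        (∑ k ∈ Finset.range q, ((x (k + 1) - y (k + 1)) * Am β (z s) (k + 1)
          - (x k - y k) * Bp β (z s) k)) s := by
      refine HasDerivAt.fun_sum (fun k _ => ?_)
      have hne : Gr β (z s k) (z s (k + 1) - z s k) ≠ 0 := by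
        have := (hG.h β hc hM (z s k) _
          ((hgp s hs k).2.trans (hqd.trans (min_le_left _ _)))).1
        intro h
        rw [h, Complex.zero_re] at this
        linarith
      have := hder β hc (fun σ => z σ k) (fun σ => z σ (k + 1)) _ _ s (hzd k s) (hzd (k + 1) s)
        (by linarith [(hgp s hs k).1]) hne
      simp only [Am, Bp, add_sub_cancel_right, ← mul_assoc]
      exact this
    have h2 := sum_shift (fun j => (x j - y j) * Am β (z s) j) q (by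
      have e1 := hx.1 0
      have e2 := hy.1 0
      have e3 := (hzr s hs).1 0
      have e4 := (hzr s hs).1 (0 - 1)
      rw [zero_add] at e1 e2 e3
      have e5 : (0:ℤ) - 1 + q = q - 1 := by ring
      rw [e5] at e4
      simp only [Am, e1, e2, e3, e4, Gr_per hβ.2, hβ.2 _]
      have e6 : z s 0 + 1 - (z s (0 - 1) + 1) = z s 0 - z s (0 - 1) := by ring
      rw [e6]; ring)
    rw [Finset.sum_sub_distrib, h2, ← Finset.sum_sub_distrib] at h1
    simpa only [mul_sub] using h1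
  have hB : ∀ s ∈ Icc (0:ℝ) 1,
      ‖∑ k ∈ Finset.range q, (x k - y k) * (Am β (z s) k - Bp β (z s) k)‖
        ≤ Real.exp (5 * M) / c ^ 2 * (4 + 4 * C) * q * a ^ 2 := by
    intro s hs
    have hza : ∀ k, |z s k - y k| ≤ a := by
      intro k
      have : z s k - y k = s * (x k - y k) := by simp only [hz]; ring
      rw [this, abs_mul, abs_of_nonneg hs.1]
      nlinarith [ha k, abs_nonneg (x k - y k), hs.1, hs.2]
    refine (norm_sum_le_of_le (n := fun _ => Real.exp (5 * M) / c ^ 2 * (4 + 4 * C) * a ^ 2) _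
      (fun k _ => ?_)).trans (le_of_eq ?_)
    · have h1 := AB_est hc hM hG (z s) k (hqd.trans (min_le_left _ _))
        (hqd.trans (min_le_right _ _)) (hgp s hs k).2 (by
          have := (hgp s hs (k - 1)).2
          rwa [sub_add_cancel] at this)
      have h2 := EE_est hgap hR hq1 (hzr s hs) hy h0 hza k
      rw [Real.norm_eq_abs, abs_mul]
      calc |x k - y k| * |Am β (z s) k - Bp β (z s) k|
          ≤ a * (Real.exp (5 * M) / c ^ 2 * ((4 + 4 * C) * a)) := by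
            refine mul_le_mul (ha k) (h1.trans ?_) (abs_nonneg _) ha0
            gcongr
        _ = _ := by ring
    · rw [Finset.sum_const, Finset.card_range, nsmul_eq_mul]; ring
  have h := norm_image_sub_le_of_norm_deriv_le_segment_01'
    (f := fun σ => AA β q (z σ)) (fun s hs => (hD s hs).hasDerivWithinAt)
    (fun s hs => hB s (Ico_subset_Icc_self hs))
  have z1 : z 1 = x := by funext k; simp only [hz]; ring
  have z0 : z 0 = y := by funext k; simp only [hz]; ring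
  simp only [z1, z0, Real.norm_eq_abs] at h
  exact h

end Vale.Agent.P097
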