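import Vale.Agent.P097.Base

open Set NormedSpace Complex

namespace Vale.Agent.P097

namespace WienAux

open AddMonoidAlgebra UniformSpace

/-- Complex Laurent polynomials. -/
abbrev L : Type := AddMonoidAlgebra ℂ ℤ

variable {ρ : NNReal}

theorem one_le_wt (n : ℤ) : 1 ≤ wt ρ n :=
  one_le_mul_of_one_le_of_one_le (Real.one_le_exp (by positivity))
    (one_le_pow₀ (le_add_of_nonneg_right (abs_nonneg _)))

theorem wt_add (m n : ℤ) : wt ρ (m + n) ≤ wt ρ m * wt ρ n := by
  have h : |((m + n : ℤ) : ℝ)| ≤ |(m : ℝ)| + |(n : ℝ)| := by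
    push_cast
    exact abs_add_le _ _
  have h1 : (0 : ℝ) ≤ |(m : ℝ)| * |(n : ℝ)| := by positivity
  unfold wt
  rw [mul_mul_mul_comm, ← Real.exp_add, ← mul_pow, ← mul_add]
  gcongr
  nlinarith

variable (ρ) in
/-- The weighted norm. -/
noncomputable def N (a : L) : ℝ := a.coeff.sum fun n z => wt ρ n * ‖z‖

theorem N_single (n : ℤ) (z : ℂ) : N ρ (single n z) = wt ρ n * ‖z‖ := by
  unfold N
  rw [coeff_single, Finsupp.sum_single_index (by simp)]

theorem N_zero : N ρ 0 = 0 := rfl

theorem N_add (a b : L) : N ρ (a + b) ≤ N ρ a + N ρ b := by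
  classical
  unfold N
  rw [coeff_add, Finsupp.sum_of_support_subset _ (s := a.coeff.support ∪ b.coeff.support)
      Finsupp.support_add _ (by simp),
    Finsupp.sum_of_support_subset a.coeff (s := a.coeff.support ∪ b.coeff.support)
      Finset.subset_union_left _ (by simp),
    Finsupp.sum_of_support_subset b.coeff (s := a.coeff.support ∪ b.coeff.support)
      Finset.subset_union_right _ (by simp), ← Finset.sum_add_distrib]
  refine Finset.sum_le_sum fun n _ => ?_
  rw [← mul_add]
  exact mul_le_mul_of_nonneg_left (norm_add_le _ _) (wt_pos _ n).le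

theorem bound {φ : L → ℝ} {C : ℝ} (h0 : φ 0 ≤ 0) (ha : ∀ a b, φ (a + b) ≤ φ a + φ b)
    (hs : ∀ n z, φ (single n z) ≤ C * (wt ρ n * ‖z‖)) (a : L) : φ a ≤ C * N ρ a := by
  conv_lhs => rw [← sum_coeff_single a]
  unfold N Finsupp.sum
  rw [Finset.mul_sum]
  exact (Finset.le_sum_of_subadditive φ h0 ha _ _).trans (Finset.sum_le_sum fun n _ => hs n _)

theorem N_mul (a b : L) : N ρ (a * b) ≤ N ρ a * N ρ b := by
  rw [mul_comm (N ρ a)]
  refine bound (φ := fun a => N ρ (a * b)) (by rw [zero_mul, N_zero])
    (fun x y => by rw [add_mul]; exact N_add _ _) (fun n z => ?_) a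
  rw [mul_comm (N ρ b)]
  refine bound (φ := fun b => N ρ (single n z * b)) (by rw [mul_zero, N_zero])
    (fun x y => by rw [mul_add]; exact N_add _ _) (fun m y => ?_) b
  rw [single_mul_single, N_single, norm_mul, mul_mul_mul_comm]
  exact mul_le_mul_of_nonneg_right (wt_add n m) (by positivity)

theorem N_smul (r : ℂ) (a : L) : N ρ (r • a) ≤ ‖r‖ * N ρ a := by
  refine bound (φ := fun a => N ρ (r • a)) (by rw [smul_zero, N_zero])
    (fun x y => by rw [smul_add]; exact N_add _ _) (fun n z => ?_) a
  rw [smul_single, N_single, norm_smul]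
  exact le_of_eq (by ring)

theorem N_neg (a : L) : N ρ (-a) = N ρ a := by
  have h : ∀ a : L, N ρ (-a) ≤ N ρ a := fun a => by simpa using N_smul (ρ := ρ) (-1) a
  exact le_antisymm (h a) (by simpa using h (-a))

/-- Evaluation. -/
noncomputable def Ev (t : ℝ) : L →ₐ[ℂ] ℂ := AddMonoidAlgebra.lift ℂ ℂ ℤ
  { toFun := fun n => ee ((n.toAdd : ℤ) * t)
    map_one' := by simp [ee_zero]
    map_mul' := fun m n => by rw [← ee_add, toAdd_mul, Int.cast_add, add_mul] }

theorem Ev_single (t : ℝ) (n : ℤ) (z : ℂ) : Ev t (single n z) = z * ee (n * t) :=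
  lift_single _ n z

theorem Ev_le (t : ℝ) (a : L) : ‖Ev t a‖ ≤ 1 * N ρ a :=
  bound (φ := fun a => ‖Ev t a‖) (by simp) (fun a b => by rw [map_add]; exact norm_add_le _ _)
    (fun n z => by
      rw [Ev_single, norm_mul, norm_ee, mul_one, one_mul]
      exact le_mul_of_one_le_left (norm_nonneg _) (one_le_wt n)) a

theorem Ev_cont (a : L) : Continuous fun t => Ev t a := by
  induction a using induction_linear with
  | zero => simpa using continuous_const
  | add x y hx hy =>
    simp only [map_add]
    exact hx.add hy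
  | single n z =>
    simp only [Ev_single]
    fun_prop

theorem Ev_per (t : ℝ) (a : L) : Ev (t + 1) a = Ev t a := by
  induction a using induction_linear with
  | zero => simp
  | add x y hx hy => rw [map_add, map_add, hx, hy]
  | single n z => rw [Ev_single, Ev_single, mul_add, ee_add, mul_one, ee_int, mul_one]

theorem fc_Ev (a : L) (n : ℤ) : fc (fun t => Ev t a) n = a.coeff n := by
  induction a using induction_linear with
  | zero => simp [fc]
  | add x y hx hy =>
    simp only [map_add]
    rw [fc_add (Ev_cont x) (Ev_cont y), hx, hy, coeff_add, Finsupp.add_apply]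
  | single m z =>
    simp only [Ev_single]
    rw [fc_mul, fc_ee, coeff_single, Finsupp.single_apply]
    simp [eq_comm]

theorem co_le (s : Finset ℤ) (a : L) : ∑ n ∈ s, wt ρ n * ‖a.coeff n‖ ≤ 1 * N ρ a := by
  refine bound (φ := fun a => ∑ n ∈ s, wt ρ n * ‖a.coeff n‖) (by simp) (fun a b => ?_)
    (fun m z => ?_) a
  · rw [← Finset.sum_add_distrib]
    refine Finset.sum_le_sum fun n _ => ?_
    rw [← mul_add, coeff_add]
    exact mul_le_mul_of_nonneg_left (norm_add_le _ _) (wt_pos _ n).le
  · simp only [coeff_single, Finsupp.single_apply, apply_ite norm, norm_zero, mul_ite, mul_zero,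
      Finset.sum_ite_eq, one_mul]
    split_ifs
    · exact le_rfl
    · exact mul_nonneg (wt_pos _ m).le (norm_nonneg _)

theorem tail_le (s : Finset ℤ) {A : ℝ} (t : ℝ) (hA : 0 < A) (h : ∀ n, n ∉ s → A ≤ wt ρ n)
    (a : L) : ‖Ev t a - ∑ n ∈ s, a.coeff n * ee (n * t)‖ ≤ A⁻¹ * N ρ a := by
  refine bound (φ := fun a => ‖Ev t a - ∑ n ∈ s, a.coeff n * ee (n * t)‖) (by simp)
    (fun a b => ?_) (fun m z => ?_) a
  · simp only [map_add, coeff_add, Finsupp.add_apply, add_mul, Finset.sum_add_distrib]
    rw [add_sub_add_comm]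
    exact norm_add_le _ _
  · simp only [coeff_single, Finsupp.single_apply, ite_mul, zero_mul, Finset.sum_ite_eq, Ev_single]
    split_ifs with hm
    · rw [sub_self, norm_zero]
      exact mul_nonneg (inv_nonneg.2 hA.le) (mul_nonneg (wt_pos _ m).le (norm_nonneg _))
    · rw [sub_zero, norm_mul, norm_ee, mul_one, le_inv_mul_iff₀ hA]
      exact mul_le_mul_of_nonneg_right (h m hm) (norm_nonneg _)

/-- A copy of the algebra which remembers the weight. -/
noncomputable def L0 (_ρ : NNReal) : Subalgebra ℂ L := ⊤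

/-- The norm as a ring seminorm. -/
noncomputable def nrm (ρ : NNReal) : RingSeminorm (L0 ρ) where
  toFun a := N ρ a.1
  map_zero' := N_zero
  add_le' a b := N_add a.1 b.1
  neg' a := N_neg a.1
  mul_le' a b := N_mul a.1 b.1

noncomputable instance : SeminormedCommRing (L0 ρ) :=
  { (nrm ρ).toSeminormedRing with mul_comm := mul_comm }

noncomputable instance : NormedAlgebra ℂ (L0 ρ) where
  norm_smul_le r a := N_smul r a.1

/-- The completed algebra. -/
abbrev W (ρ : NNReal) : Type := Completion (L0 ρ)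

theorem norm_coe (a : L0 ρ) : ‖(a : W ρ)‖ = N ρ a.1 := Completion.norm_coe a

instance : NormOneClass (W ρ) where
  norm_one := by
    rw [← Completion.coe_one, norm_coe, OneMemClass.coe_one, one_def, N_single]
    simp [wt]

theorem Ev0_cont (t : ℝ) : Continuous ((Ev t).comp (L0 ρ).val : L0 ρ →+* ℂ) :=
  AddMonoidHomClass.continuous_of_bound _ 1 fun a => Ev_le t a.1

/-- Evaluation on the completion. -/
noncomputable def evW (t : ℝ) : W ρ →ₐ[ℂ] ℂ where
  toRingHom := Completion.extensionHom ((Ev t).comp (L0 ρ).val : L0 ρ →+* ℂ) (Ev0_cont t)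
  commutes' r := (Completion.extensionHom_coe _ (Ev0_cont t) (algebraMap ℂ (L0 ρ) r)).trans
    (((Ev t).comp (L0 ρ).val).commutes r)

theorem evW_coe (t : ℝ) (a : L0 ρ) : evW t (a : W ρ) = Ev t a.1 :=
  Completion.extensionHom_coe _ (Ev0_cont t) a

theorem evW_cont (t : ℝ) : Continuous (evW t : W ρ → ℂ) := Completion.continuous_extension

theorem evW_le (t : ℝ) (x : W ρ) : ‖evW t x‖ ≤ ‖x‖ := by
  refine Completion.induction_on x (isClosed_le (evW_cont t).norm continuous_norm) fun a => ?_
  rw [evW_coe, norm_coe, ← one_mul (N ρ a.1)]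
  exact Ev_le t a.1

theorem evW_cont2 : Continuous fun p : W ρ × ℝ => evW p.2 p.1 := by
  refine continuous_prod_of_dense_continuous_lipschitzWith _ 1 Completion.denseRange_coe ?_
    fun t => LipschitzWith.of_dist_le_mul fun x y => ?_
  · rintro _ ⟨a, rfl⟩
    simpa only [evW_coe] using Ev_cont a.1
  · rw [dist_eq_norm, dist_eq_norm, ← map_sub, NNReal.coe_one, one_mul]
    exact evW_le t _

theorem evW_cont1 (x : W ρ) : Continuous fun t => evW t x :=
  Continuous.comp (g := fun p : W ρ × ℝ => evW p.2 p.1) (f := fun t => (x, t)) evW_cont2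
    (Continuous.prodMk_right x)

theorem fc_cont (n : ℤ) : Continuous fun x : W ρ => fc (fun t => evW t x) n := by
  refine (LipschitzWith.of_dist_le_mul (K := 1) fun x y => ?_).continuous
  rw [dist_eq_norm, dist_eq_norm, ← fc_sub (evW_cont1 x) (evW_cont1 y), NNReal.coe_one, one_mul]
  exact fc_le (fun t => by rw [← map_sub]; exact evW_le t _) n

/-- The weighted Wiener algebra. -/
noncomputable def wn (ρ : NNReal) : Wn ρ where
  B := W ρ
  e n := ((⟨single n 1, Algebra.mem_top⟩ : L0 ρ) : W ρ)
  ev := evW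
  e_le n := by rw [norm_coe, N_single, norm_one, mul_one]
  ev_le := evW_le
  ev_e t n := by rw [evW_coe, Ev_single, one_mul]
  ev_cont := evW_cont1
  ev_per t x := Completion.induction_on x (isClosed_eq (evW_cont _) (evW_cont _)) fun a => by
    rw [evW_coe, evW_coe, Ev_per]
  co_le s x := Completion.induction_on x (isClosed_le (continuous_finsetSum _ fun n _ =>
    continuous_const.mul (fc_cont n).norm) continuous_norm) fun a => by
      simp only [evW_coe, fc_Ev]
      rw [norm_coe, ← one_mul (N ρ a.1)]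
      exact co_le s a.1
  tail s A x t hA h := Completion.induction_on x (isClosed_le ((evW_cont t).sub
    (continuous_finsetSum _ fun n _ => (fc_cont n).mul continuous_const)).norm
      (continuous_norm.div_const A)) fun a => by
      simp only [evW_coe, fc_Ev]
      rw [norm_coe, div_eq_inv_mul]
      exact tail_le s t hA h a.1

end WienAux

theorem wienE : S_W := fun ρ h => ⟨WienAux.wn ⟨ρ, h⟩⟩

end Vale.Agent.P097
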