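import Vale.Agent.P097.Base

open Set NormedSpace Complex

namespace Vale.Agent.P097

namespace WoAux

theorem root {z G : ℂ} {a : ℝ} (h1 : z ^ 2 = G * (starRingEnd ℂ) G)
    (h2 : ‖(Real.exp a : ℂ) * z - 1‖ ≤ 1 / 2) : z = (‖G‖ : ℝ) := by
  rw [Complex.mul_conj'] at h1
  rcases sq_eq_sq_iff_eq_or_eq_neg.1 h1 with h | h
  · exact h
  · exfalso
    have e : (Real.exp a : ℂ) * z - 1 = ((-(Real.exp a * ‖G‖ + 1) : ℝ) : ℂ) := by
      rw [h]; push_cast; ring
    have h3 : 0 ≤ Real.exp a * ‖G‖ := by positivity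
    rw [e, Complex.norm_real, Real.norm_eq_abs, abs_neg, abs_of_nonneg (by linarith)] at h2
    linarith

end WoAux

theorem woE (hW : S_W) (hwt : S_wt) (hsol : S_sol) (hR : S_R) (hwod : S_wod) (hev : S_ev) :
    S_wo := by
  intro M
  obtain ⟨C0, hwt⟩ := hwt M
  obtain ⟨C1, q1, hC1, hsol⟩ := hsol M
  obtain ⟨C2, ω₀, hω₀, hC2, hR⟩ := hR C1
  obtain ⟨C3, hwod⟩ := hwod (max C1 C2)
  obtain ⟨q2, hq2⟩ := exists_nat_ge (1 / ω₀ + 2 * C1)
  refine ⟨C1 + |C2| + |C3|, q1 + q2 + 3, fun q τ c hq hτ hc => ?_⟩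
  have hq3 : 3 ≤ q := by omega
  have hqr : (3:ℝ) ≤ q := by exact_mod_cast hq3
  have hq0 : (0:ℝ) < q := by linarith
  have hq2' : 1 / ω₀ + 2 * C1 ≤ q := hq2.trans (by exact_mod_cast (by omega : q2 ≤ q))
  have hio : 0 < 1 / ω₀ := by positivity
  have hω : 1 / (q:ℝ) ≤ ω₀ := (one_div_le hq0 hω₀).2 (by linarith)
  have hω1 : 1 / (q:ℝ) ≤ 1 := (div_le_one hq0).2 (by linarith)
  obtain ⟨hρ, hw1, hw2, -⟩ := hwt q τ c hq3 hτ hc
  obtain ⟨w⟩ := hW _ hρ
  obtain ⟨u, Dp, Dn, b1, b2, hs, hE, hP⟩ := hsol q τ c (by omega) hτ hc w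
  obtain ⟨R, Ri, hR1, hR2, hR3, hR4, hR5⟩ := hR _ _ _ _ _ _ _ (by positivity) hω1 hω hP
  obtain ⟨-, -, hb, hEv⟩ := hev _ w c q hc.1
  set U : ℝ → ℝ := fun t => (w.ev t u).re with hU
  have eU : ∀ t, w.ev t u = U t := fun t => Complex.ext (by simp [hU]) (by simp [hs.ru t])
  have egp : ∀ t, w.ev t (w.gp q Dp) = gap q U t := fun t => by
    rw [Wn.gp, map_add, map_smul, map_one, hs.evp, eU, eU, gap]
    push_cast
    simp only [smul_eq_mul]
    ring
  have egn : ∀ t, w.ev t (w.gp q Dn) = gap q U (t - 1 / q) := fun t => by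
    rw [Wn.gp, map_add, map_smul, map_one, hs.evn, eU, eU, gap, sub_add_cancel]
    push_cast
    simp only [smul_eq_mul]
    ring
  have ev1 : ∀ (t y : ℝ), w.ev t (u + (y:ℂ) • w.gp q Dp) = ((U t + y * gap q U t : ℝ) : ℂ) :=
    fun t y => by rw [map_add, map_smul, eU, egp]; push_cast; rfl
  have epth : ∀ t, (fun y : ℝ => w.ev t (w.bb c q (u + (y:ℂ) • w.gp q Dp)))
      = pth (low c (NN q)) (t + U t) (gap q U t) := fun t => by
    funext y
    rw [hb _ t _ (ev1 t y), pth, add_assoc]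
  have eR : ∀ t, w.ev t R = (‖Gr (low c (NN q)) (t + U t) (gap q U t)‖ : ℝ) := fun t => by
    refine WoAux.root (a := 2 * low c (NN q) (t + U t)) ?_ ?_
    · rw [← map_pow, hR1, map_mul, map_GG _ (w.ev_cont' t) hP.cont,
        map_GG _ (w.ev_cont' t) hP.cont, epth, egp, GG_conj, Gr]
    · have h1 := (w.ev_le t _).trans hR3
      rw [map_sub, map_mul, map_one, map_ex _ (w.ev_cont' t), map_smul, hb u t _ (eU t),
        ← Complex.exp_eq_exp_ℂ] at h1
      have h2 : C2 * (1 / q) ≤ 1 / 2 := by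
        rcases le_total C2 0 with h | h
        · exact (mul_nonpos_of_nonpos_of_nonneg h (by positivity)).trans (by norm_num)
        · exact (mul_le_mul_of_nonneg_left hω h).trans hC2
      push_cast
      exact h1.trans h2
  have eRi : ∀ t, w.ev t Ri = (‖Gr (low c (NN q)) (t + U t) (gap q U t)‖⁻¹ : ℝ) := fun t => by
    have h1 := congrArg (w.ev t) hR2
    rw [map_mul, map_one, eR] at h1
    rw [Complex.ofReal_inv]
    exact eq_inv_of_mul_eq_one_right h1
  have hA : 0 < Real.exp (τ * q) * (q:ℝ) ^ 36 := by positivity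
  have eA : ∀ K : ℝ, K ≤ C1 + |C2| + |C3| → K / (Real.exp (τ * q) * (q:ℝ) ^ 36)
      ≤ (C1 + |C2| + |C3|) * Real.exp (-(τ * q)) / (q:ℝ) ^ 36 := fun K hK => by
    rw [Real.exp_neg, ← div_eq_mul_inv, div_div]
    exact div_le_div_of_nonneg_right hK hA.le
  have a2 := abs_nonneg C2
  have a3 := abs_nonneg C3
  refine ⟨U, (fc (fun t => w.ev t (w.EW c q u Dp Dn)) 0).re,
    continuous_re.comp (w.ev_cont u), fun t => by simp only [hU, w.ev_per], fun t => ?_,
    fun t => ?_, ?_, fun n hn1 hn2 => ?_⟩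
  · have h1 := (w.ev_le t _).trans hs.hf
    rw [map_sub, hs.evp, hs.evn, eU, eU, eU] at h1
    have e : (U (t + 1 / q) : ℂ) - U t - (U t - U (t - 1 / q))
        = ((U (t + 1 / q) - 2 * U t + U (t - 1 / q) : ℝ) : ℂ) := by push_cast; ring
    rw [e, Complex.norm_real, Real.norm_eq_abs] at h1
    refine h1.trans ?_
    rw [div_le_div_iff₀ (by positivity) (by positivity)]
    have h2 : 2 * C1 ≤ (q:ℝ) ^ 2 := by nlinarith
    nlinarith [mul_le_mul_of_nonneg_right h2 (sq_nonneg (q:ℝ))]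
  · have h1 := w.tail (Finset.Ioo (-(q:ℤ)) q) _ (w.EW c q u Dp Dn) t hA fun n hn => hw2 n (by
      rw [Finset.mem_Ioo] at hn
      rcases abs_cases n with h | h <;> omega)
    rw [Finset.sum_eq_single 0 (fun n hn h0 => by
      rw [hs.co n h0 (abs_lt.2 (Finset.mem_Ioo.1 hn)), zero_mul]) (fun h => absurd (by
        rw [Finset.mem_Ioo]; omega) h), hEv u Dp Dn t _ _ _ (eU t) (egp t) (egn t),
      Int.cast_zero, zero_mul, ee_zero, mul_one] at h1
    have h2 := (Complex.abs_re_le_norm _).trans h1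
    rw [Complex.sub_re, Complex.ofReal_re] at h2
    exact h2.trans (eA _ (by linarith))
  · have h1 := w.co_le {(q:ℤ)} (LA (fun y => w.bb c q (u + (y:ℂ) • w.gp q Dp)) (w.gp q Dp) R)
    rw [Finset.sum_singleton] at h1
    have e : (fun t => w.ev t (LA (fun y => w.bb c q (u + (y:ℂ) • w.gp q Dp)) (w.gp q Dp) R))
        = fun t => (ll (low c (NN q)) (t + U t) (gap q U t) : ℂ) := by
      funext t
      rw [map_LA _ (w.ev_cont' t) hP.cont, epth, egp, eR, LA_real]
    rw [e] at h1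
    refine le_trans ?_ (eA |C2| (by linarith))
    rw [le_div_iff₀ hA, mul_comm]
    exact (mul_le_mul_of_nonneg_right (hw2 q (by simp)) (norm_nonneg _)).trans
      (h1.trans (hR5.trans (le_abs_self _)))
  · have h1 := hwod _ w q u Dp _ b1 b2 R Ri _ (by omega)
      (hs.hu.trans (by
        rw [show (q:ℝ) ^ 2 * (C1 / q ^ 4) = C1 / q ^ 2 by field_simp]
        gcongr; exact le_max_left _ _))
      (hs.hp.trans (by
        rw [show (q:ℝ) * (C1 / q ^ 4) = C1 / q ^ 3 by field_simp]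
        gcongr; exact le_max_left _ _))
      (hP.mono (le_max_left _ _) (by positivity)) hR1 hR2
      (hR3.trans (by gcongr; exact le_max_right _ _)) (hR4.trans (le_max_right _ _)) n
      (by unfold NN at hn1; omega) hn2
    have e : (fun t => w.ev t (lin (fun y => w.bb c q (u + (y:ℂ) • w.gp q Dp)) (w.gp q Dp) Ri
        (fun y => w.e n * exp ((2 * Real.pi * I * n : ℂ) • (u + (y:ℂ) • w.gp q Dp)))))
        = fun t => lr (low c (NN q)) (t + U t) (gap q U t) (fun x => ee (n * x)) := by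
      funext t
      rw [map_lin _ (w.ev_cont' t) hP.cont (by fun_prop), epth, egp, eRi, lr]
      congr 1
      funext y
      rw [map_mul, w.ev_e, map_ex _ (w.ev_cont' t), map_smul, ev1, ← Complex.exp_eq_exp_ℂ,
        add_assoc, mul_add, ee_add]
      congr 1
      rw [ee, smul_eq_mul]
      push_cast
      ring_nf
    rw [e] at h1
    refine h1.trans ?_
    have h2 := wt_pos τ (q - n)
    calc _ ≤ |C3| * |(n:ℝ)| / (q:ℝ) ^ 5 / wt (rho τ q) (q - n) := by
          have := wt_pos (rho τ q) (q - n)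
          gcongr
          exact le_abs_self _
      _ ≤ _ := by gcongr; exacts [by linarith, hw1 _]

end Vale.Agent.P097
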