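import Vale.Agent.P097.Base

open Set NormedSpace Complex

namespace Vale.Agent.P097

namespace WodAux

variable {B : Type} [NormedCommRing B] [NormedAlgebra ℂ B] [CompleteSpace B] [NormOneClass B]

theorem ph_est {M ω : ℝ} {u D : B} (n : ℤ) (h0 : 0 < ω) (h1 : ω ≤ 1) (hn : |(n:ℝ)| * ω ^ 2 ≤ 1)
    (hu : ‖u‖ ≤ M * ω ^ 2) (hD : ‖D‖ ≤ M * ω ^ 3) {y : ℝ} (hy : y ∈ Icc (0:ℝ) 1) :
    ‖exp ((2 * Real.pi * I * n : ℂ) • (u + (y:ℂ) • ((ω:ℂ) • (1:B) + D)))‖ ≤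
      Real.exp (4 * Real.pi * M) ∧
    ‖exp ((2 * Real.pi * I * n : ℂ) • (u + (y:ℂ) • ((ω:ℂ) • (1:B) + D))) -
      ee (n * ω * y) • (1:B)‖ ≤ 4 * Real.pi * M * Real.exp (4 * Real.pi * M) * |(n:ℝ)| * ω ^ 2 := by
  have hM : 0 ≤ M := nonneg_of_mul_nonneg_left ((norm_nonneg _).trans hu) (pow_pos h0 2)
  have hp := Real.pi_pos
  have e : exp ((2 * Real.pi * I * n : ℂ) • (u + (y:ℂ) • ((ω:ℂ) • (1:B) + D))) =
      ee (n * ω * y) • exp ((2 * Real.pi * I * n : ℂ) • (u + (y:ℂ) • D)) := by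
    rw [← smul_one_mul (ee _), ee, ← ex_smul_one, ← ex_add]
    congr 1
    push_cast
    module
  have k1 : ‖u + (y:ℂ) • D‖ ≤ 2 * M * ω ^ 2 := by
    refine (norm_add_le _ _).trans ?_
    rw [norm_smul, norm_real, Real.norm_of_nonneg hy.1]
    have : y * ‖D‖ ≤ M * ω ^ 2 := (mul_le_of_le_one_left (norm_nonneg _) hy.2).trans
      (hD.trans (mul_le_mul_of_nonneg_left (pow_le_pow_of_le_one h0.le h1 (by norm_num)) hM))
    linarith
  have k2 : ‖(2 * Real.pi * I * n : ℂ) • (u + (y:ℂ) • D)‖ ≤ 4 * Real.pi * M * (|(n:ℝ)| * ω ^ 2) := by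
    rw [norm_smul]
    refine (mul_le_mul_of_nonneg_left k1 (norm_nonneg _)).trans (le_of_eq ?_)
    simp [abs_of_pos hp]
    ring
  have k3 := k2.trans (mul_le_of_le_one_right (by positivity) hn)
  rw [e, ← smul_sub, norm_smul, norm_smul, norm_ee, one_mul, one_mul]
  refine ⟨(ex_le _).trans (Real.exp_le_exp.2 k3), (ex_rem1 _).trans ?_⟩
  refine (mul_le_mul k2 (Real.exp_le_exp.2 k3) (Real.exp_pos _).le (by positivity)).trans
    (le_of_eq (by ring))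

omit [CompleteSpace B] in
theorem cube {M ω : ℝ} {D : B} (h0 : 0 < ω) (hD : ‖D‖ ≤ M * ω ^ 3)
    (hd : ‖(ω:ℂ) • (1:B) + D‖ ≤ M * ω) :
    ‖((ω:ℂ) • (1:B) + D) ^ 3 - ((ω:ℂ) ^ 3) • (1:B)‖ ≤ M * (M ^ 2 + M + 1) * ω ^ 5 := by
  have ha : ‖(ω:ℂ) • (1:B)‖ ≤ ω := by simp [norm_smul, abs_of_pos h0]
  have e : ((ω:ℂ) ^ 3) • (1:B) = ((ω:ℂ) • (1:B)) ^ 3 := by rw [smul_pow, one_pow]
  rw [e]
  generalize (ω:ℂ) • (1:B) = a at *
  have hM : 0 ≤ M * ω := (norm_nonneg _).trans hd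
  have e2 : (a + D) ^ 3 - a ^ 3 = D * ((a + D) ^ 2 + (a + D) * a + a ^ 2) := by ring
  have k : ‖(a + D) ^ 2 + (a + D) * a + a ^ 2‖ ≤ (M * ω) ^ 2 + M * ω * ω + ω ^ 2 :=
    (norm_add₃_le).trans (add_le_add (add_le_add ((norm_pow_le _ _).trans (by gcongr))
      ((norm_mul_le _ _).trans (by gcongr))) ((norm_pow_le _ _).trans (by gcongr)))
  rw [e2]
  exact (norm_mul_le _ _).trans ((mul_le_mul hD k (norm_nonneg _)
    ((norm_nonneg _).trans hD)).trans (le_of_eq (by ring)))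

theorem coef {ρ : ℝ} (w : Wn ρ) (x : w.B) (κ : ℂ) (n m : ℤ) :
    ‖fc (fun t => w.ev t (w.e n * (x + κ • 1))) m - (if n = m then κ else 0)‖ ≤
      ‖x‖ / wt ρ (m - n) := by
  have hc := w.ev_cont x
  have e : ∀ t, w.ev t (w.e n * (x + κ • 1)) = ee (n * t) * w.ev t x + κ * ee (n * t) := fun t => by
    rw [map_mul, map_add, map_smul, map_one, w.ev_e, smul_eq_mul]
    ring
  simp only [e]
  rw [fc_add (by fun_prop) (by fun_prop), fc_shift, fc_mul, fc_ee, mul_ite, mul_one, mul_zero,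
    if_congr (eq_comm (a := m)) rfl rfl, add_sub_cancel_right, le_div_iff₀' (wt_pos _ _)]
  simpa using w.co_le {m - n} x

end WodAux

open WodAux in
theorem wodE (hlin : S_lin) (hlead : S_lead) : S_wod := by
  intro M
  obtain ⟨C, hC⟩ := hlin (max M (Real.exp (4 * Real.pi * M)))
  refine ⟨2 * |C| + M ^ 3 * (4 * Real.pi * M * Real.exp (4 * Real.pi * M)) +
    2 * (M * (M ^ 2 + M + 1)), ?_⟩
  intro ρ w q u D b0 b1 b2 R Ri b hq hu hD hP hR hRi he hRn n hn1 hn2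
  obtain ⟨l1, l2, l3, l4⟩ := hlead.2 w.B
  have q1 : (1:ℝ) ≤ q := by exact_mod_cast hq
  have q0 : (0:ℝ) < q := by linarith
  have hM : 0 ≤ M := (norm_nonneg _).trans hRn
  have n1 : (q:ℝ) ≤ 2 * |(n:ℝ)| := by exact_mod_cast hn1
  have n2 : |(n:ℝ)| ≤ (q:ℝ) ^ 2 := by exact_mod_cast hn2
  have eg : w.gp q D = ((1 / q : ℝ) : ℂ) • (1 : w.B) + D := by rw [Wn.gp]; push_cast; rfl
  have ec : (3 / (4 * Real.pi ^ 2) / (q:ℂ) ^ 3 : ℂ) =
      3 / (4 * Real.pi ^ 2) * ((1 / q : ℝ) : ℂ) ^ 3 := by push_cast; ring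
  have e5 : ∀ A : ℝ, A / (q:ℝ) ^ 5 = A * (1 / q) ^ 5 := fun A => by ring
  have w0 : (0:ℝ) < 1 / q := by positivity
  have w1 : (1:ℝ) / q ≤ 1 := (div_le_one q0).2 q1
  have w2 : |(n:ℝ)| * (1 / q) ^ 2 ≤ 1 := by
    rw [one_div_pow, mul_one_div]; exact div_le_one_of_le₀ n2 (by positivity)
  have w3 : 1 ≤ 2 * |(n:ℝ)| * (1 / q) := by rw [mul_one_div, le_div_iff₀ q0]; linarith
  have w4 : n = q → ∀ y : ℝ, (n:ℝ) * (1 / q) * y = y := fun h y => by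
    rw [h, Int.cast_natCast, mul_one_div_cancel q0.ne', one_mul]
  replace hu : ‖u‖ ≤ M * (1 / q) ^ 2 := hu.trans_eq (by ring)
  replace hD : ‖D‖ ≤ M * (1 / q) ^ 3 := hD.trans_eq (by ring)
  rw [eg] at hP hR ⊢
  rw [ec, e5]
  generalize (1 / q : ℝ) = ω at *
  have hc : Continuous fun y : ℝ =>
      exp ((2 * Real.pi * I * n : ℂ) • (u + (y:ℂ) • ((ω:ℂ) • (1 : w.B) + D))) := by fun_prop
  have hg : Continuous fun y : ℝ => ee (n * ω * y) := by fun_prop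
  have pe := fun y hy => ph_est n w0 w1 w2 hu hD (y := y) hy
  have k1 := hC w.B ω b0 b1 b2 _ R Ri b _ w0 w1 (hP.mono (le_max_left _ _) w0.le) hR hRi
    (he.trans (mul_le_mul_of_nonneg_right (le_max_left _ _) w0.le)) (hRn.trans (le_max_left _ _))
    hc fun y hy => (pe y hy).1.trans (le_max_right _ _)
  have k2 := l1 _ _ (hc.sub (hg.smul continuous_const)) fun y hy => (pe y hy).2
  have k3 := cube w0 hD hP.hd
  have k4 := (hlead.2 ℂ).1 _ 1 hg fun y _ => (norm_ee _).le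
  have k5 : ‖((ω:ℂ) • (1 : w.B) + D) ^ 3‖ ≤ (M * ω) ^ 3 :=
    (norm_pow_le _ _).trans (pow_le_pow_left₀ (norm_nonneg _) hP.hd 3)
  have k6 : (if n = q then (3 / (4 * Real.pi ^ 2) * (ω:ℂ) ^ 3 : ℂ) else 0) =
      if n = q then lead (fun y : ℝ => ee (n * ω * y)) * (ω:ℂ) ^ 3 else 0 :=
    if_ctx_congr Iff.rfl (fun h => by simp only [w4 h, hlead.1]) fun _ => rfl
  erw [l2 _ _ hc (hg.smul continuous_const), l3 _ hg] at k2
  rw [l4 _ _ _ _ _ hP.cont hc, k6]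
  generalize lead (fun y : ℝ => ee (n * ω * y)) = ka at *
  generalize lin b _ Ri _ = z at *
  generalize lead (B := w.B) _ = s at *
  generalize (ω:ℂ) • (1 : w.B) + D = d at *
  have e : z = (z - d ^ 3 * s + d ^ 3 * (s - ka • 1) + ka • (d ^ 3 - ((ω:ℂ) ^ 3) • 1)) +
      (ka * (ω:ℂ) ^ 3) • 1 := by
    rw [mul_sub, mul_smul_comm, mul_one, smul_sub, smul_smul]
    abel
  rw [e]
  refine (coef w _ _ n q).trans (div_le_div_of_nonneg_right (norm_add₃_le.trans ?_)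
    (wt_pos _ _).le)
  have k7 := (norm_mul_le _ _).trans (mul_le_mul k5 k2 (norm_nonneg _) (by positivity))
  have k8 := (norm_smul_le _ _).trans (mul_le_mul k4 k3 (norm_nonneg _) zero_le_one)
  have k9 : C * ω ^ 4 ≤ |C| * ω ^ 4 * (2 * |(n:ℝ)| * ω) :=
    (mul_le_mul_of_nonneg_right (le_abs_self C) (by positivity)).trans
      (le_mul_of_one_le_right (by positivity) w3)
  have k10 : M * (M ^ 2 + M + 1) * ω ^ 5 ≤ M * (M ^ 2 + M + 1) * ω ^ 5 * (2 * |(n:ℝ)|) :=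
    le_mul_of_one_le_right (by positivity) (by linarith)
  linarith

end Vale.Agent.P097
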