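import Vale.Agent.P097.Base

open Set NormedSpace Complex

namespace Vale.Agent.P097

namespace WtAux

theorem key {q N m : ℝ} (hq : 0 < q) (hqN : q ≤ 2 * N) (hm : 1 ≤ m) (hmN : m ≤ N) :
    Real.log q / N * m ≤ Real.log 2 + 1 + Real.log m := by
  have hN : 0 < N := by linarith
  have hm0 : 0 < m := by linarith
  have h1 : Real.log q ≤ Real.log 2 + Real.log N := by
    rw [← Real.log_mul two_ne_zero hN.ne']
    exact Real.log_le_log hq hqN
  have h2 : Real.log N ≤ Real.log m + N / m := by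
    have h := Real.log_le_sub_one_of_pos (div_pos hN hm0)
    rw [Real.log_div hN.ne' hm0.ne'] at h
    linarith
  have h3 : 0 ≤ Real.log 2 + Real.log m :=
    add_nonneg (Real.log_nonneg one_le_two) (Real.log_nonneg hm)
  have h4 : m / N ≤ 1 := (div_le_one hN).2 hmN
  have h5 : 0 ≤ m / N := by positivity
  have h6 : m / N * (N / m) = 1 := by field_simp
  calc Real.log q / N * m = m / N * Real.log q := by ring
    _ ≤ m / N * ((Real.log 2 + Real.log m) + N / m) := by
        apply mul_le_mul_of_nonneg_left _ h5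
        linarith
    _ = m / N * (Real.log 2 + Real.log m) + 1 := by rw [mul_add, h6]
    _ ≤ 1 * (Real.log 2 + Real.log m) + 1 := by gcongr
    _ = _ := by ring

/-- The constant in the bound. -/
noncomputable def KK : ℝ := Real.exp (24 * (Real.log 2 + 1))

theorem ex_le {q N m τ : ℝ} (hq : 0 < q) (hqN : q ≤ 2 * N) (hm : 1 ≤ m) (hmN : m ≤ N) :
    Real.exp ((τ + 24 * Real.log q / N) * m) ≤ Real.exp (τ * m) * (KK * m ^ 24) := by
  have hm0 : 0 < m := by linarith
  have h1 : m ^ 24 = Real.exp (24 * Real.log m) := by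
    have h := Real.exp_nat_mul (Real.log m) 24
    rw [Real.exp_log hm0] at h
    rw [← h]
    norm_num
  rw [h1, KK, ← Real.exp_add, ← Real.exp_add]
  apply Real.exp_le_exp.2
  have h2 := key hq hqN hm hmN
  have h3 : (τ + 24 * Real.log q / N) * m = τ * m + 24 * (Real.log q / N * m) := by ring
  rw [h3]
  linarith

theorem term {q N m τ M x : ℝ} (hq : 0 < q) (hqN : q ≤ 2 * N) (hm : 1 ≤ m) (hmN : m ≤ N)
    (hM : 0 ≤ M) (hx0 : 0 ≤ x) (hx : x ≤ M * Real.exp (-(τ * m)) / m ^ 31) :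
    (1 + m) ^ 3 * (x * (Real.exp ((τ + 24 * Real.log q / N) * m) * (1 + m) ^ 2))
      ≤ 32 * M * KK * (1 / m ^ 2) := by
  have hm0 : 0 < m := by linarith
  have hK : 0 < KK := Real.exp_pos _
  have h1 := ex_le (τ := τ) hq hqN hm hmN
  have h2 : 1 + m ≤ 2 * m := by linarith
  have h3 : Real.exp (-(τ * m)) * Real.exp (τ * m) = 1 := by
    rw [← Real.exp_add, neg_add_cancel, Real.exp_zero]
  calc (1 + m) ^ 3 * (x * (Real.exp ((τ + 24 * Real.log q / N) * m) * (1 + m) ^ 2))
      ≤ (2 * m) ^ 3 * ((M * Real.exp (-(τ * m)) / m ^ 31) *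
          ((Real.exp (τ * m) * (KK * m ^ 24)) * (2 * m) ^ 2)) := by gcongr
    _ = 32 * M * KK * (1 / m ^ 2) * (Real.exp (-(τ * m)) * Real.exp (τ * m)) := by
        field_simp
        ring
    _ = _ := by rw [h3, mul_one]

end WtAux

open WtAux in
theorem wtE : S_wt := by
  intro M
  refine ⟨M + 32 * M * KK * ∑' n : ℤ, 1 / (n:ℝ) ^ 2, fun q τ c hq hτ hc => ?_⟩
  have hN1 : 2 ≤ NN q ∧ q ≤ 2 * NN q ∧ 3 * NN q ≤ 2 * q ∧ NN q ≤ q := by
    unfold NN
    omega
  obtain ⟨a1, a2, a3, a4⟩ := hN1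
  have b0 : (3:ℝ) ≤ q := by exact_mod_cast hq
  have b1 : (2:ℝ) ≤ NN q := by exact_mod_cast a1
  have b2 : (q:ℝ) ≤ 2 * NN q := by exact_mod_cast a2
  have b3 : 3 * (NN q : ℝ) ≤ 2 * q := by exact_mod_cast a3
  have b4 : (NN q : ℝ) ≤ q := by exact_mod_cast a4
  have hN : (0:ℝ) < NN q := by linarith
  have hq0 : (0:ℝ) < q := by linarith
  have hl : 0 ≤ Real.log q := Real.log_nonneg (by linarith)
  have hd : 0 ≤ 24 * Real.log q / NN q := by positivity
  have hr : τ ≤ rho τ q := le_add_of_nonneg_right hd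
  have hM : 0 ≤ M := (norm_nonneg _).trans hc.2.1
  have hK : 0 < KK := Real.exp_pos _
  refine ⟨hτ.trans hr, fun n => ?_, fun n hn => ?_, ?_⟩
  · unfold wt
    gcongr
  · have h1 : (q:ℝ) ≤ |(n:ℝ)| := by exact_mod_cast hn
    have h2 : (q:ℝ) ^ 36 = Real.exp (36 * Real.log q) := by
      have h := Real.exp_nat_mul (Real.log q) 36
      rw [Real.exp_log hq0] at h
      rw [← h]
      norm_num
    have h3 : 36 * Real.log q ≤ 24 * Real.log q / NN q * q := by
      rw [div_mul_eq_mul_div, le_div_iff₀ hN]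
      nlinarith
    have h4 : τ * q + 36 * Real.log q ≤ rho τ q * |(n:ℝ)| := by
      calc τ * q + 36 * Real.log q ≤ rho τ q * q := by
            unfold rho
            rw [add_mul]
            linarith
        _ ≤ _ := mul_le_mul_of_nonneg_left h1 (hτ.trans hr)
    have h5 : (1:ℝ) ≤ (1 + |(n:ℝ)|) ^ 2 := one_le_pow₀ (by linarith)
    rw [h2, ← Real.exp_add]
    exact (Real.exp_le_exp.2 h4).trans (le_mul_of_one_le_right (Real.exp_pos _).le h5)
  · have hs : Summable fun n : ℤ => 1 / (n:ℝ) ^ 2 := Real.summable_one_div_int_pow.2 one_lt_two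
    have h1 : ∀ n ∈ Finset.Icc (-(NN q : ℤ)) (NN q),
        (1 + |(n:ℝ)|) ^ 3 * (‖c n‖ * wt (rho τ q) n) ≤
          (if n = 0 then M else 0) + 32 * M * KK * (1 / (n:ℝ) ^ 2) := by
      intro n hn
      by_cases h0 : n = 0
      · subst h0
        simpa [wt] using hc.2.1
      · have h2 : (1:ℝ) ≤ |(n:ℝ)| := by exact_mod_cast Int.one_le_abs h0
        have h3 : |(n:ℝ)| ≤ NN q := by exact_mod_cast abs_le.2 (Finset.mem_Icc.1 hn)
        have h4 := hc.2.2 n h0
        rw [min_eq_left (h3.trans b4)] at h4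
        have h5 := term hq0 b2 h2 h3 hM (norm_nonneg _) h4
        rw [sq_abs] at h5
        rw [if_neg h0, zero_add]
        exact h5
    refine (Finset.sum_le_sum h1).trans ?_
    rw [Finset.sum_add_distrib, ← Finset.mul_sum]
    refine add_le_add ?_ (mul_le_mul_of_nonneg_left
      (hs.sum_le_tsum _ fun n _ => by positivity) (by positivity))
    rw [Finset.sum_ite_eq']
    split_ifs
    · exact le_rfl
    · exact hM

end Vale.Agent.P097
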