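import Vale.Agent.P097.ExpA
import Vale.Agent.P097.ExpS
import Vale.Agent.P097.ExpE
import Vale.Agent.P097.Rt
import Vale.Agent.P097.Lin
import Vale.Agent.P097.Lead
import Vale.Agent.P097.Cmp
import Vale.Agent.P097.Pr
import Vale.Agent.P097.Tay
import Vale.Agent.P097.RL
import Vale.Agent.P097.GB
import Vale.Agent.P097.Chord
import Vale.Agent.P097.Der
import Vale.Agent.P097.Gap
import Vale.Agent.P097.Stab
import Vale.Agent.P097.Exist
import Vale.Agent.P097.TayA
import Vale.Agent.P097.RM
import Vale.Agent.P097.Rl1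
import Vale.Agent.P097.Rl2
import Vale.Agent.P097.Rl3
import Vale.Agent.P097.Fs
import Vale.Agent.P097.Fd
import Vale.Agent.P097.An
import Vale.Agent.P097.Tail
import Vale.Agent.P097.Ind
import Vale.Agent.P097.Wien
import Vale.Agent.P097.Wt
import Vale.Agent.P097.Fp
import Vale.Agent.P097.Ev
import Vale.Agent.P097.Sol
import Vale.Agent.P097.Wod
import Vale.Agent.P097.Wo
import Vale.Agent.P097.Ap1
import Vale.Agent.P097.Ap2
import Vale.Agent.P097.Ap
import Vale.Agent.P097.Geo1
import Vale.Agent.P097.Geo2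
import Vale.Agent.P097.Prim
import Vale.Agent.P097.Geo3

namespace Vale.Agent.P097

theorem p_expA : S_expA := expA

theorem p_expS : S_expS := expS

theorem p_expE : S_expE := expE p_expA p_expS

theorem p_R : S_R := rt p_expA p_expS

theorem p_lin : S_lin := linE p_expA p_expS

theorem p_lead : S_lead := leadE

theorem p_cmp : S_cmp := cmpE

theorem p_pr : S_pr := prE

theorem p_tay : S_tay := tayE

theorem p_RL : S_RL := rlE p_expE p_pr p_tay

theorem p_GB : S_GB := gbE

theorem p_chord : S_chord := chordE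

theorem p_der : S_der := derE p_chord

theorem p_gap : S_gap := gapE

theorem p_stab : S_stab := stabE p_gap

theorem p_exist : S_exist := existE p_gap

theorem p_tayA : S_tayA := tayAE p_gap p_GB p_der

theorem p_RM : S_RM := rmE p_RL p_stab p_exist p_tayA p_gap

theorem p_rl1 : S_rl1 := rl1E

theorem p_rl2 : S_rl2 := rl2E p_rl1 p_GB

theorem p_rl3 : S_rl3 := rl3E p_rl1 p_GB

theorem p_fs : S_fs := fsE

theorem p_fd : S_fd := fdE

theorem p_an : S_an := anE p_fs

theorem p_tail : S_tail := tailE p_fs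

theorem p_ind : S_ind := indE

theorem p_W : S_W := wienE

theorem p_wt : S_wt := wtE

theorem p_fp : S_fp := fpE

theorem p_ev : S_ev := evE

theorem p_sol : S_sol := solE p_expE p_cmp p_wt p_fp p_ev

theorem p_wod : S_wod := wodE p_lin p_lead

theorem p_wo : S_wo := woE p_W p_wt p_sol p_R p_wod p_ev

theorem p_ap1 : S_ap1 := ap1E p_tail p_rl3 p_fs p_gap

theorem p_ap2 : S_ap2 := ap2E

theorem p_ap : S_ap := apE p_wo p_ap1 p_ap2 p_rl2 p_rl3 p_tail p_gap

theorem p_geo1 : S_geo1 := geo1E

theorem p_geo2 : S_geo2 := geo2E p_chord p_GB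

theorem p_prim : S_prim := primE

theorem p_geo3 : S_geo3 := geo3E p_prim

theorem main (γ : ℝ → ℂ) (L : ℝ) (h : Table γ L) (hg : Graphs γ L) :
    AnalyticOnNhd ℝ γ Set.univ :=
  final p_geo1 p_geo2 p_geo3 p_RM p_ap p_fd p_ind p_an γ L h hg

end Vale.Agent.P097
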