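import Vale.Agent.P097.Base

/-! P097: uniform order calculus for families of paths in Banach algebras. -/

open Set NormedSpace Complex

namespace Vale.Agent.P097

section Ob

variable {ι : Type*} {B : ι → Type} [∀ i, NormedCommRing (B i)] [∀ i, NormedAlgebra ℂ (B i)]

/-- The family `x` is `O(ω ^ k)` uniformly in `i` and `y ∈ [0,1]`. -/
def Ob (ω : ι → ℝ) (k : ℕ) (x : ∀ i, ℝ → B i) : Prop :=
  ∃ C : ℝ, 0 ≤ C ∧ ∀ i, ∀ y ∈ Icc (0:ℝ) 1, ‖x i y‖ ≤ C * ω i ^ k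

/-- Admissible small parameters. -/
def Sm (ω : ι → ℝ) : Prop := ∀ i, 0 < ω i ∧ ω i ≤ 1

variable {ω : ι → ℝ} {k l : ℕ} {x z : ∀ i, ℝ → B i}

omit [∀ i, NormedAlgebra ℂ (B i)] in
theorem Ob.of_le (hω : Sm ω) {C : ℝ} (h : ∀ i, ∀ y ∈ Icc (0:ℝ) 1, ‖x i y‖ ≤ C * ω i ^ k) :
    Ob ω k x :=
  ⟨|C|, abs_nonneg _, fun i y hy => (h i y hy).trans
    (mul_le_mul_of_nonneg_right (le_abs_self C) (pow_nonneg (hω i).1.le _))⟩

omit [∀ i, NormedAlgebra ℂ (B i)] in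
theorem Ob.congr (h : Ob ω k x) (e : ∀ i, ∀ y ∈ Icc (0:ℝ) 1, z i y = x i y) : Ob ω k z :=
  let ⟨C, h0, h1⟩ := h
  ⟨C, h0, fun i y hy => e i y hy ▸ h1 i y hy⟩

omit [∀ i, NormedAlgebra ℂ (B i)] in
theorem Ob.add (hx : Ob ω k x) (hz : Ob ω k z) : Ob ω k fun i y => x i y + z i y :=
  let ⟨C, h0, h1⟩ := hx
  let ⟨D, h2, h3⟩ := hz
  ⟨C + D, add_nonneg h0 h2, fun i y hy => (norm_add_le _ _).trans
    (by rw [add_mul]; exact add_le_add (h1 i y hy) (h3 i y hy))⟩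

omit [∀ i, NormedAlgebra ℂ (B i)] in
theorem Ob.neg (hx : Ob ω k x) : Ob ω k fun i y => -x i y :=
  let ⟨C, h0, h1⟩ := hx
  ⟨C, h0, fun i y hy => by rw [norm_neg]; exact h1 i y hy⟩

omit [∀ i, NormedAlgebra ℂ (B i)] in
theorem Ob.sub (hx : Ob ω k x) (hz : Ob ω k z) : Ob ω k fun i y => x i y - z i y :=
  (hx.add hz.neg).congr fun _ _ _ => sub_eq_add_neg _ _

omit [∀ i, NormedAlgebra ℂ (B i)] in
theorem Ob.mul (hx : Ob ω k x) (hz : Ob ω l z) : Ob ω (k + l) fun i y => x i y * z i y :=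
  let ⟨C, h0, h1⟩ := hx
  let ⟨D, h2, h3⟩ := hz
  ⟨C * D, mul_nonneg h0 h2, fun i y hy => (norm_mul_le _ _).trans <| by
    rw [pow_add, mul_mul_mul_comm]
    exact mul_le_mul (h1 i y hy) (h3 i y hy) (norm_nonneg _) ((norm_nonneg _).trans (h1 i y hy))⟩

omit [∀ i, NormedAlgebra ℂ (B i)] in
theorem Ob.mono (hω : Sm ω) (hx : Ob ω k x) (h : l ≤ k) : Ob ω l x :=
  let ⟨C, h0, h1⟩ := hx
  ⟨C, h0, fun i y hy => (h1 i y hy).trans
    (mul_le_mul_of_nonneg_left (pow_le_pow_of_le_one (hω i).1.le (hω i).2 h) h0)⟩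

theorem Ob.smul (hx : Ob ω k x) (c : ℂ) : Ob ω k fun i y => c • x i y :=
  let ⟨C, h0, h1⟩ := hx
  ⟨‖c‖ * C, mul_nonneg (norm_nonneg _) h0, fun i y hy => by
    rw [norm_smul, mul_assoc]
    exact mul_le_mul_of_nonneg_left (h1 i y hy) (norm_nonneg _)⟩

/-- Multiplication by a continuous scalar function of `y`. -/
theorem Ob.smul_fn (hx : Ob ω k x) {c : ℝ → ℂ} (hc : Continuous c) :
    Ob ω k fun i y => c y • x i y := by
  obtain ⟨C, h0, h1⟩ := hx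
  obtain ⟨A, hA⟩ := (isCompact_Icc (a := (0:ℝ)) (b := 1)).exists_bound_of_continuousOn
    hc.continuousOn
  have hA0 : 0 ≤ A := (norm_nonneg _).trans (hA 0 (by simp))
  refine ⟨A * C, mul_nonneg hA0 h0, fun i y hy => ?_⟩
  rw [norm_smul, mul_assoc]
  exact mul_le_mul (hA y hy) (h1 i y hy) (norm_nonneg _) hA0

/-- Primitive. -/
theorem Ob.prim (hx : Ob ω k x) : Ob ω k fun i y => ∫ z in (0:ℝ)..y, x i z := by
  obtain ⟨C, h0, h1⟩ := hx
  refine ⟨C, h0, fun i y hy => ?_⟩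
  have h2 := intervalIntegral.norm_integral_le_of_norm_le_const (a := 0) (b := y)
    (C := C * ω i ^ k) (f := x i) fun t ht => h1 i t (by
      rw [uIoc_of_le hy.1] at ht
      exact ⟨ht.1.le, ht.2.trans hy.2⟩)
  rw [sub_zero, abs_of_nonneg hy.1] at h2
  exact h2.trans (mul_le_of_le_one_right ((norm_nonneg _).trans (h1 i y hy)) hy.2)

omit [∀ i, NormedAlgebra ℂ (B i)] in
/-- Value at a fixed point, as a constant path. -/
theorem Ob.at (hx : Ob ω k x) {a : ℝ} (ha : a ∈ Icc (0:ℝ) 1) : Ob ω k fun i _ => x i a :=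
  let ⟨C, h0, h1⟩ := hx
  ⟨C, h0, fun i _ _ => h1 i a ha⟩

/-- Integral over `[0,1]`, as a constant path. -/
theorem Ob.int (hx : Ob ω k x) : Ob ω k fun i (_ : ℝ) => ∫ z in (0:ℝ)..1, x i z :=
  hx.prim.at ⟨zero_le_one, le_rfl⟩

omit [∀ i, NormedAlgebra ℂ (B i)] in
theorem Ob.comp {κ : Type*} (hx : Ob ω k x) (f : κ → ι) :
    Ob (B := fun j => B (f j)) (fun j => ω (f j)) k fun j => x (f j) :=
  let ⟨C, h0, h1⟩ := hx
  ⟨C, h0, fun j => h1 (f j)⟩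

variable [∀ i, NormOneClass (B i)]

omit [∀ i, NormedAlgebra ℂ (B i)] in
theorem Ob.one : Ob ω 0 fun i (_ : ℝ) => (1 : B i) := ⟨1, zero_le_one, fun i _ _ => by simp⟩

omit [∀ i, NormedAlgebra ℂ (B i)] in
theorem Ob.pow (hx : Ob ω k x) (m : ℕ) : Ob ω (k * m) fun i y => x i y ^ m := by
  induction m with
  | zero => exact Ob.one.congr fun _ _ _ => pow_zero _
  | succ m ih => exact (ih.mul hx).congr fun _ _ _ => pow_succ _ _

variable [∀ i, CompleteSpace (B i)]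

/-- Taylor remainder of the exponential. -/
theorem Ob.exp_rem (hω : Sm ω) (hx : Ob ω k x) (m : ℕ) : Ob ω (k * m) fun i y =>
    exp (x i y) - ∑ j ∈ Finset.range m, ((j.factorial : ℂ)⁻¹) • x i y ^ j := by
  obtain ⟨C, h0, h1⟩ := hx
  refine ⟨C ^ m * Real.exp C, by positivity, fun i y hy => (ex_rem m _).trans ?_⟩
  have h2 : ‖x i y‖ ≤ C := (h1 i y hy).trans
    (mul_le_of_le_one_right h0 (pow_le_one₀ (hω i).1.le (hω i).2))
  have h3 := h1 i y hy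
  have h4 := (hω i).1
  calc _ ≤ (C * ω i ^ k) ^ m * Real.exp C := by gcongr
    _ = _ := by rw [mul_pow, ← pow_mul]; ring

theorem Ob.exp0 (hω : Sm ω) (hx : Ob ω k x) : Ob ω 0 fun i y => exp (x i y) :=
  (hx.exp_rem hω 0).congr fun _ _ _ => by simp

theorem Ob.exp1 (hω : Sm ω) (hx : Ob ω k x) : Ob ω k fun i y => exp (x i y) - 1 :=
  ((hx.exp_rem hω 1).mono hω (by omega)).congr fun _ _ _ => by simp

theorem Ob.exp2 (hω : Sm ω) (hx : Ob ω k x) : Ob ω (k * 2) fun i y => exp (x i y) - (1 + x i y) :=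
  (hx.exp_rem hω 2).congr fun _ _ _ => by simp [Finset.sum_range_succ]

theorem Ob.exp3 (hω : Sm ω) (hx : Ob ω k x) :
    Ob ω (k * 3) fun i y => exp (x i y) - (1 + x i y + (1 / 2 : ℂ) • x i y ^ 2) :=
  (hx.exp_rem hω 3).congr fun _ _ _ => by simp [Finset.sum_range_succ]

theorem Ob.exp4 (hω : Sm ω) (hx : Ob ω k x) : Ob ω (k * 4) fun i y =>
    exp (x i y) - (1 + x i y + (1 / 2 : ℂ) • x i y ^ 2 + (1 / 6 : ℂ) • x i y ^ 3) :=
  (hx.exp_rem hω 4).congr fun _ _ _ => by simp [Finset.sum_range_succ, Nat.factorial]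

end Ob

/-- All data of one path, bundled as an index type. -/
structure Dat (M : ℝ) : Type 1 where
  B : Type
  [i1 : NormedCommRing B]
  [i2 : NormedAlgebra ℂ B]
  [i3 : CompleteSpace B]
  [i4 : NormOneClass B]
  ω : ℝ
  b0 : B
  b1 : B
  b2 : B
  d : B
  b : ℝ → B
  pos : 0 < ω
  le : ω ≤ 1
  h : PH M ω b0 b1 b2 d b

attribute [instance] Dat.i1 Dat.i2 Dat.i3 Dat.i4

namespace Dat

variable {M : ℝ}

theorem sm : Sm (Dat.ω (M := M)) := fun D => ⟨D.pos, D.le⟩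

theorem o0 : Ob Dat.ω 0 fun (D : Dat M) (_ : ℝ) => D.b0 :=
  .of_le sm (C := M) fun D _ _ => by simpa using D.h.h0

theorem o1 : Ob Dat.ω 0 fun (D : Dat M) (_ : ℝ) => D.b1 :=
  .of_le sm (C := M) fun D _ _ => by simpa using D.h.h1

theorem o2 : Ob Dat.ω 0 fun (D : Dat M) (_ : ℝ) => D.b2 :=
  .of_le sm (C := M) fun D _ _ => by simpa using D.h.h2

theorem od : Ob Dat.ω 1 fun (D : Dat M) (_ : ℝ) => D.d :=
  .of_le sm (C := M) fun D _ _ => by simpa using D.h.hd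

theorem orem : Ob Dat.ω 3 fun (D : Dat M) (y : ℝ) =>
    D.b y - (D.b0 + (y:ℂ) • (D.b1 * D.d) + ((y:ℂ) ^ 2) • (D.b2 * D.d ^ 2)) :=
  .of_le sm (C := M) fun D => D.h.hb

/-- The normalised path `b - b0` is `O(ω)`. -/
theorem oc : Ob Dat.ω 1 fun (D : Dat M) (y : ℝ) => D.b y - D.b0 :=
  (((orem.mono sm (by norm_num)).add ((o1.mul od).smul_fn continuous_ofReal)).add
    (((o2.mul (od.pow 2)).mono sm (by norm_num)).smul_fn (c := fun y => (y:ℂ) ^ 2)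
      (by fun_prop))).congr fun _ _ _ => by ring

theorem ob : Ob Dat.ω 0 fun (D : Dat M) (y : ℝ) => D.b y :=
  ((oc.mono sm (by norm_num)).add o0).congr fun _ _ _ => by ring

/-- From a family estimate to the statement with a uniform constant. -/
theorem out {k : ℕ} {x : ∀ D : Dat M, D.B} (h : Ob Dat.ω k fun D (_ : ℝ) => x D) :
    ∃ C : ℝ, 0 ≤ C ∧ ∀ D : Dat M, ‖x D‖ ≤ C * D.ω ^ k :=
  let ⟨C, h0, h1⟩ := h
  ⟨C, h0, fun D => h1 D 0 ⟨le_rfl, zero_le_one⟩⟩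

end Dat

end Vale.Agent.P097
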