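import Vale.Agent.P097.Base

open Set NormedSpace Complex

namespace Vale.Agent.P097

namespace Rl1Aux

theorem int_le {f : ℝ → ℂ} {c y : ℝ} (hy : y ∈ Icc (0 : ℝ) 1) (h : ∀ z ∈ Icc (0 : ℝ) 1, ‖f z‖ ≤ c) :
    ‖∫ z in (0 : ℝ)..y, f z‖ ≤ c := by
  refine (intervalIntegral.norm_integral_le_of_norm_le_const (C := c) fun z hz => ?_).trans ?_
  · rw [uIoc_of_le hy.1] at hz
    exact h z ⟨hz.1.le, hz.2.trans hy.2⟩
  · rw [sub_zero, abs_of_nonneg hy.1]
    exact mul_le_of_le_one_right ((norm_nonneg _).trans (h y hy)) hy.2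

theorem ex_le' {x : ℂ} {c : ℝ} (h : ‖x‖ ≤ c) : ‖NormedSpace.exp x‖ ≤ Real.exp c :=
  (ex_le x).trans (Real.exp_le_exp.2 h)

theorem rem {x : ℂ} {K η : ℝ} (h : ‖x‖ ≤ K * η) (hK : 0 ≤ K) (h1 : η ≤ 1) :
    ‖NormedSpace.exp x - 1‖ ≤ K * Real.exp K * η ∧
      ‖NormedSpace.exp x - (1 + x)‖ ≤ K ^ 2 * Real.exp K * η ^ 2 := by
  have h2 : Real.exp ‖x‖ ≤ Real.exp K :=
    Real.exp_le_exp.2 (h.trans (mul_le_of_le_one_right hK h1))
  exact ⟨(ex_rem1 x).trans ((mul_le_mul h h2 (Real.exp_pos _).le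
      ((norm_nonneg _).trans h)).trans_eq (by ring)),
    (ex_rem2 x).trans ((mul_le_mul (pow_le_pow_left₀ (norm_nonneg _) h 2) h2 (Real.exp_pos _).le
      (sq_nonneg _)).trans_eq (by ring))⟩

theorem gen (M : ℝ) : ∃ C : ℝ, ∀ b h : ℝ → ℂ, Continuous b → Continuous h → (∀ y, ‖b y‖ ≤ M) →
    ∀ η : ℝ, η ≤ 1 → (∀ y, ‖h y‖ ≤ η) → ∀ d : ℂ, ‖d‖ ≤ 1 →
    ‖GG I (fun y => b y + h y) d - GG I b d‖ ≤ C * η ∧
    ‖GG I (fun y => b y + h y) d - GG I b d - ∫ y in (0:ℝ)..1, em b y * ph I b d y *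
      (-2 * h y + I * d * JJ b h y)‖ ≤ C * η ^ 2 := by
  obtain ⟨E, hE⟩ : ∃ E, E = Real.exp M * Real.exp 1 := ⟨_, rfl⟩
  obtain ⟨A, hA⟩ : ∃ A, A = Real.exp (2 * M) * Real.exp (Real.exp M) := ⟨_, rfl⟩
  have E0 : 0 ≤ E := by rw [hE]; positivity
  have A0 : 0 ≤ A := by rw [hA]; positivity
  refine ⟨A * ((2 + E) * Real.exp (2 + E) + (2 + E) ^ 2 * Real.exp (2 + E) + E),
    fun b h cb ch hb η h1 hh d hd => ?_⟩
  have η0 := (norm_nonneg _).trans (hh 0)
  have c1 : Continuous fun z => NormedSpace.exp (b z) := ex_cont.comp cb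
  have c2 : Continuous fun z => NormedSpace.exp (b z + h z) := ex_cont.comp (cb.add ch)
  have hr := fun y => rem ((hh y).trans_eq (one_mul η).symm) zero_le_one h1
  have hI : ∀ x : ℂ, ‖I * d * x‖ ≤ ‖x‖ := fun x => by
    rw [norm_mul, norm_mul, norm_I, one_mul]
    exact mul_le_of_le_one_left (norm_nonneg _) hd
  have key : ∀ y ∈ Icc (0 : ℝ) 1,
      ‖em (fun y => b y + h y) y * ph I (fun y => b y + h y) d y - em b y * ph I b d y‖ ≤
        A * ((2 + E) * Real.exp (2 + E) * η) ∧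
      ‖em (fun y => b y + h y) y * ph I (fun y => b y + h y) d y - em b y * ph I b d y -
        em b y * ph I b d y * (-2 * h y + I * d * JJ b h y)‖ ≤
        A * ((2 + E) ^ 2 * Real.exp (2 + E) * η ^ 2 + E * η ^ 2) := fun y hy => by
    have k1 : ‖kk (fun y => b y + h y) y - kk b y‖ ≤ E * η := by
      rw [kk, kk, ← intervalIntegral.integral_sub (c2.intervalIntegrable _ _)
        (c1.intervalIntegrable _ _)]
      refine int_le hy fun z _ => ?_
      rw [ex_add, ← mul_sub_one, norm_mul]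
      exact (mul_le_mul (ex_le' (hb z)) (hr z).1 (norm_nonneg _) (Real.exp_pos _).le).trans_eq
        (by rw [hE]; ring)
    have k2 : ‖kk (fun y => b y + h y) y - kk b y - JJ b h y‖ ≤ E * η ^ 2 := by
      rw [kk, kk, JJ, ← intervalIntegral.integral_sub (c2.intervalIntegrable _ _)
        (c1.intervalIntegrable _ _), ← intervalIntegral.integral_sub
        ((c2.fun_sub c1).intervalIntegrable _ _) ((c1.fun_mul ch).intervalIntegrable _ _)]
      refine int_le hy fun z _ => ?_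
      rw [ex_add, sub_sub, ← mul_one_add, ← mul_sub, norm_mul]
      exact (mul_le_mul (ex_le' (hb z)) (hr z).2 (norm_nonneg _) (Real.exp_pos _).le).trans_eq
        (by rw [hE]; ring)
    have k3 : ‖em b y * ph I b d y‖ ≤ A := by
      rw [norm_mul, hA]
      refine mul_le_mul (ex_le' ?_) (ex_le' ?_) (norm_nonneg _) (Real.exp_pos _).le
      · rw [norm_smul, norm_neg, Complex.norm_two]
        linarith [hb y]
      · rw [smul_eq_mul, ← mul_assoc]
        exact (hI _).trans (int_le hy fun z _ => ex_le' (hb z))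
    set Δ := kk (fun y => b y + h y) y - kk b y with hΔ
    have k4 : ‖-2 * h y + I * d * Δ‖ ≤ (2 + E) * η := by
      refine (norm_add_le _ _).trans ?_
      rw [norm_mul, norm_neg, Complex.norm_two]
      linarith [hh y, hI Δ]
    have k5 := rem k4 (by positivity) h1
    have e : em (fun y => b y + h y) y * ph I (fun y => b y + h y) d y =
        em b y * ph I b d y * NormedSpace.exp (-2 * h y + I * d * Δ) := by
      simp only [em, ph, ← ex_add, smul_eq_mul, hΔ]
      ring_nf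
    rw [e, ← mul_sub_one, ← mul_sub, norm_mul (_ * _), norm_mul (_ * _)]
    refine ⟨mul_le_mul k3 k5.1 (norm_nonneg _) A0, mul_le_mul k3 (le_of_eq_of_le (congrArg norm ?_)
      ((norm_add_le _ _).trans (add_le_add k5.2 ((hI _).trans k2)))) (norm_nonneg _) A0⟩
    ring
  have i1 := ((em_cont (cb.add ch)).mul (ph_cont I (cb.add ch) d)).intervalIntegrable
    (μ := MeasureTheory.volume) 0 1
  have i2 := ((em_cont cb).mul (ph_cont I cb d)).intervalIntegrable (μ := MeasureTheory.volume) 0 1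
  have i3 := (((em_cont cb).mul (ph_cont I cb d)).mul ((ch.const_mul (-2)).add
    ((JJ_cont cb ch).const_mul (I * d)))).intervalIntegrable (μ := MeasureTheory.volume) 0 1
  have p1 : 0 ≤ (2 + E) * Real.exp (2 + E) := by positivity
  have p2 : 0 ≤ (2 + E) ^ 2 * Real.exp (2 + E) := by positivity
  have e1 := intervalIntegral.integral_sub i1 i2
  have e2 := (intervalIntegral.integral_sub (i1.sub i2) i3).trans (congrArg (· - _) e1)
  refine ⟨le_of_eq_of_le (congrArg norm e1.symm) ((int_le (right_mem_Icc.2 zero_le_one)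
    fun y hy => (key y hy).1).trans ?_), le_of_eq_of_le (congrArg norm e2.symm)
    ((int_le (right_mem_Icc.2 zero_le_one) fun y hy => (key y hy).2).trans ?_)⟩
  · rw [mul_assoc A]
    exact mul_le_mul_of_nonneg_left (mul_le_mul_of_nonneg_right (by linarith) η0) A0
  · rw [mul_assoc A, ← add_mul]
    exact mul_le_mul_of_nonneg_left (mul_le_mul_of_nonneg_right (by linarith) (sq_nonneg _)) A0

end Rl1Aux

theorem rl1E : S_rl1 := by
  intro M
  obtain ⟨C, hC⟩ := Rl1Aux.gen M
  refine ⟨C, fun β h cβ ch hβ η h1 hh ξ d hd => ?_⟩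
  have key := hC (pth β ξ d) (pth h ξ d) (pth_cont cβ ξ d) (pth_cont ch ξ d)
    (fun y => (norm_real _).trans_le (hβ _)) η h1 fun y => (norm_real _).trans_le (hh _)
  have e : (fun y => pth β ξ d y + pth h ξ d y) = pth (fun x => β x + h x) ξ d :=
    funext fun y => (ofReal_add _ _).symm
  rw [e] at key
  refine ⟨(key d ((norm_real _).trans_le hd)).1, (key d ((norm_real _).trans_le hd)).2, ?_⟩
  have k := (key 0 (by simp)).2
  simp only [GG, ph, zero_mul, mul_zero, smul_zero, NormedSpace.exp_zero, mul_one, add_zero,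
    em_pth] at k
  simp only [pth, ← ofReal_ofNat, ← ofReal_neg, ← ofReal_mul, intervalIntegral.integral_ofReal,
    ← ofReal_sub, norm_real] at k
  exact k

end Vale.Agent.P097
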